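import Vale.Agent.Lib.P064.Peel

/-!
An upper bound for the number of copies of an oriented graph in the complete graph, from the
degree sequence of the orientation.
-/

namespace Vale.Agent.Lib.P064

open Finset
open scoped Nat Classical

set_option linter.unusedSectionVars false
set_option linter.unusedVariables false

section Sums

variable {n : ℕ}

/-- The sum of `|B|! t^|B|` over subsets of `U`, with `t = 1/(2|U|)`, is at most two. -/
lemma sum_powerset_le_two (U : Finset (Fin n)) (hU : 0 < U.card) :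
    ∑ B ∈ U.powerset, ((B.card ! : ℕ) : ℝ) * (1 / (2 * (U.card : ℝ))) ^ B.card ≤ 2 := by
  rw [Finset.sum_powerset_apply_card (fun k => ((k ! : ℕ) : ℝ) * (1 / (2 * (U.card : ℝ))) ^ k) (x := U)]
  have hv : (0 : ℝ) < U.card := by exact_mod_cast hU
  have hterm : ∀ k ∈ Finset.range (U.card + 1),
      (U.card.choose k) • (((k ! : ℕ) : ℝ) * (1 / (2 * (U.card : ℝ))) ^ k) ≤ (1 / 2 : ℝ) ^ k := by
    intro k _
    rw [nsmul_eq_mul, ← mul_assoc]
    have h1 : ((U.card.choose k : ℕ) : ℝ) * ((k ! : ℕ) : ℝ) = (U.card.descFactorial k : ℝ) := by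
      rw [Nat.descFactorial_eq_factorial_mul_choose]
      push_cast
      ring
    rw [h1]
    have h2 : (U.card.descFactorial k : ℝ) ≤ (U.card : ℝ) ^ k := by
      exact_mod_cast Nat.descFactorial_le_pow U.card k
    calc (U.card.descFactorial k : ℝ) * (1 / (2 * (U.card : ℝ))) ^ k
        ≤ (U.card : ℝ) ^ k * (1 / (2 * (U.card : ℝ))) ^ k :=
          mul_le_mul_of_nonneg_right h2 (by positivity)
      _ = (1 / 2 : ℝ) ^ k := by
          rw [← mul_pow]
          congr 1
          field_simp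
  calc ∑ k ∈ Finset.range (U.card + 1),
        (U.card.choose k) • (((k ! : ℕ) : ℝ) * (1 / (2 * (U.card : ℝ))) ^ k)
      ≤ ∑ k ∈ Finset.range (U.card + 1), (1 / 2 : ℝ) ^ k := Finset.sum_le_sum hterm
    _ ≤ 2 := sum_geometric_two_le _

/-- The allowed out-neighbourhoods. -/
noncomputable def allowed (U : Finset (Fin n)) (u : Fin n) : Finset (Finset (Fin n)) :=
  if u ∈ U then U.powerset else {∅}

/-- The number of out-neighbourhood systems on `U` with given degree data. -/
lemma card_systems_le (U : Finset (Fin n)) (hU : 0 < U.card) (e : ℕ) (D : ℝ) (hD : 0 ≤ D) :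
    (((Fintype.piFinset (allowed U)).filter
      (fun A => ∑ u, (A u).card = e ∧ ∏ u, ((A u).card ! : ℝ) = D)).card : ℝ) * D
      ≤ 2 ^ U.card * (2 * (U.card : ℝ)) ^ e := by
  set t : ℝ := 1 / (2 * (U.card : ℝ)) with ht
  have hv : (0 : ℝ) < U.card := by exact_mod_cast hU
  have ht0 : 0 < t := by positivity
  set N := (Fintype.piFinset (allowed U)).filter
    (fun A => ∑ u, (A u).card = e ∧ ∏ u, ((A u).card ! : ℝ) = D) with hN
  have h1 : (N.card : ℝ) * (D * t ^ e)
      = ∑ A ∈ N, ∏ u, (((A u).card ! : ℕ) : ℝ) * t ^ (A u).card := by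
    rw [← nsmul_eq_mul, ← Finset.sum_const]
    refine Finset.sum_congr rfl fun A hA => ?_
    rcases Finset.mem_filter.mp hA with ⟨_, h2, h3⟩
    rw [Finset.prod_mul_distrib, Finset.prod_pow_eq_pow_sum, h2, h3]
  have h2 : ∑ A ∈ N, ∏ u, (((A u).card ! : ℕ) : ℝ) * t ^ (A u).card
      ≤ ∑ A ∈ Fintype.piFinset (allowed U), ∏ u, (((A u).card ! : ℕ) : ℝ) * t ^ (A u).card := by
    refine Finset.sum_le_sum_of_subset_of_nonneg (Finset.filter_subset _ _) ?_
    intro A _ _
    positivity
  have h3 : ∑ A ∈ Fintype.piFinset (allowed U), ∏ u, (((A u).card ! : ℕ) : ℝ) * t ^ (A u).card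
      = ∏ u, ∑ B ∈ allowed U u, ((B.card ! : ℕ) : ℝ) * t ^ B.card := by
    rw [Finset.prod_univ_sum]
  have h4 : ∏ u, ∑ B ∈ allowed U u, ((B.card ! : ℕ) : ℝ) * t ^ B.card ≤ 2 ^ U.card := by
    have h5 : ∀ u ∈ (Finset.univ : Finset (Fin n)),
        ∑ B ∈ allowed U u, ((B.card ! : ℕ) : ℝ) * t ^ B.card ≤ if u ∈ U then (2 : ℝ) else 1 := by
      intro u _
      unfold allowed
      split_ifs with hu
      · exact sum_powerset_le_two U hU
      · simp
    calc ∏ u, ∑ B ∈ allowed U u, ((B.card ! : ℕ) : ℝ) * t ^ B.card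
        ≤ ∏ u : Fin n, (if u ∈ U then (2 : ℝ) else 1) :=
          Finset.prod_le_prod (fun u _ => Finset.sum_nonneg fun B _ => by positivity) h5
      _ = 2 ^ U.card := by
          rw [Finset.prod_ite]
          simp only [Finset.prod_const_one, mul_one, Finset.prod_const]
          congr 2
          ext u
          simp
  have h5 : (N.card : ℝ) * (D * t ^ e) ≤ 2 ^ U.card := by
    rw [h1]; exact (h2.trans_eq h3).trans h4
  have h6 : t ^ e * (2 * (U.card : ℝ)) ^ e = 1 := by
    rw [← mul_pow, ht]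
    have : 1 / (2 * (U.card : ℝ)) * (2 * (U.card : ℝ)) = 1 := by field_simp
    rw [this, one_pow]
  have h7 : (0 : ℝ) ≤ (2 * (U.card : ℝ)) ^ e := by positivity
  calc (N.card : ℝ) * D = (N.card : ℝ) * D * (t ^ e * (2 * (U.card : ℝ)) ^ e) := by
        rw [h6, mul_one]
    _ = ((N.card : ℝ) * (D * t ^ e)) * (2 * (U.card : ℝ)) ^ e := by ring
    _ ≤ 2 ^ U.card * (2 * (U.card : ℝ)) ^ e := mul_le_mul_of_nonneg_right h5 h7

end Sums

section Copies

variable {Z : Type*} [Fintype Z] {n : ℕ}

/-- The data of a copy. -/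
lemma copy_data (J : SimpleGraph Z) (out : Z → Finset Z)
    (hJ : ∀ a b, J.Adj a b ↔ b ∈ out a ∨ a ∈ out b)
    (G' : (⊤ : SimpleGraph (Fin n)).Subgraph) (hG' : Nonempty (J ≃g G'.coe)) :
    ∃ (U : Finset (Fin n)) (A : Fin n → Finset (Fin n)),
      U.card = Fintype.card Z ∧ A ∈ Fintype.piFinset (allowed U) ∧
      (∑ u, (A u).card = ∑ a, (out a).card) ∧
      (∏ u, ((A u).card ! : ℝ) = ∏ a, ((out a).card ! : ℝ)) ∧
      G'.verts = (U : Set (Fin n)) ∧ ∀ s t, G'.Adj s t ↔ t ∈ A s ∨ s ∈ A t := by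
  obtain ⟨ι⟩ := hG'
  set g : Z → Fin n := fun z => (ι z).val with hg
  have hginj : Function.Injective g := fun a b h => ι.injective (Subtype.ext h)
  have hgmem : ∀ z, g z ∈ G'.verts := fun z => (ι z).property
  set U : Finset (Fin n) := Finset.univ.image g with hU
  have hUmem : ∀ u, u ∈ U ↔ u ∈ G'.verts := by
    intro u
    simp only [hU, Finset.mem_image, Finset.mem_univ, true_and]
    constructor
    · rintro ⟨z, rfl⟩; exact hgmem z
    · intro hu
      exact ⟨ι.symm ⟨u, hu⟩, by simp [hg]⟩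
  have hUrange : ∀ u, u ∉ U → u ∉ Set.range g := by
    intro u hu h
    obtain ⟨z, rfl⟩ := h
    exact hu (Finset.mem_image_of_mem g (Finset.mem_univ z))
  set A : Fin n → Finset (Fin n) := fun u =>
    if h : u ∈ G'.verts then (out (ι.symm ⟨u, h⟩)).image g else ∅ with hA
  have hAg : ∀ z, A (g z) = (out z).image g := by
    intro z
    simp only [hA, dif_pos (hgmem z)]
    congr 2
    apply ι.injective
    simp [hg]
  have hAoff : ∀ u, u ∉ U → A u = ∅ := by
    intro u hu
    have : u ∉ G'.verts := fun h => hu ((hUmem u).mpr h)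
    simp [hA, this]
  have hAcard : ∀ z, (A (g z)).card = (out z).card := by
    intro z
    rw [hAg, Finset.card_image_of_injective _ hginj]
  refine ⟨U, A, ?_, ?_, ?_, ?_, ?_, ?_⟩
  · rw [hU, Finset.card_image_of_injective _ hginj, Finset.card_univ]
  · rw [Fintype.mem_piFinset]
    intro u
    unfold allowed
    split_ifs with hu
    · rw [Finset.mem_powerset]
      obtain ⟨z, _, rfl⟩ := Finset.mem_image.mp hu
      rw [hAg]
      intro v hv
      obtain ⟨y, _, rfl⟩ := Finset.mem_image.mp hv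
      exact Finset.mem_image_of_mem g (Finset.mem_univ y)
    · rw [hAoff u hu]; simp
  · symm
    refine Fintype.sum_of_injective g hginj _ _ ?_ ?_
    · intro u hu
      have : u ∉ U := fun h => by
        obtain ⟨z, _, rfl⟩ := Finset.mem_image.mp h
        exact hu ⟨z, rfl⟩
      rw [hAoff u this]; simp
    · intro z
      rw [hAcard]
  · symm
    refine Fintype.prod_of_injective g hginj _ _ ?_ ?_
    · intro u hu
      have : u ∉ U := fun h => by
        obtain ⟨z, _, rfl⟩ := Finset.mem_image.mp h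
        exact hu ⟨z, rfl⟩
      rw [hAoff u this]; simp
    · intro z
      rw [hAcard]
  · ext u
    exact ((hUmem u).symm).trans (by simp)
  · intro s t
    constructor
    · intro hst
      have hs := G'.edge_vert hst
      have ht := G'.edge_vert hst.symm
      have h1 : G'.coe.Adj ⟨s, hs⟩ ⟨t, ht⟩ := hst
      have h2 : J.Adj (ι.symm ⟨s, hs⟩) (ι.symm ⟨t, ht⟩) := ι.symm.map_rel_iff.mpr h1
      have hgs : g (ι.symm ⟨s, hs⟩) = s := by simp [hg]
      have hgt : g (ι.symm ⟨t, ht⟩) = t := by simp [hg]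
      rcases (hJ _ _).mp h2 with h3 | h3
      · left
        rw [← hgs, hAg, ← hgt]
        exact Finset.mem_image_of_mem g h3
      · right
        rw [← hgt, hAg, ← hgs]
        exact Finset.mem_image_of_mem g h3
    · have hkey : ∀ s t, t ∈ A s → G'.Adj s t := by
        intro s t hts
        by_cases hs : s ∈ G'.verts
        · have hts' : t ∈ (out (ι.symm ⟨s, hs⟩)).image g := by
            simpa [hA, hs] using hts
          obtain ⟨b, hb, rfl⟩ := Finset.mem_image.mp hts'
          have h1 : J.Adj (ι.symm ⟨s, hs⟩) b := (hJ _ _).mpr (Or.inl hb)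
          have h2 : G'.coe.Adj (ι (ι.symm ⟨s, hs⟩)) (ι b) := ι.map_rel_iff.mpr h1
          rw [ι.apply_symm_apply] at h2
          exact h2
        · simp [hA, hs] at hts
      rintro (h | h)
      · exact hkey s t h
      · exact (hkey t s h).symm

/-- The bound for the number of copies in the complete graph. -/
theorem copyCount_top_mul_le (J : SimpleGraph Z) (out : Z → Finset Z)
    (hJ : ∀ a b, J.Adj a b ↔ b ∈ out a ∨ a ∈ out b) (hZ : 0 < Fintype.card Z) :
    (SimpleGraph.copyCount (⊤ : SimpleGraph (Fin n)) J : ℝ) * ∏ a, ((out a).card ! : ℝ)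
      ≤ (n.choose (Fintype.card Z) : ℝ) * (2 ^ Fintype.card Z *
          (2 * (Fintype.card Z : ℝ)) ^ (∑ a, (out a).card)) := by
  set v := Fintype.card Z with hv
  set e := ∑ a, (out a).card with he
  set D : ℝ := ∏ a, ((out a).card ! : ℝ) with hD
  have hD0 : 0 ≤ D := by positivity
  set Sys : Finset (Fin n) → Finset (Fin n → Finset (Fin n)) := fun U =>
    (Fintype.piFinset (allowed U)).filter
      (fun A => ∑ u, (A u).card = e ∧ ∏ u, ((A u).card ! : ℝ) = D) with hSys
  set T : Finset (Σ _ : Finset (Fin n), (Fin n → Finset (Fin n))) :=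
    (Finset.powersetCard v (Finset.univ : Finset (Fin n))).sigma Sys with hT
  have hdata : ∀ G' : (⊤ : SimpleGraph (Fin n)).Subgraph,
      ∃ (U : Finset (Fin n)) (A : Fin n → Finset (Fin n)), Nonempty (J ≃g G'.coe) →
      (U.card = v ∧ A ∈ Fintype.piFinset (allowed U) ∧
      (∑ u, (A u).card = e) ∧ (∏ u, ((A u).card ! : ℝ) = D) ∧
      G'.verts = (U : Set (Fin n)) ∧ ∀ s t, G'.Adj s t ↔ t ∈ A s ∨ s ∈ A t) := by
    intro G'
    by_cases h : Nonempty (J ≃g G'.coe)
    · obtain ⟨U, A, h1⟩ := copy_data J out hJ G' h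
      exact ⟨U, A, fun _ => h1⟩
    · exact ⟨∅, fun _ => ∅, fun h' => absurd h' h⟩
  choose Uf Af hf using hdata
  have hcard : SimpleGraph.copyCount (⊤ : SimpleGraph (Fin n)) J ≤ T.card := by
    unfold SimpleGraph.copyCount
    refine Finset.card_le_card_of_injOn (fun G' => ⟨Uf G', Af G'⟩) ?_ ?_
    · intro G' hG'
      have hG'' : Nonempty (J ≃g G'.coe) := by
        simpa using hG'
      obtain ⟨h1, h2, h3, h4, _, _⟩ := hf G' hG''
      refine Finset.mem_coe.mpr (Finset.mem_sigma.mpr ⟨?_, ?_⟩)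
      · exact Finset.mem_powersetCard.mpr ⟨Finset.subset_univ _, h1⟩
      · exact Finset.mem_filter.mpr ⟨h2, h3, h4⟩
    · intro G₁ hG₁ G₂ hG₂ h12
      have hG₁' : Nonempty (J ≃g G₁.coe) := by simpa using hG₁
      have hG₂' : Nonempty (J ≃g G₂.coe) := by simpa using hG₂
      obtain ⟨_, _, _, _, h15, h16⟩ := hf G₁ hG₁'
      obtain ⟨_, _, _, _, h25, h26⟩ := hf G₂ hG₂'
      simp only [Sigma.mk.injEq, heq_eq_eq] at h12
      obtain ⟨hU, hA⟩ := h12
      refine SimpleGraph.Subgraph.ext ?_ ?_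
      · rw [h15, h25, hU]
      · funext s t
        apply propext
        rw [h16, h26, hA]
  have hsum : (T.card : ℝ) * D ≤ (n.choose v : ℝ) * (2 ^ v * (2 * (v : ℝ)) ^ e) := by
    rw [hT, Finset.card_sigma]
    push_cast
    rw [Finset.sum_mul]
    calc ∑ U ∈ Finset.powersetCard v (Finset.univ : Finset (Fin n)), ((Sys U).card : ℝ) * D
        ≤ ∑ _U ∈ Finset.powersetCard v (Finset.univ : Finset (Fin n)),
            (2 ^ v * (2 * (v : ℝ)) ^ e) := by
          refine Finset.sum_le_sum fun U hU => ?_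
          have hUc : U.card = v := (Finset.mem_powersetCard.mp hU).2
          have := card_systems_le U (by omega) e D hD0
          rwa [hUc] at this
      _ = (n.choose v : ℝ) * (2 ^ v * (2 * (v : ℝ)) ^ e) := by
          rw [Finset.sum_const, Finset.card_powersetCard, Finset.card_univ, Fintype.card_fin,
            nsmul_eq_mul]
  calc (SimpleGraph.copyCount (⊤ : SimpleGraph (Fin n)) J : ℝ) * D
      ≤ (T.card : ℝ) * D := by
        refine mul_le_mul_of_nonneg_right ?_ hD0
        exact_mod_cast hcard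
    _ ≤ (n.choose v : ℝ) * (2 ^ v * (2 * (v : ℝ)) ^ e) := hsum

/-- The number of edges of an oriented graph. -/
lemma ncard_edgeSet_of_out (J : SimpleGraph Z) (out : Z → Finset Z)
    (hJ : ∀ a b, J.Adj a b ↔ b ∈ out a ∨ a ∈ out b)
    (hanti : ∀ a b, b ∈ out a → a ∉ out b) :
    J.edgeSet.ncard = ∑ a, (out a).card := by
  set S : Finset (Σ _ : Z, Z) := (Finset.univ : Finset Z).sigma out with hS
  set f : (Σ _ : Z, Z) → Sym2 Z := fun x => s(x.1, x.2) with hf
  have h1 : J.edgeSet = ((S.image f : Finset (Sym2 Z)) : Set (Sym2 Z)) := by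
    ext x
    induction x using Sym2.ind with
    | _ a b =>
      simp only [SimpleGraph.mem_edgeSet, Finset.coe_image, Set.mem_image, Finset.mem_coe, hS,
        Finset.mem_sigma, Finset.mem_univ, true_and, hf]
      constructor
      · intro h
        rcases (hJ a b).mp h with h2 | h2
        · exact ⟨⟨a, b⟩, h2, rfl⟩
        · exact ⟨⟨b, a⟩, h2, Sym2.eq_swap⟩
      · rintro ⟨⟨c, d⟩, h2, h3⟩
        have h4 : J.Adj c d := (hJ c d).mpr (Or.inl h2)
        have h5 : s(c, d) ∈ J.edgeSet := h4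
        have h6 : s(a, b) ∈ J.edgeSet := by
          have h7 : s(a, b) = s(c, d) := h3.symm
          rw [h7]; exact h5
        exact h6
  rw [h1, Set.ncard_coe_finset, Finset.card_image_of_injOn, hS, Finset.card_sigma]
  rintro ⟨a, b⟩ hx ⟨c, d⟩ hy hxy
  have hx' : b ∈ out a := by
    simpa [hS] using hx
  have hy' : d ∈ out c := by
    simpa [hS] using hy
  simp only [hf] at hxy
  rw [Sym2.eq_iff] at hxy
  rcases hxy with ⟨h1, h2⟩ | ⟨h1, h2⟩
  · subst h1; subst h2; rfl
  · subst h1; subst h2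
    exact absurd hy' (hanti _ _ hx')

end Copies

end Vale.Agent.Lib.P064
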