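import Mathlib

/-!
Definitions used in the statements.
-/

namespace Vale.Agent.Lib.P064

/-- The number of edges of a graph. -/
noncomputable def numEdges {W : Type*} (G : SimpleGraph W) : ℕ := G.edgeSet.ncard

/-- The expected number of copies of `F` in the random graph `G(n,p)`, that is, the number of
copies of `F` in the complete graph on `n` vertices times `p` to the number of edges of `F`. -/
noncomputable def expCopies (n : ℕ) (p : ℝ) {W : Type*} (F : SimpleGraph W) : ℝ :=
  (SimpleGraph.copyCount (⊤ : SimpleGraph (Fin n)) F : ℝ) * p ^ numEdges F

end Vale.Agent.Lib.P064
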