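import Vale.Agent.Lib.P064.Defs

/-!
The probability of an event in `G(n,p)` and the two thresholds of the problem.
-/

namespace Vale.Agent.Lib.P064

open scoped Classical

/-- The probability that `G(n,p)` has the property `P`. -/
noncomputable def gnpProb (n : ℕ) (p : ℝ) (P : SimpleGraph (Fin n) → Prop) : ℝ :=
  ∑ G : SimpleGraph (Fin n),
    if P G then p ^ numEdges G * (1 - p) ^ (n.choose 2 - numEdges G) else 0

/-- The threshold `p_c(n,H)`: the infimum of the `p` in `[0,1]` for which `G(n,p)` contains a copy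
of `H` with probability at least one half. -/
noncomputable def pCrit (n : ℕ) {V : Type*} [Fintype V] (H : SimpleGraph V) : ℝ :=
  sInf {p : ℝ | 0 ≤ p ∧ p ≤ 1 ∧ 1 / 2 ≤ gnpProb n p (fun G => 0 < G.copyCount H)}

/-- The expectation threshold `p_E(n,H)`: the infimum of the `p` in `[0,1]` for which every
subgraph of `H` has expected number of copies in `G(n,p)` at least one half. -/
noncomputable def pExp (n : ℕ) {V : Type*} (H : SimpleGraph V) : ℝ :=
  sInf {p : ℝ | 0 ≤ p ∧ p ≤ 1 ∧ ∀ F : H.Subgraph, 1 / 2 ≤ expCopies n p F.coe}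

end Vale.Agent.Lib.P064
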