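import Vale.Agent.Lib.P064.Labelled

/-!
From connected graphs to arbitrary forests, and the comparison with the expected count.
-/

namespace Vale.Agent.Lib.P064

open Finset SimpleGraph
open scoped Classical Nat

set_option linter.unusedSectionVars false
set_option linter.unusedVariables false

/-- `n^v ≤ 3^v (n)_v` for `v ≤ n`. -/
lemma pow_le_three_desc {n v : ℕ} (hv : v ≤ n) :
    (n : ℝ) ^ v ≤ 3 ^ v * (n.descFactorial v : ℝ) := by
  have h1 : n ^ v * v ! ≤ n.descFactorial v * v ^ v := by
    have e1 : v ! = v.descFactorial v := (Nat.descFactorial_self v).symm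
    rw [e1, Nat.descFactorial_eq_prod_range n v, Nat.descFactorial_eq_prod_range v v]
    have e2 : n ^ v = ∏ _i ∈ Finset.range v, n := by simp
    have e3 : v ^ v = ∏ _i ∈ Finset.range v, v := by simp
    rw [e2, e3, ← Finset.prod_mul_distrib, ← Finset.prod_mul_distrib]
    refine Finset.prod_le_prod' fun i hi => ?_
    have hi' : i < v := Finset.mem_range.mp hi
    obtain ⟨a, rfl⟩ : ∃ a, v = i + a := ⟨v - i, by omega⟩
    obtain ⟨b, rfl⟩ : ∃ b, n = i + a + b := ⟨n - (i + a), by omega⟩
    have e4 : i + a - i = a := by omega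
    have e5 : i + a + b - i = a + b := by omega
    rw [e4, e5]
    nlinarith [Nat.zero_le (b * i)]
  have h2 := pow_self_le v
  have hfac : (0 : ℝ) < (v ! : ℝ) := by exact_mod_cast Nat.factorial_pos v
  have h3 : (n : ℝ) ^ v * (v ! : ℝ) ≤ (n.descFactorial v : ℝ) * (v : ℝ) ^ v := by
    exact_mod_cast h1
  have h4 : (n : ℝ) ^ v * (v ! : ℝ) ≤ (3 ^ v * (n.descFactorial v : ℝ)) * (v ! : ℝ) := by
    calc (n : ℝ) ^ v * (v ! : ℝ) ≤ (n.descFactorial v : ℝ) * (v : ℝ) ^ v := h3
      _ ≤ (n.descFactorial v : ℝ) * (3 ^ v * (v ! : ℝ)) :=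
          mul_le_mul_of_nonneg_left h2 (by positivity)
      _ = _ := by ring
  exact le_of_mul_le_mul_right h4 hfac

variable {V : Type*} [Fintype V]

/-- The constant. -/
def constL : ℝ := 663552

section NoIso

variable {Z : Type*} [Fintype Z]

lemma mem_cc {F : SimpleGraph Z} {c : F.ConnectedComponent} {z : Z} :
    z ∈ c ↔ F.connectedComponentMk z = c := Iff.rfl

lemma card_eq_sum_components (F : SimpleGraph Z) :
    Fintype.card Z = ∑ c : F.ConnectedComponent, Fintype.card c := by
  have h1 := Finset.card_eq_sum_card_fiberwise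
    (s := (Finset.univ : Finset Z)) (t := (Finset.univ : Finset F.ConnectedComponent))
    (f := F.connectedComponentMk) (fun z _ => Finset.mem_coe.mpr (Finset.mem_univ _))
  rw [Finset.card_univ] at h1
  rw [h1]
  refine Finset.sum_congr rfl fun c _ => ?_
  rw [Fintype.card_subtype]
  rfl

/-- Edges of a forest are at most the sum of the component sizes minus one. -/
lemma numEdges_le_sum (F : SimpleGraph Z) (hF : F.IsAcyclic) :
    numEdges F + Fintype.card F.ConnectedComponent ≤ Fintype.card Z := by
  have hc : ∀ c : F.ConnectedComponent,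
      (c.toSimpleGraph.edgeFinset).card + 1 = Fintype.card c := fun c =>
    (hF.isTree_connectedComponent c).card_edgeFinset
  set Ec : F.ConnectedComponent → Finset (Sym2 Z) := fun c =>
    (c.toSimpleGraph.edgeFinset).image (Sym2.map Subtype.val) with hEc
  have hsub : F.edgeSet ⊆ ((Finset.univ.biUnion Ec : Finset (Sym2 Z)) : Set (Sym2 Z)) := by
    intro e he
    induction e using Sym2.ind with
    | _ a b =>
      have hab : F.Adj a b := he
      set c := F.connectedComponentMk a with hc'
      have ha : a ∈ c := mem_cc.mpr rfl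
      have hb : b ∈ c := by
        refine mem_cc.mpr ?_
        rw [hc']
        exact (ConnectedComponent.sound hab.reachable).symm
      refine Finset.mem_coe.mpr (Finset.mem_biUnion.mpr ⟨c, Finset.mem_univ _, ?_⟩)
      refine Finset.mem_image.mpr ⟨s(⟨a, ha⟩, ⟨b, hb⟩), ?_, rfl⟩
      rw [SimpleGraph.mem_edgeFinset]
      exact hab
  have h1 : numEdges F ≤ ∑ c : F.ConnectedComponent, (c.toSimpleGraph.edgeFinset).card := by
    unfold numEdges
    calc F.edgeSet.ncard ≤ ((Finset.univ.biUnion Ec : Finset (Sym2 Z)) : Set (Sym2 Z)).ncard :=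
          Set.ncard_le_ncard hsub (Finset.finite_toSet _)
      _ = (Finset.univ.biUnion Ec).card := Set.ncard_coe_finset _
      _ ≤ ∑ c, (Ec c).card := Finset.card_biUnion_le
      _ ≤ _ := Finset.sum_le_sum fun c _ => Finset.card_image_le
  have h2 := card_eq_sum_components F
  have h3 : ∑ c : F.ConnectedComponent, Fintype.card c
      = ∑ c : F.ConnectedComponent, (c.toSimpleGraph.edgeFinset).card
        + Fintype.card F.ConnectedComponent := by
    rw [← Finset.card_univ, Finset.card_eq_sum_ones, ← Finset.sum_add_distrib]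
    exact Finset.sum_congr rfl fun c _ => (hc c).symm
  omega

/-- The main bound for forests without isolated vertices. -/
theorem emb_noiso {H : SimpleGraph V} (hH : H.IsAcyclic) {n : ℕ} {q : ℝ} (hn : 0 < n)
    (hq : 0 < q) (hyp : OBound H n q) (hLq : constL * q ≤ 1)
    (F : SimpleGraph Z) (hF : F.IsAcyclic) (hno : ∀ z, ∃ y, F.Adj z y)
    (hv : Fintype.card Z ≤ n) :
    ((Emb F H Finset.univ).card : ℝ) ≤
      (n.descFactorial (Fintype.card Z) : ℝ) * (constL * q) ^ numEdges F := by
  have hn' : (0 : ℝ) < n := by exact_mod_cast hn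
  -- sizes of components
  have hsize : ∀ c : F.ConnectedComponent, 2 ≤ Fintype.card c := by
    intro c
    obtain ⟨z, hz⟩ := c.exists_rep
    obtain ⟨y, hy⟩ := hno z
    have hzm : z ∈ c := mem_cc.mpr hz
    have hym : y ∈ c := by
      refine mem_cc.mpr ?_
      rw [← hz]
      exact (ConnectedComponent.sound hy.reachable).symm
    have hne : (⟨z, hzm⟩ : c) ≠ ⟨y, hym⟩ := fun h => hy.ne (congrArg Subtype.val h)
    exact Fintype.one_lt_card_iff.mpr ⟨_, _, hne⟩
  set mc : F.ConnectedComponent → ℕ := fun c => Fintype.card c - 1 with hmc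
  have hmc1 : ∀ c : F.ConnectedComponent, Fintype.card c = mc c + 1 := fun c => by
    have := hsize c
    simp only [hmc]; omega
  have hmc2 : ∀ c, 1 ≤ mc c := fun c => by
    have := hsize c
    simp only [hmc]; omega
  -- counting on each component
  have hcomp : ∀ c : F.ConnectedComponent,
      ((Emb c.toSimpleGraph H Finset.univ).card : ℝ) ≤ (73728 * n * q) ^ mc c * n := by
    intro c
    have h1 := card_emb_le hH hn hq hyp c.connected_toSimpleGraph (hmc1 c)
    refine h1.trans ?_
    have h2 : ((mc c : ℝ) + 1) ≤ 2 ^ mc c := by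
      exact_mod_cast Nat.lt_two_pow_self (n := mc c)
    have h3 : (24 : ℝ) ≤ 24 ^ mc c := by
      calc (24 : ℝ) = 24 ^ 1 := by norm_num
        _ ≤ 24 ^ mc c := pow_le_pow_right₀ (by norm_num) (hmc2 c)
    have e : (73728 * (n : ℝ) * q) ^ mc c * n
        = (2 ^ mc c * 24 ^ mc c) * (1536 * n * q) ^ mc c * n := by
      rw [← mul_pow, ← mul_pow]
      congr 2
      ring
    rw [e]
    have h4 : 0 ≤ (1536 * (n : ℝ) * q) ^ mc c := by positivity
    have h5 : ((mc c : ℝ) + 1) * 24 ≤ 2 ^ mc c * 24 ^ mc c :=
      mul_le_mul h2 h3 (by norm_num) (by positivity)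
    calc ((mc c : ℝ) + 1) * (1536 * n * q) ^ mc c * (24 * n)
        = (((mc c : ℝ) + 1) * 24) * (1536 * n * q) ^ mc c * n := by ring
      _ ≤ (2 ^ mc c * 24 ^ mc c) * (1536 * n * q) ^ mc c * n := by
          refine mul_le_mul_of_nonneg_right ?_ hn'.le
          exact mul_le_mul_of_nonneg_right h5 h4
  -- the injection into the product
  have hinj : (Emb F H Finset.univ).card
      ≤ ∏ c : F.ConnectedComponent, (Emb c.toSimpleGraph H Finset.univ).card := by
    rw [← Fintype.card_piFinset]
    refine Finset.card_le_card_of_injOn (fun f c z => f z.val) ?_ ?_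
    · intro f hf
      have hf' := Finset.mem_coe.mp hf
      rcases mem_Emb.mp hf' with ⟨h1, h2, _⟩
      refine Finset.mem_coe.mpr (Fintype.mem_piFinset.mpr fun c => ?_)
      refine mem_Emb.mpr ⟨?_, ?_, fun _ => Finset.mem_univ _⟩
      · intro a b hab
        exact Subtype.ext (h1 hab)
      · intro a b hab
        exact h2 _ _ hab
    · intro f _ g _ hfg
      funext z
      have hz : z ∈ F.connectedComponentMk z := mem_cc.mpr rfl
      exact congrFun (congrFun hfg (F.connectedComponentMk z)) ⟨z, hz⟩
  -- numerics
  set r := Fintype.card F.ConnectedComponent with hr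
  set M := ∑ c, mc c with hM
  have hvM : Fintype.card Z = M + r := by
    rw [card_eq_sum_components F, hr, ← Finset.card_univ, Finset.card_eq_sum_ones, hM,
      ← Finset.sum_add_distrib]
    exact Finset.sum_congr rfl fun c _ => hmc1 c
  have hrM : r ≤ M := by
    rw [hr, ← Finset.card_univ, Finset.card_eq_sum_ones, hM]
    exact Finset.sum_le_sum fun c _ => hmc2 c
  have hedges : numEdges F ≤ M := by
    have := numEdges_le_sum F hF
    omega
  have hprod : ∏ c : F.ConnectedComponent, ((Emb c.toSimpleGraph H Finset.univ).card : ℝ)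
      ≤ (73728 * n * q) ^ M * n ^ r := by
    calc ∏ c : F.ConnectedComponent, ((Emb c.toSimpleGraph H Finset.univ).card : ℝ)
        ≤ ∏ c : F.ConnectedComponent, ((73728 * n * q) ^ mc c * n) :=
          Finset.prod_le_prod (fun _ _ => Nat.cast_nonneg _) (fun c _ => hcomp c)
      _ = (73728 * n * q) ^ M * n ^ r := by
          rw [Finset.prod_mul_distrib, Finset.prod_pow_eq_pow_sum, Finset.prod_const,
            Finset.card_univ]
  have hcard : ((Emb F H Finset.univ).card : ℝ)
      ≤ ∏ c : F.ConnectedComponent, ((Emb c.toSimpleGraph H Finset.univ).card : ℝ) := by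
    exact_mod_cast hinj
  have hdesc := pow_le_three_desc hv
  have h3v : (3 : ℝ) ^ Fintype.card Z ≤ 9 ^ M := by
    have : (9 : ℝ) ^ M = 3 ^ (2 * M) := by
      rw [pow_mul]; norm_num
    rw [this]
    exact pow_le_pow_right₀ (by norm_num) (by omega)
  set v := Fintype.card Z with hvdef
  have hnv : (n : ℝ) ^ v = n ^ M * n ^ r := by rw [hvM, pow_add]
  have hq0 : 0 < (n.descFactorial v : ℝ) ∨ (n.descFactorial v : ℝ) = 0 := by
    rcases Nat.eq_zero_or_pos (n.descFactorial v) with h | h
    · right; exact_mod_cast h
    · left; exact_mod_cast h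
  have hdpos : 0 ≤ (n.descFactorial v : ℝ) := by positivity
  have hfinal1 : (73728 * (n : ℝ) * q) ^ M * n ^ r
      ≤ (n.descFactorial v : ℝ) * (constL * q) ^ M := by
    have e1 : (73728 * (n : ℝ) * q) ^ M * n ^ r = (73728 * q) ^ M * n ^ v := by
      rw [hnv]
      have : (73728 * (n : ℝ) * q) = (73728 * q) * n := by ring
      rw [this, mul_pow]
      ring
    rw [e1]
    have e2 : (constL * q) ^ M = (73728 * q) ^ M * 9 ^ M := by
      rw [← mul_pow]
      congr 1
      unfold constL
      ring
    rw [e2]
    have h5 : (n : ℝ) ^ v ≤ 9 ^ M * (n.descFactorial v : ℝ) :=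
      hdesc.trans (mul_le_mul_of_nonneg_right h3v hdpos)
    have h6 : (0 : ℝ) ≤ (73728 * q) ^ M := by positivity
    calc (73728 * q) ^ M * (n : ℝ) ^ v ≤ (73728 * q) ^ M * (9 ^ M * (n.descFactorial v : ℝ)) :=
          mul_le_mul_of_nonneg_left h5 h6
      _ = _ := by ring
  have hfinal2 : (constL * q) ^ M ≤ (constL * q) ^ numEdges F := by
    refine pow_le_pow_of_le_one ?_ hLq hedges
    unfold constL
    positivity
  calc ((Emb F H Finset.univ).card : ℝ)
      ≤ (73728 * n * q) ^ M * n ^ r := hcard.trans hprod
    _ ≤ (n.descFactorial v : ℝ) * (constL * q) ^ M := hfinal1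
    _ ≤ (n.descFactorial v : ℝ) * (constL * q) ^ numEdges F :=
        mul_le_mul_of_nonneg_left hfinal2 hdpos

end NoIso

/-- The induction over isolated vertices. -/
theorem emb_forest_aux {H : SimpleGraph V} (hH : H.IsAcyclic) {n : ℕ} {q : ℝ} (hn : 0 < n)
    (hV : Fintype.card V ≤ n)
    (hq : 0 < q) (hyp : OBound H n q) (hLq : constL * q ≤ 1) :
    ∀ (k : ℕ) (Z : Type*) [Fintype Z] (F : SimpleGraph Z), Fintype.card Z = k → F.IsAcyclic →
      ((Emb F H Finset.univ).card : ℝ) ≤ (n.descFactorial k : ℝ) * (constL * q) ^ numEdges F := by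
  have hL0 : 0 ≤ constL * q := by
    unfold constL; positivity
  intro k
  induction k with
  | zero =>
    intro Z _ F hZ hF
    -- the graph is empty
    have hE : IsEmpty Z := Fintype.card_eq_zero_iff.mp hZ
    have h1 : (Emb F H Finset.univ).card ≤ 1 := by
      refine Finset.card_le_one.mpr ?_
      intro a _ b _
      funext z
      exact hE.elim z
    have h2 : numEdges F = 0 := by
      unfold numEdges
      have : F.edgeSet = ∅ := by
        ext e
        induction e using Sym2.ind with
        | _ a b => exact hE.elim a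
      rw [this, Set.ncard_empty]
    rw [h2]
    simp only [Nat.descFactorial_zero, Nat.cast_one, pow_zero, mul_one]
    exact_mod_cast h1
  | succ k ih =>
    intro Z _ F hZ hF
    by_cases hno : ∀ z, ∃ y, F.Adj z y
    · -- no isolated vertices
      by_cases hk : k + 1 ≤ n
      · have := emb_noiso hH hn hq hyp hLq F hF hno (by omega)
        rwa [hZ] at this
      · -- too many vertices for an injective map
        have h0 : Emb F H Finset.univ = ∅ := by
          refine Finset.eq_empty_of_forall_notMem fun f hf => ?_
          rcases mem_Emb.mp hf with ⟨h1, _, _⟩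
          have := Fintype.card_le_of_injective f h1
          omega
        rw [h0]
        simp only [Finset.card_empty, Nat.cast_zero]
        positivity
    · -- an isolated vertex
      push Not at hno
      obtain ⟨z₀, hz₀⟩ := hno
      set Z' := {z : Z // z ≠ z₀} with hZ'
      set F' : SimpleGraph Z' := F.comap Subtype.val with hF'
      have hZ'card : Fintype.card Z' = k := by
        have h1 : Fintype.card {z : Z // z ≠ z₀} = Fintype.card Z - 1 := by
          have h2 : Fintype.card {z : Z // z ≠ z₀} = (Finset.univ.erase z₀).card := by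
            rw [Fintype.card_subtype]
            congr 1
            ext z
            simp
          rw [h2, Finset.card_erase_of_mem (Finset.mem_univ _), Finset.card_univ]
        rw [hZ, Nat.add_sub_cancel] at h1
        convert h1 using 1
      have hF'ac : F'.IsAcyclic := hF.comap (Embedding.comap (Function.Embedding.subtype _) F).toHom
        Subtype.val_injective
      have hih := ih Z' F' hZ'card hF'ac
      -- the injection
      have hcount : (Emb F H Finset.univ).card ≤ (Emb F' H Finset.univ).card * (n - k) := by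
        set T : Finset (Σ _ : (Z' → V), V) := (Emb F' H Finset.univ).sigma
          (fun g => Finset.univ \ (Finset.univ.image g)) with hT
        have h1 : (Emb F H Finset.univ).card ≤ T.card := by
          refine Finset.card_le_card_of_injOn (fun f => ⟨fun z => f z.val, f z₀⟩) ?_ ?_
          · intro f hf
            have hf' := Finset.mem_coe.mp hf
            rcases mem_Emb.mp hf' with ⟨h2, h3, _⟩
            refine Finset.mem_coe.mpr (Finset.mem_sigma.mpr ⟨?_, ?_⟩)
            · refine mem_Emb.mpr ⟨?_, ?_, fun _ => Finset.mem_univ _⟩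
              · intro a b hab
                exact Subtype.ext (h2 hab)
              · intro a b hab
                exact h3 _ _ hab
            · refine Finset.mem_sdiff.mpr ⟨Finset.mem_univ _, ?_⟩
              intro h4
              obtain ⟨a, _, ha⟩ := Finset.mem_image.mp h4
              exact a.property (h2 ha)
          · intro f _ g _ hfg
            simp only [Sigma.mk.injEq, heq_eq_eq] at hfg
            funext z
            by_cases hz : z = z₀
            · rw [hz]; exact hfg.2
            · exact congrFun hfg.1 ⟨z, hz⟩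
        refine h1.trans ?_
        rw [hT, Finset.card_sigma]
        have h2 : ∀ g ∈ Emb F' H Finset.univ,
            (Finset.univ \ (Finset.univ.image g)).card ≤ n - k := by
          intro g hg
          rcases mem_Emb.mp hg with ⟨h3, _, _⟩
          rw [Finset.card_sdiff_of_subset (Finset.subset_univ _), Finset.card_image_of_injective _ h3,
            Finset.card_univ, Finset.card_univ, hZ'card]
          omega
        calc ∑ g ∈ Emb F' H Finset.univ, (Finset.univ \ (Finset.univ.image g)).card
            ≤ ∑ _g ∈ Emb F' H Finset.univ, (n - k) := Finset.sum_le_sum h2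
          _ = _ := by rw [Finset.sum_const, smul_eq_mul]
      -- edges
      have hedges : numEdges F ≤ numEdges F' := by
        unfold numEdges
        have h1 : F.edgeSet ⊆ Sym2.map Subtype.val '' F'.edgeSet := by
          intro e he
          induction e using Sym2.ind with
          | _ a b =>
            have hab : F.Adj a b := he
            have ha : a ≠ z₀ := by
              rintro rfl
              exact hz₀ b hab
            have hb : b ≠ z₀ := by
              rintro rfl
              exact hz₀ a hab.symm
            exact ⟨s(⟨a, ha⟩, ⟨b, hb⟩), hab, rfl⟩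
        calc F.edgeSet.ncard ≤ (Sym2.map Subtype.val '' F'.edgeSet).ncard :=
              Set.ncard_le_ncard h1 ((Set.toFinite _).image _)
          _ ≤ F'.edgeSet.ncard := Set.ncard_image_le (Set.toFinite _)
      have hpow : (constL * q) ^ numEdges F' ≤ (constL * q) ^ numEdges F :=
        pow_le_pow_of_le_one hL0 hLq hedges
      have hdesc : (n.descFactorial (k + 1) : ℝ) = ((n - k : ℕ) : ℝ) * (n.descFactorial k : ℝ) := by
        rw [Nat.descFactorial_succ]; push_cast; ring
      rw [hdesc]
      have h5 : ((Emb F H Finset.univ).card : ℝ)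
          ≤ ((Emb F' H Finset.univ).card : ℝ) * ((n - k : ℕ) : ℝ) := by
        exact_mod_cast hcount
      have h6 : (0 : ℝ) ≤ ((n - k : ℕ) : ℝ) := by positivity
      have h7 := mul_le_mul_of_nonneg_left hih h6
      have h8 : (0 : ℝ) ≤ ((n - k : ℕ) : ℝ) * (n.descFactorial k : ℝ) := by positivity
      calc ((Emb F H Finset.univ).card : ℝ)
          ≤ ((Emb F' H Finset.univ).card : ℝ) * ((n - k : ℕ) : ℝ) := h5
        _ = ((n - k : ℕ) : ℝ) * ((Emb F' H Finset.univ).card : ℝ) := by ring
        _ ≤ ((n - k : ℕ) : ℝ) * ((n.descFactorial k : ℝ) * (constL * q) ^ numEdges F') := h7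
        _ = ((n - k : ℕ) : ℝ) * (n.descFactorial k : ℝ) * (constL * q) ^ numEdges F' := by ring
        _ ≤ ((n - k : ℕ) : ℝ) * (n.descFactorial k : ℝ) * (constL * q) ^ numEdges F :=
            mul_le_mul_of_nonneg_left hpow h8

/-- Trivial bound. -/
lemma emb_le_desc {H : SimpleGraph V} {n : ℕ} (hV : Fintype.card V ≤ n) {Z : Type*} [Fintype Z]
    (F : SimpleGraph Z) :
    (Emb F H Finset.univ).card ≤ n.descFactorial (Fintype.card Z) := by
  have h1 : (Emb F H Finset.univ).card
      ≤ (Finset.univ.filter (fun f : Z → V => Function.Injective f)).card := by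
    refine Finset.card_le_card fun f hf => ?_
    exact Finset.mem_filter.mpr ⟨Finset.mem_univ _, (mem_Emb.mp hf).1⟩
  have h2 : (Finset.univ.filter (fun f : Z → V => Function.Injective f)).card
      = Fintype.card (Z ↪ V) := by
    rw [← Fintype.card_subtype]
    exact Fintype.card_congr (Equiv.subtypeInjectiveEquivEmbedding Z V)
  rw [h2, Fintype.card_embedding_eq] at h1
  exact h1.trans (Nat.descFactorial_le _ hV)

/-- The main theorem for forests: the count of `F` in `H` is at most the expected count at density
`min 1 (constL * q)`. -/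
theorem copyCount_le_expCopies {H : SimpleGraph V} (hH : H.IsAcyclic) {n : ℕ} {q : ℝ} (hn : 0 < n)
    (hV : Fintype.card V ≤ n) (hq : 0 < q) (hyp : OBound H n q)
    {Z : Type*} [Fintype Z] (F : SimpleGraph Z) (hF : F.IsAcyclic) :
    (H.copyCount F : ℝ) ≤ expCopies n (min 1 (constL * q)) F := by
  unfold expCopies
  refine copyCount_le_of_emb H F n ?_
  by_cases hLq : constL * q ≤ 1
  · rw [min_eq_right hLq]
    exact emb_forest_aux hH hn hV hq hyp hLq _ Z F rfl hF
  · rw [min_eq_left (le_of_not_ge hLq)]
    simp only [one_pow, mul_one]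
    exact_mod_cast emb_le_desc hV F

end Vale.Agent.Lib.P064
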