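import Vale.Agent.Lib.P064.Forest

/-!
The pruned level-indexed value on directed edges of a general graph, and the super-solution.
-/

namespace Vale.Agent.Lib.P064

open Finset
open scoped Nat Classical

set_option linter.unusedSectionVars false
set_option linter.unusedVariables false

section SuperP

variable {ι : Type*}

/-- The key inequality, with hypotheses only on the big part and on the whole set. -/
lemma super_P {w R : ℝ} (hw : 1 ≤ w) (S : Finset ι) (x : ι → ℝ) (hx : ∀ a ∈ S, 1 ≤ x a)
    (hB : (((S.filter (fun a => w < x a)).card)! : ℝ) / w ^ (S.filter (fun a => w < x a)).card *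
      ∏ a ∈ S.filter (fun a => w < x a), x a ≤ R)
    (hSS : 8 * w < ((S.filter (fun a => x a ≤ w)).card : ℝ) →
      (S.card ! : ℝ) / w ^ S.card * ∏ a ∈ S, x a ≤ R) (k : ℕ) :
    perm (fun a => max 1 (x a / w)) k S ≤ (16 * w) ^ k * max 1 (R / w) := by
  set g : ι → ℝ := fun a => max 1 (x a / w) with hg
  have hw0 : 0 < w := by linarith
  have hg1 : ∀ a ∈ S, 1 ≤ g a := fun a _ => le_max_left _ _
  have hfilB : S.filter (fun a => 1 < g a) = S.filter (fun a => w < x a) := by
    ext a
    simp only [Finset.mem_filter, hg]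
    constructor
    · rintro ⟨ha, h⟩
      refine ⟨ha, ?_⟩
      rcases lt_max_iff.mp h with h | h
      · exact absurd h (lt_irrefl _)
      · rwa [lt_div_iff₀ hw0, one_mul] at h
    · rintro ⟨ha, h⟩
      refine ⟨ha, lt_max_iff.mpr (Or.inr ?_)⟩
      rwa [lt_div_iff₀ hw0, one_mul]
  have hfilQ : S.filter (fun a => g a = 1) = S.filter (fun a => x a ≤ w) := by
    ext a
    simp only [Finset.mem_filter, hg]
    constructor
    · rintro ⟨ha, h⟩
      refine ⟨ha, ?_⟩
      have h1 : x a / w ≤ 1 := h ▸ le_max_right _ _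
      rwa [div_le_one hw0] at h1
    · rintro ⟨ha, h⟩
      refine ⟨ha, max_eq_left ?_⟩
      rwa [div_le_one hw0]
  set B := S.filter (fun a => 1 < g a) with hBdef
  set Q := S.filter (fun a => g a = 1) with hQ
  set s := B.card with hs
  set m := Q.card with hm
  set G := ∏ a ∈ S, g a with hG
  have hG1 : 1 ≤ G := one_le_prod_of_one_le hg1
  have hcard : S.card = s + m := by
    have h1 : Q.card + (S.filter (fun a => ¬ g a = 1)).card = S.card :=
      Finset.card_filter_add_card_filter_not (s := S) (fun a => g a = 1)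
    have h2 : S.filter (fun a => ¬ g a = 1) = B := by
      ext a
      simp only [hBdef, Finset.mem_filter]
      constructor
      · rintro ⟨ha, hne⟩
        exact ⟨ha, lt_of_le_of_ne (hg1 a ha) (Ne.symm hne)⟩
      · rintro ⟨ha, hlt⟩
        exact ⟨ha, ne_of_gt hlt⟩
    rw [h2] at h1
    omega
  -- on `B`, `g = x / w`
  have hgB : ∀ a ∈ B, x a = w * g a := by
    intro a ha
    rcases Finset.mem_filter.mp ha with ⟨_, h2⟩
    have h3 : g a = x a / w := by
      have : 1 < max 1 (x a / w) := h2
      rcases lt_max_iff.mp this with h | h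
      · exact absurd h (lt_irrefl _)
      · simp only [hg]; exact max_eq_right h.le
    rw [h3]; field_simp
  have hprodB : ∏ a ∈ B, g a = G := by
    have h1 : ∏ a ∈ S, g a = (∏ a ∈ S.filter (fun a => 1 < g a), g a)
        * ∏ a ∈ S.filter (fun a => ¬ 1 < g a), g a :=
      (Finset.prod_filter_mul_prod_filter_not S _ _).symm
    have h2 : ∏ a ∈ S.filter (fun a => ¬ 1 < g a), g a = 1 := by
      refine Finset.prod_eq_one fun a ha => ?_
      rcases Finset.mem_filter.mp ha with ⟨ha1, ha2⟩
      exact le_antisymm (not_lt.mp ha2) (hg1 a ha1)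
    rw [hG, h1, h2, mul_one]
  have hprodBx : ∏ a ∈ B, x a = w ^ s * G := by
    rw [Finset.prod_congr rfl hgB, Finset.prod_mul_distrib, Finset.prod_const, hprodB]
  have hBsub : B ⊆ S := Finset.filter_subset _ _
  have hT : (s ! : ℝ) * G ≤ R := by
    have := hB
    rw [← hfilB, hprodBx] at this
    have hws : w ^ s ≠ 0 := by positivity
    have e : (B.card ! : ℝ) / w ^ B.card * (w ^ s * G) = (s ! : ℝ) * G := by
      rw [← hs]; field_simp
    rwa [e] at this
  have hR1 : 1 ≤ R := by
    have : (1 : ℝ) ≤ (s ! : ℝ) * G := by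
      have h1 : (1 : ℝ) ≤ (s ! : ℝ) := by exact_mod_cast Nat.factorial_pos s
      nlinarith
    linarith
  have hprodS : w ^ s * G ≤ ∏ a ∈ S, x a := by
    have h1 : ∏ a ∈ S, x a = (∏ a ∈ S.filter (fun a => 1 < g a), x a)
        * ∏ a ∈ S.filter (fun a => ¬ 1 < g a), x a :=
      (Finset.prod_filter_mul_prod_filter_not S _ _).symm
    have h2 : 1 ≤ ∏ a ∈ S.filter (fun a => ¬ 1 < g a), x a :=
      one_le_prod_of_one_le fun a ha => hx a (Finset.mem_filter.mp ha).1
    rw [h1, ← hBdef, hprodBx]
    have h3 : 0 ≤ w ^ s * G := by positivity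
    nlinarith
  -- now the cases
  cases k with
  | zero => simp only [perm_zero, pow_zero, one_mul]; exact le_max_left _ _
  | succ k =>
    by_cases hcase : (m : ℝ) ≤ 8 * w
    · -- first case
      have h1 := perm_le_caseI (g := g) (M := 8 * w) (by positivity) (k + 1) S hg1 hcase
      have h2 := delta_bound (M := 8 * w) (by linarith) k
      have e2 : 2 * (8 * w) = 16 * w := by ring
      rw [e2] at h2
      have hpow : 0 < (16 * w) ^ k := by positivity
      have h3 : (8 * w) ^ (k + 1) ≤ (16 * w) ^ (k + 1) / 2 := by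
        have e3 : (16 * w) ^ (k + 1) = 2 ^ (k + 1) * (8 * w) ^ (k + 1) := by
          rw [← mul_pow]; ring_nf
        rw [e3]
        have h4 : (2 : ℝ) ≤ 2 ^ (k + 1) := by
          calc (2 : ℝ) = 2 ^ 1 := by norm_num
            _ ≤ 2 ^ (k + 1) := pow_le_pow_right₀ (by norm_num) (by omega)
        have h5 : 0 ≤ (8 * w) ^ (k + 1) := by positivity
        nlinarith
      have hΔ0 : 0 ≤ (8 * w + 1) ^ (k + 1) - (8 * w) ^ (k + 1) := by
        have : (8 * w) ^ (k + 1) ≤ (8 * w + 1) ^ (k + 1) :=
          pow_le_pow_left₀ (by positivity) (by linarith) _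
        linarith
      have h4 : (s ! : ℝ) * G * ((8 * w + 1) ^ (k + 1) - (8 * w) ^ (k + 1))
          ≤ R * (8 * (16 * w) ^ k) := by
        refine mul_le_mul hT h2 hΔ0 (by linarith)
      have h5 : R * (8 * (16 * w) ^ k) = (16 * w) ^ (k + 1) * (R / w) / 2 := by
        rw [pow_succ]; field_simp; ring
      have hpow' : 0 < (16 * w) ^ (k + 1) := by positivity
      have h6 : (16 * w) ^ (k + 1) * (1 / 2 + (R / w) / 2)
          ≤ (16 * w) ^ (k + 1) * max 1 (R / w) := by
        refine mul_le_mul_of_nonneg_left ?_ hpow'.le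
        have h7 := le_max_left 1 (R / w)
        have h8 := le_max_right 1 (R / w)
        linarith
      calc perm g (k + 1) S
          ≤ (8 * w) ^ (k + 1) + (s ! : ℝ) * G * ((8 * w + 1) ^ (k + 1) - (8 * w) ^ (k + 1)) := h1
        _ ≤ (16 * w) ^ (k + 1) / 2 + (16 * w) ^ (k + 1) * (R / w) / 2 := by
            rw [← h5]; linarith
        _ = (16 * w) ^ (k + 1) * (1 / 2 + (R / w) / 2) := by ring
        _ ≤ (16 * w) ^ (k + 1) * max 1 (R / w) := h6
    · -- second case
      push Not at hcase
      have hRS : (S.card ! : ℝ) * G / w ^ m ≤ R := by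
        have h1 := hSS (by rw [← hfilQ]; exact hcase)
        have h2 : (S.card ! : ℝ) / w ^ S.card * (w ^ s * G)
            ≤ (S.card ! : ℝ) / w ^ S.card * ∏ a ∈ S, x a :=
          mul_le_mul_of_nonneg_left hprodS (by positivity)
        have e : (S.card ! : ℝ) / w ^ S.card * (w ^ s * G) = (S.card ! : ℝ) * G / w ^ m := by
          rw [hcard, pow_add]
          field_simp
        rw [e] at h2
        exact h2.trans h1
      have h1 := perm_le_crude (g := g) (k + 1) S hg1
      by_cases hkd : k + 1 ≤ S.card
      · have hk2 : k + 1 ≤ s + m := by omega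
        have h2 := numeric_N hw (s := s) (m := m) (k := k + 1) hcase (by omega) hk2
        have hfac := Nat.factorial_mul_descFactorial hkd
        have hfac' : ((S.card - (k + 1))! : ℝ) * (S.card.descFactorial (k + 1) : ℝ)
            = (S.card ! : ℝ) := by exact_mod_cast hfac
        rw [← hcard] at h2
        have hwm : 0 < w ^ (m + 1) := by positivity
        have hGpos : 0 < G := by linarith
        have hdesc : (0 : ℝ) ≤ (S.card.descFactorial (k + 1) : ℝ) := by positivity
        have h3 : (S.card.descFactorial (k + 1) : ℝ) * G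
            ≤ (16 * w) ^ (k + 1) * (R / w) := by
          have h4 : (16 * w) ^ (k + 1) * ((S.card ! : ℝ) * G / w ^ m / w)
              ≤ (16 * w) ^ (k + 1) * (R / w) := by
            refine mul_le_mul_of_nonneg_left ?_ (by positivity)
            exact div_le_div_of_nonneg_right hRS hw0.le
          refine le_trans ?_ h4
          have e : (16 * w) ^ (k + 1) * ((S.card ! : ℝ) * G / w ^ m / w)
              = ((16 * w) ^ (k + 1) * ((S.card - (k + 1))! : ℝ))
                * ((S.card.descFactorial (k + 1) : ℝ) * G) / w ^ (m + 1) := by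
            rw [← hfac', pow_succ w m]
            field_simp
          rw [e, le_div_iff₀ hwm]
          have h5 : 0 ≤ (S.card.descFactorial (k + 1) : ℝ) * G := by positivity
          nlinarith
        calc perm g (k + 1) S ≤ (S.card.descFactorial (k + 1) : ℝ) * G := h1
          _ ≤ (16 * w) ^ (k + 1) * (R / w) := h3
          _ ≤ (16 * w) ^ (k + 1) * max 1 (R / w) :=
              mul_le_mul_of_nonneg_left (le_max_right _ _) (by positivity)
      · have h0 : S.card.descFactorial (k + 1) = 0 := Nat.descFactorial_eq_zero_iff_lt.mpr (by omega)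
        rw [h0] at h1
        simp only [Nat.cast_zero, zero_mul] at h1
        exact h1.trans (by positivity)

end SuperP

variable {V : Type*} [Fintype V]

/-- `a` is a hub when its degree exceeds `8 w`. -/
def isHub (G : SimpleGraph V) (w : ℝ) (a : V) : Prop := 8 * w < ((nb G a).card : ℝ)

/-- The pruned level-indexed value on directed edges. -/
noncomputable def PsiP (G : SimpleGraph V) (w : ℝ) : ℕ → V → V → ℝ
  | 0, _, _ => 1
  | h + 1, b, a =>
    if isHub G w a then
      max (rho w (PsiP G w h a) (((nb G a).erase b).filter (fun c => w < PsiP G w h a c)))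
        (rho w (PsiP G w h a) ((nb G a).erase b))
    else rho w (PsiP G w h a) (((nb G a).erase b).filter (fun c => w < PsiP G w h a c))

lemma PsiP_succ (G : SimpleGraph V) (w : ℝ) (h : ℕ) (b a : V) :
    PsiP G w (h + 1) b a = if isHub G w a then
      max (rho w (PsiP G w h a) (((nb G a).erase b).filter (fun c => w < PsiP G w h a c)))
        (rho w (PsiP G w h a) ((nb G a).erase b))
    else rho w (PsiP G w h a) (((nb G a).erase b).filter (fun c => w < PsiP G w h a c)) := rfl

/-- The super-solution. -/
noncomputable def GP (G : SimpleGraph V) (w : ℝ) (h : ℕ) (b a : V) : ℝ :=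
  max 1 (PsiP G w h b a / w)

/-- The value of `rho` on the big part, in a monotone form. -/
lemma rho_filter_eq {w : ℝ} (hw : 0 < w) (S : Finset V) (x : V → ℝ) :
    rho w x (S.filter (fun c => w < x c)) =
      (((S.filter (fun c => w < x c)).card)! : ℝ) * ∏ c ∈ S, max 1 (x c / w) := by
  have h1 : ∏ c ∈ S, max 1 (x c / w) = ∏ c ∈ S.filter (fun c => w < x c), (x c / w) := by
    rw [← Finset.prod_filter_mul_prod_filter_not S (fun c => w < x c)]
    have h2 : ∏ c ∈ S.filter (fun c => ¬ w < x c), max 1 (x c / w) = 1 := by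
      refine Finset.prod_eq_one fun c hc => ?_
      have h3 := (Finset.mem_filter.mp hc).2
      refine max_eq_left ?_
      rw [div_le_one hw]
      exact not_lt.mp h3
    rw [h2, mul_one]
    refine Finset.prod_congr rfl fun c hc => ?_
    have h3 := (Finset.mem_filter.mp hc).2
    refine max_eq_right ?_
    rw [one_le_div hw]
    exact h3.le
  rw [h1, Finset.prod_div_distrib, Finset.prod_const]
  unfold rho
  ring

lemma one_le_rho_filter {w : ℝ} (hw : 0 < w) (S : Finset V) (x : V → ℝ) :
    1 ≤ rho w x (S.filter (fun c => w < x c)) := by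
  rw [rho_filter_eq hw]
  have h1 : (1 : ℝ) ≤ (((S.filter (fun c => w < x c)).card)! : ℝ) := by
    exact_mod_cast Nat.factorial_pos _
  have h2 : 1 ≤ ∏ c ∈ S, max 1 (x c / w) := one_le_prod_of_one_le fun c _ => le_max_left _ _
  nlinarith

lemma one_le_PsiP (G : SimpleGraph V) {w : ℝ} (hw : 0 < w) :
    ∀ (h : ℕ) (b a : V), 1 ≤ PsiP G w h b a
  | 0, _, _ => le_refl _
  | h + 1, b, a => by
    rw [PsiP]
    split_ifs with hh
    · exact (one_le_rho_filter hw _ _).trans (le_max_left _ _)
    · exact one_le_rho_filter hw _ _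

lemma rho_filter_mono {w : ℝ} (hw : 0 < w) (S : Finset V) {x y : V → ℝ}
    (hxy : ∀ c ∈ S, x c ≤ y c) :
    rho w x (S.filter (fun c => w < x c)) ≤ rho w y (S.filter (fun c => w < y c)) := by
  rw [rho_filter_eq hw, rho_filter_eq hw]
  have h1 : ((S.filter (fun c => w < x c)).card)! ≤ ((S.filter (fun c => w < y c)).card)! := by
    refine Nat.factorial_le (Finset.card_le_card fun c hc => ?_)
    rcases Finset.mem_filter.mp hc with ⟨h2, h3⟩
    exact Finset.mem_filter.mpr ⟨h2, h3.trans_le (hxy c h2)⟩
  have h1' : (((S.filter (fun c => w < x c)).card)! : ℝ)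
      ≤ (((S.filter (fun c => w < y c)).card)! : ℝ) := by exact_mod_cast h1
  refine mul_le_mul h1' ?_ ?_ (by positivity)
  · refine Finset.prod_le_prod (fun c _ => by positivity) fun c hc => ?_
    exact max_le_max_left _ (div_le_div_of_nonneg_right (hxy c hc) hw.le)
  · exact Finset.prod_nonneg fun c _ => by positivity

lemma PsiP_le_succ (G : SimpleGraph V) {w : ℝ} (hw : 0 < w) :
    ∀ (h : ℕ) (b a : V), PsiP G w h b a ≤ PsiP G w (h + 1) b a
  | 0, b, a => one_le_PsiP G hw 1 b a
  | h + 1, b, a => by
    rw [PsiP_succ G w h b a, PsiP_succ G w (h + 1) b a]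
    have hx : ∀ c, PsiP G w h a c ≤ PsiP G w (h + 1) a c := fun c => PsiP_le_succ G hw h a c
    have h1 := rho_filter_mono hw ((nb G a).erase b) (x := PsiP G w h a) (y := PsiP G w (h + 1) a)
      (fun c _ => hx c)
    split_ifs with hh
    · refine max_le_max h1 ?_
      refine rho_mono hw _ (fun c _ => ?_) (fun c _ => hx c)
      linarith [one_le_PsiP G hw h a c]
    · exact h1

lemma PsiP_mono (G : SimpleGraph V) {w : ℝ} (hw : 0 < w) (b a : V) {h h' : ℕ} (hh : h ≤ h') :
    PsiP G w h b a ≤ PsiP G w h' b a :=
  monotone_nat_of_le_succ (f := fun h => PsiP G w h b a) (fun h => PsiP_le_succ G hw h b a) hh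

/-- The super-solution property. -/
theorem GP_superSol (G : SimpleGraph V) {w : ℝ} (hw : 1 ≤ w) :
    SuperSol G (16 * w) (GP G w) where
  nonneg := fun h b a => zero_le_one.trans (le_max_left _ _)
  mono := fun h h' b a hh => by
    unfold GP
    refine max_le_max_left _ ?_
    exact div_le_div_of_nonneg_right (PsiP_mono G (by linarith) b a hh) (by linarith)
  ss := fun h b a k => by
    unfold GP
    have hw0 : 0 < w := by linarith
    refine super_P hw ((nb G a).erase b) (PsiP G w h a) (fun c _ => one_le_PsiP G hw0 h a c)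
      ?_ ?_ k
    · have : (((((nb G a).erase b).filter (fun c => w < PsiP G w h a c)).card)! : ℝ)
          / w ^ (((nb G a).erase b).filter (fun c => w < PsiP G w h a c)).card *
          ∏ c ∈ ((nb G a).erase b).filter (fun c => w < PsiP G w h a c), PsiP G w h a c
          = rho w (PsiP G w h a) (((nb G a).erase b).filter (fun c => w < PsiP G w h a c)) := rfl
      rw [this, PsiP]
      split_ifs with hh
      · exact le_max_left _ _
      · exact le_refl _
    · intro hm
      have hhub : isHub G w a := by
        unfold isHub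
        refine hm.trans_le ?_
        have h1 : ((((nb G a).erase b).filter (fun c => PsiP G w h a c ≤ w)).card) ≤ (nb G a).card :=
          (Finset.card_filter_le _ _).trans (Finset.card_erase_le)
        exact_mod_cast h1
      have : ((((nb G a).erase b).card)! : ℝ) / w ^ ((nb G a).erase b).card *
          ∏ c ∈ (nb G a).erase b, PsiP G w h a c = rho w (PsiP G w h a) ((nb G a).erase b) := rfl
      rw [this, PsiP, if_pos hhub]
      exact le_max_right _ _

section Rooted

variable {Z : Type*} [Fintype Z]

/-- Rooted count of embeddings in the restricted graph, for the pruned super-solution. -/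
lemma card_emb_rootedP (H : SimpleGraph V) {w : ℝ} (hw : 1 ≤ w) {T : SimpleGraph Z}
    (hT : T.Connected) {m : ℕ} (hm : Fintype.card Z = m + 1) (V' : Finset V) (y : Z) (x : V) :
    (((Emb T H V').filter (fun f => f y = x)).card : ℝ)
      ≤ (16 * w) ^ m * GP (resG H V') w (m + 1) x x := by
  obtain ⟨e, p, he0, hp0, hp⟩ := rooted_order hT y hm
  have h1 := card_rooted_le (H := resG H V') (W := 16 * w) (by linarith) (GP_superSol _ hw) p hp0
    (fun c hc => (hp c hc).1) x
  refine le_trans ?_ h1
  have h2 : ((Emb T H V').filter (fun f => f y = x)).card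
      ≤ (Finset.univ.filter (fun ψ : Fin (m + 1) → V => Valid (resG H V') p ψ ∧ ψ 0 = x)).card := by
    refine Finset.card_le_card_of_injOn (fun f => f ∘ e) ?_ ?_
    · intro f hf
      have hf' := Finset.mem_coe.mp hf
      rcases Finset.mem_filter.mp hf' with ⟨hf1, hf2⟩
      rcases Finset.mem_filter.mp hf1 with ⟨_, hinj, hadj, hmem⟩
      refine Finset.mem_coe.mpr (Finset.mem_filter.mpr ⟨Finset.mem_univ _, ⟨?_, ?_⟩, ?_⟩)
      · exact hinj.comp e.injective
      · intro c hc
        exact resG_adj.mpr ⟨hadj _ _ (hp c hc).2, hmem _, hmem _⟩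
      · simp [he0, hf2]
    · intro f _ g _ hfg
      funext z
      have := congrFun hfg (e.symm z)
      simpa using this
  exact_mod_cast h2

end Rooted

end Vale.Agent.Lib.P064
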