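import Vale.Agent.Lib.P064.Gen1

/-!
Certificates: summaries of the walk-trees that realise the pruned value.
-/

namespace Vale.Agent.Lib.P064

open Finset
open scoped Nat Classical

set_option linter.unusedSectionVars false
set_option linter.unusedVariables false

variable {V : Type*} [Fintype V]

/-- The number of visits at `u`. -/
noncomputable def cnt (Fam : V → Multiset (Finset V)) (u : V) : ℕ := Multiset.card (Fam u)

/-- The number of visits at `u` whose set contains `v`. -/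
noncomputable def mu (Fam : V → Multiset (Finset V)) (u v : V) : ℕ :=
  (Fam u).countP (fun S => v ∈ S)

/-- The half-edge from the root `a` to its parent `b`. -/
noncomputable def par (b a u v : V) : ℕ := if b ≠ a ∧ u = a ∧ v = b then 1 else 0

/-- The product of the factorials of all sets at hubs. -/
noncomputable def Qv (G : SimpleGraph V) (w : ℝ) (Fam : V → Multiset (Finset V)) : ℝ :=
  ∏ u ∈ Finset.univ.filter (fun u => isHub G w u), ((Fam u).map (fun S => ((S.card)! : ℝ))).prod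

/-- Certificates for the directed edge from `b` to `a`. -/
structure IsCert (G : SimpleGraph V) (w : ℝ) (b a : V) (Fam : V → Multiset (Finset V)) (E : ℕ)
    (D Dl : ℝ) : Prop where
  sub : ∀ u, ∀ S ∈ Fam u, S ⊆ nb G u
  symm : ∀ u v, mu Fam u v + par b a v u = mu Fam v u + par b a u v
  cnt_sum : ∑ u, cnt Fam u = E + 1
  mu_sum : ∑ u, ∑ v, mu Fam u v = 2 * E + (if b = a then 0 else 1)
  supp : ∀ u, Fam u ≠ 0 → u = a ∨ ∃ y, G.Adj u y
  root : Fam a ≠ 0
  D_one : 1 ≤ D
  D_fac : D ≤ (E ! : ℝ)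
  D_Q : D ≤ Qv G w Fam * Dl
  Dl_one : 1 ≤ Dl
  Dl_le : Dl ≤ Real.exp E
  Dl_gain : w ^ E < D → Dl ≤ Real.exp (E - w / 2)

/-- The family of a node. -/
noncomputable def nodeFam (Fc : V → V → Multiset (Finset V)) (K S₀ : Finset V) (a u : V) :
    Multiset (Finset V) :=
  ∑ c ∈ K, Fc c u + if u = a then {S₀} else 0

/-- The set at the root of a node. -/
noncomputable def S0 (b a : V) (K : Finset V) : Finset V := if b = a then K else insert b K

lemma cnt_node (Fc : V → V → Multiset (Finset V)) (K S₀ : Finset V) (a u : V) :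
    cnt (nodeFam Fc K S₀ a) u = ∑ c ∈ K, cnt (Fc c) u + if u = a then 1 else 0 := by
  unfold cnt nodeFam
  rw [Multiset.card_add, Multiset.card_sum]
  split_ifs <;> simp

lemma countP_sum (p : Finset V → Prop) [DecidablePred p] (K : Finset V)
    (M : V → Multiset (Finset V)) :
    (∑ c ∈ K, M c).countP p = ∑ c ∈ K, (M c).countP p :=
  map_sum (Multiset.countPAddMonoidHom p) M K

lemma mu_node (Fc : V → V → Multiset (Finset V)) (K S₀ : Finset V) (a u v : V) :
    mu (nodeFam Fc K S₀ a) u v = ∑ c ∈ K, mu (Fc c) u v + if u = a ∧ v ∈ S₀ then 1 else 0 := by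
  unfold mu nodeFam
  rw [Multiset.countP_add, countP_sum]
  congr 1
  have h : Multiset.countP (fun x => v ∈ x) ({S₀} : Multiset (Finset V))
      = if v ∈ S₀ then 1 else 0 := by
    rw [← Multiset.cons_zero, Multiset.countP_cons]
    simp
  by_cases hu : u = a
  · simp only [hu, if_true, true_and]
    exact h
  · simp [hu]

/-- The multiplicative functional on multisets. -/
noncomputable def mp (f : Finset V → ℝ) (M : Multiset (Finset V)) : ℝ := (M.map f).prod

lemma mp_add (f : Finset V → ℝ) (M M' : Multiset (Finset V)) : mp f (M + M') = mp f M * mp f M' := by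
  unfold mp
  rw [Multiset.map_add, Multiset.prod_add]

lemma mp_sum (f : Finset V → ℝ) (K : Finset V) (M : V → Multiset (Finset V)) :
    mp f (∑ c ∈ K, M c) = ∏ c ∈ K, mp f (M c) := by
  induction K using Finset.induction_on with
  | empty => simp [mp]
  | insert c K hc ih =>
    rw [Finset.sum_insert hc, Finset.prod_insert hc, mp_add, ih]

lemma Qv_node (G : SimpleGraph V) (w : ℝ) (Fc : V → V → Multiset (Finset V)) (K S₀ : Finset V)
    (a : V) :
    Qv G w (nodeFam Fc K S₀ a) = (∏ c ∈ K, Qv G w (Fc c)) *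
      (if isHub G w a then ((S₀.card)! : ℝ) else 1) := by
  unfold Qv
  set f : Finset V → ℝ := fun S => ((S.card)! : ℝ) with hf
  have h1 : ∀ u, ((nodeFam Fc K S₀ a u).map f).prod
      = (∏ c ∈ K, ((Fc c u).map f).prod) * (if u = a then f S₀ else 1) := by
    intro u
    have := mp_add f (∑ c ∈ K, Fc c u) (if u = a then {S₀} else 0)
    unfold nodeFam
    change mp f _ = _
    rw [this, mp_sum]
    congr 1
    split_ifs <;> simp [mp]
  simp only [h1]
  rw [Finset.prod_mul_distrib, Finset.prod_comm]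
  congr 1
  rw [Finset.prod_ite_eq']
  simp [hf]

lemma sum_par (a : V) (K : Finset V) (hK : a ∉ K) (u v : V) :
    ∑ c ∈ K, par a c v u = if u = a ∧ v ∈ K then 1 else 0 := by
  have h1 : ∀ c ∈ K, par a c v u = if c = v then (if u = a then 1 else 0) else 0 := by
    intro c hc
    have hne : a ≠ c := fun h => hK (h ▸ hc)
    unfold par
    by_cases h1 : c = v
    · by_cases h2 : u = a
      · simp [h1, h2]
        intro h3
        exact absurd (h1 ▸ h3) hne
      · simp [h1, h2]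
    · have h3 : v ≠ c := fun h => h1 h.symm
      simp [h1, h3]
  rw [Finset.sum_congr rfl h1, Finset.sum_ite_eq']
  by_cases h2 : v ∈ K <;> by_cases h3 : u = a <;> simp [h2, h3]

lemma S0_par {b a : V} {K : Finset V} (hb : b ∉ K) (u v : V) :
    (if u = a ∧ v ∈ S0 b a K then 1 else 0) = (if u = a ∧ v ∈ K then 1 else 0) + par b a u v := by
  unfold S0 par
  by_cases hba : b = a
  · simp [hba]
  · simp only [hba, if_false, ne_eq, not_false_eq_true, true_and, Finset.mem_insert]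
    by_cases hu : u = a
    · by_cases hv : v = b
      · subst hv
        simp [hu, hb]
      · simp [hu, hv]
    · simp [hu]

lemma card_S0 {b a : V} {K : Finset V} (hb : b ∉ K) :
    (S0 b a K).card = K.card + if b = a then 0 else 1 := by
  unfold S0
  by_cases hba : b = a
  · simp [hba]
  · simp [hba, Finset.card_insert_of_notMem hb]

lemma S0_sub {G : SimpleGraph V} {b a : V} {K : Finset V} (hab : b = a ∨ G.Adj b a)
    (hK : K ⊆ (nb G a).erase b) : S0 b a K ⊆ nb G a := by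
  have hK' : K ⊆ nb G a := hK.trans (Finset.erase_subset _ _)
  unfold S0
  by_cases hba : b = a
  · simp only [hba, if_true]
    exact hK'
  · simp only [hba, if_false]
    refine Finset.insert_subset ?_ hK'
    rcases hab with h | h
    · exact absurd h hba
    · exact mem_nb.mpr h.symm

lemma sub_S0 {b a : V} {K : Finset V} : K ⊆ S0 b a K := by
  unfold S0
  by_cases hba : b = a
  · simp [hba]
  · simp only [hba, if_false]
    exact Finset.subset_insert _ _

/-- The structural part of the node construction. -/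
theorem cert_node {G : SimpleGraph V} {w : ℝ} {b a : V} {K : Finset V}
    (hab : b = a ∨ G.Adj b a) (hK : K ⊆ (nb G a).erase b)
    {Fc : V → V → Multiset (Finset V)} {Ec : V → ℕ} {Dc Dlc : V → ℝ}
    (hc : ∀ c ∈ K, IsCert G w a c (Fc c) (Ec c) (Dc c) (Dlc c)) {Dl' : ℝ}
    (h1 : (K.card ! : ℝ) * ∏ c ∈ K, Dc c ≤ Qv G w (nodeFam Fc K (S0 b a K) a) * Dl')
    (h2 : 1 ≤ Dl') (h3 : Dl' ≤ Real.exp ((∑ c ∈ K, (Ec c + 1) : ℕ) : ℝ))
    (h4 : w ^ (∑ c ∈ K, (Ec c + 1)) < (K.card ! : ℝ) * ∏ c ∈ K, Dc c →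
      Dl' ≤ Real.exp (((∑ c ∈ K, (Ec c + 1) : ℕ) : ℝ) - w / 2)) :
    IsCert G w b a (nodeFam Fc K (S0 b a K) a) (∑ c ∈ K, (Ec c + 1))
      ((K.card ! : ℝ) * ∏ c ∈ K, Dc c) Dl' := by
  have hKnb : ∀ c ∈ K, G.Adj a c := fun c hc =>
    mem_nb.mp (Finset.mem_of_mem_erase (hK hc))
  have haK : a ∉ K := fun h => (hKnb a h).ne rfl
  have hbK : b ∉ K := fun h => (Finset.mem_erase.mp (hK h)).1 rfl
  have hne : ∀ c ∈ K, a ≠ c := fun c hc h => haK (h ▸ hc)
  refine ⟨?_, ?_, ?_, ?_, ?_, ?_, ?_, ?_, h1, h2, h3, h4⟩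
  · -- sub
    intro u S hS
    unfold nodeFam at hS
    rcases Multiset.mem_add.mp hS with h | h
    · obtain ⟨c, hcK, hSc⟩ := Multiset.mem_sum.mp h
      exact (hc c hcK).sub u S hSc
    · by_cases hu : u = a
      · subst hu
        simp only [if_true, Multiset.mem_singleton] at h
        rw [h]
        exact S0_sub hab hK
      · simp [hu] at h
  · -- symm
    intro u v
    rw [mu_node, mu_node, S0_par hbK, S0_par hbK]
    have hs : ∑ c ∈ K, (mu (Fc c) u v + par a c v u) = ∑ c ∈ K, (mu (Fc c) v u + par a c u v) :=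
      Finset.sum_congr rfl fun c hcK => (hc c hcK).symm u v
    rw [Finset.sum_add_distrib, Finset.sum_add_distrib, sum_par a K haK, sum_par a K haK] at hs
    omega
  · -- cnt_sum
    simp only [cnt_node]
    rw [Finset.sum_add_distrib, Finset.sum_comm, Finset.sum_ite_eq']
    simp only [Finset.mem_univ, if_true]
    congr 1
    exact Finset.sum_congr rfl fun c hcK => (hc c hcK).cnt_sum
  · -- mu_sum
    simp only [mu_node]
    have e1 : ∑ u, ∑ v, (∑ c ∈ K, mu (Fc c) u v + if u = a ∧ v ∈ S0 b a K then 1 else 0)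
        = ∑ c ∈ K, ∑ u, ∑ v, mu (Fc c) u v + (S0 b a K).card := by
      simp only [Finset.sum_add_distrib]
      congr 1
      · calc ∑ u, ∑ v, ∑ c ∈ K, mu (Fc c) u v = ∑ u, ∑ c ∈ K, ∑ v, mu (Fc c) u v :=
              Finset.sum_congr rfl fun u _ => Finset.sum_comm
          _ = _ := Finset.sum_comm
      · have e2 : ∀ u, ∑ v, (if u = a ∧ v ∈ S0 b a K then 1 else 0)
            = if u = a then (S0 b a K).card else 0 := by
          intro u
          by_cases hu : u = a
          · simp [hu]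
          · simp [hu]
        simp only [e2]
        simp
    rw [e1, card_S0 hbK]
    have e3 : ∑ c ∈ K, ∑ u, ∑ v, mu (Fc c) u v = ∑ c ∈ K, (2 * Ec c + 1) := by
      refine Finset.sum_congr rfl fun c hcK => ?_
      rw [(hc c hcK).mu_sum, if_neg (hne c hcK)]
    rw [e3]
    have e4 : ∑ c ∈ K, (2 * Ec c + 1) + K.card = 2 * ∑ c ∈ K, (Ec c + 1) := by
      rw [Finset.mul_sum, Finset.card_eq_sum_ones, ← Finset.sum_add_distrib]
      exact Finset.sum_congr rfl fun c _ => by ring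
    omega
  · -- supp
    intro u hu
    by_cases hua : u = a
    · exact Or.inl hua
    · right
      unfold nodeFam at hu
      simp only [hua, if_false, add_zero] at hu
      have : ∃ c ∈ K, Fc c u ≠ 0 := by
        by_contra h
        push Not at h
        exact hu (Finset.sum_eq_zero h)
      obtain ⟨c, hcK, hFc⟩ := this
      rcases (hc c hcK).supp u hFc with h | h
      · rw [h]; exact ⟨a, (hKnb c hcK).symm⟩
      · exact h
  · -- root
    unfold nodeFam
    simp only [if_true]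
    intro h
    have h5 : S0 b a K ∈ (∑ c ∈ K, Fc c a + {S0 b a K} : Multiset (Finset V)) :=
      Multiset.mem_add.mpr (Or.inr (Multiset.mem_singleton_self _))
    rw [h] at h5
    simp at h5
  · -- D_one
    have h5 : (1 : ℝ) ≤ (K.card ! : ℝ) := by exact_mod_cast Nat.factorial_pos _
    have h6 : 1 ≤ ∏ c ∈ K, Dc c := one_le_prod_of_one_le fun c hcK => (hc c hcK).D_one
    nlinarith
  · -- D_fac
    have h5 : ∏ c ∈ K, Dc c ≤ ∏ c ∈ K, ((Ec c)! : ℝ) :=
      Finset.prod_le_prod (fun c hcK => zero_le_one.trans (hc c hcK).D_one)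
        (fun c hcK => (hc c hcK).D_fac)
    have h6 : ∏ c ∈ K, (Ec c)! ≤ (∑ c ∈ K, Ec c)! := prod_factorial_le K Ec
    have h7 : K.card ! * (∑ c ∈ K, Ec c)! ≤ (K.card + ∑ c ∈ K, Ec c)! :=
      Nat.factorial_mul_factorial_dvd_factorial_add _ _ |> Nat.le_of_dvd (Nat.factorial_pos _)
    have h8 : ∑ c ∈ K, (Ec c + 1) = K.card + ∑ c ∈ K, Ec c := by
      rw [Finset.sum_add_distrib, Finset.card_eq_sum_ones]
      ring
    rw [h8]
    have h9 : (K.card ! : ℝ) * ∏ c ∈ K, ((Ec c)! : ℝ)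
        ≤ (((K.card + ∑ c ∈ K, Ec c)! : ℕ) : ℝ) := by
      have : K.card ! * ∏ c ∈ K, (Ec c)! ≤ (K.card + ∑ c ∈ K, Ec c)! :=
        (Nat.mul_le_mul_left _ h6).trans h7
      exact_mod_cast this
    exact (mul_le_mul_of_nonneg_left h5 (by positivity)).trans h9

/-- A real number at most `8 w` has factorial at most `exp ((t-1) w / 2)`. -/
lemma factorial_succ_le_pow : ∀ k : ℕ, (k + 1)! ≤ (k + 1) ^ k
  | 0 => by simp
  | k + 1 => by
    have ih := factorial_succ_le_pow k
    rw [Nat.factorial_succ, pow_succ, mul_comm]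
    refine Nat.mul_le_mul_right _ ?_
    exact ih.trans (Nat.pow_le_pow_left (by omega) k)

lemma eight_mul_le_exp {w : ℝ} (hw : 64 ≤ w) : 8 * w ≤ Real.exp (w / 2) := by
  have h1 := Real.quadratic_le_exp_of_nonneg (x := w / 2) (by linarith)
  nlinarith

lemma factorial_le_exp_low {w : ℝ} (hw : 64 ≤ w) {t : ℕ} (ht : (t : ℝ) ≤ 8 * w) (ht1 : 1 ≤ t) :
    (t ! : ℝ) ≤ Real.exp (((t : ℝ) - 1) * (w / 2)) := by
  obtain ⟨k, rfl⟩ : ∃ k, t = k + 1 := ⟨t - 1, by omega⟩
  have h1 : (((k + 1)! : ℕ) : ℝ) ≤ ((k : ℝ) + 1) ^ k := by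
    have := factorial_succ_le_pow k
    exact_mod_cast this
  have h2 : ((k : ℝ) + 1) ^ k ≤ (8 * w) ^ k := by
    refine pow_le_pow_left₀ (by positivity) ?_ k
    simpa using ht
  have h3 : (8 * w) ^ k ≤ Real.exp (w / 2) ^ k :=
    pow_le_pow_left₀ (by linarith) (eight_mul_le_exp hw) k
  have h4 : Real.exp (w / 2) ^ k = Real.exp ((((k + 1 : ℕ) : ℝ) - 1) * (w / 2)) := by
    rw [← Real.exp_nat_mul]
    congr 1
    push_cast
    ring
  rw [← h4]
  exact h1.trans (h2.trans h3)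

/-- The product of exponentials. -/
lemma prod_le_exp_sum {K : Finset V} {f : V → ℝ} {a : V → ℝ} (h0 : ∀ c ∈ K, 0 ≤ f c)
    (h : ∀ c ∈ K, f c ≤ Real.exp (a c)) : ∏ c ∈ K, f c ≤ Real.exp (∑ c ∈ K, a c) := by
  rw [Real.exp_sum]
  exact Finset.prod_le_prod h0 h

/-- Cast of the size of a node. -/
lemma cast_tot (K : Finset V) (Ec : V → ℕ) :
    ((∑ c ∈ K, (Ec c + 1) : ℕ) : ℝ) = ∑ c ∈ K, (Ec c : ℝ) + K.card := by
  push_cast
  rw [Finset.sum_add_distrib]
  simp

lemma pow_tot {w : ℝ} (K : Finset V) (Ec : V → ℕ) :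
    w ^ (∑ c ∈ K, (Ec c + 1)) = w ^ K.card * ∏ c ∈ K, w ^ Ec c := by
  rw [Finset.prod_pow_eq_pow_sum, ← pow_add, Finset.sum_add_distrib, add_comm]
  simp

/-- The node construction at a hub. -/
theorem cert_hub {G : SimpleGraph V} {w : ℝ} (hw : 1 ≤ w) {b a : V} {K : Finset V}
    (hab : b = a ∨ G.Adj b a) (hK : K ⊆ (nb G a).erase b) (hhub : isHub G w a)
    {Fc : V → V → Multiset (Finset V)} {Ec : V → ℕ} {Dc Dlc : V → ℝ}
    (hc : ∀ c ∈ K, IsCert G w a c (Fc c) (Ec c) (Dc c) (Dlc c)) :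
    IsCert G w b a (nodeFam Fc K (S0 b a K) a) (∑ c ∈ K, (Ec c + 1))
      ((K.card ! : ℝ) * ∏ c ∈ K, Dc c) (∏ c ∈ K, Dlc c) := by
  have hw0 : 0 < w := by linarith
  have hDl0 : ∀ c ∈ K, 0 ≤ Dlc c := fun c hcK => zero_le_one.trans (hc c hcK).Dl_one
  have hD0 : ∀ c ∈ K, 0 ≤ Dc c := fun c hcK => zero_le_one.trans (hc c hcK).D_one
  have hle : ∏ c ∈ K, Dlc c ≤ Real.exp (∑ c ∈ K, (Ec c : ℝ)) :=
    prod_le_exp_sum hDl0 fun c hcK => (hc c hcK).Dl_le
  refine cert_node hab hK hc ?_ ?_ ?_ ?_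
  · -- D_Q
    rw [Qv_node, if_pos hhub]
    have h1 : ∏ c ∈ K, Dc c ≤ (∏ c ∈ K, Qv G w (Fc c)) * ∏ c ∈ K, Dlc c := by
      rw [← Finset.prod_mul_distrib]
      exact Finset.prod_le_prod hD0 fun c hcK => (hc c hcK).D_Q
    have h2 : (K.card ! : ℝ) ≤ ((S0 b a K).card ! : ℝ) := by
      exact_mod_cast Nat.factorial_le (Finset.card_le_card sub_S0)
    have h3 : 0 ≤ ∏ c ∈ K, Dc c := Finset.prod_nonneg hD0
    calc (K.card ! : ℝ) * ∏ c ∈ K, Dc c
        ≤ ((S0 b a K).card ! : ℝ) * ((∏ c ∈ K, Qv G w (Fc c)) * ∏ c ∈ K, Dlc c) :=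
          mul_le_mul h2 h1 h3 (by positivity)
      _ = _ := by ring
  · exact one_le_prod_of_one_le fun c hcK => (hc c hcK).Dl_one
  · rw [cast_tot]
    refine hle.trans (Real.exp_le_exp.mpr ?_)
    have : (0 : ℝ) ≤ K.card := Nat.cast_nonneg _
    linarith
  · intro hgt
    rw [cast_tot]
    by_cases hch : ∃ c ∈ K, w ^ Ec c < Dc c
    · obtain ⟨c₀, hc₀, hlt⟩ := hch
      have h1 := (hc c₀ hc₀).Dl_gain hlt
      have h2 : ∏ c ∈ K, Dlc c = Dlc c₀ * ∏ c ∈ K.erase c₀, Dlc c :=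
        (Finset.mul_prod_erase K Dlc hc₀).symm
      have h3 : ∏ c ∈ K.erase c₀, Dlc c ≤ Real.exp (∑ c ∈ K.erase c₀, (Ec c : ℝ)) :=
        prod_le_exp_sum (fun c hc' => hDl0 c (Finset.mem_of_mem_erase hc'))
          fun c hc' => (hc c (Finset.mem_of_mem_erase hc')).Dl_le
      have h4 : 0 ≤ ∏ c ∈ K.erase c₀, Dlc c :=
        Finset.prod_nonneg fun c hc' => hDl0 c (Finset.mem_of_mem_erase hc')
      rw [h2]
      calc Dlc c₀ * ∏ c ∈ K.erase c₀, Dlc c
          ≤ Real.exp ((Ec c₀ : ℝ) - w / 2) * Real.exp (∑ c ∈ K.erase c₀, (Ec c : ℝ)) :=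
            mul_le_mul h1 h3 h4 (Real.exp_pos _).le
        _ = Real.exp (∑ c ∈ K, (Ec c : ℝ) - w / 2) := by
            rw [← Real.exp_add, ← Finset.add_sum_erase K (fun c => (Ec c : ℝ)) hc₀]
            congr 1
            ring
        _ ≤ _ := by
            refine Real.exp_le_exp.mpr ?_
            have : (0 : ℝ) ≤ K.card := Nat.cast_nonneg _
            linarith
    · push Not at hch
      have h1 : ∏ c ∈ K, Dc c ≤ ∏ c ∈ K, w ^ Ec c := Finset.prod_le_prod hD0 hch
      have h2 : w ^ K.card * ∏ c ∈ K, w ^ Ec c < (K.card ! : ℝ) * ∏ c ∈ K, w ^ Ec c := by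
        rw [← pow_tot]
        refine hgt.trans_le ?_
        exact mul_le_mul_of_nonneg_left h1 (by positivity)
      have h3 : 0 < ∏ c ∈ K, w ^ Ec c := Finset.prod_pos fun c _ => by positivity
      have h4 : w ^ K.card < (K.card ! : ℝ) := lt_of_mul_lt_mul_right h2 h3.le
      have h5 : w < K.card := by
        by_contra h6
        push Not at h6
        have h7 : (K.card ! : ℝ) ≤ (K.card : ℝ) ^ K.card := by
          exact_mod_cast Nat.factorial_le_pow K.card
        have h8 : (K.card : ℝ) ^ K.card ≤ w ^ K.card := pow_le_pow_left₀ (by positivity) h6 _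
        linarith
      refine hle.trans (Real.exp_le_exp.mpr ?_)
      linarith

/-- The node construction at a vertex which is not a hub, all of whose children are big. -/
theorem cert_low {G : SimpleGraph V} {w : ℝ} (hw : 64 ≤ w) {b a : V} {K : Finset V}
    (hab : b = a ∨ G.Adj b a) (hK : K ⊆ (nb G a).erase b) (hlow : ¬ isHub G w a)
    {Fc : V → V → Multiset (Finset V)} {Ec : V → ℕ} {Dc Dlc : V → ℝ}
    (hc : ∀ c ∈ K, IsCert G w a c (Fc c) (Ec c) (Dc c) (Dlc c))
    (hbig : ∀ c ∈ K, w ^ Ec c < Dc c) :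
    IsCert G w b a (nodeFam Fc K (S0 b a K) a) (∑ c ∈ K, (Ec c + 1))
      ((K.card ! : ℝ) * ∏ c ∈ K, Dc c) ((K.card ! : ℝ) * ∏ c ∈ K, Dlc c) := by
  have hw0 : 0 < w := by linarith
  have hDl0 : ∀ c ∈ K, 0 ≤ Dlc c := fun c hcK => zero_le_one.trans (hc c hcK).Dl_one
  have hD0 : ∀ c ∈ K, 0 ≤ Dc c := fun c hcK => zero_le_one.trans (hc c hcK).D_one
  have hKcard : (K.card : ℝ) ≤ 8 * w := by
    have h1 : K.card ≤ (nb G a).card :=
      (Finset.card_le_card hK).trans Finset.card_erase_le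
    have h2 : ((nb G a).card : ℝ) ≤ 8 * w := not_lt.mp hlow
    have h3 : (K.card : ℝ) ≤ ((nb G a).card : ℝ) := by exact_mod_cast h1
    linarith
  -- the main estimate
  have hmain : K.Nonempty → (K.card ! : ℝ) * ∏ c ∈ K, Dlc c
      ≤ Real.exp (((∑ c ∈ K, (Ec c + 1) : ℕ) : ℝ) - w / 2) := by
    intro hne
    have h1 : 1 ≤ K.card := Finset.card_pos.mpr hne
    have h2 := factorial_le_exp_low hw hKcard h1
    have h3 : ∏ c ∈ K, Dlc c ≤ Real.exp (∑ c ∈ K, ((Ec c : ℝ) - w / 2)) :=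
      prod_le_exp_sum hDl0 fun c hcK => (hc c hcK).Dl_gain (hbig c hcK)
    have h4 : 0 ≤ ∏ c ∈ K, Dlc c := Finset.prod_nonneg hDl0
    calc (K.card ! : ℝ) * ∏ c ∈ K, Dlc c
        ≤ Real.exp (((K.card : ℝ) - 1) * (w / 2)) * Real.exp (∑ c ∈ K, ((Ec c : ℝ) - w / 2)) :=
          mul_le_mul h2 h3 h4 (Real.exp_pos _).le
      _ = Real.exp (∑ c ∈ K, (Ec c : ℝ) - w / 2) := by
          rw [← Real.exp_add, Finset.sum_sub_distrib, Finset.sum_const, nsmul_eq_mul]
          congr 1
          ring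
      _ ≤ _ := by
          refine Real.exp_le_exp.mpr ?_
          rw [cast_tot]
          have : (0 : ℝ) ≤ K.card := Nat.cast_nonneg _
          linarith
  refine cert_node hab hK hc ?_ ?_ ?_ ?_
  · -- D_Q
    rw [Qv_node, if_neg hlow, mul_one]
    have h1 : ∏ c ∈ K, Dc c ≤ (∏ c ∈ K, Qv G w (Fc c)) * ∏ c ∈ K, Dlc c := by
      rw [← Finset.prod_mul_distrib]
      exact Finset.prod_le_prod hD0 fun c hcK => (hc c hcK).D_Q
    calc (K.card ! : ℝ) * ∏ c ∈ K, Dc c
        ≤ (K.card ! : ℝ) * ((∏ c ∈ K, Qv G w (Fc c)) * ∏ c ∈ K, Dlc c) :=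
          mul_le_mul_of_nonneg_left h1 (by positivity)
      _ = _ := by ring
  · have h5 : (1 : ℝ) ≤ (K.card ! : ℝ) := by exact_mod_cast Nat.factorial_pos _
    have h6 : 1 ≤ ∏ c ∈ K, Dlc c := one_le_prod_of_one_le fun c hcK => (hc c hcK).Dl_one
    nlinarith
  · rcases Finset.eq_empty_or_nonempty K with rfl | hne
    · simp
    · refine (hmain hne).trans (Real.exp_le_exp.mpr ?_)
      linarith
  · intro hgt
    rcases Finset.eq_empty_or_nonempty K with rfl | hne
    · simp at hgt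
    · exact hmain hne

end Vale.Agent.Lib.P064
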