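import Vale.Agent.Lib.P064.Gen2

/-!
Majorization of factorial products and the layers of a certificate.
-/

namespace Vale.Agent.Lib.P064

open Finset
open scoped Nat Classical

set_option linter.unusedSectionVars false
set_option linter.unusedVariables false

variable {V : Type*} [Fintype V]

/-- The layer product of a multiplicity function. -/
noncomputable def Lf (N : ℕ) (f : V → ℕ) : ℕ :=
  ∏ l ∈ Finset.range N, ((Finset.univ.filter (fun v => l < f v)).card)!

/-- Adding one to the multiplicity of one element. -/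
lemma Lf_add_one (N : ℕ) (f : V → ℕ) (v₀ : V) (hv₀ : f v₀ < N) (k : ℕ)
    (hk : k ≤ (Finset.univ.filter (fun v => f v₀ < f v)).card) :
    (k + 1) * Lf N f ≤ Lf N (fun v => f v + if v = v₀ then 1 else 0) := by
  unfold Lf
  set g : V → ℕ := fun v => f v + if v = v₀ then 1 else 0 with hg
  have hl : f v₀ ∈ Finset.range N := Finset.mem_range.mpr hv₀
  rw [← Finset.mul_prod_erase _ _ hl, ← Finset.mul_prod_erase _ _ hl]
  have hrest : ∏ l ∈ (Finset.range N).erase (f v₀), ((Finset.univ.filter (fun v => l < g v)).card)!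
      = ∏ l ∈ (Finset.range N).erase (f v₀), ((Finset.univ.filter (fun v => l < f v)).card)! := by
    refine Finset.prod_congr rfl fun l hl' => ?_
    have hne : l ≠ f v₀ := (Finset.mem_erase.mp hl').1
    congr 2
    ext v
    simp only [Finset.mem_filter, Finset.mem_univ, true_and, hg]
    by_cases hv : v = v₀
    · subst hv
      simp only [if_true]
      omega
    · simp [hv]
  have hF : Finset.univ.filter (fun v => f v₀ < g v)
      = insert v₀ (Finset.univ.filter (fun v => f v₀ < f v)) := by
    ext v
    simp only [Finset.mem_filter, Finset.mem_univ, true_and, Finset.mem_insert, hg]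
    by_cases hv : v = v₀
    · subst hv; simp
    · simp [hv]
  have hnot : v₀ ∉ Finset.univ.filter (fun v => f v₀ < f v) := by simp
  rw [hrest, hF, Finset.card_insert_of_notMem hnot, Nat.factorial_succ, ← mul_assoc]
  refine Nat.mul_le_mul_right _ ?_
  exact Nat.mul_le_mul_right _ (by omega)

/-- Adding one to the multiplicity on a whole set. -/
lemma Lf_add_set (N : ℕ) : ∀ (m : ℕ) (S : Finset V) (f : V → ℕ), S.card = m →
    (∀ v ∈ S, f v < N) →
    m ! * Lf N f ≤ Lf N (fun v => f v + if v ∈ S then 1 else 0) := by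
  intro m
  induction m with
  | zero =>
    intro S f hS _
    have h0 : S = ∅ := Finset.card_eq_zero.mp hS
    subst h0
    simp
  | succ m ih =>
    intro S f hS hf
    have hne : S.Nonempty := Finset.card_pos.mp (by omega)
    obtain ⟨v₀, hv₀, hmin⟩ := Finset.exists_min_image S f hne
    set S' := S.erase v₀ with hS'
    have hS'card : S'.card = m := by
      rw [hS', Finset.card_erase_of_mem hv₀, hS]; rfl
    have h1 := ih S' f hS'card (fun v hv => hf v (Finset.mem_of_mem_erase hv))
    set g : V → ℕ := fun v => f v + if v ∈ S' then 1 else 0 with hg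
    have hgv₀ : g v₀ = f v₀ := by simp [hg, hS']
    have hk : m ≤ (Finset.univ.filter (fun v => g v₀ < g v)).card := by
      rw [← hS'card]
      refine Finset.card_le_card fun v hv => ?_
      simp only [Finset.mem_filter, Finset.mem_univ, true_and]
      rw [hgv₀]
      have h2 : f v₀ ≤ f v := hmin v (Finset.mem_of_mem_erase hv)
      simp only [hg, hv, if_true]
      omega
    have h2 := Lf_add_one N g v₀ (by rw [hgv₀]; exact hf v₀ hv₀) m hk
    have h3 : (fun v => g v + if v = v₀ then 1 else 0) = fun v => f v + if v ∈ S then 1 else 0 := by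
      funext v
      simp only [hg, hS', Finset.mem_erase]
      by_cases hv : v = v₀
      · subst hv; simp [hv₀]
      · simp [hv]
    rw [h3] at h2
    calc (m + 1)! * Lf N f = (m + 1) * (m ! * Lf N f) := by
          rw [Nat.factorial_succ]; ring
      _ ≤ (m + 1) * Lf N g := Nat.mul_le_mul_left _ h1
      _ ≤ _ := h2

/-- The product of factorials of a family of sets is at most the layer product. -/
lemma prod_le_Lf (M : Multiset (Finset V)) : ∀ N : ℕ, Multiset.card M ≤ N →
    (M.map (fun S => ((S.card)! : ℝ))).prod ≤ (Lf N (fun v => M.countP (fun S => v ∈ S)) : ℝ) := by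
  induction M using Multiset.induction_on with
  | empty =>
    intro N _
    simp [Lf]
  | cons S M ih =>
    intro N hN
    rw [Multiset.card_cons] at hN
    have h1 := ih N (by omega)
    rw [Multiset.map_cons, Multiset.prod_cons]
    have h2 := Lf_add_set N S.card S (fun v => M.countP (fun S => v ∈ S)) rfl
      (fun v _ => lt_of_le_of_lt (Multiset.countP_le_card _ _) (by omega))
    have h3 : (fun v => M.countP (fun S => v ∈ S) + if v ∈ S then 1 else 0)
        = fun v => (S ::ₘ M).countP (fun S => v ∈ S) := by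
      funext v
      rw [Multiset.countP_cons]
    rw [h3] at h2
    calc ((S.card)! : ℝ) * (M.map (fun S => ((S.card)! : ℝ))).prod
        ≤ ((S.card)! : ℝ) * (Lf N (fun v => M.countP (fun S => v ∈ S)) : ℝ) :=
          mul_le_mul_of_nonneg_left h1 (by positivity)
      _ ≤ _ := by exact_mod_cast h2

/-- Layer-cake summation. -/
lemma layer_cake {α : Type*} (A : Finset α) (f : α → ℕ) (N : ℕ) (hf : ∀ x ∈ A, f x ≤ N) :
    ∑ l ∈ Finset.range N, (A.filter (fun x => l < f x)).card = ∑ x ∈ A, f x := by
  simp only [Finset.card_filter]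
  rw [Finset.sum_comm]
  refine Finset.sum_congr rfl fun x hx => ?_
  rw [← Finset.card_filter]
  have : (Finset.range N).filter (fun l => l < f x) = Finset.range (f x) := by
    ext l
    simp only [Finset.mem_filter, Finset.mem_range]
    have := hf x hx
    omega
  rw [this, Finset.card_range]

/-- The vertices of layer `l`. -/
noncomputable def layX (Fam : V → Multiset (Finset V)) (l : ℕ) : Finset V :=
  Finset.univ.filter (fun u => l < cnt Fam u)

/-- The out-neighbourhoods of layer `l`. -/
noncomputable def layOut (Fam : V → Multiset (Finset V)) (r : V → ℕ) (l : ℕ) (u : V) : Finset V :=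
  Finset.univ.filter (fun v => l < mu Fam u v ∧ r v < r u)

lemma mu_le_cnt (Fam : V → Multiset (Finset V)) (u v : V) : mu Fam u v ≤ cnt Fam u :=
  Multiset.countP_le_card _ _

section Layers

variable {G : SimpleGraph V} {w : ℝ} {a : V} {Fam : V → Multiset (Finset V)} {E : ℕ} {D Dl : ℝ}

lemma par_self (a u v : V) : par a a u v = 0 := by
  unfold par
  simp

lemma IsCert.mu_symm (hc : IsCert G w a a Fam E D Dl) (u v : V) : mu Fam u v = mu Fam v u := by
  have := hc.symm u v
  rw [par_self, par_self] at this
  omega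

lemma IsCert.adj_of_mu (hc : IsCert G w a a Fam E D Dl) {u v : V} (h : 0 < mu Fam u v) :
    G.Adj u v := by
  obtain ⟨S, hS, hv⟩ := Multiset.countP_pos.mp h
  exact mem_nb.mp (hc.sub u S hS hv)

lemma IsCert.cnt_le (hc : IsCert G w a a Fam E D Dl) (u : V) : cnt Fam u ≤ E + 1 := by
  rw [← hc.cnt_sum]
  exact Finset.single_le_sum (f := cnt Fam) (fun _ _ => Nat.zero_le _) (Finset.mem_univ u)

lemma IsCert.layers_oriented (hc : IsCert G w a a Fam E D Dl) (r : V → ℕ) (l : ℕ) :
    IsOriented G (layX Fam l) (layOut Fam r l) where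
  sub := by
    intro u _ v hv
    rcases Finset.mem_filter.mp hv with ⟨_, h1, _⟩
    refine Finset.mem_filter.mpr ⟨Finset.mem_univ _, ?_⟩
    rw [hc.mu_symm u v] at h1
    exact h1.trans_le (mu_le_cnt _ _ _)
  off := by
    intro u hu
    refine Finset.eq_empty_of_forall_notMem fun v hv => ?_
    rcases Finset.mem_filter.mp hv with ⟨_, h1, _⟩
    exact hu (Finset.mem_filter.mpr ⟨Finset.mem_univ _, h1.trans_le (mu_le_cnt _ _ _)⟩)
  adj := by
    intro u v hv
    rcases Finset.mem_filter.mp hv with ⟨_, h1, _⟩
    exact hc.adj_of_mu (by omega)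
  anti := by
    intro u v hv hu
    rcases Finset.mem_filter.mp hv with ⟨_, _, h1⟩
    rcases Finset.mem_filter.mp hu with ⟨_, _, h2⟩
    omega

lemma IsCert.vsum (hc : IsCert G w a a Fam E D Dl) :
    ∑ l ∈ Finset.range (E + 2), (layX Fam l).card = E + 1 := by
  unfold layX
  rw [layer_cake Finset.univ (cnt Fam) (E + 2) (fun u _ => (hc.cnt_le u).trans (by omega))]
  exact hc.cnt_sum

lemma layOut_eq_empty (hc : IsCert G w a a Fam E D Dl) (r : V → ℕ) {l : ℕ} {u : V}
    (hu : u ∉ layX Fam l) : layOut Fam r l u = ∅ :=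
  (hc.layers_oriented r l).off u hu

/-- The sum of the multiplicities over the edges going down the rank. -/
lemma IsCert.sum_down (hc : IsCert G w a a Fam E D Dl) {r : V → ℕ} (hr : Function.Injective r) :
    ∑ u, ∑ v ∈ Finset.univ.filter (fun v => r v < r u), mu Fam u v = E := by
  set A := ∑ u, ∑ v, (if r v < r u then mu Fam u v else 0) with hA
  set B := ∑ u, ∑ v, (if r u < r v then mu Fam u v else 0) with hB
  have h1 : ∑ u, ∑ v ∈ Finset.univ.filter (fun v => r v < r u), mu Fam u v = A := by
    refine Finset.sum_congr rfl fun u _ => ?_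
    rw [Finset.sum_filter]
  have h2 : B = A := by
    rw [hB, hA, Finset.sum_comm]
    refine Finset.sum_congr rfl fun u _ => Finset.sum_congr rfl fun v _ => ?_
    rw [hc.mu_symm v u]
  have h3 : ∑ u, ∑ v, mu Fam u v = A + B := by
    rw [hA, hB, ← Finset.sum_add_distrib]
    refine Finset.sum_congr rfl fun u _ => ?_
    rw [← Finset.sum_add_distrib]
    refine Finset.sum_congr rfl fun v _ => ?_
    by_cases h4 : r v < r u
    · have h5 : ¬ r u < r v := by omega
      simp [h4, h5]
    · by_cases h5 : r u < r v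
      · simp [h4, h5]
      · have h6 : r u = r v := by omega
        have h7 : u = v := hr h6
        subst h7
        have h8 : mu Fam u u = 0 := by
          by_contra h9
          exact (hc.adj_of_mu (Nat.pos_of_ne_zero h9)).ne rfl
        simp [h8]
  have h4 := hc.mu_sum
  rw [if_pos rfl] at h4
  rw [h1]
  omega

lemma IsCert.esum_univ (hc : IsCert G w a a Fam E D Dl) {r : V → ℕ} (hr : Function.Injective r) :
    ∑ u, ∑ l ∈ Finset.range (E + 2), (layOut Fam r l u).card = E := by
  have key : ∀ u, ∑ l ∈ Finset.range (E + 2), (layOut Fam r l u).card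
      = ∑ v ∈ Finset.univ.filter (fun v => r v < r u), mu Fam u v := by
    intro u
    rw [← layer_cake (Finset.univ.filter (fun v => r v < r u)) (mu Fam u) (E + 2)
      (fun v _ => (mu_le_cnt _ _ _).trans ((hc.cnt_le u).trans (by omega)))]
    refine Finset.sum_congr rfl fun l _ => ?_
    congr 1
    ext v
    simp only [layOut, Finset.mem_filter, Finset.mem_univ, true_and]
    tauto
  simp only [key]
  exact hc.sum_down hr

lemma IsCert.esum (hc : IsCert G w a a Fam E D Dl) {r : V → ℕ} (hr : Function.Injective r) :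
    ∑ l ∈ Finset.range (E + 2), ∑ u ∈ layX Fam l, (layOut Fam r l u).card = E := by
  have h1 : ∀ l ∈ Finset.range (E + 2), ∑ u ∈ layX Fam l, (layOut Fam r l u).card
      = ∑ u, (layOut Fam r l u).card := by
    intro l _
    refine Finset.sum_subset (Finset.subset_univ _) fun u _ hu => ?_
    rw [layOut_eq_empty hc r hu]
    rfl
  rw [Finset.sum_congr rfl h1, Finset.sum_comm]
  exact hc.esum_univ hr

lemma exp_nat_le_three (E : ℕ) : Real.exp (E : ℝ) ≤ 3 ^ E := by
  have : Real.exp (E : ℝ) = Real.exp 1 ^ E := by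
    rw [← Real.exp_nat_mul]; simp
  rw [this]
  exact pow_le_pow_left₀ (Real.exp_pos 1).le Real.exp_one_lt_three.le E

/-- The main bound of a certificate by the layers. -/
theorem IsCert.D_le_layers (hc : IsCert G w a a Fam E D Dl) {r : V → ℕ} (hr : Function.Injective r)
    (hhub : ∀ u, isHub G w u → ((nb G u).filter (fun v => r u < r v)).card ≤ 1) :
    D ≤ 6 ^ E * ∏ l ∈ Finset.range (E + 2), ∏ u ∈ layX Fam l, (((layOut Fam r l u).card)! : ℝ) := by
  set N := E + 2 with hN
  set o : ℕ → V → ℕ := fun l u => (layOut Fam r l u).card with ho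
  -- the bound at a single hub
  have hu1 : ∀ u, isHub G w u → ((Fam u).map (fun S => ((S.card)! : ℝ))).prod
      ≤ ∏ l ∈ Finset.range N, ((2 : ℝ) ^ o l u * ((o l u)! : ℝ)) := by
    intro u hu
    have h1 := prod_le_Lf (Fam u) N ((hc.cnt_le u).trans (by omega))
    refine h1.trans ?_
    unfold Lf
    push_cast
    refine Finset.prod_le_prod (fun _ _ => by positivity) fun l _ => ?_
    have h2 : (Finset.univ.filter (fun v => l < (Fam u).countP (fun S => v ∈ S))).card ≤ o l u + 1 := by
      have h3 : Finset.univ.filter (fun v => l < (Fam u).countP (fun S => v ∈ S))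
          ⊆ layOut Fam r l u ∪ (nb G u).filter (fun v => r u < r v) := by
        intro v hv
        have hv' : l < mu Fam u v := (Finset.mem_filter.mp hv).2
        have hadj : G.Adj u v := hc.adj_of_mu (by omega)
        have hne : r u ≠ r v := fun h => hadj.ne (hr h)
        rcases lt_or_gt_of_ne hne with h4 | h4
        · exact Finset.mem_union_right _ (Finset.mem_filter.mpr ⟨mem_nb.mpr hadj, h4⟩)
        · exact Finset.mem_union_left _ (Finset.mem_filter.mpr ⟨Finset.mem_univ _, hv', h4⟩)
      have h4 := Finset.card_le_card h3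
      have h5 := Finset.card_union_le (layOut Fam r l u) ((nb G u).filter (fun v => r u < r v))
      have h6 := hhub u hu
      simp only [ho]
      omega
    have h3 : ((Finset.univ.filter (fun v => l < (Fam u).countP (fun S => v ∈ S))).card)!
        ≤ (o l u + 1)! := Nat.factorial_le h2
    have h4 : (o l u + 1)! ≤ 2 ^ o l u * (o l u)! := by
      rw [Nat.factorial_succ]
      exact Nat.mul_le_mul_right _ Nat.lt_two_pow_self
    exact_mod_cast h3.trans h4
  have hfac1 : ∀ u, 1 ≤ ∏ l ∈ Finset.range N, ((2 : ℝ) ^ o l u * ((o l u)! : ℝ)) := by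
    intro u
    refine one_le_prod_of_one_le fun l _ => ?_
    have h1 : (1 : ℝ) ≤ 2 ^ o l u := one_le_pow₀ (by norm_num)
    have h2 : (1 : ℝ) ≤ ((o l u)! : ℝ) := by exact_mod_cast Nat.factorial_pos _
    nlinarith
  -- the bound for the product over the hubs
  have hQ : Qv G w Fam ≤ ∏ u, ∏ l ∈ Finset.range N, ((2 : ℝ) ^ o l u * ((o l u)! : ℝ)) := by
    unfold Qv
    calc ∏ u ∈ Finset.univ.filter (fun u => isHub G w u), ((Fam u).map (fun S => ((S.card)! : ℝ))).prod
        ≤ ∏ u ∈ Finset.univ.filter (fun u => isHub G w u),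
            ∏ l ∈ Finset.range N, ((2 : ℝ) ^ o l u * ((o l u)! : ℝ)) := by
          refine Finset.prod_le_prod (fun u _ => ?_) fun u hu => hu1 u (Finset.mem_filter.mp hu).2
          refine Multiset.prod_nonneg fun x hx => ?_
          obtain ⟨S, _, rfl⟩ := Multiset.mem_map.mp hx
          positivity
      _ ≤ _ := by
          rw [← Finset.prod_filter_mul_prod_filter_not Finset.univ (fun u => isHub G w u)
            (fun u => ∏ l ∈ Finset.range N, ((2 : ℝ) ^ o l u * ((o l u)! : ℝ)))]
          have h1 : 1 ≤ ∏ u ∈ Finset.univ.filter (fun u => ¬ isHub G w u),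
              ∏ l ∈ Finset.range N, ((2 : ℝ) ^ o l u * ((o l u)! : ℝ)) :=
            one_le_prod_of_one_le fun u _ => hfac1 u
          have h2 : 0 ≤ ∏ u ∈ Finset.univ.filter (fun u => isHub G w u),
              ∏ l ∈ Finset.range N, ((2 : ℝ) ^ o l u * ((o l u)! : ℝ)) :=
            Finset.prod_nonneg fun u _ => zero_le_one.trans (hfac1 u)
          nlinarith
  have hprod : ∏ u, ∏ l ∈ Finset.range N, ((2 : ℝ) ^ o l u * ((o l u)! : ℝ))
      = 2 ^ E * ∏ l ∈ Finset.range N, ∏ u ∈ layX Fam l, (((layOut Fam r l u).card)! : ℝ) := by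
    simp only [Finset.prod_mul_distrib, Finset.prod_pow_eq_pow_sum]
    congr 1
    · rw [← hc.esum_univ hr]
    · rw [Finset.prod_comm]
      refine Finset.prod_congr rfl fun l _ => ?_
      symm
      refine Finset.prod_subset (Finset.subset_univ _) fun u _ hu => ?_
      rw [layOut_eq_empty hc r hu]
      simp
  rw [hprod] at hQ
  have hDl : Dl ≤ 3 ^ E := hc.Dl_le.trans (exp_nat_le_three E)
  have hP : 0 ≤ ∏ l ∈ Finset.range N, ∏ u ∈ layX Fam l, (((layOut Fam r l u).card)! : ℝ) :=
    Finset.prod_nonneg fun l _ => Finset.prod_nonneg fun u _ => by positivity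
  have hDl0 : 0 ≤ Dl := zero_le_one.trans hc.Dl_one
  calc D ≤ Qv G w Fam * Dl := hc.D_Q
    _ ≤ (2 ^ E * ∏ l ∈ Finset.range N, ∏ u ∈ layX Fam l, (((layOut Fam r l u).card)! : ℝ)) * 3 ^ E :=
        mul_le_mul hQ hDl hDl0 (by positivity)
    _ = _ := by
        have : (6 : ℝ) ^ E = 2 ^ E * 3 ^ E := by rw [← mul_pow]; norm_num
        rw [this]
        ring

end Layers

end Vale.Agent.Lib.P064
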