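import Vale.Agent.Lib.P064.Gen3

/-!
Sparsity consequences of the hypothesis: the hubs admit a rank with at most one upper neighbour,
and a graph with a cycle forces `12 n q ≥ 1`.
-/

namespace Vale.Agent.Lib.P064

open Finset
open scoped Nat Classical

set_option linter.unusedSectionVars false
set_option linter.unusedVariables false

variable {V : Type*} [Fintype V]

/-- The basic numerical form of the bound for an oriented graph. -/
lemma bound_one {n v e : ℕ} {q : ℝ} (hn : 0 < n) (hv : 0 < v) (hq : 0 < q) :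
    (6 * (n : ℝ) / (v : ℝ)) ^ v * (2 * (v : ℝ)) ^ e * q ^ e * ((v : ℝ) ^ v * (6 * (n : ℝ)) ^ e)
      ≤ (6 * (n : ℝ)) ^ v * ((v : ℝ) ^ e * (12 * n * q) ^ e) := by
  have hn' : (0 : ℝ) < n := by exact_mod_cast hn
  have hv' : (0 : ℝ) < v := by exact_mod_cast hv
  have e1 : (6 * (n : ℝ) / v) ^ v * (v : ℝ) ^ v = (6 * (n : ℝ)) ^ v := by
    rw [← mul_pow]
    congr 1
    field_simp
  have e2 : (2 * (v : ℝ)) ^ e * q ^ e * (6 * (n : ℝ)) ^ e = (v : ℝ) ^ e * (12 * n * q) ^ e := by
    rw [← mul_pow, ← mul_pow, ← mul_pow]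
    congr 1
    ring
  apply le_of_eq
  calc (6 * (n : ℝ) / (v : ℝ)) ^ v * (2 * (v : ℝ)) ^ e * q ^ e * ((v : ℝ) ^ v * (6 * (n : ℝ)) ^ e)
      = ((6 * (n : ℝ) / v) ^ v * (v : ℝ) ^ v) * ((2 * (v : ℝ)) ^ e * q ^ e * (6 * (n : ℝ)) ^ e) := by
        ring
    _ = _ := by rw [e1, e2]

/-- When there are at least as many edges as vertices, the bound simplifies. -/
lemma dense_bound {Dd q : ℝ} {n v e : ℕ} (hn : 0 < n) (hv : 0 < v) (hq : 0 < q) (hve : v ≤ e)
    (hvn : v ≤ n) (hD0 : 0 ≤ Dd)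
    (hD : Dd ≤ (6 * (n : ℝ) / (v : ℝ)) ^ v * (2 * (v : ℝ)) ^ e * q ^ e) :
    Dd ≤ (12 * n * q) ^ e := by
  have hn' : (0 : ℝ) < n := by exact_mod_cast hn
  have hv' : (0 : ℝ) < v := by exact_mod_cast hv
  obtain ⟨x, rfl⟩ : ∃ x, e = v + x := ⟨e - v, by omega⟩
  have h1 := bound_one (e := v + x) hn hv hq
  have h2 : Dd * ((v : ℝ) ^ v * (6 * (n : ℝ)) ^ (v + x))
      ≤ (6 * (n : ℝ)) ^ v * ((v : ℝ) ^ (v + x) * (12 * n * q) ^ (v + x)) :=
    (mul_le_mul_of_nonneg_right hD (by positivity)).trans h1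
  have h3 : (v : ℝ) ≤ 6 * n := by
    have : (v : ℝ) ≤ n := by exact_mod_cast hvn
    linarith
  have h4 : (v : ℝ) ^ x ≤ (6 * (n : ℝ)) ^ x := pow_le_pow_left₀ hv'.le h3 x
  have h5 : 0 < (v : ℝ) ^ v * (6 * (n : ℝ)) ^ (v + x) := by positivity
  have h6 : (6 * (n : ℝ)) ^ v * ((v : ℝ) ^ (v + x) * (12 * n * q) ^ (v + x))
      ≤ ((12 * n * q) ^ (v + x)) * ((v : ℝ) ^ v * (6 * (n : ℝ)) ^ (v + x)) := by
    have e1 : (6 * (n : ℝ)) ^ v * ((v : ℝ) ^ (v + x) * (12 * n * q) ^ (v + x))
        = ((12 * n * q) ^ (v + x) * ((v : ℝ) ^ v * (6 * (n : ℝ)) ^ v)) * (v : ℝ) ^ x := by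
      rw [pow_add (v : ℝ) v x]; ring
    have e2 : ((12 * n * q) ^ (v + x)) * ((v : ℝ) ^ v * (6 * (n : ℝ)) ^ (v + x))
        = ((12 * n * q) ^ (v + x) * ((v : ℝ) ^ v * (6 * (n : ℝ)) ^ v)) * (6 * (n : ℝ)) ^ x := by
      rw [pow_add (6 * (n : ℝ)) v x]; ring
    rw [e1, e2]
    exact mul_le_mul_of_nonneg_left h4 (by positivity)
  exact le_of_mul_le_mul_right (h2.trans h6) h5

/-- The core construction: an oriented graph from a set of vertices with at least two neighbours
inside the set. -/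
theorem core {H G : SimpleGraph V} (hGH : G ≤ H) {n : ℕ} {q : ℝ} (hn : 0 < n)
    (hV : Fintype.card V ≤ n) (hq : 0 < q) (hyp : OBound H n q)
    (C : Finset V) (hC : C.Nonempty) (h2 : ∀ u ∈ C, 2 ≤ ((nb G u) ∩ C).card) :
    ∃ o : V → ℕ, (∏ u ∈ C, ((o u)! : ℝ)) ≤ (12 * n * q) ^ (∑ u ∈ C, o u) ∧
      C.card ≤ ∑ u ∈ C, o u ∧ ∑ u ∈ C, (nb G u).card ≤ 2 * ∑ u ∈ C, o u := by
  set r₀ : V → ℕ := fun u => (Fintype.equivFin V u : ℕ) with hr₀
  have hr₀inj : Function.Injective r₀ := fun a b h =>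
    (Fintype.equivFin V).injective (Fin.ext h)
  set A : V → Finset V := fun u => (nb G u ∩ C).filter (fun v => r₀ v < r₀ u) with hA
  set A' : V → Finset V := fun u => (nb G u ∩ C).filter (fun v => r₀ u < r₀ v) with hA'
  set P : V → Finset V := fun u => nb G u \ C with hP
  set out : V → Finset V := fun u => if u ∈ C then P u ∪ A u else ∅ with hout
  set W : Finset V := C ∪ C.biUnion P with hW
  have hoC : ∀ u ∈ C, out u = P u ∪ A u := fun u hu => by simp [hout, hu]
  have hdisj : ∀ u, Disjoint (P u) (A u) := by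
    intro u
    rw [Finset.disjoint_left]
    intro v hv1 hv2
    have h3 : v ∈ C := (Finset.mem_inter.mp (Finset.mem_filter.mp hv2).1).2
    exact (Finset.mem_sdiff.mp hv1).2 h3
  have hcardout : ∀ u ∈ C, (out u).card = (P u).card + (A u).card := by
    intro u hu
    rw [hoC u hu, Finset.card_union_of_disjoint (hdisj u)]
  have hCW : C ⊆ W := Finset.subset_union_left
  have hoff : ∀ u ∉ C, out u = ∅ := fun u hu => by simp [hout, hu]
  have hor : IsOriented H W out := by
    refine ⟨?_, ?_, ?_, ?_⟩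
    · intro u _ v hv
      by_cases hu : u ∈ C
      · rw [hoC u hu] at hv
        rcases Finset.mem_union.mp hv with h3 | h3
        · exact Finset.mem_union_right _ (Finset.mem_biUnion.mpr ⟨u, hu, h3⟩)
        · exact hCW (Finset.mem_inter.mp (Finset.mem_filter.mp h3).1).2
      · rw [hoff u hu] at hv
        simp at hv
    · intro u hu
      exact hoff u fun h => hu (hCW h)
    · intro u v hv
      by_cases hu : u ∈ C
      · rw [hoC u hu] at hv
        rcases Finset.mem_union.mp hv with h3 | h3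
        · exact hGH (mem_nb.mp (Finset.mem_sdiff.mp h3).1)
        · exact hGH (mem_nb.mp (Finset.mem_inter.mp (Finset.mem_filter.mp h3).1).1)
      · rw [hoff u hu] at hv
        simp at hv
    · intro u v hv hu
      have huC : u ∈ C := by
        by_contra h
        rw [hoff u h] at hv
        simp at hv
      have hvC : v ∈ C := by
        by_contra h
        rw [hoff v h] at hu
        simp at hu
      rw [hoC u huC] at hv
      rw [hoC v hvC] at hu
      rcases Finset.mem_union.mp hv with h3 | h3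
      · exact (Finset.mem_sdiff.mp h3).2 hvC
      · rcases Finset.mem_union.mp hu with h4 | h4
        · exact (Finset.mem_sdiff.mp h4).2 huC
        · have h5 := (Finset.mem_filter.mp h3).2
          have h6 := (Finset.mem_filter.mp h4).2
          omega
  -- double counting
  have hAA' : ∑ u ∈ C, (A u).card = ∑ u ∈ C, (A' u).card := by
    have e1 : ∀ u ∈ C, (A u).card = ∑ v ∈ C, if (G.Adj u v ∧ r₀ v < r₀ u) then 1 else 0 := by
      intro u _
      rw [← Finset.card_filter]
      congr 1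
      ext v
      simp only [hA, Finset.mem_filter, Finset.mem_inter, mem_nb]
      tauto
    have e2 : ∀ u ∈ C, (A' u).card = ∑ v ∈ C, if (G.Adj u v ∧ r₀ u < r₀ v) then 1 else 0 := by
      intro u _
      rw [← Finset.card_filter]
      congr 1
      ext v
      simp only [hA', Finset.mem_filter, Finset.mem_inter, mem_nb]
      tauto
    rw [Finset.sum_congr rfl e1, Finset.sum_congr rfl e2, Finset.sum_comm]
    refine Finset.sum_congr rfl fun u _ => Finset.sum_congr rfl fun v _ => ?_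
    have : G.Adj v u ↔ G.Adj u v := ⟨fun h => h.symm, fun h => h.symm⟩
    simp only [this]
  have hsplit : ∀ u, (nb G u ∩ C).card = (A u).card + (A' u).card := by
    intro u
    rw [← Finset.card_filter_add_card_filter_not (s := nb G u ∩ C) (fun v => r₀ v < r₀ u)]
    congr 2
    ext v
    simp only [hA', Finset.mem_filter, Finset.mem_inter, mem_nb, not_lt]
    constructor
    · rintro ⟨⟨h3, h4⟩, h5⟩
      refine ⟨⟨h3, h4⟩, ?_⟩
      have hne : r₀ v ≠ r₀ u := fun h => h3.ne (hr₀inj h).symm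
      omega
    · rintro ⟨⟨h3, h4⟩, h5⟩
      exact ⟨⟨h3, h4⟩, h5.le⟩
  have hnb : ∀ u, (nb G u).card = (P u).card + (nb G u ∩ C).card := by
    intro u
    exact (Finset.card_sdiff_add_card_inter _ _).symm
  set SP := ∑ u ∈ C, (P u).card with hSP
  set SA := ∑ u ∈ C, (A u).card with hSA
  have h2SA : ∑ u ∈ C, (nb G u ∩ C).card = 2 * SA := by
    rw [Finset.sum_congr rfl (fun u _ => hsplit u), Finset.sum_add_distrib, ← hAA']
    ring
  have hSA2 : C.card ≤ SA := by
    have h3 : ∑ _u ∈ C, 2 ≤ ∑ u ∈ C, (nb G u ∩ C).card := Finset.sum_le_sum h2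
    rw [h2SA, Finset.sum_const, smul_eq_mul] at h3
    omega
  have hsumo : ∑ u ∈ C, ((P u).card + (A u).card) = SP + SA := Finset.sum_add_distrib
  have hWcard : W.card ≤ C.card + SP :=
    (Finset.card_union_le _ _).trans (Nat.add_le_add_left Finset.card_biUnion_le _)
  have hWne : W.Nonempty := hC.mono hCW
  have hsumW : ∑ u ∈ W, (out u).card = SP + SA := by
    rw [← hsumo]
    symm
    rw [← Finset.sum_congr rfl hcardout]
    refine Finset.sum_subset hCW fun u _ hu => ?_
    rw [hoff u hu]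
    rfl
  have hprodW : ∏ u ∈ W, (((out u).card)! : ℝ) = ∏ u ∈ C, (((P u).card + (A u).card)! : ℝ) := by
    have e1 : ∏ u ∈ C, (((P u).card + (A u).card)! : ℝ) = ∏ u ∈ C, (((out u).card)! : ℝ) :=
      Finset.prod_congr rfl (fun u hu => by rw [hcardout u hu])
    rw [e1]
    symm
    refine Finset.prod_subset hCW fun u _ hu => ?_
    rw [hoff u hu]
    simp
  have hb := hyp _ _ hor hWne
  rw [hsumW, hprodW] at hb
  have hvn : W.card ≤ n := (Finset.card_le_univ _).trans hV
  have hv : 0 < W.card := Finset.card_pos.mpr hWne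
  have hfin := dense_bound hn hv hq (by omega) hvn
    (Finset.prod_nonneg fun u _ => by positivity) hb
  refine ⟨fun u => (P u).card + (A u).card, ?_, ?_, ?_⟩
  · simp only [hsumo]
    exact hfin
  · simp only [hsumo]
    omega
  · simp only [hsumo]
    rw [Finset.sum_congr rfl (fun u _ => hnb u), Finset.sum_add_distrib, h2SA]
    omega

/-- The factorial lower bound used for the hubs. -/
lemma factorial_ge {μ : ℝ} (hμ : 0 < μ) (o : ℕ) :
    μ ^ o * Real.exp ((o : ℝ) - 3 * μ) ≤ (o ! : ℝ) := by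
  rcases Nat.eq_zero_or_pos o with rfl | ho
  · simp only [pow_zero, one_mul, Nat.cast_zero, zero_sub, Nat.factorial_zero, Nat.cast_one]
    rw [Real.exp_le_one_iff]
    linarith
  · have ho' : (0 : ℝ) < o := by exact_mod_cast ho
    set x : ℝ := o / (3 * μ) with hx
    have hx0 : 0 < x := by positivity
    have h1 : Real.exp (1 - x⁻¹) ≤ x := by
      have h2 := Real.one_sub_inv_le_log_of_pos hx0
      calc Real.exp (1 - x⁻¹) ≤ Real.exp (Real.log x) := Real.exp_le_exp.mpr h2
        _ = x := Real.exp_log hx0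
    have h2 : Real.exp ((o : ℝ) - 3 * μ) = Real.exp (1 - x⁻¹) ^ o := by
      rw [← Real.exp_nat_mul]
      congr 1
      rw [hx]
      field_simp
    have h3 : Real.exp ((o : ℝ) - 3 * μ) ≤ x ^ o := by
      rw [h2]
      exact pow_le_pow_left₀ (Real.exp_pos _).le h1 o
    have h4 : (o : ℝ) ^ o ≤ 3 ^ o * (o ! : ℝ) := pow_self_le o
    have h5 : μ ^ o * x ^ o * 3 ^ o = (o : ℝ) ^ o := by
      rw [← mul_pow, ← mul_pow]
      congr 1
      rw [hx]
      field_simp
    have h6 : (0 : ℝ) < 3 ^ o := by positivity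
    have h7 : μ ^ o * x ^ o ≤ (o ! : ℝ) := by
      have : μ ^ o * x ^ o * 3 ^ o ≤ (o ! : ℝ) * 3 ^ o := by
        rw [h5]; linarith
      exact le_of_mul_le_mul_right this h6
    calc μ ^ o * Real.exp ((o : ℝ) - 3 * μ) ≤ μ ^ o * x ^ o :=
          mul_le_mul_of_nonneg_left h3 (by positivity)
      _ ≤ _ := h7

/-- There is no set of hubs in which every vertex has two neighbours. -/
theorem hub_no_core {H G : SimpleGraph V} (hGH : G ≤ H) {n : ℕ} {q w : ℝ} (hn : 0 < n)
    (hV : Fintype.card V ≤ n) (hq : 0 < q) (hyp : OBound H n q)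
    (hw : 12 * n * q ≤ w)
    (C : Finset V) (hC : C.Nonempty) (h2 : ∀ u ∈ C, 2 ≤ ((nb G u) ∩ C).card)
    (hhub : ∀ u ∈ C, isHub G w u) : False := by
  have hn' : (0 : ℝ) < n := by exact_mod_cast hn
  set μ : ℝ := 12 * n * q with hμ
  have hμ0 : 0 < μ := by positivity
  obtain ⟨o, h3, h4, h5⟩ := core hGH hn hV hq hyp C hC h2
  set e := ∑ u ∈ C, o u with he
  have hC' : (0 : ℝ) < C.card := by exact_mod_cast Finset.card_pos.mpr hC
  have h6 : μ ^ e * Real.exp ((e : ℝ) - 3 * μ * C.card) ≤ ∏ u ∈ C, ((o u)! : ℝ) := by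
    have h7 : ∏ u ∈ C, (μ ^ o u * Real.exp ((o u : ℝ) - 3 * μ)) ≤ ∏ u ∈ C, ((o u)! : ℝ) :=
      Finset.prod_le_prod (fun u _ => by positivity) fun u _ => factorial_ge hμ0 (o u)
    refine le_trans (le_of_eq ?_) h7
    have e1 : (e : ℝ) - 3 * μ * C.card = ∑ u ∈ C, ((o u : ℝ) - 3 * μ) := by
      rw [Finset.sum_sub_distrib, Finset.sum_const, nsmul_eq_mul, he]
      push_cast
      ring
    rw [Finset.prod_mul_distrib, Finset.prod_pow_eq_pow_sum, ← Real.exp_sum, e1]
  have h7 : μ ^ e * Real.exp ((e : ℝ) - 3 * μ * C.card) ≤ μ ^ e * 1 := by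
    rw [mul_one]; exact h6.trans h3
  have h8 : Real.exp ((e : ℝ) - 3 * μ * C.card) ≤ 1 :=
    le_of_mul_le_mul_left h7 (by positivity)
  rw [Real.exp_le_one_iff] at h8
  have h9 : 8 * w * C.card < ∑ u ∈ C, ((nb G u).card : ℝ) := by
    have : ∑ _u ∈ C, (8 * w) < ∑ u ∈ C, ((nb G u).card : ℝ) :=
      Finset.sum_lt_sum_of_nonempty hC hhub
    rw [Finset.sum_const, nsmul_eq_mul] at this
    linarith
  have h10 : ∑ u ∈ C, ((nb G u).card : ℝ) ≤ 2 * (e : ℝ) := by
    exact_mod_cast h5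
  nlinarith

/-- A graph with a cycle forces `12 n q ≥ 1`. -/
theorem one_le_of_not_acyclic {H : SimpleGraph V} {n : ℕ} {q : ℝ} (hn : 0 < n)
    (hV : Fintype.card V ≤ n) (hq : 0 < q) (hyp : OBound H n q)
    (hH : ¬ H.IsAcyclic) : 1 ≤ 12 * (n : ℝ) * q := by
  have hn' : (0 : ℝ) < n := by exact_mod_cast hn
  unfold SimpleGraph.IsAcyclic at hH
  push Not at hH
  obtain ⟨x, c, hc⟩ := hH
  set C : Finset V := c.support.toFinset with hCdef
  have hC : C.Nonempty := ⟨x, by simp [hCdef]⟩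
  have h2 : ∀ u ∈ C, 2 ≤ ((nb H u) ∩ C).card := by
    intro u hu
    have hu' : u ∈ c.support := by simpa [hCdef] using hu
    have h3 := hc.ncard_neighborSet_toSubgraph_eq_two hu'
    have h4 : c.toSubgraph.neighborSet u ⊆ ((nb H u ∩ C : Finset V) : Set V) := by
      intro v hv
      have hadj : c.toSubgraph.Adj u v := hv
      have h5 : H.Adj u v := c.toSubgraph.adj_sub hadj
      have h6 : v ∈ c.toSubgraph.verts := c.toSubgraph.edge_vert hadj.symm
      rw [SimpleGraph.Walk.mem_verts_toSubgraph] at h6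
      simp only [Finset.coe_inter, Set.mem_inter_iff, Finset.mem_coe]
      exact ⟨mem_nb.mpr h5, by simpa [hCdef] using h6⟩
    have h5 := Set.ncard_le_ncard h4 (Finset.finite_toSet _)
    rw [h3, Set.ncard_coe_finset] at h5
    exact h5
  obtain ⟨o, h3, h4, _⟩ := core (le_refl H) hn hV hq hyp C hC h2
  have h5 : 1 ≤ ∏ u ∈ C, ((o u)! : ℝ) := one_le_prod_of_one_le fun u _ => by
    exact_mod_cast Nat.factorial_pos _
  have h6 : 0 < ∑ u ∈ C, o u := lt_of_lt_of_le (Finset.card_pos.mpr hC) h4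
  by_contra h7
  push Not at h7
  have h8 : (12 * (n : ℝ) * q) ^ (∑ u ∈ C, o u) < 1 :=
    pow_lt_one₀ (by positivity) h7 (by omega)
  linarith

/-- The rank from a degeneracy property. -/
lemma exists_rank_aux (G : SimpleGraph V) (P : V → Prop)
    (hP : ∀ C : Finset V, C.Nonempty → ∃ u ∈ C, ¬ P u ∨ ((nb G u) ∩ C).card ≤ 1) :
    ∀ (m : ℕ) (C : Finset V), C.card = m → ∃ r : V → ℕ, Set.InjOn r (C : Set V) ∧
      ∀ u ∈ C, P u → ((nb G u ∩ C).filter (fun v => r u < r v)).card ≤ 1 := by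
  intro m
  induction m with
  | zero =>
    intro C hC
    have h0 : C = ∅ := Finset.card_eq_zero.mp hC
    subst h0
    exact ⟨fun _ => 0, by simp, by simp⟩
  | succ m ih =>
    intro C hC
    have hne : C.Nonempty := Finset.card_pos.mp (by omega)
    obtain ⟨u₀, hu₀, hu₀P⟩ := hP C hne
    have hcard : (C.erase u₀).card = m := by
      rw [Finset.card_erase_of_mem hu₀, hC]; rfl
    obtain ⟨r', hr'1, hr'2⟩ := ih (C.erase u₀) hcard
    refine ⟨fun v => if v = u₀ then 0 else r' v + 1, ?_, ?_⟩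
    · intro a ha b hb hab
      have ha' : a ∈ C := ha
      have hb' : b ∈ C := hb
      by_cases h1 : a = u₀
      · by_cases h2 : b = u₀
        · rw [h1, h2]
        · simp [h1, h2] at hab
      · by_cases h2 : b = u₀
        · simp [h1, h2] at hab
        · simp only [h1, h2, if_false, add_left_inj] at hab
          exact hr'1 (Finset.mem_coe.mpr (Finset.mem_erase.mpr ⟨h1, ha'⟩))
            (Finset.mem_coe.mpr (Finset.mem_erase.mpr ⟨h2, hb'⟩)) hab
    · intro u hu hPu
      by_cases h1 : u = u₀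
      · subst h1
        rcases hu₀P with h2 | h2
        · exact absurd hPu h2
        · exact (Finset.card_le_card (Finset.filter_subset _ _)).trans h2
      · refine le_trans (Finset.card_le_card ?_) (hr'2 u (Finset.mem_erase.mpr ⟨h1, hu⟩) hPu)
        intro v hv
        rcases Finset.mem_filter.mp hv with ⟨hv1, hv2⟩
        rcases Finset.mem_inter.mp hv1 with ⟨hv3, hv4⟩
        simp only [h1, if_false] at hv2
        by_cases h2 : v = u₀
        · simp [h2] at hv2
        · simp only [h2, if_false, add_lt_add_iff_right] at hv2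
          exact Finset.mem_filter.mpr
            ⟨Finset.mem_inter.mpr ⟨hv3, Finset.mem_erase.mpr ⟨h2, hv4⟩⟩, hv2⟩

/-- The rank of the hubs. -/
theorem hub_rank {H G : SimpleGraph V} (hGH : G ≤ H) {n : ℕ} {q w : ℝ} (hn : 0 < n)
    (hV : Fintype.card V ≤ n) (hq : 0 < q) (hyp : OBound H n q)
    (hw : 12 * n * q ≤ w) :
    ∃ r : V → ℕ, Function.Injective r ∧
      ∀ u, isHub G w u → ((nb G u).filter (fun v => r u < r v)).card ≤ 1 := by
  have hP : ∀ C : Finset V, C.Nonempty → ∃ u ∈ C, ¬ isHub G w u ∨ ((nb G u) ∩ C).card ≤ 1 := by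
    intro C hC
    by_contra h
    push Not at h
    exact hub_no_core hGH hn hV hq hyp hw C hC (fun u hu => (h u hu).2) (fun u hu => (h u hu).1)
  obtain ⟨r, hr1, hr2⟩ := exists_rank_aux G (isHub G w) hP _ Finset.univ rfl
  refine ⟨r, ?_, ?_⟩
  · intro a b hab
    exact hr1 (by simp) (by simp) hab
  · intro u hu
    have := hr2 u (Finset.mem_univ u) hu
    simpa using this

end Vale.Agent.Lib.P064
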