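import Vale.Agent.Lib.P064.Gen4

/-!
The bound for a single layer, the product bound for families, and the summation bound.
-/

namespace Vale.Agent.Lib.P064

open Finset
open scoped Nat Classical

set_option linter.unusedSectionVars false
set_option linter.unusedVariables false

variable {V : Type*} [Fintype V]

/-- The bound for one layer with few vertices. -/
theorem layer_B {H : SimpleGraph V} {n τ a : ℕ} {q : ℝ} (hn : 0 < n) (hq : 0 < q)
    (hyp : OBound H n q) {W : Finset V} {out : V → Finset V}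
    (hor : IsOriented H W out) (hv : W.card ≤ τ) (ha : 1 ≤ a) (hμ : 12 * (n : ℝ) * q ≤ 2 ^ a)
    (hτ : (τ : ℝ) ^ (2 * a) ≤ n) :
    (∏ u ∈ W, (((out u).card)! : ℝ)) * (6 * (n : ℝ)) ^ (∑ u ∈ W, (out u).card)
      ≤ (6 * (n : ℝ)) ^ W.card * (24 * n * q) ^ (∑ u ∈ W, (out u).card) := by
  have hn' : (0 : ℝ) < n := by exact_mod_cast hn
  rcases Finset.eq_empty_or_nonempty W with rfl | hW
  · simp
  set v := W.card with hvdef
  set e := ∑ u ∈ W, (out u).card with he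
  set Dd := ∏ u ∈ W, (((out u).card)! : ℝ) with hDd
  have hvpos : 0 < v := Finset.card_pos.mpr hW
  have hv' : (0 : ℝ) < v := by exact_mod_cast hvpos
  have hD1 : 1 ≤ Dd := one_le_prod_of_one_le fun u _ => by exact_mod_cast Nat.factorial_pos _
  have hb := hyp _ _ hor hW
  have h1 : Dd * ((v : ℝ) ^ v * (6 * (n : ℝ)) ^ e)
      ≤ (6 * (n : ℝ)) ^ v * ((v : ℝ) ^ e * (12 * n * q) ^ e) :=
    (mul_le_mul_of_nonneg_right hb (by positivity)).trans (bound_one hn hvpos hq)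
  have h24 : (24 * (n : ℝ) * q) ^ e = 2 ^ e * (12 * n * q) ^ e := by
    rw [← mul_pow]; congr 1; ring
  by_cases hcase : e ≤ v
  · have hvv : (v : ℝ) ^ e ≤ (v : ℝ) ^ v := by
      refine pow_le_pow_right₀ ?_ hcase
      exact_mod_cast hvpos
    have h2 : Dd * (6 * (n : ℝ)) ^ e * (v : ℝ) ^ v
        ≤ (6 * (n : ℝ)) ^ v * (24 * n * q) ^ e * (v : ℝ) ^ v := by
      have h3 : (6 * (n : ℝ)) ^ v * ((v : ℝ) ^ e * (12 * n * q) ^ e)
          ≤ (6 * (n : ℝ)) ^ v * (24 * n * q) ^ e * (v : ℝ) ^ v := by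
        have h4 : (12 * (n : ℝ) * q) ^ e ≤ (24 * n * q) ^ e :=
          pow_le_pow_left₀ (by positivity) (by nlinarith [mul_pos hn' hq]) e
        calc (6 * (n : ℝ)) ^ v * ((v : ℝ) ^ e * (12 * n * q) ^ e)
            ≤ (6 * (n : ℝ)) ^ v * ((v : ℝ) ^ v * (24 * n * q) ^ e) := by
              refine mul_le_mul_of_nonneg_left ?_ (by positivity)
              exact mul_le_mul hvv h4 (by positivity) (by positivity)
          _ = _ := by ring
      calc Dd * (6 * (n : ℝ)) ^ e * (v : ℝ) ^ v = Dd * ((v : ℝ) ^ v * (6 * (n : ℝ)) ^ e) := by ring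
        _ ≤ _ := h1.trans h3
    exact le_of_mul_le_mul_right h2 (by positivity)
  · push Not at hcase
    obtain ⟨x, hx⟩ : ∃ x, e = v + x := ⟨e - v, by omega⟩
    have hx1 : 1 ≤ x := by omega
    have h2 : Dd * (6 * (n : ℝ)) ^ e ≤ (6 * (n : ℝ)) ^ v * ((v : ℝ) ^ x * (12 * n * q) ^ e) := by
      have h3 : Dd * (6 * (n : ℝ)) ^ e * (v : ℝ) ^ v
          ≤ (6 * (n : ℝ)) ^ v * ((v : ℝ) ^ x * (12 * n * q) ^ e) * (v : ℝ) ^ v := by
        calc Dd * (6 * (n : ℝ)) ^ e * (v : ℝ) ^ v = Dd * ((v : ℝ) ^ v * (6 * (n : ℝ)) ^ e) := by ring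
          _ ≤ (6 * (n : ℝ)) ^ v * ((v : ℝ) ^ e * (12 * n * q) ^ e) := h1
          _ = _ := by rw [hx, pow_add (v : ℝ) v x]; ring
      exact le_of_mul_le_mul_right h3 (by positivity)
    have hτ1 : (1 : ℝ) ≤ τ := by
      have : 1 ≤ τ := by omega
      exact_mod_cast this
    have hvτ : (v : ℝ) ≤ τ := by exact_mod_cast hv
    -- the key sparsity estimate
    have h3 : (6 * (n : ℝ)) ^ x ≤ (τ : ℝ) ^ x * (2 ^ a) ^ e := by
      have h4 : (6 * (n : ℝ)) ^ e ≤ (6 * (n : ℝ)) ^ v * ((v : ℝ) ^ x * (12 * n * q) ^ e) := by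
        have : 1 * (6 * (n : ℝ)) ^ e ≤ Dd * (6 * (n : ℝ)) ^ e :=
          mul_le_mul_of_nonneg_right hD1 (by positivity)
        linarith
      rw [hx, pow_add (6 * (n : ℝ)) v x, ← hx] at h4
      have h5 : (6 * (n : ℝ)) ^ x ≤ (v : ℝ) ^ x * (12 * n * q) ^ e :=
        le_of_mul_le_mul_left h4 (by positivity)
      refine h5.trans ?_
      refine mul_le_mul (pow_le_pow_left₀ hv'.le hvτ x)
        (pow_le_pow_left₀ (by positivity) hμ e) (by positivity) (by positivity)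
    have h4 : (τ : ℝ) ^ (2 * a * x) ≤ (6 * (n : ℝ)) ^ x := by
      rw [pow_mul]
      refine pow_le_pow_left₀ (by positivity) (hτ.trans ?_) x
      linarith
    have h5 : (τ : ℝ) ^ x ≤ (τ : ℝ) ^ (a * x) :=
      pow_le_pow_right₀ hτ1 (Nat.le_mul_of_pos_left x (by omega))
    have h6 : (τ : ℝ) ^ (a * x) * (τ : ℝ) ^ (a * x) ≤ (τ : ℝ) ^ (a * x) * (2 ^ a) ^ e := by
      have e1 : (τ : ℝ) ^ (a * x) * (τ : ℝ) ^ (a * x) = (τ : ℝ) ^ (2 * a * x) := by
        rw [← pow_add]; congr 1; ring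
      rw [e1]
      calc (τ : ℝ) ^ (2 * a * x) ≤ (6 * (n : ℝ)) ^ x := h4
        _ ≤ (τ : ℝ) ^ x * (2 ^ a) ^ e := h3
        _ ≤ _ := mul_le_mul_of_nonneg_right h5 (by positivity)
    have h7 : (τ : ℝ) ^ (a * x) ≤ (2 ^ a) ^ e :=
      le_of_mul_le_mul_left h6 (by positivity)
    have h8 : ((τ : ℝ) ^ x) ^ a ≤ ((2 : ℝ) ^ e) ^ a := by
      rw [← pow_mul, ← pow_mul, mul_comm x a, mul_comm e a, pow_mul (2 : ℝ) a e]
      exact h7
    have h9 : (τ : ℝ) ^ x ≤ (2 : ℝ) ^ e :=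
      le_of_pow_le_pow_left₀ (by omega) (by positivity) h8
    have h10 : (v : ℝ) ^ x ≤ (2 : ℝ) ^ e := (pow_le_pow_left₀ hv'.le hvτ x).trans h9
    calc Dd * (6 * (n : ℝ)) ^ e ≤ (6 * (n : ℝ)) ^ v * ((v : ℝ) ^ x * (12 * n * q) ^ e) := h2
      _ ≤ (6 * (n : ℝ)) ^ v * ((2 : ℝ) ^ e * (12 * n * q) ^ e) := by
          refine mul_le_mul_of_nonneg_left ?_ (by positivity)
          exact mul_le_mul_of_nonneg_right h10 (by positivity)
      _ = _ := by rw [h24]

/-- The layered data of a certificate. -/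
structure LP (V : Type*) where
  W : Finset V
  E : ℕ
  D : ℝ
  N : ℕ
  X : ℕ → Finset V
  out : ℕ → V → Finset V

/-- Validity of layered data. -/
structure LPValid (H : SimpleGraph V) (τ : ℕ) (P : LP V) : Prop where
  ori : ∀ l, IsOriented H (P.X l) (P.out l)
  sub : ∀ l, P.X l ⊆ P.W
  vsum : ∑ l ∈ Finset.range P.N, (P.X l).card = P.E + 1
  esum : ∑ l ∈ Finset.range P.N, ∑ u ∈ P.X l, (P.out l u).card = P.E
  Dle : P.D ≤ 6 ^ P.E * ∏ l ∈ Finset.range P.N, ∏ u ∈ P.X l, (((P.out l u).card)! : ℝ)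
  D1 : 1 ≤ P.D
  Dfac : P.D ≤ (P.E ! : ℝ)
  size : P.E + 1 ≤ τ
  wcard : P.W.card ≤ P.E + 1
  wne : P.W.Nonempty

namespace LP

/-- The factorial product of a layer. -/
noncomputable def Dd (P : LP V) (l : ℕ) : ℝ := ∏ u ∈ P.X l, (((P.out l u).card)! : ℝ)

/-- The number of edges of a layer. -/
noncomputable def ee (P : LP V) (l : ℕ) : ℕ := ∑ u ∈ P.X l, (P.out l u).card

/-- The number of vertices of a layer. -/
noncomputable def vv (P : LP V) (l : ℕ) : ℕ := (P.X l).card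

end LP

lemma LPValid.pick {H : SimpleGraph V} {τ : ℕ} {P : LP V} (hP : LPValid H τ P) :
    ∃ l ∈ Finset.range P.N, P.ee l + 1 ≤ P.vv l := by
  by_contra h
  push Not at h
  have h1 : ∑ l ∈ Finset.range P.N, P.vv l ≤ ∑ l ∈ Finset.range P.N, P.ee l :=
    Finset.sum_le_sum fun l hl => by
      have := h l hl
      omega
  have h2 : ∑ l ∈ Finset.range P.N, P.vv l = P.E + 1 := hP.vsum
  have h3 : ∑ l ∈ Finset.range P.N, P.ee l = P.E := hP.esum
  omega

/-- The layers other than a chosen one. -/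
lemma LPValid.others {H : SimpleGraph V} {τ n a : ℕ} {q : ℝ} {P : LP V} (hP : LPValid H τ P)
    (hn : 0 < n) (hq : 0 < q) (hyp : OBound H n q)
    (ha : 1 ≤ a) (hμ : 12 * (n : ℝ) * q ≤ 2 ^ a) (hτ : (τ : ℝ) ^ (2 * a) ≤ n)
    {l : ℕ} (hl : l ∈ Finset.range P.N) (hle : P.ee l + 1 ≤ P.vv l) :
    (∏ l' ∈ (Finset.range P.N).erase l, P.Dd l') * (6 * (n : ℝ)) ^ (P.vv l - P.ee l - 1)
      ≤ (24 * n * q) ^ (P.E - P.ee l) := by
  have hn' : (0 : ℝ) < n := by exact_mod_cast hn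
  set R := (Finset.range P.N).erase l with hR
  have hvs : P.vv l + ∑ l' ∈ R, P.vv l' = P.E + 1 := by
    rw [Finset.add_sum_erase _ _ hl]; exact hP.vsum
  have hes : P.ee l + ∑ l' ∈ R, P.ee l' = P.E := by
    rw [Finset.add_sum_erase _ _ hl]; exact hP.esum
  have hlay : ∀ l' ∈ R, P.Dd l' * (6 * (n : ℝ)) ^ P.ee l'
      ≤ (6 * (n : ℝ)) ^ P.vv l' * (24 * n * q) ^ P.ee l' := by
    intro l' hl'
    refine layer_B hn hq hyp (hP.ori l') ?_ ha hμ hτ
    have h1 : (P.X l').card ≤ P.E + 1 := by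
      rw [← hP.vsum]
      exact Finset.single_le_sum (f := fun l => (P.X l).card) (fun _ _ => Nat.zero_le _)
        (Finset.mem_of_mem_erase hl')
    exact h1.trans hP.size
  have hprod : (∏ l' ∈ R, P.Dd l') * (6 * (n : ℝ)) ^ (∑ l' ∈ R, P.ee l')
      ≤ (6 * (n : ℝ)) ^ (∑ l' ∈ R, P.vv l') * (24 * n * q) ^ (∑ l' ∈ R, P.ee l') := by
    have h1 := Finset.prod_le_prod (s := R)
      (fun l' _ => mul_nonneg (Finset.prod_nonneg fun u _ => by positivity) (by positivity)) hlay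
    simp only [Finset.prod_mul_distrib, Finset.prod_pow_eq_pow_sum] at h1
    exact h1
  set A := ∑ l' ∈ R, P.vv l' with hA
  set B := ∑ l' ∈ R, P.ee l' with hB
  have hBA : B = A + (P.vv l - P.ee l - 1) := by omega
  have hEB : P.E - P.ee l = B := by omega
  rw [hEB]
  rw [hBA] at hprod
  have h1 : (∏ l' ∈ R, P.Dd l') * (6 * (n : ℝ)) ^ (P.vv l - P.ee l - 1) * (6 * (n : ℝ)) ^ A
      ≤ (24 * n * q) ^ (A + (P.vv l - P.ee l - 1)) * (6 * (n : ℝ)) ^ A := by
    calc (∏ l' ∈ R, P.Dd l') * (6 * (n : ℝ)) ^ (P.vv l - P.ee l - 1) * (6 * (n : ℝ)) ^ A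
        = (∏ l' ∈ R, P.Dd l') * (6 * (n : ℝ)) ^ (A + (P.vv l - P.ee l - 1)) := by
          rw [pow_add]; ring
      _ ≤ _ := hprod
      _ = _ := by ring
  rw [hBA]
  exact le_of_mul_le_mul_right h1 (by positivity)

/-- The product bound for a family of layered data with disjoint supports. -/
theorem family_bound {H : SimpleGraph V} {τ n a : ℕ} {q : ℝ}
    (hn : 0 < n) (hq : 0 < q) (hyp : OBound H n q)
    (ha : 1 ≤ a) (hμ : 12 * (n : ℝ) * q ≤ 2 ^ a) (hτ : (τ : ℝ) ^ (2 * a) ≤ n)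
    {I : Finset (LP V)} (hI : ∀ P ∈ I, LPValid H τ P)
    (hdisj : ∀ P ∈ I, ∀ Q ∈ I, P ≠ Q → Disjoint P.W Q.W) (hne : I.Nonempty) :
    ∏ P ∈ I, (P.D / (144 * n * q) ^ P.E) ≤ (6 * n / I.card) ^ I.card := by
  have hn' : (0 : ℝ) < n := by exact_mod_cast hn
  have hnq : 0 < (n : ℝ) * q := mul_pos hn' hq
  have hpick : ∀ P ∈ I, ∃ l ∈ Finset.range P.N, P.ee l + 1 ≤ P.vv l := fun P hP => (hI P hP).pick
  choose! lp hlp1 hlp2 using hpick
  set κ := I.card with hκ
  have hκ0 : 0 < κ := Finset.card_pos.mpr hne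
  set Wf : LP V → Finset V := fun P => P.X (lp P) with hWf
  set outf : LP V → V → Finset V := fun P => P.out (lp P) with houtf
  have hor : ∀ P ∈ I, IsOriented H (Wf P) (outf P) := fun P hP => (hI P hP).ori _
  have hdis' : ∀ P ∈ I, ∀ Q ∈ I, P ≠ Q → Disjoint (Wf P) (Wf Q) := fun P hP Q hQ h =>
    Finset.disjoint_of_subset_left ((hI P hP).sub _)
      (Finset.disjoint_of_subset_right ((hI Q hQ).sub _) (hdisj P hP Q hQ h))
  have hU := isOriented_union hor hdis'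
  -- sizes
  set x : LP V → ℕ := fun P => P.vv (lp P) - P.ee (lp P) with hx
  have hx1 : ∀ P ∈ I, 1 ≤ x P := fun P hP => by
    have := hlp2 P hP
    simp only [hx]
    omega
  have hvP : ∀ P ∈ I, (Wf P).card = P.ee (lp P) + x P := fun P hP => by
    have := hlp2 P hP
    have h1 : (Wf P).card = P.vv (lp P) := rfl
    simp only [hx]
    omega
  set κ' := ∑ P ∈ I, x P with hκ'
  set es := ∑ P ∈ I, P.ee (lp P) with hes
  have hκκ' : κ ≤ κ' := by
    rw [hκ, Finset.card_eq_sum_ones, hκ']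
    exact Finset.sum_le_sum hx1
  have hκ'0 : 0 < κ' := by omega
  have hvcard : (I.biUnion Wf).card = es + κ' := by
    rw [card_biUnion_W hdis', Finset.sum_congr rfl hvP, Finset.sum_add_distrib]
  have hUne : (I.biUnion Wf).Nonempty := by
    rw [← Finset.card_pos, hvcard]; omega
  have hb := hyp _ _ hU hUne
  rw [sum_outU hor hdis', prod_outU hor hdis' (fun k => ((k ! : ℕ) : ℝ))] at hb
  have hesum : ∑ P ∈ I, ∑ u ∈ Wf P, (outf P u).card = es := rfl
  rw [hesum] at hb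
  have hunion := oriented_bound (n := n) (κ := κ') hn hq hκ'0 hvcard hb
  -- the selected layers and the other layers
  set Asel : LP V → ℝ := fun P => P.Dd (lp P) with hAsel
  set Bo : LP V → ℝ := fun P => ∏ l' ∈ (Finset.range P.N).erase (lp P), P.Dd l' with hBo
  have hAsel0 : ∀ P, 0 ≤ Asel P := fun P => Finset.prod_nonneg fun u _ => by positivity
  have hBo0 : ∀ P, 0 ≤ Bo P := fun P =>
    Finset.prod_nonneg fun l _ => Finset.prod_nonneg fun u _ => by positivity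
  have hDP : ∀ P ∈ I, P.D ≤ 6 ^ P.E * (Asel P * Bo P) := by
    intro P hP
    have h1 := (hI P hP).Dle
    have h2 : ∏ l ∈ Finset.range P.N, ∏ u ∈ P.X l, (((P.out l u).card)! : ℝ) = Asel P * Bo P :=
      (Finset.mul_prod_erase (Finset.range P.N) P.Dd (hlp1 P hP)).symm
    rwa [h2] at h1
  have hBP : ∀ P ∈ I, Bo P * (6 * (n : ℝ)) ^ (x P - 1) ≤ (24 * n * q) ^ (P.E - P.ee (lp P)) :=
    fun P hP => (hI P hP).others hn hq hyp ha hμ hτ (hlp1 P hP) (hlp2 P hP)
  set E := ∑ P ∈ I, P.E with hE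
  have hEsplit : ∑ P ∈ I, (P.E - P.ee (lp P)) + es = E := by
    rw [hes, ← Finset.sum_add_distrib]
    refine Finset.sum_congr rfl fun P hP => ?_
    have h1 : P.ee (lp P) ≤ P.E := by
      have := (hI P hP).esum
      rw [← this]
      exact Finset.single_le_sum (f := fun l => ∑ u ∈ P.X l, (P.out l u).card)
        (fun _ _ => Nat.zero_le _) (hlp1 P hP)
    omega
  have hxsplit : ∑ P ∈ I, (x P - 1) + κ = κ' := by
    rw [hκ, Finset.card_eq_sum_ones, ← Finset.sum_add_distrib]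
    refine Finset.sum_congr rfl fun P hP => ?_
    have := hx1 P hP
    omega
  -- the product of the other layers
  have hBtot : (∏ P ∈ I, Bo P) * (6 * (n : ℝ)) ^ (∑ P ∈ I, (x P - 1))
      ≤ (24 * n * q) ^ (∑ P ∈ I, (P.E - P.ee (lp P))) := by
    have h1 := Finset.prod_le_prod (s := I)
      (fun P _ => mul_nonneg (hBo0 P) (by positivity)) hBP
    simp only [Finset.prod_mul_distrib, Finset.prod_pow_eq_pow_sum] at h1
    exact h1
  set y := ∑ P ∈ I, (x P - 1) with hy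
  set z := ∑ P ∈ I, (P.E - P.ee (lp P)) with hz
  -- the total
  have hDtot : (∏ P ∈ I, P.D) ≤ ∏ P ∈ I, (6 ^ P.E * (Asel P * Bo P)) :=
    Finset.prod_le_prod (fun P hP => zero_le_one.trans (hI P hP).D1) hDP
  have hDtot' : (∏ P ∈ I, P.D) ≤ 6 ^ E * ((∏ P ∈ I, Asel P) * ∏ P ∈ I, Bo P) := by
    refine hDtot.trans (le_of_eq ?_)
    simp only [Finset.prod_mul_distrib, Finset.prod_pow_eq_pow_sum]
    rfl
  have hAtot : ∏ P ∈ I, Asel P ≤ (6 * n / κ') ^ κ' * (24 * n * q) ^ es := by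
    refine hunion.trans ?_
    refine mul_le_mul_of_nonneg_left ?_ (by positivity)
    exact pow_le_pow_left₀ (by positivity) (by nlinarith) es
  have h6n : 0 < 6 * (n : ℝ) := by positivity
  have hκ'r : (0 : ℝ) < κ' := by exact_mod_cast hκ'0
  have hκr : (0 : ℝ) < κ := by exact_mod_cast hκ0
  have hmain : (∏ P ∈ I, P.D) * (6 * (n : ℝ)) ^ y ≤ (6 * n / κ') ^ κ' * (144 * n * q) ^ E := by
    have h1 : 0 ≤ ∏ P ∈ I, Bo P := Finset.prod_nonneg fun P _ => hBo0 P
    have h2 : 0 ≤ ∏ P ∈ I, Asel P := Finset.prod_nonneg fun P _ => hAsel0 P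
    calc (∏ P ∈ I, P.D) * (6 * (n : ℝ)) ^ y
        ≤ (6 ^ E * ((∏ P ∈ I, Asel P) * ∏ P ∈ I, Bo P)) * (6 * (n : ℝ)) ^ y :=
          mul_le_mul_of_nonneg_right hDtot' (by positivity)
      _ = 6 ^ E * ((∏ P ∈ I, Asel P) * ((∏ P ∈ I, Bo P) * (6 * (n : ℝ)) ^ y)) := by ring
      _ ≤ 6 ^ E * (((6 * n / κ') ^ κ' * (24 * n * q) ^ es) * (24 * n * q) ^ z) := by
          refine mul_le_mul_of_nonneg_left ?_ (by positivity)
          exact mul_le_mul hAtot hBtot (by positivity) (by positivity)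
      _ = (6 * n / κ') ^ κ' * (144 * n * q) ^ E := by
          have e1 : (144 * (n : ℝ) * q) = 6 * (24 * n * q) := by ring
          have e2 : (6 * (24 * (n : ℝ) * q)) ^ E
              = 6 ^ E * ((24 * (n : ℝ) * q) ^ z * (24 * (n : ℝ) * q) ^ es) := by
            rw [mul_pow, ← pow_add, hEsplit]
          rw [e1, e2]
          ring
  -- conclude
  have hL : 0 < 144 * (n : ℝ) * q := by positivity
  have hgoal : ∏ P ∈ I, (P.D / (144 * n * q) ^ P.E) = (∏ P ∈ I, P.D) / (144 * n * q) ^ E := by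
    rw [Finset.prod_div_distrib, Finset.prod_pow_eq_pow_sum]
  rw [hgoal, div_le_iff₀ (by positivity)]
  have hκ'split : κ' = y + κ := hxsplit.symm
  have hfin1 : (6 * n / (κ' : ℝ)) ^ κ' = (6 * (n : ℝ)) ^ y * ((6 * (n : ℝ)) ^ κ / (κ' : ℝ) ^ κ') := by
    rw [div_pow, hκ'split, pow_add (6 * (n : ℝ)) y κ]
    ring
  have hfin2 : (6 * (n : ℝ)) ^ κ / (κ' : ℝ) ^ κ' ≤ (6 * n / κ) ^ κ := by
    rw [div_pow]
    refine div_le_div_of_nonneg_left (by positivity) (by positivity) ?_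
    have h1 : (κ : ℝ) ^ κ ≤ (κ' : ℝ) ^ κ :=
      pow_le_pow_left₀ hκr.le (by exact_mod_cast hκκ') κ
    have h2 : (κ' : ℝ) ^ κ ≤ (κ' : ℝ) ^ κ' :=
      pow_le_pow_right₀ (by exact_mod_cast hκ'0) hκκ'
    exact h1.trans h2
  have h1 : (∏ P ∈ I, P.D) * (6 * (n : ℝ)) ^ y
      ≤ ((6 * n / κ) ^ κ * (144 * n * q) ^ E) * (6 * (n : ℝ)) ^ y := by
    refine hmain.trans ?_
    rw [hfin1]
    calc (6 * (n : ℝ)) ^ y * ((6 * (n : ℝ)) ^ κ / (κ' : ℝ) ^ κ') * (144 * n * q) ^ E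
        ≤ (6 * (n : ℝ)) ^ y * ((6 * n / κ) ^ κ) * (144 * n * q) ^ E := by
          refine mul_le_mul_of_nonneg_right ?_ (by positivity)
          exact mul_le_mul_of_nonneg_left hfin2 (by positivity)
      _ = _ := by ring
  exact le_of_mul_le_mul_right h1 (by positivity)

/-- The abstract summation bound. -/
theorem sum_family_le {ι : Type*} (I : Finset ι) (e : ι → ℕ) (D : ι → ℝ) {Λ : ℝ} {n : ℕ}
    (hn : 0 < n) (hΛ : 0 < Λ) (h1 : ∀ i ∈ I, 1 ≤ D i) (h2 : ∀ i ∈ I, D i ≤ ((e i)! : ℝ))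
    (hprod : ∀ J ⊆ I, J.Nonempty →
      ∏ i ∈ J, (D i / Λ ^ e i) ≤ (6 * n / J.card) ^ J.card) :
    ∑ i ∈ I, ((e i : ℝ) + 1) * (D i / (8 * Λ) ^ e i) ≤ 24 * n := by
  have hn' : (0 : ℝ) < n := by exact_mod_cast hn
  set y : ι → ℝ := fun i => D i / Λ ^ e i with hy
  have hweak : ∀ J ⊆ I, ∀ t : ℝ, 0 < t → ((J.filter (fun i => t ≤ y i)).card : ℝ) * t ≤ 6 * n := by
    intro J hJ t ht
    set J' := J.filter (fun i => t ≤ y i) with hJ'
    rcases Finset.eq_empty_or_nonempty J' with h0 | hne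
    · rw [h0]; simp only [Finset.card_empty, Nat.cast_zero, zero_mul]; positivity
    · have hsub : J' ⊆ I := (Finset.filter_subset _ _).trans hJ
      have h3 := hprod J' hsub hne
      have h4 : t ^ J'.card ≤ ∏ i ∈ J', y i := by
        rw [← Finset.prod_const]
        exact Finset.prod_le_prod (fun _ _ => ht.le) (fun i hi => (Finset.mem_filter.mp hi).2)
      have hκ : 0 < J'.card := Finset.card_pos.mpr hne
      have hκ' : (0 : ℝ) < J'.card := by exact_mod_cast hκ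
      have h5 : t ^ J'.card ≤ (6 * n / J'.card) ^ J'.card := h4.trans h3
      have h6 : t ≤ 6 * n / J'.card := le_of_pow_le_pow_left₀ hκ.ne' (by positivity) h5
      rw [le_div_iff₀ hκ'] at h6
      linarith
  have hfixed : ∀ k : ℕ, ∑ i ∈ I.filter (fun i => e i = k), y i
      ≤ 2 * ((k ^ 2 + 1 : ℕ) : ℝ) * (6 * n) := by
    intro k
    set a : ℝ := 1 / Λ ^ k with ha
    have ha0 : 0 < a := by positivity
    refine sum_le_of_weak _ _ a _ _ ha0 ?_ ?_
    · intro i hi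
      rcases Finset.mem_filter.mp hi with ⟨hi1, hi2⟩
      have hD1 := h1 i hi1
      have hD2 := h2 i hi1
      rw [hi2] at hD2
      have he1 : (k ! : ℝ) < 2 ^ (k ^ 2 + 1) := by
        have h3 : k ! ≤ k ^ k := Nat.factorial_le_pow k
        have h4 : k ^ k ≤ (2 ^ k) ^ k := Nat.pow_le_pow_left (Nat.lt_two_pow_self).le k
        have h5 : (2 ^ k) ^ k = 2 ^ (k ^ 2) := by rw [← pow_mul, pow_two]
        have h6 : k ! < 2 ^ (k ^ 2 + 1) := by
          have h7 : 2 ^ (k ^ 2) < 2 ^ (k ^ 2 + 1) :=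
            Nat.pow_lt_pow_right (by norm_num) (by omega)
          omega
        exact_mod_cast h6
      have hyi : y i = D i * a := by
        simp only [hy, ha, hi2]
        ring
      rw [hyi]
      constructor
      · nlinarith
      · have : D i < 2 ^ (k ^ 2 + 1) := lt_of_le_of_lt hD2 he1
        exact mul_lt_mul_of_pos_right this ha0
    · intro t ht
      exact hweak _ (Finset.filter_subset _ _) t ht
  set Emax := I.sup e + 1 with hEmax
  have hmaps : ∀ i ∈ I, e i ∈ Finset.range Emax := by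
    intro i hi
    have := Finset.le_sup (f := e) hi
    exact Finset.mem_range.mpr (by omega)
  have hterm : ∀ i ∈ I, ((e i : ℝ) + 1) * (D i / (8 * Λ) ^ e i) = ((e i : ℝ) + 1) * y i / 8 ^ e i := by
    intro i _
    simp only [hy]
    rw [mul_pow]
    field_simp
  calc ∑ i ∈ I, ((e i : ℝ) + 1) * (D i / (8 * Λ) ^ e i)
      = ∑ i ∈ I, ((e i : ℝ) + 1) * y i / 8 ^ e i := Finset.sum_congr rfl hterm
    _ = ∑ k ∈ Finset.range Emax, ∑ i ∈ I.filter (fun i => e i = k),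
          ((e i : ℝ) + 1) * y i / 8 ^ e i :=
        (Finset.sum_fiberwise_of_maps_to hmaps _).symm
    _ ≤ ∑ k ∈ Finset.range Emax, (1 / 2 : ℝ) ^ k * (12 * n) := by
        refine Finset.sum_le_sum fun k _ => ?_
        have h3 : ∑ i ∈ I.filter (fun i => e i = k), ((e i : ℝ) + 1) * y i / 8 ^ e i
            = ((k : ℝ) + 1) / 8 ^ k * ∑ i ∈ I.filter (fun i => e i = k), y i := by
          rw [Finset.mul_sum]
          refine Finset.sum_congr rfl fun i hi => ?_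
          rw [(Finset.mem_filter.mp hi).2]
          ring
        rw [h3]
        have h4 : ((k : ℝ) + 1) / 8 ^ k ≥ 0 := by positivity
        have h5 := mul_le_mul_of_nonneg_left (hfixed k) h4
        refine h5.trans ?_
        have h6 := poly_le_four_pow k
        have h7 : ((k ^ 2 + 1 : ℕ) : ℝ) = (k : ℝ) ^ 2 + 1 := by push_cast; ring
        rw [h7]
        have h8 : (1 / 2 : ℝ) ^ k = 4 ^ k / 8 ^ k := by
          rw [← div_pow]; norm_num
        rw [h8]
        have h9 : (0 : ℝ) < 8 ^ k := by positivity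
        have h10 : (0 : ℝ) ≤ 12 * n := by positivity
        calc ((k : ℝ) + 1) / 8 ^ k * (2 * ((k : ℝ) ^ 2 + 1) * (6 * (n : ℝ)))
            = (((k : ℝ) + 1) * ((k : ℝ) ^ 2 + 1)) / 8 ^ k * (12 * (n : ℝ)) := by ring
          _ ≤ 4 ^ k / 8 ^ k * (12 * (n : ℝ)) := by
              refine mul_le_mul_of_nonneg_right ?_ h10
              exact div_le_div_of_nonneg_right h6 h9.le
    _ = (∑ k ∈ Finset.range Emax, (1 / 2 : ℝ) ^ k) * (12 * n) := by rw [Finset.sum_mul]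
    _ ≤ 2 * (12 * n) := by
        refine mul_le_mul_of_nonneg_right (sum_geometric_two_le Emax) (by positivity)
    _ = 24 * n := by ring

end Vale.Agent.Lib.P064
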