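import Vale.Agent.Lib.P064.Gen5

/-!
Cutting: every pruned value is dominated by a certificate with few edges.
-/

namespace Vale.Agent.Lib.P064

open Finset
open scoped Nat Classical

set_option linter.unusedSectionVars false
set_option linter.unusedVariables false

variable {V : Type*} [Fintype V]

/-- Splitting `rho`. -/
lemma rho_split {w : ℝ} (hw : 0 < w) (x : V → ℝ) {K K' : Finset V} (h : K' ⊆ K) :
    rho w x K = (K.card.choose K'.card : ℝ) * rho w x K' * rho w x (K \ K') := by
  unfold rho
  have hcard : (K \ K').card = K.card - K'.card := Finset.card_sdiff_of_subset h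
  have hle : K'.card ≤ K.card := Finset.card_le_card h
  have h1 : (K.card ! : ℝ) = (K.card.choose K'.card : ℝ) * (K'.card ! : ℝ) * ((K.card - K'.card)! : ℝ) := by
    exact_mod_cast (Nat.choose_mul_factorial_mul_factorial hle).symm
  have h2 : w ^ K.card = w ^ K'.card * w ^ (K.card - K'.card) := by
    rw [← pow_add]
    congr 1
    omega
  have h3 : ∏ a ∈ K, x a = (∏ a ∈ K \ K', x a) * ∏ a ∈ K', x a :=
    (Finset.prod_sdiff h).symm
  rw [hcard, h1, h2, h3]
  field_simp

lemma exists_sub_tot (f : V → ℕ) {s : ℕ} (hs : 1 ≤ s) (K : Finset V) (hf : ∀ c ∈ K, f c ≤ s)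
    (hK : s ≤ ∑ c ∈ K, f c) : ∃ K' ⊆ K, s ≤ ∑ c ∈ K', f c ∧ ∑ c ∈ K', f c < 2 * s := by
  induction K using Finset.induction_on with
  | empty => simp at hK; omega
  | insert c K hc ih =>
    by_cases h : s ≤ ∑ c ∈ K, f c
    · obtain ⟨K', h1, h2, h3⟩ := ih (fun d hd => hf d (Finset.mem_insert_of_mem hd)) h
      exact ⟨K', h1.trans (Finset.subset_insert _ _), h2, h3⟩
    · refine ⟨insert c K, le_refl _, hK, ?_⟩
      rw [Finset.sum_insert hc]
      have := hf c (Finset.mem_insert_self _ _)
      omega

/-- The node construction in either case. -/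
lemma node_any {G : SimpleGraph V} {w : ℝ} (hw : 64 ≤ w) {b a : V} {K : Finset V}
    (hab : b = a ∨ G.Adj b a) (hK : K ⊆ (nb G a).erase b)
    {Fc : V → V → Multiset (Finset V)} {Ec : V → ℕ} {Dc Dlc : V → ℝ}
    (hc : ∀ c ∈ K, IsCert G w a c (Fc c) (Ec c) (Dc c) (Dlc c))
    (hcond : isHub G w a ∨ ∀ c ∈ K, w ^ Ec c < Dc c) :
    ∃ Dl, IsCert G w b a (nodeFam Fc K (S0 b a K) a) (∑ c ∈ K, (Ec c + 1))
      ((K.card ! : ℝ) * ∏ c ∈ K, Dc c) Dl := by
  by_cases hhub : isHub G w a
  · exact ⟨_, cert_hub (by linarith) hab hK hhub hc⟩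
  · rcases hcond with h | h
    · exact absurd h hhub
    · exact ⟨_, cert_low hw hab hK hhub hc h⟩

/-- The value of a node dominates `rho`. -/
lemma rho_le_node {w : ℝ} (hw : 0 < w) {x : V → ℝ} {K : Finset V} {Ec : V → ℕ} {Dc : V → ℝ}
    (hx0 : ∀ c ∈ K, 0 ≤ x c) (hx : ∀ c ∈ K, x c ≤ Dc c / w ^ Ec c) :
    rho w x K ≤ ((K.card ! : ℝ) * ∏ c ∈ K, Dc c) / w ^ (∑ c ∈ K, (Ec c + 1)) := by
  unfold rho
  have h1 : ∏ c ∈ K, x c ≤ ∏ c ∈ K, (Dc c / w ^ Ec c) := Finset.prod_le_prod hx0 hx
  have h2 : ((K.card ! : ℝ) * ∏ c ∈ K, Dc c) / w ^ (∑ c ∈ K, (Ec c + 1))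
      = (K.card ! : ℝ) / w ^ K.card * ∏ c ∈ K, (Dc c / w ^ Ec c) := by
    rw [pow_tot, Finset.prod_div_distrib]
    have h3 : 0 < ∏ c ∈ K, w ^ Ec c := Finset.prod_pos fun c _ => by positivity
    field_simp
  rw [h2]
  exact mul_le_mul_of_nonneg_left h1 (by positivity)

/-- Cutting: every pruned value is dominated by a certificate with few edges. -/
theorem cut {G : SimpleGraph V} {w : ℝ} {s n : ℕ} (hw : 64 ≤ w) (hs : 1 ≤ s)
    (hdeg : ∀ u, (nb G u).card < s) (hnum : 6 * (n : ℝ) ≤ 4 ^ s)
    (hsmall : ∀ a Fam E D Dl, IsCert G w a a Fam E D Dl → E < 2 * s →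
      D ≤ 6 * n * (w / 8) ^ E) :
    ∀ (h : ℕ) (b a : V), (b = a ∨ G.Adj b a) →
      ∃ Fam E D Dl, IsCert G w b a Fam E D Dl ∧ E < s ∧ PsiP G w h b a ≤ D / w ^ E := by
  have hw0 : 0 < w := by linarith
  have hw1 : 1 ≤ w := by linarith
  intro h
  induction h with
  | zero =>
    intro b a hab
    obtain ⟨Dl, hDl⟩ := node_any (K := ∅) (Fc := fun _ _ => 0) (Ec := fun _ => 0)
      (Dc := fun _ => 1) (Dlc := fun _ => 1) hw hab (Finset.empty_subset _) (by simp) (Or.inr (by simp))
    refine ⟨_, _, _, _, hDl, ?_, ?_⟩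
    · simp only [Finset.sum_empty]
      omega
    · simp [PsiP]
  | succ h ih =>
    intro b a hab
    set x := PsiP G w h a with hx
    have hx1 : ∀ c, 1 ≤ x c := fun c => one_le_PsiP G hw0 h a c
    have hch : ∀ c, ∃ Fam E D Dl, G.Adj a c →
        (IsCert G w a c Fam E D Dl ∧ E < s ∧ x c ≤ D / w ^ E) := by
      intro c
      by_cases hac : G.Adj a c
      · obtain ⟨Fam, E, D, Dl, h1⟩ := ih a c (Or.inr hac)
        exact ⟨Fam, E, D, Dl, fun _ => h1⟩
      · exact ⟨0, 0, 0, 0, fun h' => absurd h' hac⟩
    choose Fc Ec Dc Dlc hchild using hch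
    set S := (nb G a).erase b with hS
    have hSadj : ∀ c ∈ S, G.Adj a c := fun c hc => mem_nb.mp (Finset.mem_of_mem_erase hc)
    have hbigw : ∀ c, G.Adj a c → w < x c → w ^ Ec c < Dc c := by
      intro c hac hc
      obtain ⟨_, _, h3⟩ := hchild c hac
      have h4 : w < Dc c / w ^ Ec c := hc.trans_le h3
      rw [lt_div_iff₀ (by positivity)] at h4
      have h5 : w ^ Ec c ≤ w * w ^ Ec c := by
        have : 0 < w ^ Ec c := by positivity
        nlinarith
      linarith
    -- the reduction
    have hred : ∀ (m : ℕ) (K : Finset V), K.card = m → K ⊆ S →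
        (isHub G w a ∨ ∀ c ∈ K, w < x c) →
        ∃ K' ⊆ K, ∑ c ∈ K', (Ec c + 1) < s ∧ rho w x K ≤ rho w x K' := by
      intro m
      induction m using Nat.strong_induction_on with
      | _ m ihm =>
        intro K hKm hKS hcond
        by_cases htot : ∑ c ∈ K, (Ec c + 1) < s
        · exact ⟨K, le_refl _, htot, le_refl _⟩
        · push Not at htot
          have hKadj : ∀ c ∈ K, G.Adj a c := fun c hc => hSadj c (hKS hc)
          obtain ⟨K'', hK''K, hK''1, hK''2⟩ := exists_sub_tot (fun c => Ec c + 1) hs K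
            (fun c hc => (hchild c (hKadj c hc)).2.1) htot
          have hK''adj : ∀ c ∈ K'', G.Adj a c := fun c hc => hKadj c (hK''K hc)
          have hK''sub : K'' ⊆ (nb G a).erase a := by
            intro c hc
            exact Finset.mem_erase.mpr ⟨(hK''adj c hc).ne', mem_nb.mpr (hK''adj c hc)⟩
          have hne'' : K''.Nonempty := by
            by_contra h0
            rw [Finset.not_nonempty_iff_eq_empty] at h0
            rw [h0] at hK''1
            simp at hK''1
            omega
          obtain ⟨Dl'', hcert''⟩ := node_any (K := K'') (b := a) (a := a) (Fc := Fc) (Ec := Ec)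
            (Dc := Dc) (Dlc := Dlc) hw (Or.inl rfl) hK''sub
            (fun c hc => (hchild c (hK''adj c hc)).1)
            (by
              rcases hcond with h1 | h1
              · exact Or.inl h1
              · exact Or.inr fun c hc => hbigw c (hK''adj c hc) (h1 c (hK''K hc)))
          have hsm := hsmall a _ _ _ _ hcert'' hK''2
          set E'' := ∑ c ∈ K'', (Ec c + 1) with hE''
          set D'' := (K''.card ! : ℝ) * ∏ c ∈ K'', Dc c with hD''
          have hrho'' : rho w x K'' ≤ D'' / w ^ E'' :=
            rho_le_node hw0 (fun c _ => zero_le_one.trans (hx1 c))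
              (fun c hc => (hchild c (hK''adj c hc)).2.2)
          have h8 : D'' / w ^ E'' ≤ 6 * n / 8 ^ s := by
            have h9 : D'' / w ^ E'' ≤ 6 * n * (w / 8) ^ E'' / w ^ E'' :=
              div_le_div_of_nonneg_right hsm (by positivity)
            have h10 : 6 * (n : ℝ) * (w / 8) ^ E'' / w ^ E'' = 6 * n / 8 ^ E'' := by
              rw [div_pow]
              field_simp
            rw [h10] at h9
            refine h9.trans ?_
            refine div_le_div_of_nonneg_left (by positivity) (by positivity) ?_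
            exact pow_le_pow_right₀ (by norm_num) hK''1
          have hKcard : K.card ≤ s := by
            have h9 : K.card ≤ (nb G a).card :=
              (Finset.card_le_card hKS).trans Finset.card_erase_le
            have := hdeg a
            omega
          have hC : (K.card.choose K''.card : ℝ) ≤ 2 ^ s := by
            have h9 : K.card.choose K''.card ≤ 2 ^ K.card := Nat.choose_le_two_pow _ _
            have h10 : 2 ^ K.card ≤ 2 ^ s := Nat.pow_le_pow_right (by norm_num) hKcard
            exact_mod_cast h9.trans h10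
          have hprod : (K.card.choose K''.card : ℝ) * rho w x K'' ≤ 1 := by
            have h9 : (K.card.choose K''.card : ℝ) * rho w x K'' ≤ 2 ^ s * (6 * n / 8 ^ s) :=
              mul_le_mul hC (hrho''.trans h8)
                (by
                  unfold rho
                  exact mul_nonneg (by positivity)
                    (Finset.prod_nonneg fun c _ => zero_le_one.trans (hx1 c)))
                (by positivity)
            refine h9.trans ?_
            have h10 : (8 : ℝ) ^ s = 2 ^ s * 4 ^ s := by rw [← mul_pow]; norm_num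
            rw [h10]
            have h11 : (0 : ℝ) < 2 ^ s := by positivity
            have h12 : (0 : ℝ) < 4 ^ s := by positivity
            rw [show (2 : ℝ) ^ s * (6 * n / (2 ^ s * 4 ^ s)) = 6 * n / 4 ^ s by field_simp]
            rw [div_le_one h12]
            exact hnum
          have hrhoS : 0 ≤ rho w x (K \ K'') := by
            unfold rho
            exact mul_nonneg (by positivity)
              (Finset.prod_nonneg fun c _ => zero_le_one.trans (hx1 c))
          have hsplit := rho_split hw0 x hK''K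
          have hle : rho w x K ≤ rho w x (K \ K'') := by
            rw [hsplit]
            nlinarith
          have hcardlt : (K \ K'').card < m := by
            rw [Finset.card_sdiff_of_subset hK''K, hKm]
            have h9 := Finset.card_pos.mpr hne''
            have h10 := Finset.card_le_card hK''K
            omega
          obtain ⟨K', hK'1, hK'2, hK'3⟩ := ihm _ hcardlt (K \ K'') rfl
            (Finset.sdiff_subset.trans hKS)
            (by
              rcases hcond with h1 | h1
              · exact Or.inl h1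
              · exact Or.inr fun c hc => h1 c (Finset.sdiff_subset hc))
          exact ⟨K', hK'1.trans Finset.sdiff_subset, hK'2, hle.trans hK'3⟩
    -- the choice of the set
    have hchoice : ∃ K₀ ⊆ S, (isHub G w a ∨ ∀ c ∈ K₀, w < x c) ∧ PsiP G w (h + 1) b a = rho w x K₀ := by
      rw [PsiP_succ]
      by_cases hhub : isHub G w a
      · rw [if_pos hhub]
        rcases le_total (rho w (PsiP G w h a) (S.filter (fun c => w < PsiP G w h a c)))
            (rho w (PsiP G w h a) S) with h1 | h1
        · exact ⟨S, le_refl _, Or.inl hhub, max_eq_right h1⟩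
        · exact ⟨_, Finset.filter_subset _ _, Or.inl hhub, max_eq_left h1⟩
      · rw [if_neg hhub]
        exact ⟨_, Finset.filter_subset _ _, Or.inr fun c hc => (Finset.mem_filter.mp hc).2, rfl⟩
    obtain ⟨K₀, hK₀S, hK₀c, hK₀v⟩ := hchoice
    obtain ⟨K', hK'1, hK'2, hK'3⟩ := hred _ K₀ rfl hK₀S hK₀c
    have hK'adj : ∀ c ∈ K', G.Adj a c := fun c hc => hSadj c (hK₀S (hK'1 hc))
    obtain ⟨Dl, hcert⟩ := node_any (K := K') (b := b) (a := a) (Fc := Fc) (Ec := Ec) (Dc := Dc)
      (Dlc := Dlc) hw hab (hK'1.trans hK₀S) (fun c hc => (hchild c (hK'adj c hc)).1)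
      (by
        rcases hK₀c with h1 | h1
        · exact Or.inl h1
        · exact Or.inr fun c hc => hbigw c (hK'adj c hc) (h1 c (hK'1 hc)))
    refine ⟨_, _, _, _, hcert, hK'2, ?_⟩
    rw [hK₀v]
    refine hK'3.trans ?_
    exact rho_le_node hw0 (fun c _ => zero_le_one.trans (hx1 c))
      (fun c hc => (hchild c (hK'adj c hc)).2.2)

end Vale.Agent.Lib.P064
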