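import Vale.Agent.Lib.P064.Gen6

/-!
From certificates to layered data, the peeling induction, and the main counting bound.
-/

namespace Vale.Agent.Lib.P064

open Finset
open scoped Nat Classical

set_option linter.unusedSectionVars false
set_option linter.unusedVariables false

variable {V : Type*} [Fintype V]

/-- The layered data of a certificate. -/
noncomputable def lpOf (Fam : V → Multiset (Finset V)) (E : ℕ) (D : ℝ) (r : V → ℕ) : LP V where
  W := Finset.univ.filter (fun u => Fam u ≠ 0)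
  E := E
  D := D
  N := E + 2
  X := layX Fam
  out := layOut Fam r

theorem lpOf_valid {H G : SimpleGraph V} (hGH : G ≤ H) {w : ℝ} {a : V}
    {Fam : V → Multiset (Finset V)} {E : ℕ} {D Dl : ℝ} (hc : IsCert G w a a Fam E D Dl)
    {r : V → ℕ} (hr : Function.Injective r)
    (hhub : ∀ u, isHub G w u → ((nb G u).filter (fun v => r u < r v)).card ≤ 1)
    {τ : ℕ} (hτ : E + 1 ≤ τ) : LPValid H τ (lpOf Fam E D r) where
  ori := fun l => by
    have h := hc.layers_oriented r l
    exact ⟨h.sub, h.off, fun u t ht => hGH (h.adj u t ht), h.anti⟩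
  sub := by
    intro l u hu
    have h1 : l < cnt Fam u := (Finset.mem_filter.mp hu).2
    refine Finset.mem_filter.mpr ⟨Finset.mem_univ _, ?_⟩
    intro h0
    unfold cnt at h1
    rw [h0] at h1
    simp at h1
  vsum := hc.vsum
  esum := hc.esum hr
  Dle := hc.D_le_layers hr hhub
  D1 := hc.D_one
  Dfac := hc.D_fac
  size := hτ
  wcard := by
    change (Finset.univ.filter (fun u => Fam u ≠ 0)).card ≤ E + 1
    rw [← hc.cnt_sum, Finset.card_eq_sum_ones, Finset.sum_filter]
    refine Finset.sum_le_sum fun u _ => ?_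
    split_ifs with h
    · unfold cnt
      exact Multiset.card_pos.mpr h
    · exact Nat.zero_le _
  wne := ⟨a, Finset.mem_filter.mpr ⟨Finset.mem_univ _, hc.root⟩⟩

/-- The small certificates. -/
theorem small_cert {H G : SimpleGraph V} (hGH : G ≤ H) {n τ a' : ℕ} {q w : ℝ} (hn : 0 < n)
    (hq : 0 < q) (hyp : OBound H n q)
    (ha : 1 ≤ a') (hμ : 12 * (n : ℝ) * q ≤ 2 ^ a') (hτ : (τ : ℝ) ^ (2 * a') ≤ n)
    {r : V → ℕ} (hr : Function.Injective r)
    (hhub : ∀ u, isHub G w u → ((nb G u).filter (fun v => r u < r v)).card ≤ 1)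
    {a : V} {Fam : V → Multiset (Finset V)} {E : ℕ} {D Dl : ℝ} (hc : IsCert G w a a Fam E D Dl)
    (hE : E + 1 ≤ τ) : D ≤ 6 * n * (144 * n * q) ^ E := by
  have hn' : (0 : ℝ) < n := by exact_mod_cast hn
  have hP := lpOf_valid hGH hc hr hhub hE
  have h1 := family_bound (I := {lpOf Fam E D r}) hn hq hyp ha hμ hτ
    (fun P hP' => by rw [Finset.mem_singleton.mp hP']; exact hP)
    (fun P hP' Q hQ' h => by
      rw [Finset.mem_singleton.mp hP', Finset.mem_singleton.mp hQ'] at h
      exact absurd rfl h)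
    (Finset.singleton_nonempty _)
  simp only [Finset.prod_singleton, Finset.card_singleton, Nat.cast_one, div_one, pow_one] at h1
  have h2 : (lpOf Fam E D r).D = D := rfl
  have h3 : (lpOf Fam E D r).E = E := rfl
  rw [h2, h3, div_le_iff₀ (by positivity)] at h1
  exact h1

section PeelP

variable {Z : Type*} [Fintype Z]

/-- The peeling induction for general graphs. -/
theorem peelP {H : SimpleGraph V} {w : ℝ} {τ : ℕ} (hw : 1 ≤ w) {T : SimpleGraph Z}
    (hT : T.Connected) {m : ℕ} (hm : Fintype.card Z = m + 1)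
    (hcert : ∀ V' : Finset V, V'.Nonempty → ∃ P : LP V, LPValid H τ P ∧ P.W ⊆ V' ∧
      ∀ x ∈ V', GP (resG H V') w (m + 1) x x ≤ P.D / w ^ P.E) :
    ∀ (s : ℕ) (V' : Finset V), V'.card ≤ s →
      ∃ I : Finset (LP V),
        (∀ P ∈ I, LPValid H τ P ∧ P.W ⊆ V') ∧
        (∀ P ∈ I, ∀ Q ∈ I, P ≠ Q → Disjoint P.W Q.W) ∧
        ((Emb T H V').card : ℝ) ≤
          (m + 1) * (16 * w) ^ m * ∑ P ∈ I, ((P.E : ℝ) + 1) * (P.D / w ^ P.E) := by
  have hw0 : 0 < w := by linarith
  have hZ : Nonempty Z := by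
    rw [← Fintype.card_pos_iff]; omega
  intro s
  induction s with
  | zero =>
    intro V' hV'
    have h0 : V' = ∅ := Finset.card_eq_zero.mp (by omega)
    refine ⟨∅, by simp, by simp, ?_⟩
    have : Emb T H V' = ∅ := by
      rw [Emb, Finset.filter_eq_empty_iff]
      rintro f _ ⟨_, _, h3⟩
      obtain ⟨z⟩ := hZ
      have := h3 z
      simp [h0] at this
    simp [this]
  | succ s ih =>
    intro V' hV'
    rcases Finset.eq_empty_or_nonempty V' with h0 | hne
    · refine ⟨∅, by simp, by simp, ?_⟩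
      have : Emb T H V' = ∅ := by
        rw [Emb, Finset.filter_eq_empty_iff]
        rintro f _ ⟨_, _, h3⟩
        obtain ⟨z⟩ := hZ
        have := h3 z
        simp [h0] at this
      simp [this]
    · obtain ⟨Ps, hPs1, hPs2, hPs3⟩ := hcert V' hne
      set Γ := Ps.D / w ^ Ps.E with hΓ
      have hΓ0 : 0 ≤ Γ := by
        have : 0 ≤ Ps.D := zero_le_one.trans hPs1.D1
        positivity
      have hcardlt : (V' \ Ps.W).card ≤ s := by
        have h1 : (V' \ Ps.W).card = V'.card - Ps.W.card := Finset.card_sdiff_of_subset hPs2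
        have h2 : 0 < Ps.W.card := Finset.card_pos.mpr hPs1.wne
        have h3 : Ps.W.card ≤ V'.card := Finset.card_le_card hPs2
        omega
      obtain ⟨I, hI1, hI2, hI3⟩ := ih (V' \ Ps.W) hcardlt
      have hPsI : Ps ∉ I := by
        intro h
        have h1 := (hI1 Ps h).2
        obtain ⟨z, hz⟩ := hPs1.wne
        have h2 := h1 hz
        exact (Finset.mem_sdiff.mp h2).2 hz
      refine ⟨insert Ps I, ?_, ?_, ?_⟩
      · intro P hP
        rcases Finset.mem_insert.mp hP with rfl | hP
        · exact ⟨hPs1, hPs2⟩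
        · exact ⟨(hI1 P hP).1, (hI1 P hP).2.trans Finset.sdiff_subset⟩
      · have hdis : ∀ Q ∈ I, Disjoint Ps.W Q.W := by
          intro Q hQ
          rw [Finset.disjoint_left]
          intro z hz hz'
          exact (Finset.mem_sdiff.mp ((hI1 Q hQ).2 hz')).2 hz
        intro P hP Q hQ hne
        rcases Finset.mem_insert.mp hP with hP1 | hP1
        · rcases Finset.mem_insert.mp hQ with hQ1 | hQ1
          · exact absurd (hP1.trans hQ1.symm) hne
          · rw [hP1]; exact hdis Q hQ1
        · rcases Finset.mem_insert.mp hQ with hQ1 | hQ1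
          · rw [hQ1]; exact (hdis P hP1).symm
          · exact hI2 P hP1 Q hQ1 hne
      · -- the count
        rw [Finset.sum_insert hPsI]
        have hcover : Emb T H V' ⊆ Emb T H (V' \ Ps.W) ∪
            (Finset.univ : Finset Z).biUnion (fun y => Ps.W.biUnion (fun x =>
              (Emb T H V').filter (fun f => f y = x))) := by
          intro f hf
          by_cases h : ∃ y, f y ∈ Ps.W
          · obtain ⟨y, hy⟩ := h
            refine Finset.mem_union_right _ (Finset.mem_biUnion.mpr ⟨y, Finset.mem_univ _,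
              Finset.mem_biUnion.mpr ⟨f y, hy, Finset.mem_filter.mpr ⟨hf, rfl⟩⟩⟩)
          · push Not at h
            rcases Finset.mem_filter.mp hf with ⟨_, h1, h2, h3⟩
            refine Finset.mem_union_left _ (Finset.mem_filter.mpr ⟨Finset.mem_univ _, h1, h2, ?_⟩)
            intro a
            exact Finset.mem_sdiff.mpr ⟨h3 a, h a⟩
        have hWpos : (0 : ℝ) ≤ (16 * w) ^ m := by positivity
        have hcount : ∀ y : Z, ∀ x ∈ Ps.W, (((Emb T H V').filter (fun f => f y = x)).card : ℝ)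
            ≤ (16 * w) ^ m * Γ := by
          intro y x hx
          refine (card_emb_rootedP H hw hT hm V' y x).trans ?_
          exact mul_le_mul_of_nonneg_left (hPs3 x (hPs2 hx)) hWpos
        have hc1 : ((Emb T H V').card : ℝ) ≤ ((Emb T H (V' \ Ps.W)).card : ℝ) +
            ∑ y : Z, ∑ x ∈ Ps.W, (((Emb T H V').filter (fun f => f y = x)).card : ℝ) := by
          have h1 := (Finset.card_le_card hcover).trans (Finset.card_union_le _ _)
          have h2 : ((Finset.univ : Finset Z).biUnion (fun y => Ps.W.biUnion (fun x =>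
              (Emb T H V').filter (fun f => f y = x)))).card
              ≤ ∑ y : Z, ∑ x ∈ Ps.W, ((Emb T H V').filter (fun f => f y = x)).card :=
            Finset.card_biUnion_le.trans (Finset.sum_le_sum fun y _ => Finset.card_biUnion_le)
          have h3 : (Emb T H V').card ≤ (Emb T H (V' \ Ps.W)).card +
              ∑ y : Z, ∑ x ∈ Ps.W, ((Emb T H V').filter (fun f => f y = x)).card := by
            omega
          exact_mod_cast h3
        have hc2 : ∑ y : Z, ∑ x ∈ Ps.W, (((Emb T H V').filter (fun f => f y = x)).card : ℝ)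
            ≤ (m + 1) * (16 * w) ^ m * (((Ps.E : ℝ) + 1) * Γ) := by
          have hWc : (Ps.W.card : ℝ) ≤ (Ps.E : ℝ) + 1 := by
            exact_mod_cast hPs1.wcard
          calc ∑ y : Z, ∑ x ∈ Ps.W, (((Emb T H V').filter (fun f => f y = x)).card : ℝ)
              ≤ ∑ _y : Z, ∑ _x ∈ Ps.W, (16 * w) ^ m * Γ :=
                Finset.sum_le_sum fun y _ => Finset.sum_le_sum fun x hx => hcount y x hx
            _ = (m + 1) * (16 * w) ^ m * ((Ps.W.card : ℝ) * Γ) := by
                simp only [Finset.sum_const, Finset.card_univ, hm, nsmul_eq_mul]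
                push_cast
                ring
            _ ≤ _ := by
                refine mul_le_mul_of_nonneg_left ?_ (by positivity)
                exact mul_le_mul_of_nonneg_right hWc hΓ0
        calc ((Emb T H V').card : ℝ)
            ≤ ((Emb T H (V' \ Ps.W)).card : ℝ) +
              ∑ y : Z, ∑ x ∈ Ps.W, (((Emb T H V').filter (fun f => f y = x)).card : ℝ) := hc1
          _ ≤ (m + 1) * (16 * w) ^ m * ∑ P ∈ I, ((P.E : ℝ) + 1) * (P.D / w ^ P.E) +
              (m + 1) * (16 * w) ^ m * (((Ps.E : ℝ) + 1) * Γ) := add_le_add hI3 hc2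
          _ = (m + 1) * (16 * w) ^ m * (((Ps.E : ℝ) + 1) * Γ +
              ∑ P ∈ I, ((P.E : ℝ) + 1) * (P.D / w ^ P.E)) := by ring

/-- The main counting bound, under explicit conditions on the parameters. -/
theorem card_emb_main {H : SimpleGraph V} {n s a' : ℕ} {q : ℝ} (hn : 0 < n)
    (hV : Fintype.card V ≤ n) (hq : 0 < q) (hyp : OBound H n q)
    (hμ1 : 1 ≤ 12 * (n : ℝ) * q) (hs : 1 ≤ s) (hdeg : ∀ u, (nb H u).card < s)
    (hnum : 6 * (n : ℝ) ≤ 4 ^ s) (ha : 1 ≤ a') (hμ : 12 * (n : ℝ) * q ≤ 2 ^ a')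
    (hτ : ((2 * s : ℕ) : ℝ) ^ (2 * a') ≤ n) {T : SimpleGraph Z} (hT : T.Connected) {m : ℕ}
    (hm : Fintype.card Z = m + 1) :
    ((Emb T H Finset.univ).card : ℝ) ≤ (m + 1) * (18432 * n * q) ^ m * (24 * n) := by
  have hn' : (0 : ℝ) < n := by exact_mod_cast hn
  set w : ℝ := 1152 * n * q with hw
  have hw64 : 64 ≤ w := by
    have : w = 96 * (12 * (n : ℝ) * q) := by rw [hw]; ring
    rw [this]; linarith
  have hw1 : 1 ≤ w := by linarith
  have hw0 : 0 < w := by linarith
  have hμw : 12 * (n : ℝ) * q ≤ w := by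
    have : w = 96 * (12 * (n : ℝ) * q) := by rw [hw]; ring
    rw [this]; linarith
  have hcert : ∀ V' : Finset V, V'.Nonempty → ∃ P : LP V, LPValid H (2 * s) P ∧ P.W ⊆ V' ∧
      ∀ x ∈ V', GP (resG H V') w (m + 1) x x ≤ P.D / w ^ P.E := by
    intro V' hV'
    set G := resG H V' with hG
    have hGH : G ≤ H := resG_le H V'
    obtain ⟨r, hr, hhub⟩ := hub_rank hGH hn hV hq hyp hμw
    have hdegG : ∀ u, (nb G u).card < s := by
      intro u
      refine lt_of_le_of_lt (Finset.card_le_card fun v hv => ?_) (hdeg u)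
      exact mem_nb.mpr (hGH (mem_nb.mp hv))
    have hsmall : ∀ a Fam E D Dl, IsCert G w a a Fam E D Dl → E < 2 * s →
        D ≤ 6 * n * (w / 8) ^ E := by
      intro a Fam E D Dl hc hE
      have h1 := small_cert hGH hn hq hyp ha hμ hτ hr hhub hc (by omega)
      have h2 : w / 8 = 144 * n * q := by rw [hw]; ring
      rw [h2]
      exact h1
    obtain ⟨x₀, hx₀, hmax⟩ := Finset.exists_max_image V'
      (fun x => PsiP G w (m + 1) x x) hV'
    obtain ⟨Fam, E, D, Dl, hc, hE, hval⟩ := cut hw64 hs hdegG hnum hsmall (m + 1) x₀ x₀ (Or.inl rfl)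
    refine ⟨lpOf Fam E D r, lpOf_valid hGH hc hr hhub (by omega), ?_, ?_⟩
    · intro u hu
      have h1 : Fam u ≠ 0 := (Finset.mem_filter.mp hu).2
      rcases hc.supp u h1 with h2 | ⟨y, h2⟩
      · rw [h2]; exact hx₀
      · exact (resG_adj.mp h2).2.1
    · intro x hx
      change GP G w (m + 1) x x ≤ D / w ^ E
      unfold GP
      have h1 := hmax x hx
      have h2 : 1 ≤ PsiP G w (m + 1) x₀ x₀ := one_le_PsiP G hw0 _ _ _
      have h3 := one_le_PsiP G hw0 (m + 1) x x
      refine max_le (h2.trans hval) ?_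
      rw [div_le_iff₀ hw0]
      have h4 : 1 ≤ D / w ^ E := h2.trans hval
      nlinarith
  obtain ⟨I, hI1, hI2, hI3⟩ := peelP hw1 hT hm hcert _ (Finset.univ : Finset V) (le_refl _)
  have hΛ : 0 < 144 * (n : ℝ) * q := by positivity
  have hsum := sum_family_le I (fun P => P.E) (fun P => P.D) (Λ := 144 * (n : ℝ) * q) hn hΛ
    (fun P hP => (hI1 P hP).1.D1) (fun P hP => (hI1 P hP).1.Dfac)
    (fun J hJ hne => family_bound hn hq hyp ha hμ hτ (fun P hP => (hI1 P (hJ hP)).1)
      (fun P hP Q hQ => hI2 P (hJ hP) Q (hJ hQ)) hne)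
  have h8 : 8 * (144 * (n : ℝ) * q) = w := by rw [hw]; ring
  rw [h8] at hsum
  have h2 : (0 : ℝ) ≤ (m + 1) * (16 * w) ^ m := by positivity
  have h3 : 16 * w = 18432 * n * q := by rw [hw]; ring
  rw [h3] at h2 hI3
  exact hI3.trans (mul_le_mul_of_nonneg_left hsum h2)

end PeelP

end Vale.Agent.Lib.P064
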