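import Vale.Agent.Lib.P064.Gen7

/-!
Degree bounds and the counting bound for connected graphs in all regimes of the density.
-/

namespace Vale.Agent.Lib.P064

open Finset
open scoped Nat Classical

set_option linter.unusedSectionVars false
set_option linter.unusedVariables false

variable {V : Type*} [Fintype V]

/-- The star at `u`. -/
theorem star_bound {H : SimpleGraph V} {n : ℕ} {q : ℝ} (hn : 0 < n) (hq : 0 < q)
    (hyp : OBound H n q) (u : V) :
    (((nb H u).card)! : ℝ) ≤ 6 * n * (12 * n * q) ^ (nb H u).card := by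
  set out : V → Finset V := fun v => if v = u then nb H u else ∅ with hout
  set W : Finset V := insert u (nb H u) with hW
  have hu : u ∉ nb H u := by
    intro h
    exact (mem_nb.mp h).ne rfl
  have hoU : out u = nb H u := by simp [hout]
  have hoff : ∀ v, v ≠ u → out v = ∅ := fun v hv => by simp [hout, hv]
  have hor : IsOriented H W out := by
    refine ⟨?_, ?_, ?_, ?_⟩
    · intro v _ t ht
      by_cases hv : v = u
      · rw [hv, hoU] at ht
        exact Finset.mem_insert_of_mem ht
      · rw [hoff v hv] at ht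
        simp at ht
    · intro v hv
      refine hoff v fun h => hv (h ▸ Finset.mem_insert_self _ _)
    · intro v t ht
      by_cases hv : v = u
      · rw [hv, hoU] at ht
        rw [hv]
        exact mem_nb.mp ht
      · rw [hoff v hv] at ht
        simp at ht
    · intro v t ht hv'
      by_cases hv : v = u
      · rw [hv, hoU] at ht
        have htu : t ≠ u := fun h => hu (h ▸ ht)
        rw [hoff t htu] at hv'
        simp at hv'
      · rw [hoff v hv] at ht
        simp at ht
  have hWne : W.Nonempty := ⟨u, Finset.mem_insert_self _ _⟩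
  have hb := hyp _ _ hor hWne
  have hsum : ∑ v ∈ W, (out v).card = (nb H u).card := by
    rw [hW, Finset.sum_insert hu, hoU]
    have : ∑ v ∈ nb H u, (out v).card = 0 := by
      refine Finset.sum_eq_zero fun v hv => ?_
      have hvu : v ≠ u := fun h => hu (h ▸ hv)
      rw [hoff v hvu]
      rfl
    omega
  have hprod : ∏ v ∈ W, (((out v).card)! : ℝ) = (((nb H u).card)! : ℝ) := by
    rw [hW, Finset.prod_insert hu, hoU]
    have : ∏ v ∈ nb H u, (((out v).card)! : ℝ) = 1 := by
      refine Finset.prod_eq_one fun v hv => ?_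
      have hvu : v ≠ u := fun h => hu (h ▸ hv)
      rw [hoff v hvu]
      simp
    rw [this, mul_one]
  rw [hsum, hprod] at hb
  have hv : W.card = (nb H u).card + 1 := by
    rw [hW, Finset.card_insert_of_notMem hu]
  have h1 := oriented_bound (n := n) (κ := 1) hn hq (by norm_num) hv hb
  simpa using h1

/-- Degrees are small. -/
theorem deg_lt {H : SimpleGraph V} {n t : ℕ} {q Y : ℝ} (hn : 0 < n) (hq : 0 < q)
    (hyp : OBound H n q) (ht : 1 ≤ t) (hnt : n < 2 ^ t)
    (hY1 : (n : ℝ) * q ≤ Y) (hYt : (t : ℝ) ≤ Y) (u : V) : ((nb H u).card : ℝ) < 72 * Y := by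
  have hn' : (0 : ℝ) < n := by exact_mod_cast hn
  have ht' : (1 : ℝ) ≤ t := by exact_mod_cast ht
  have hY0 : 0 < Y := by linarith
  by_contra hcon
  push Not at hcon
  set d := (nb H u).card with hd
  have h1 := pow_le_factorial_of_six_mul_le (w := 12 * Y) (a := d) (by positivity) (by linarith)
  have h2 := star_bound hn hq hyp u
  rw [← hd] at h2
  have h3 : (12 * (n : ℝ) * q) ^ d ≤ (12 * Y) ^ d :=
    pow_le_pow_left₀ (by positivity) (by linarith) d
  have h4 : (2 * (12 * Y)) ^ d ≤ 6 * n * (12 * Y) ^ d :=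
    h1.trans (h2.trans (mul_le_mul_of_nonneg_left h3 (by positivity)))
  have h5 : (2 * (12 * Y)) ^ d = 2 ^ d * (12 * Y) ^ d := mul_pow _ _ _
  rw [h5] at h4
  have h6 : (2 : ℝ) ^ d ≤ 6 * n := le_of_mul_le_mul_right h4 (by positivity)
  have hdt : 72 * t ≤ d := by
    have : ((72 * t : ℕ) : ℝ) ≤ d := by
      push_cast
      linarith
    exact_mod_cast this
  have h7 : (2 : ℝ) ^ (t + 3) ≤ 2 ^ d := pow_le_pow_right₀ (by norm_num) (by omega)
  have h8 : (n : ℝ) < 2 ^ t := by exact_mod_cast hnt
  have h9 : (2 : ℝ) ^ (t + 3) = 8 * 2 ^ t := by rw [pow_add]; ring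
  have h10 : (0 : ℝ) < 2 ^ t := by positivity
  nlinarith

section Trivial

variable {Z : Type*} [Fintype Z]

/-- The trivial super-solution. -/
lemma trivial_superSol {H : SimpleGraph V} {W : ℝ} (hW : 0 < W)
    (hdeg : ∀ u, ((nb H u).card : ℝ) ≤ W) : SuperSol H W (fun _ _ _ => 1) where
  nonneg := fun _ _ _ => zero_le_one
  mono := fun _ _ _ _ _ => le_refl _
  ss := fun h b a k => by
    have h1 := perm_le_crude (g := fun _ : V => (1 : ℝ)) k ((nb H a).erase b) (fun _ _ => le_refl _)
    simp only [Finset.prod_const_one, mul_one] at h1 ⊢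
    refine h1.trans ?_
    have h2 : (((nb H a).erase b).card.descFactorial k : ℝ) ≤ (((nb H a).erase b).card : ℝ) ^ k := by
      exact_mod_cast Nat.descFactorial_le_pow _ _
    refine h2.trans (pow_le_pow_left₀ (by positivity) ?_ k)
    have h3 : (((nb H a).erase b).card : ℝ) ≤ ((nb H a).card : ℝ) := by
      exact_mod_cast Finset.card_erase_le
    exact h3.trans (hdeg a)

/-- The trivial bound for embeddings from a degree bound. -/
theorem card_emb_deg {H : SimpleGraph V} {n : ℕ} {W : ℝ} (hW : 0 < W)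
    (hdeg : ∀ u, ((nb H u).card : ℝ) ≤ W) (hV : Fintype.card V ≤ n) {T : SimpleGraph Z}
    (hT : T.Connected) {m : ℕ} (hm : Fintype.card Z = m + 1) :
    ((Emb T H Finset.univ).card : ℝ) ≤ n * W ^ m := by
  have hZ : Nonempty Z := by
    rw [← Fintype.card_pos_iff]; omega
  obtain ⟨y⟩ := hZ
  obtain ⟨e, p, he0, hp0, hp⟩ := rooted_order hT y hm
  have hroot : ∀ x : V, (((Emb T H Finset.univ).filter (fun f => f y = x)).card : ℝ) ≤ W ^ m := by
    intro x
    have h1 := card_rooted_le (H := H) hW (trivial_superSol hW hdeg) p hp0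
      (fun c hc => (hp c hc).1) x
    rw [mul_one] at h1
    refine le_trans ?_ h1
    have h2 : ((Emb T H Finset.univ).filter (fun f => f y = x)).card
        ≤ (Finset.univ.filter (fun ψ : Fin (m + 1) → V => Valid H p ψ ∧ ψ 0 = x)).card := by
      refine Finset.card_le_card_of_injOn (fun f => f ∘ e) ?_ ?_
      · intro f hf
        have hf' := Finset.mem_coe.mp hf
        rcases Finset.mem_filter.mp hf' with ⟨hf1, hf2⟩
        rcases Finset.mem_filter.mp hf1 with ⟨_, hinj, hadj, hmem⟩
        refine Finset.mem_coe.mpr (Finset.mem_filter.mpr ⟨Finset.mem_univ _, ⟨?_, ?_⟩, ?_⟩)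
        · exact hinj.comp e.injective
        · intro c hc
          exact hadj _ _ (hp c hc).2
        · simp [he0, hf2]
      · intro f _ g _ hfg
        funext z
        have := congrFun hfg (e.symm z)
        simpa using this
    exact_mod_cast h2
  have hcover : Emb T H Finset.univ ⊆ (Finset.univ : Finset V).biUnion
      (fun x => (Emb T H Finset.univ).filter (fun f => f y = x)) := by
    intro f hf
    exact Finset.mem_biUnion.mpr ⟨f y, Finset.mem_univ _, Finset.mem_filter.mpr ⟨hf, rfl⟩⟩
  have h1 : (Emb T H Finset.univ).card ≤ ∑ x : V,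
      ((Emb T H Finset.univ).filter (fun f => f y = x)).card :=
    (Finset.card_le_card hcover).trans Finset.card_biUnion_le
  have h2 : ((Emb T H Finset.univ).card : ℝ) ≤ ∑ x : V,
      (((Emb T H Finset.univ).filter (fun f => f y = x)).card : ℝ) := by
    exact_mod_cast h1
  have h3 : ∑ x : V, (((Emb T H Finset.univ).filter (fun f => f y = x)).card : ℝ) ≤ ∑ _x : V, W ^ m :=
    Finset.sum_le_sum fun x _ => hroot x
  rw [Finset.sum_const, Finset.card_univ, nsmul_eq_mul] at h3
  have h4 : (Fintype.card V : ℝ) ≤ n := by exact_mod_cast hV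
  calc ((Emb T H Finset.univ).card : ℝ) ≤ (Fintype.card V : ℝ) * W ^ m := h2.trans h3
    _ ≤ n * W ^ m := mul_le_mul_of_nonneg_right h4 (by positivity)

end Trivial

/-- The numerical inequality behind the choice of parameters. -/
lemma numeric_growth : ∀ k : ℕ, 10 ≤ k → 2 * (k + 9) * (k + 5) + 1 ≤ 2 ^ k := by
  intro k hk
  induction k, hk using Nat.le_induction with
  | base => norm_num
  | succ k hk ih =>
    have h1 : 2 ^ (k + 1) = 2 * 2 ^ k := by ring
    rw [h1]
    nlinarith

lemma params_aux {n t k : ℕ} (h2 : 2 ^ (t - 1) ≤ n) (h4 : t < 2 ^ (k + 1)) (h5 : 2 ^ k ≤ t)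
    (h6 : 10 ≤ k) : ((12 * t : ℕ) : ℝ) ≤ 2 ^ (k + 5) ∧
      ((2 * (72 * t) : ℕ) : ℝ) ^ (2 * (k + 5)) ≤ n := by
  have h7 := numeric_growth k h6
  constructor
  · have : 12 * t ≤ 2 ^ (k + 5) := by
      have e : 2 ^ (k + 5) = 16 * 2 ^ (k + 1) := by ring
      rw [e]
      nlinarith
    exact_mod_cast this
  · have h8 : 2 * (72 * t) ≤ 2 ^ (k + 9) := by
      have e : 2 ^ (k + 9) = 256 * 2 ^ (k + 1) := by ring
      rw [e]
      nlinarith
    have h9 : (2 * (72 * t)) ^ (2 * (k + 5)) ≤ n := by
      calc (2 * (72 * t)) ^ (2 * (k + 5)) ≤ (2 ^ (k + 9)) ^ (2 * (k + 5)) :=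
            Nat.pow_le_pow_left h8 _
        _ = 2 ^ ((k + 9) * (2 * (k + 5))) := by rw [← pow_mul]
        _ ≤ 2 ^ (t - 1) := by
            refine Nat.pow_le_pow_right (by norm_num) ?_
            have e : (k + 9) * (2 * (k + 5)) = 2 * (k + 9) * (k + 5) := by ring
            rw [e]
            exact Nat.le_sub_of_add_le (h7.trans h5)
        _ ≤ n := h2
    exact_mod_cast h9

/-- The choice of parameters for large `n`. -/
lemma params {n : ℕ} (hn0 : n ≠ 0) (h3 : 1024 ≤ Nat.log 2 n) :
    ∃ t a : ℕ, 1 ≤ t ∧ n < 2 ^ t ∧ 1 ≤ a ∧ ((12 * t : ℕ) : ℝ) ≤ 2 ^ a ∧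
      ((2 * (72 * t) : ℕ) : ℝ) ^ (2 * a) ≤ n := by
  obtain ⟨t, ht⟩ : ∃ t, t = Nat.log 2 n + 1 := ⟨_, rfl⟩
  have h1 : n < 2 ^ t := by
    rw [ht]
    exact Nat.lt_pow_succ_log_self (by norm_num) n
  have h2 : 2 ^ (t - 1) ≤ n := by
    have : t - 1 = Nat.log 2 n := by omega
    rw [this]
    exact Nat.pow_log_le_self 2 hn0
  have ht0 : t ≠ 0 := by omega
  have ht1 : 1025 ≤ t := by omega
  obtain ⟨k, hk⟩ : ∃ k, k = Nat.log 2 t := ⟨_, rfl⟩
  have h4 : t < 2 ^ (k + 1) := by
    rw [hk]
    exact Nat.lt_pow_succ_log_self (by norm_num) t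
  have h5 : 2 ^ k ≤ t := by
    rw [hk]
    exact Nat.pow_log_le_self 2 ht0
  have h6 : 10 ≤ k := by
    rw [hk, Nat.le_log_iff_pow_le (by norm_num) ht0]
    have : (2 : ℕ) ^ 10 = 1024 := by norm_num
    omega
  obtain ⟨h7, h8⟩ := params_aux h2 h4 h5 h6
  exact ⟨t, k + 5, by omega, h1, by omega, h7, h8⟩

/-- A large constant. -/
noncomputable def constP : ℝ := 2 ^ 1024

lemma constP_ge : (2048 : ℝ) ≤ constP := by
  unfold constP
  calc (2048 : ℝ) = 2 ^ 11 := by norm_num
    _ ≤ 2 ^ 1024 := pow_le_pow_right₀ (by norm_num) (by norm_num)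

lemma le_pow_of_log {n m : ℕ} (h : Nat.log 2 n < m) : (n : ℝ) ≤ 2 ^ m := by
  have h1 : n < 2 ^ m := Nat.lt_pow_of_log_lt (by norm_num) h
  exact_mod_cast h1.le

lemma le_constP {n : ℕ} (h : Nat.log 2 n < 1024) : (n : ℝ) ≤ constP := le_pow_of_log h

/-- The constant in the count of connected graphs. -/
noncomputable def constK : ℝ := 12 * constP

lemma constK_pos : 0 < constK := by
  unfold constK
  linarith [constP_ge]

lemma le_constK : (18432 : ℝ) ≤ constK := by
  unfold constK
  linarith [constP_ge]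

section General

variable {Z : Type*} [Fintype Z]

/-- The count of embeddings of a connected graph, in all regimes. -/
theorem card_emb_general {H : SimpleGraph V} {n : ℕ} {q : ℝ} (hn : 0 < n)
    (hV : Fintype.card V ≤ n) (hq : 0 < q) (hyp : OBound H n q)
    {T : SimpleGraph Z} (hT : T.Connected) {m : ℕ} (hm : Fintype.card Z = m + 1) :
    ((Emb T H Finset.univ).card : ℝ) ≤ (m + 1) * (constK * n * q) ^ m * (24 * n) := by
  have hn' : (0 : ℝ) < n := by exact_mod_cast hn
  have hnq : 0 < (n : ℝ) * q := mul_pos hn' hq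
  -- monotonicity in the constant
  have hmono : ∀ C : ℝ, 0 < C → C ≤ constK →
      (m + 1) * (C * n * q) ^ m * (24 * n) ≤ (m + 1) * (constK * n * q) ^ m * (24 * (n : ℝ)) := by
    intro C hC hCK
    refine mul_le_mul_of_nonneg_right ?_ (by positivity)
    refine mul_le_mul_of_nonneg_left ?_ (by positivity)
    refine pow_le_pow_left₀ (by positivity) ?_ m
    have e1 : C * (n : ℝ) * q = C * ((n : ℝ) * q) := by ring
    have e2 : constK * (n : ℝ) * q = constK * ((n : ℝ) * q) := by ring
    rw [e1, e2]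
    exact mul_le_mul_of_nonneg_right hCK hnq.le
  -- passage from the trivial form
  have htriv : ∀ C : ℝ, 0 < C → C ≤ constK →
      ((Emb T H Finset.univ).card : ℝ) ≤ n * (C * n * q) ^ m →
      ((Emb T H Finset.univ).card : ℝ) ≤ (m + 1) * (constK * n * q) ^ m * (24 * n) := by
    intro C hC hCK h
    refine le_trans h (le_trans ?_ (hmono C hC hCK))
    have h1 : (0 : ℝ) ≤ (C * n * q) ^ m := by positivity
    have h2 : (1 : ℝ) ≤ ((m : ℝ) + 1) * 24 := by
      have : (0 : ℝ) ≤ m := Nat.cast_nonneg m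
      nlinarith
    have e : ((m : ℝ) + 1) * (C * n * q) ^ m * (24 * n) = (((m : ℝ) + 1) * 24) * (n * (C * n * q) ^ m) := by
      ring
    rw [e]
    have h3 : 0 ≤ (n : ℝ) * (C * n * q) ^ m := by positivity
    nlinarith
  by_cases hH : H.IsAcyclic
  · exact (card_emb_le hH hn hq hyp hT hm).trans
      (hmono 1536 (by norm_num) (by linarith [le_constK]))
  · have hμ1 := one_le_of_not_acyclic hn hV hq hyp hH
    by_cases hsmall : Nat.log 2 n < 1024
    · -- small `n`
      have hdeg : ∀ u, ((nb H u).card : ℝ) ≤ n := by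
        intro u
        have h1 : (nb H u).card ≤ n := (Finset.card_le_univ _).trans hV
        exact_mod_cast h1
      have h1 := card_emb_deg hn' hdeg hV hT hm
      have h2 : (n : ℝ) ≤ constK * n * q := by
        have h3 : (n : ℝ) ≤ constP := le_constP hsmall
        have h4 : constK * (n : ℝ) * q = constP * (12 * n * q) := by
          unfold constK; ring
        rw [h4]
        have h5 : (0 : ℝ) < constP := by linarith [constP_ge]
        nlinarith
      refine htriv constK constK_pos (le_refl _) (h1.trans ?_)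
      exact mul_le_mul_of_nonneg_left (pow_le_pow_left₀ hn'.le h2 m) hn'.le
    · push Not at hsmall
      obtain ⟨t, a, ht1, hnt, ha1, ha2, ha3⟩ := params hn.ne' hsmall
      have ht' : (1 : ℝ) ≤ t := by exact_mod_cast ht1
      by_cases hlam : (n : ℝ) * q ≤ t
      · -- the main regime
        have hdeg : ∀ u, (nb H u).card < 72 * t := by
          intro u
          have h1 := deg_lt hn hq hyp ht1 hnt hlam (le_refl _) u
          have h2 : ((nb H u).card : ℝ) < ((72 * t : ℕ) : ℝ) := by
            push_cast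
            exact h1
          exact_mod_cast h2
        have hnum : 6 * (n : ℝ) ≤ 4 ^ (72 * t) := by
          have h1 : (n : ℝ) < 2 ^ t := by exact_mod_cast hnt
          have h2 : (2 : ℝ) ^ (t + 3) ≤ 2 ^ (144 * t) :=
            pow_le_pow_right₀ (by norm_num) (by omega)
          have h3 : (4 : ℝ) ^ (72 * t) = 2 ^ (144 * t) := by
            rw [show (4 : ℝ) = 2 ^ 2 by norm_num, ← pow_mul]
            congr 1
            ring
          have h4 : (2 : ℝ) ^ (t + 3) = 8 * 2 ^ t := by rw [pow_add]; ring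
          rw [h3]
          have h5 : (0 : ℝ) < 2 ^ t := by positivity
          nlinarith
        have hμ : 12 * (n : ℝ) * q ≤ 2 ^ a := by
          refine le_trans ?_ ha2
          push_cast
          nlinarith
        have h1 := card_emb_main hn hV hq hyp hμ1 (s := 72 * t) (a' := a) (by omega) hdeg hnum ha1 hμ
          ha3 hT hm
        exact h1.trans (hmono 18432 (by norm_num) le_constK)
      · -- large density
        push Not at hlam
        have hdeg : ∀ u, ((nb H u).card : ℝ) ≤ 72 * ((n : ℝ) * q) := fun u =>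
          (deg_lt hn hq hyp ht1 hnt (le_refl _) hlam.le u).le
        have h1 := card_emb_deg (W := 72 * ((n : ℝ) * q)) (by positivity) hdeg hV hT hm
        refine htriv 72 (by norm_num) (by linarith [le_constK]) (h1.trans (le_of_eq ?_))
        congr 2
        ring

end General

end Vale.Agent.Lib.P064
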