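import Vale.Agent.Lib.P064.Sum

/-!
Relation between labelled and unlabelled counts, and the counts in the complete graph.
-/

namespace Vale.Agent.Lib.P064

open Finset SimpleGraph
open scoped Classical

set_option linter.unusedSectionVars false
set_option linter.unusedVariables false

variable {V : Type*} [Fintype V] {Z : Type*} [Fintype Z]

/-- Automorphism groups of finite graphs are finite. -/
noncomputable local instance autFintype (F : SimpleGraph Z) : Fintype (F ≃g F) :=
  Fintype.ofInjective (fun α => α.toEquiv) RelIso.toEquiv_injective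

lemma labelled_eq_natCard (G : SimpleGraph V) (F : SimpleGraph Z) :
    G.labelledCopyCount F = Nat.card (Copy F G) := by
  unfold labelledCopyCount
  exact (Nat.card_eq_fintype_card).symm

lemma toSubgraph_verts (G : SimpleGraph V) (F : SimpleGraph Z) (f : Copy F G) (s : V) :
    s ∈ f.toSubgraph.verts ↔ ∃ x, f x = s := by
  simp [Copy.toSubgraph]

lemma toSubgraph_adj (G : SimpleGraph V) (F : SimpleGraph Z) (f : Copy F G) (x y : Z) :
    f.toSubgraph.Adj (f x) (f y) ↔ F.Adj x y := by
  simp only [Copy.toSubgraph, Subgraph.map_adj, Subgraph.top_adj, Relation.map_apply,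
    Copy.coe_toHom]
  constructor
  · rintro ⟨a, b, h, ha, hb⟩
    rwa [← f.injective ha, ← f.injective hb]
  · intro h
    exact ⟨x, y, h, rfl, rfl⟩

/-- The copies with the same subgraph as `f` are in bijection with the automorphisms. -/
lemma card_fiber (G : SimpleGraph V) (F : SimpleGraph Z) (f : Copy F G) :
    Fintype.card {g : Copy F G // g.toSubgraph = f.toSubgraph} = Fintype.card (F ≃g F) := by
  symm
  refine Fintype.card_of_bijective (f := fun α : F ≃g F => ⟨f.comp α.toCopy, ?_⟩) ?_
  · -- the composite has the same subgraph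
    refine Subgraph.ext ?_ ?_
    · ext s
      rw [toSubgraph_verts, toSubgraph_verts]
      constructor
      · rintro ⟨x, rfl⟩
        exact ⟨α x, rfl⟩
      · rintro ⟨x, rfl⟩
        exact ⟨α.symm x, by simp [Copy.comp_apply]⟩
    · funext s t
      apply propext
      simp only [Copy.toSubgraph, Subgraph.map_adj, Subgraph.top_adj, Relation.map_apply,
        Copy.coe_toHom]
      constructor
      · rintro ⟨a, b, h, ha, hb⟩
        exact ⟨α a, α b, α.map_rel_iff.mpr h, ha, hb⟩
      · rintro ⟨a, b, h, ha, hb⟩
        refine ⟨α.symm a, α.symm b, ?_, ?_, ?_⟩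
        · exact α.symm.map_rel_iff.mpr h
        · simpa [Copy.comp_apply] using ha
        · simpa [Copy.comp_apply] using hb
  · constructor
    · intro α β h
      have h1 : f.comp α.toCopy = f.comp β.toCopy := congrArg Subtype.val h
      ext x
      have h2 := DFunLike.congr_fun h1 x
      simp only [Copy.comp_apply] at h2
      exact f.injective h2
    · rintro ⟨g, hg⟩
      -- build the automorphism
      have hex : ∀ x, ∃ y, f y = g x := by
        intro x
        have h1 : g x ∈ g.toSubgraph.verts := (toSubgraph_verts G F g _).mpr ⟨x, rfl⟩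
        rw [hg] at h1
        exact (toSubgraph_verts G F f _).mp h1
      choose a ha using hex
      have hainj : Function.Injective a := by
        intro x y hxy
        apply g.injective
        show g x = g y
        rw [← ha x, ← ha y, hxy]
      have habij : Function.Bijective a := Finite.injective_iff_bijective.mp hainj
      have hadj : ∀ x y, F.Adj (a x) (a y) ↔ F.Adj x y := by
        intro x y
        rw [← toSubgraph_adj G F f (a x) (a y), ha, ha, ← hg, toSubgraph_adj]
      refine ⟨{ toEquiv := Equiv.ofBijective a habij, map_rel_iff' := fun {x y} => hadj x y }, ?_⟩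
      apply Subtype.ext
      ext x
      simp [Copy.comp_apply, ha]

/-- Labelled copies are unlabelled copies times automorphisms. -/
theorem labelled_eq (G : SimpleGraph V) (F : SimpleGraph Z) :
    G.labelledCopyCount F = G.copyCount F * Fintype.card (F ≃g F) := by
  classical
  rw [copyCount_eq_card_image_copyToSubgraph, labelled_eq_natCard, Nat.card_eq_fintype_card]
  have h1 := Finset.card_eq_sum_card_fiberwise
    (s := (Finset.univ : Finset (Copy F G)))
    (t := (Finset.univ : Finset (Copy F G)).image Copy.toSubgraph)
    (f := Copy.toSubgraph) (fun g _ => Finset.mem_coe.mpr (Finset.mem_image_of_mem _ (Finset.mem_univ g)))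
  rw [Finset.card_univ] at h1
  rw [h1, Finset.sum_const_nat (m := Fintype.card (F ≃g F))]
  intro G' hG'
  obtain ⟨f, _, rfl⟩ := Finset.mem_image.mp hG'
  rw [← card_fiber G F f, Fintype.card_subtype]

/-- Copies as functions. -/
theorem labelled_eq_emb (G : SimpleGraph V) (F : SimpleGraph Z) :
    G.labelledCopyCount F = (Emb F G Finset.univ).card := by
  classical
  rw [labelled_eq_natCard, Nat.card_eq_fintype_card]
  refine Fintype.card_of_bijective (f := fun g : Copy F G => (⟨g, ?_⟩ : {x // x ∈ Emb F G Finset.univ}))
    ?_ |>.trans (Fintype.card_coe _)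
  · refine Finset.mem_filter.mpr ⟨Finset.mem_univ _, g.injective, ?_, fun _ => Finset.mem_univ _⟩
    intro a b h
    exact g.toHom.map_rel h
  · constructor
    · intro g g' h
      ext x
      exact congrFun (congrArg Subtype.val h) x
    · rintro ⟨f, hf⟩
      rcases Finset.mem_filter.mp hf with ⟨_, h1, h2, _⟩
      exact ⟨⟨⟨f, fun {a b} h => h2 a b h⟩, h1⟩, rfl⟩

/-- The labelled count in the complete graph. -/
theorem labelled_top (n : ℕ) (F : SimpleGraph Z) :
    (⊤ : SimpleGraph (Fin n)).labelledCopyCount F = n.descFactorial (Fintype.card Z) := by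
  classical
  rw [labelled_eq_natCard]
  have h := Fintype.card_embedding_eq (α := Z) (β := Fin n)
  rw [Fintype.card_fin] at h
  rw [← h, Nat.card_eq_fintype_card]
  refine Fintype.card_congr ?_
  refine { toFun := fun g => ⟨g, g.injective⟩,
           invFun := fun e => ⟨⟨e, fun {a b} h => ?_⟩, e.injective⟩,
           left_inv := ?_, right_inv := ?_ }
  · simp only [SimpleGraph.top_adj]
    intro h'
    exact h.ne (e.injective h')
  · intro g; ext x; rfl
  · intro e; ext x; rfl

/-- Labelled counts give the comparison of unlabelled counts. -/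
theorem copyCount_le_of_emb (H : SimpleGraph V) (F : SimpleGraph Z) (n : ℕ) {p : ℝ}
    (h : ((Emb F H Finset.univ).card : ℝ) ≤ (n.descFactorial (Fintype.card Z) : ℝ) * p) :
    (H.copyCount F : ℝ) ≤ ((⊤ : SimpleGraph (Fin n)).copyCount F : ℝ) * p := by
  have h1 := labelled_eq H F
  have h2 := labelled_eq (⊤ : SimpleGraph (Fin n)) F
  rw [labelled_eq_emb] at h1
  rw [labelled_top] at h2
  have hA : 0 < Fintype.card (F ≃g F) := Fintype.card_pos_iff.mpr ⟨Iso.refl⟩
  have hA' : (0 : ℝ) < Fintype.card (F ≃g F) := by exact_mod_cast hA
  rw [h1, h2] at h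
  push_cast at h
  have h3 : (H.copyCount F : ℝ) * (Fintype.card (F ≃g F) : ℝ)
      ≤ (((⊤ : SimpleGraph (Fin n)).copyCount F : ℝ) * p) * (Fintype.card (F ≃g F) : ℝ) := by
    linarith
  exact le_of_mul_le_mul_right h3 hA'

end Vale.Agent.Lib.P064
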