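import Vale.Agent.Lib.P064.Piece

/-!
Peeling: pass from rooted bounds to a bound for all embeddings of a connected graph in a forest.
-/

namespace Vale.Agent.Lib.P064

open Finset
open scoped Classical

set_option linter.unusedSectionVars false
set_option linter.unusedVariables false

variable {V : Type*} [Fintype V]

/-- `H` restricted to the vertex set `V'`. -/
def resG (H : SimpleGraph V) (V' : Finset V) : SimpleGraph V where
  Adj u v := H.Adj u v ∧ u ∈ V' ∧ v ∈ V'
  symm := ⟨fun _ _ h => ⟨h.1.symm, h.2.2, h.2.1⟩⟩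
  loopless := ⟨fun u h => H.loopless.irrefl u h.1⟩

lemma resG_adj {H : SimpleGraph V} {V' : Finset V} {u v : V} :
    (resG H V').Adj u v ↔ H.Adj u v ∧ u ∈ V' ∧ v ∈ V' := Iff.rfl

lemma resG_le (H : SimpleGraph V) (V' : Finset V) : resG H V' ≤ H := fun _ _ h => h.1

variable {Z : Type*} [Fintype Z]

/-- The embeddings of `T` in `H` with image inside `V'`. -/
noncomputable def Emb (T : SimpleGraph Z) (H : SimpleGraph V) (V' : Finset V) :
    Finset (Z → V) :=
  Finset.univ.filter (fun f => Function.Injective f ∧ (∀ a b, T.Adj a b → H.Adj (f a) (f b)) ∧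
    ∀ a, f a ∈ V')

lemma mem_Emb {T : SimpleGraph Z} {H : SimpleGraph V} {V' : Finset V} {f : Z → V} :
    f ∈ Emb T H V' ↔ Function.Injective f ∧ (∀ a b, T.Adj a b → H.Adj (f a) (f b)) ∧
      ∀ a, f a ∈ V' := by
  simp [Emb]

/-- A connected graph can be ordered so that each vertex has an earlier neighbour. -/
lemma rooted_order {T : SimpleGraph Z} (hT : T.Connected) (y : Z) {m : ℕ}
    (hm : Fintype.card Z = m + 1) :
    ∃ (e : Fin (m + 1) ≃ Z) (p : Fin (m + 1) → Fin (m + 1)), e 0 = y ∧ p 0 = 0 ∧
      ∀ c, c ≠ 0 → p c < c ∧ T.Adj (e (p c)) (e c) := by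
  have key : ∀ k, k ≤ m → ∃ f : ℕ → Z, f 0 = y ∧ (∀ i ≤ k, ∀ j ≤ k, f i = f j → i = j) ∧
      ∀ i, 0 < i → i ≤ k → ∃ d < i, T.Adj (f d) (f i) := by
    intro k
    induction k with
    | zero =>
      intro _
      refine ⟨fun _ => y, rfl, ?_, ?_⟩
      · intro i hi j hj _; omega
      · intro i hi hi'; omega
    | succ k ih =>
      intro hk
      obtain ⟨f, hf0, hfinj, hfadj⟩ := ih (by omega)
      set S : Finset Z := (Finset.range (k + 1)).image f with hS
      have hScard : S.card = k + 1 := by
        rw [hS, Finset.card_image_of_injOn, Finset.card_range]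
        intro i hi j hj hij
        exact hfinj i (by simpa [Nat.lt_succ_iff] using hi) j
          (by simpa [Nat.lt_succ_iff] using hj) hij
      have hlt : S.card < Fintype.card Z := by omega
      obtain ⟨z, hz⟩ : ∃ z, z ∉ S := by
        by_contra h
        push Not at h
        have : S = Finset.univ := Finset.eq_univ_iff_forall.mpr h
        rw [this, Finset.card_univ] at hlt
        exact lt_irrefl _ hlt
      have hy : y ∈ S := by
        rw [hS]
        exact Finset.mem_image.mpr ⟨0, by simp, hf0⟩
      obtain ⟨w⟩ := hT.preconnected y z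
      obtain ⟨d, _, hd1, hd2⟩ := w.exists_boundary_dart (S : Set Z) (by simpa using hy)
        (by simpa using hz)
      have hd1' : d.fst ∈ S := by simpa using hd1
      have hd2' : d.snd ∉ S := by simpa using hd2
      obtain ⟨d₀, hd₀, hd₀eq⟩ := Finset.mem_image.mp hd1'
      have hd₀' : d₀ < k + 1 := by simpa using hd₀
      refine ⟨Function.update f (k + 1) d.snd, ?_, ?_, ?_⟩
      · rw [Function.update_of_ne (by omega)]
        exact hf0
      · have hnot : ∀ i ≤ k, f i ≠ d.snd := by
          intro i hi h
          exact hd2' (h ▸ Finset.mem_image.mpr ⟨i, by simp [hi], rfl⟩)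
        intro i hi j hj hij
        by_cases hik : i = k + 1
        · by_cases hjk : j = k + 1
          · omega
          · rw [hik, Function.update_self, Function.update_of_ne hjk] at hij
            exact absurd hij.symm (hnot j (by omega))
        · by_cases hjk : j = k + 1
          · rw [hjk, Function.update_self, Function.update_of_ne hik] at hij
            exact absurd hij (hnot i (by omega))
          · rw [Function.update_of_ne hik, Function.update_of_ne hjk] at hij
            exact hfinj i (by omega) j (by omega) hij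
      · intro i hi hik
        by_cases hik' : i = k + 1
        · refine ⟨d₀, by omega, ?_⟩
          rw [hik', Function.update_self, Function.update_of_ne (by omega), hd₀eq]
          exact d.adj
        · obtain ⟨d', hd', hadj⟩ := hfadj i hi (by omega)
          refine ⟨d', hd', ?_⟩
          rw [Function.update_of_ne hik', Function.update_of_ne (by omega)]
          exact hadj
  obtain ⟨f, hf0, hfinj, hfadj⟩ := key m (le_refl _)
  have hinj : Function.Injective (fun i : Fin (m + 1) => f i.val) := by
    intro i j hij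
    exact Fin.ext (hfinj i.val (by omega) j.val (by omega) hij)
  have hbij : Function.Bijective (fun i : Fin (m + 1) => f i.val) := by
    rw [Fintype.bijective_iff_injective_and_card]
    exact ⟨hinj, by simp [hm]⟩
  set e : Fin (m + 1) ≃ Z := Equiv.ofBijective _ hbij with he
  have hex : ∀ c : Fin (m + 1), ∃ d : Fin (m + 1), c ≠ 0 → d < c ∧ T.Adj (e d) (e c) := by
    intro c
    by_cases hc : c = 0
    · exact ⟨0, fun h => absurd hc h⟩
    · have hc' : 0 < c.val := Nat.pos_of_ne_zero (fun h => hc (Fin.ext h))
      obtain ⟨d, hd, hadj⟩ := hfadj c.val hc' (by omega)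
      refine ⟨⟨d, by omega⟩, fun _ => ⟨hd, ?_⟩⟩
      simpa [he] using hadj
  choose p hp using hex
  refine ⟨e, fun c => if c = 0 then 0 else p c, ?_, by simp, ?_⟩
  · simp [he, hf0]
  · intro c hc
    simp only [hc, if_false]
    exact hp c hc

/-- Rooted count of embeddings in the restricted graph. -/
lemma card_emb_rooted (H : SimpleGraph V) {w : ℝ} (hw : 0 < w) {T : SimpleGraph Z}
    (hT : T.Connected) {m : ℕ} (hm : Fintype.card Z = m + 1) (V' : Finset V) (y : Z) (x : V) :
    (((Emb T H V').filter (fun f => f y = x)).card : ℝ)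
      ≤ (16 * w) ^ m * GG (resG H V') w (m + 1) x x := by
  obtain ⟨e, p, he0, hp0, hp⟩ := rooted_order hT y hm
  have h1 := card_rooted_le (H := resG H V') (W := 16 * w) (by positivity) (GG_superSol _ hw) p hp0
    (fun c hc => (hp c hc).1) x
  refine le_trans ?_ h1
  have h2 : ((Emb T H V').filter (fun f => f y = x)).card
      ≤ (Finset.univ.filter (fun φ : Fin (m + 1) → V => Valid (resG H V') p φ ∧ φ 0 = x)).card := by
    refine Finset.card_le_card_of_injOn (fun f => f ∘ e) ?_ ?_
    · intro f hf
      have hf' := Finset.mem_coe.mp hf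
      rcases Finset.mem_filter.mp hf' with ⟨hf1, hf2⟩
      rcases Finset.mem_filter.mp hf1 with ⟨_, hinj, hadj, hmem⟩
      refine Finset.mem_coe.mpr (Finset.mem_filter.mpr ⟨Finset.mem_univ _, ⟨?_, ?_⟩, ?_⟩)
      · exact hinj.comp e.injective
      · intro c hc
        exact resG_adj.mpr ⟨hadj _ _ (hp c hc).2, hmem _, hmem _⟩
      · simp [he0, hf2]
    · intro f _ g _ hfg
      funext z
      have := congrFun hfg (e.symm z)
      simpa using this
  exact_mod_cast h2

/-- The peeling induction. -/
theorem peel {H : SimpleGraph V} (hH : H.IsAcyclic) {w : ℝ} (hw : 0 < w) {T : SimpleGraph Z}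
    (hT : T.Connected) {m : ℕ} (hm : Fintype.card Z = m + 1) :
    ∀ (s : ℕ) (V' : Finset V), V'.card ≤ s →
      ∃ I : Finset (Finset V × (V → Finset V)),
        (∀ P ∈ I, IsPiece H P.1 P.2 ∧ P.1 ⊆ V') ∧
        (∀ P ∈ I, ∀ Q ∈ I, P ≠ Q → Disjoint P.1 Q.1) ∧
        ((Emb T H V').card : ℝ) ≤
          (m + 1) * (16 * w) ^ m * ∑ P ∈ I, (P.1.card : ℝ) * gam w P.1 P.2 := by
  have hZ : Nonempty Z := by
    rw [← Fintype.card_pos_iff]; omega
  intro s
  induction s with
  | zero =>
    intro V' hV'
    have h0 : V' = ∅ := Finset.card_eq_zero.mp (by omega)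
    refine ⟨∅, by simp, by simp, ?_⟩
    have : Emb T H V' = ∅ := by
      rw [Emb, Finset.filter_eq_empty_iff]
      rintro f _ ⟨_, _, h3⟩
      obtain ⟨z⟩ := hZ
      have := h3 z
      simp [h0] at this
    simp [this]
  | succ s ih =>
    intro V' hV'
    rcases Finset.eq_empty_or_nonempty V' with h0 | ⟨x₀, hx₀⟩
    · refine ⟨∅, by simp, by simp, ?_⟩
      have : Emb T H V' = ∅ := by
        rw [Emb, Finset.filter_eq_empty_iff]
        rintro f _ ⟨_, _, h3⟩
        obtain ⟨z⟩ := hZ
        have := h3 z
        simp [h0] at this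
      simp [this]
    · have hH' : (resG H V').IsAcyclic := hH.anti (resG_le H V')
      -- realised pieces
      have hreal : ∀ x ∈ V', ∃ (W : Finset V) (out : V → Finset V),
          IsPiece (resG H V') W out ∧ x ∈ W ∧ W ⊆ V' ∧
          Psi (resG H V') w (m + 1) x x = gam w W out := by
        intro x hx
        obtain ⟨W, out, h1, h2, _, h4, h5⟩ := realize hH' hw (m + 1) x x (Or.inl rfl)
        refine ⟨W, out, h1, h2, ?_, h5⟩
        intro z hz
        rcases h4 z hz with h6 | ⟨u, h6⟩
        · rw [h6]; exact hx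
        · exact (resG_adj.mp h6).2.1
      -- the candidates
      set C : Finset (Finset V × (V → Finset V)) := Finset.univ.filter
        (fun P => IsPiece (resG H V') P.1 P.2 ∧ P.1 ⊆ V' ∧ P.1.Nonempty) with hC
      have hCne : C.Nonempty := by
        obtain ⟨W, out, h1, h2, h3, _⟩ := hreal x₀ hx₀
        exact ⟨(W, out), Finset.mem_filter.mpr ⟨Finset.mem_univ _, h1, h3, ⟨x₀, h2⟩⟩⟩
      obtain ⟨Ps, hPs, hPmax⟩ := Finset.exists_max_image C (fun P => gam w P.1 P.2) hCne
      rcases Finset.mem_filter.mp hPs with ⟨_, hPs1, hPs2, hPs3⟩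
      set Γ := gam w Ps.1 Ps.2 with hΓ
      -- values of `Psi`
      have hPsile : ∀ x ∈ V', Psi (resG H V') w (m + 1) x x ≤ Γ := by
        intro x hx
        obtain ⟨W, out, h1, h2, h3, h4⟩ := hreal x hx
        rw [h4]
        exact hPmax (W, out) (Finset.mem_filter.mpr ⟨Finset.mem_univ _, h1, h3, ⟨x, h2⟩⟩)
      have hΓ1 : 1 ≤ Γ := (one_le_Psi _ _ _ _ _).trans (hPsile x₀ hx₀)
      have hGG : ∀ x ∈ V', GG (resG H V') w (m + 1) x x ≤ Γ := by
        intro x hx
        unfold GG
        refine max_le hΓ1 ?_
        have h1 : (1 : ℝ) ≤ max 1 w := le_max_left _ _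
        have h2 : 0 < max 1 w := by linarith
        rw [div_le_iff₀ h2]
        have h3 := hPsile x hx
        nlinarith
      -- the inductive hypothesis
      have hcardlt : (V' \ Ps.1).card ≤ s := by
        have h1 : (V' \ Ps.1).card = V'.card - Ps.1.card := Finset.card_sdiff_of_subset hPs2
        have h2 : 0 < Ps.1.card := Finset.card_pos.mpr hPs3
        have h3 : Ps.1.card ≤ V'.card := Finset.card_le_card hPs2
        omega
      obtain ⟨I, hI1, hI2, hI3⟩ := ih (V' \ Ps.1) hcardlt
      have hPsI : Ps ∉ I := by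
        intro h
        have h1 := (hI1 Ps h).2
        obtain ⟨z, hz⟩ := hPs3
        have h2 := h1 hz
        exact (Finset.mem_sdiff.mp h2).2 hz
      refine ⟨insert Ps I, ?_, ?_, ?_⟩
      · intro P hP
        rcases Finset.mem_insert.mp hP with rfl | hP
        · refine ⟨?_, hPs2⟩
          exact { sub := hPs1.sub, off := hPs1.off,
                  adj := fun u t ht => (resG_le H V') (hPs1.adj u t ht),
                  anti := hPs1.anti, size := hPs1.size }
        · exact ⟨(hI1 P hP).1, (hI1 P hP).2.trans Finset.sdiff_subset⟩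
      · have hdis : ∀ Q ∈ I, Disjoint Ps.1 Q.1 := by
          intro Q hQ
          rw [Finset.disjoint_left]
          intro z hz hz'
          exact (Finset.mem_sdiff.mp ((hI1 Q hQ).2 hz')).2 hz
        intro P hP Q hQ hne
        rcases Finset.mem_insert.mp hP with hP1 | hP1
        · rcases Finset.mem_insert.mp hQ with hQ1 | hQ1
          · exact absurd (hP1.trans hQ1.symm) hne
          · rw [hP1]; exact hdis Q hQ1
        · rcases Finset.mem_insert.mp hQ with hQ1 | hQ1
          · rw [hQ1]; exact (hdis P hP1).symm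
          · exact hI2 P hP1 Q hQ1 hne
      · -- the count
        rw [Finset.sum_insert hPsI]
        have hcover : Emb T H V' ⊆ Emb T H (V' \ Ps.1) ∪
            (Finset.univ : Finset Z).biUnion (fun y => Ps.1.biUnion (fun x =>
              (Emb T H V').filter (fun f => f y = x))) := by
          intro f hf
          by_cases h : ∃ y, f y ∈ Ps.1
          · obtain ⟨y, hy⟩ := h
            refine Finset.mem_union_right _ (Finset.mem_biUnion.mpr ⟨y, Finset.mem_univ _,
              Finset.mem_biUnion.mpr ⟨f y, hy, Finset.mem_filter.mpr ⟨hf, rfl⟩⟩⟩)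
          · push Not at h
            rcases Finset.mem_filter.mp hf with ⟨_, h1, h2, h3⟩
            refine Finset.mem_union_left _ (Finset.mem_filter.mpr ⟨Finset.mem_univ _, h1, h2, ?_⟩)
            intro a
            exact Finset.mem_sdiff.mpr ⟨h3 a, h a⟩
        have hWpos : (0 : ℝ) ≤ (16 * w) ^ m := by positivity
        have hcount : ∀ y : Z, ∀ x ∈ Ps.1, (((Emb T H V').filter (fun f => f y = x)).card : ℝ)
            ≤ (16 * w) ^ m * Γ := by
          intro y x hx
          refine (card_emb_rooted H hw hT hm V' y x).trans ?_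
          exact mul_le_mul_of_nonneg_left (hGG x (hPs2 hx)) hWpos
        have hc1 : ((Emb T H V').card : ℝ) ≤ ((Emb T H (V' \ Ps.1)).card : ℝ) +
            ∑ y : Z, ∑ x ∈ Ps.1, (((Emb T H V').filter (fun f => f y = x)).card : ℝ) := by
          have h1 := (Finset.card_le_card hcover).trans (Finset.card_union_le _ _)
          have h2 : ((Finset.univ : Finset Z).biUnion (fun y => Ps.1.biUnion (fun x =>
              (Emb T H V').filter (fun f => f y = x)))).card
              ≤ ∑ y : Z, ∑ x ∈ Ps.1, ((Emb T H V').filter (fun f => f y = x)).card :=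
            Finset.card_biUnion_le.trans (Finset.sum_le_sum fun y _ => Finset.card_biUnion_le)
          have h3 : (Emb T H V').card ≤ (Emb T H (V' \ Ps.1)).card +
              ∑ y : Z, ∑ x ∈ Ps.1, ((Emb T H V').filter (fun f => f y = x)).card := by
            omega
          exact_mod_cast h3
        have hc2 : ∑ y : Z, ∑ x ∈ Ps.1, (((Emb T H V').filter (fun f => f y = x)).card : ℝ)
            ≤ (m + 1) * (16 * w) ^ m * ((Ps.1.card : ℝ) * Γ) := by
          calc ∑ y : Z, ∑ x ∈ Ps.1, (((Emb T H V').filter (fun f => f y = x)).card : ℝ)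
              ≤ ∑ _y : Z, ∑ _x ∈ Ps.1, (16 * w) ^ m * Γ :=
                Finset.sum_le_sum fun y _ => Finset.sum_le_sum fun x hx => hcount y x hx
            _ = (m + 1) * (16 * w) ^ m * ((Ps.1.card : ℝ) * Γ) := by
                simp only [Finset.sum_const, Finset.card_univ, hm, nsmul_eq_mul]
                push_cast
                ring
        calc ((Emb T H V').card : ℝ)
            ≤ ((Emb T H (V' \ Ps.1)).card : ℝ) +
              ∑ y : Z, ∑ x ∈ Ps.1, (((Emb T H V').filter (fun f => f y = x)).card : ℝ) := hc1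
          _ ≤ (m + 1) * (16 * w) ^ m * ∑ P ∈ I, (P.1.card : ℝ) * gam w P.1 P.2 +
              (m + 1) * (16 * w) ^ m * ((Ps.1.card : ℝ) * Γ) := add_le_add hI3 hc2
          _ = (m + 1) * (16 * w) ^ m * ((Ps.1.card : ℝ) * Γ +
              ∑ P ∈ I, (P.1.card : ℝ) * gam w P.1 P.2) := by ring

end Vale.Agent.Lib.P064
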