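import Mathlib

/-!
Permanent-type sums over injective sequences, and the key recursive inequality.
-/

namespace Vale.Agent.Lib.P064

open Finset
open scoped Nat

variable {ι : Type*} [DecidableEq ι]

/-- `perm g k S` is the sum, over injective sequences of length `k` from `S`, of the product of
`g` along the sequence. -/
noncomputable def perm (g : ι → ℝ) : ℕ → Finset ι → ℝ
  | 0, _ => 1
  | k + 1, S => ∑ a ∈ S, g a * perm g k (S.erase a)

@[simp] lemma perm_zero (g : ι → ℝ) (S : Finset ι) : perm g 0 S = 1 := rfl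

lemma perm_succ (g : ι → ℝ) (k : ℕ) (S : Finset ι) :
    perm g (k + 1) S = ∑ a ∈ S, g a * perm g k (S.erase a) := rfl

lemma perm_nonneg {g : ι → ℝ} : ∀ (k : ℕ) (S : Finset ι), (∀ a ∈ S, 0 ≤ g a) → 0 ≤ perm g k S
  | 0, _, _ => zero_le_one
  | k + 1, S, h => by
    rw [perm_succ]
    refine Finset.sum_nonneg fun a ha => mul_nonneg (h a ha) ?_
    exact perm_nonneg k _ fun b hb => h b (Finset.mem_of_mem_erase hb)

/-- Monotonicity in the weights. -/
lemma perm_mono {g g' : ι → ℝ} :
    ∀ (k : ℕ) (S : Finset ι), (∀ a ∈ S, 0 ≤ g a) → (∀ a ∈ S, g a ≤ g' a) →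
      perm g k S ≤ perm g' k S
  | 0, _, _, _ => le_rfl
  | k + 1, S, h0, h => by
    rw [perm_succ, perm_succ]
    refine Finset.sum_le_sum fun a ha => ?_
    refine mul_le_mul (h a ha) ?_ ?_ ((h0 a ha).trans (h a ha))
    · exact perm_mono k _ (fun b hb => h0 b (Finset.mem_of_mem_erase hb))
        (fun b hb => h b (Finset.mem_of_mem_erase hb))
    · exact perm_nonneg k _ fun b hb => h0 b (Finset.mem_of_mem_erase hb)

omit [DecidableEq ι] in
lemma one_le_prod_of_one_le {g : ι → ℝ} {S : Finset ι} (h : ∀ a ∈ S, 1 ≤ g a) :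
    1 ≤ ∏ a ∈ S, g a := by
  have := Finset.prod_le_prod (s := S) (f := fun _ => (1 : ℝ)) (g := g)
    (fun _ _ => zero_le_one) (fun a ha => h a ha)
  simpa using this

/-- The crude bound for `perm`. -/
lemma perm_le_crude {g : ι → ℝ} :
    ∀ (k : ℕ) (S : Finset ι), (∀ a ∈ S, 1 ≤ g a) →
      perm g k S ≤ (S.card.descFactorial k : ℝ) * ∏ a ∈ S, g a
  | 0, S, h => by
    simpa using one_le_prod_of_one_le h
  | k + 1, S, h => by
    rw [perm_succ]
    have key : ∀ a ∈ S, g a * perm g k (S.erase a)
        ≤ ((S.card - 1).descFactorial k : ℝ) * ∏ b ∈ S, g b := by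
      intro a ha
      have h1 := perm_le_crude k (S.erase a) (fun b hb => h b (Finset.mem_of_mem_erase hb))
      rw [Finset.card_erase_of_mem ha] at h1
      have h2 : 0 ≤ g a := zero_le_one.trans (h a ha)
      calc g a * perm g k (S.erase a)
          ≤ g a * (((S.card - 1).descFactorial k : ℝ) * ∏ b ∈ S.erase a, g b) :=
            mul_le_mul_of_nonneg_left h1 h2
        _ = ((S.card - 1).descFactorial k : ℝ) * (g a * ∏ b ∈ S.erase a, g b) := by ring
        _ = ((S.card - 1).descFactorial k : ℝ) * ∏ b ∈ S, g b := by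
            rw [Finset.mul_prod_erase S g ha]
    calc ∑ a ∈ S, g a * perm g k (S.erase a)
        ≤ ∑ _a ∈ S, ((S.card - 1).descFactorial k : ℝ) * ∏ b ∈ S, g b :=
          Finset.sum_le_sum key
      _ = (S.card.descFactorial (k + 1) : ℝ) * ∏ a ∈ S, g a := by
          rw [Finset.sum_const, nsmul_eq_mul]
          rcases Finset.eq_empty_or_nonempty S with rfl | hS
          · simp
          · obtain ⟨n, hn⟩ : ∃ n, S.card = n + 1 := ⟨S.card - 1, by
              have := Finset.card_pos.mpr hS; omega⟩
            rw [hn, Nat.succ_descFactorial_succ]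
            simp only [Nat.add_sub_cancel]
            push_cast
            ring

/-- The first case: few elements with weight exactly one. -/
lemma perm_le_caseI {g : ι → ℝ} {M : ℝ} (hM : 0 ≤ M) :
    ∀ (k : ℕ) (S : Finset ι), (∀ a ∈ S, 1 ≤ g a) →
      ((S.filter (fun a => g a = 1)).card : ℝ) ≤ M →
      perm g k S ≤ M ^ k + ((S.filter (fun a => 1 < g a)).card ! : ℝ) * (∏ a ∈ S, g a) *
        ((M + 1) ^ k - M ^ k)
  | 0, S, _, _ => by simp
  | k + 1, S, h, hm => by
    classical
    set s := (S.filter (fun a => 1 < g a)).card with hs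
    set G := ∏ a ∈ S, g a with hG
    have hG1 : 1 ≤ G := one_le_prod_of_one_le h
    set Δ := (M + 1) ^ k - M ^ k with hΔ
    have hΔ0 : 0 ≤ Δ := by
      have : M ^ k ≤ (M + 1) ^ k := pow_le_pow_left₀ hM (by linarith) k
      linarith
    have hMk : 0 ≤ M ^ k := pow_nonneg hM k
    -- small elements
    have hsmall : ∀ a ∈ S, g a = 1 →
        g a * perm g k (S.erase a) ≤ M ^ k + (s ! : ℝ) * G * Δ := by
      intro a ha hga
      have h1 := perm_le_caseI (g := g) hM k (S.erase a)
        (fun b hb => h b (Finset.mem_of_mem_erase hb))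
        (le_trans (by
          exact_mod_cast Finset.card_le_card
            (Finset.filter_subset_filter _ (Finset.erase_subset a S))) hm)
      have h2 : (S.erase a).filter (fun b => 1 < g b) = S.filter (fun b => 1 < g b) := by
        ext b
        simp only [Finset.mem_filter, Finset.mem_erase]
        constructor
        · rintro ⟨⟨_, hb⟩, hb'⟩; exact ⟨hb, hb'⟩
        · rintro ⟨hb, hb'⟩
          refine ⟨⟨?_, hb⟩, hb'⟩
          rintro rfl
          linarith
      have h3 : ∏ b ∈ S.erase a, g b = G := by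
        rw [hG, ← Finset.mul_prod_erase S g ha, hga, one_mul]
      rw [h2, h3] at h1
      rw [hga, one_mul]
      exact h1
    -- big elements
    have hbig : ∀ a ∈ S, 1 < g a →
        g a * perm g k (S.erase a) ≤ g a * M ^ k + ((s - 1)! : ℝ) * G * Δ := by
      intro a ha hga
      have h1 := perm_le_caseI (g := g) hM k (S.erase a)
        (fun b hb => h b (Finset.mem_of_mem_erase hb))
        (le_trans (by
          exact_mod_cast Finset.card_le_card
            (Finset.filter_subset_filter _ (Finset.erase_subset a S))) hm)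
      have h2 : ((S.erase a).filter (fun b => 1 < g b)).card = s - 1 := by
        rw [Finset.filter_erase, Finset.card_erase_of_mem]
        exact Finset.mem_filter.mpr ⟨ha, hga⟩
      rw [h2] at h1
      have h3 : g a * ∏ b ∈ S.erase a, g b = G := by
        rw [hG, Finset.mul_prod_erase S g ha]
      have h4 : 0 ≤ g a := by linarith
      calc g a * perm g k (S.erase a)
          ≤ g a * (M ^ k + ((s - 1)! : ℝ) * (∏ b ∈ S.erase a, g b) * Δ) :=
            mul_le_mul_of_nonneg_left h1 h4
        _ = g a * M ^ k + ((s - 1)! : ℝ) * (g a * ∏ b ∈ S.erase a, g b) * Δ := by ring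
        _ = g a * M ^ k + ((s - 1)! : ℝ) * G * Δ := by rw [h3]
    -- split the sum
    rw [perm_succ]
    have hsplit : ∑ a ∈ S, g a * perm g k (S.erase a)
        = ∑ a ∈ S.filter (fun a => g a = 1), g a * perm g k (S.erase a)
          + ∑ a ∈ S.filter (fun a => ¬ g a = 1), g a * perm g k (S.erase a) :=
      (Finset.sum_filter_add_sum_filter_not S _ _).symm
    have hfil : S.filter (fun a => ¬ g a = 1) = S.filter (fun a => 1 < g a) := by
      ext a
      simp only [Finset.mem_filter]
      constructor
      · rintro ⟨ha, hne⟩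
        exact ⟨ha, lt_of_le_of_ne (h a ha) (Ne.symm hne)⟩
      · rintro ⟨ha, hlt⟩
        exact ⟨ha, ne_of_gt hlt⟩
    rw [hsplit, hfil]
    have hsum1 : ∑ a ∈ S.filter (fun a => g a = 1), g a * perm g k (S.erase a)
        ≤ M * (M ^ k + (s ! : ℝ) * G * Δ) := by
      calc ∑ a ∈ S.filter (fun a => g a = 1), g a * perm g k (S.erase a)
          ≤ ∑ _a ∈ S.filter (fun a => g a = 1), (M ^ k + (s ! : ℝ) * G * Δ) := by
            refine Finset.sum_le_sum fun a ha => ?_
            rcases Finset.mem_filter.mp ha with ⟨ha1, ha2⟩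
            exact hsmall a ha1 ha2
        _ = ((S.filter (fun a => g a = 1)).card : ℝ) * (M ^ k + (s ! : ℝ) * G * Δ) := by
            rw [Finset.sum_const, nsmul_eq_mul]
        _ ≤ M * (M ^ k + (s ! : ℝ) * G * Δ) := by
            refine mul_le_mul_of_nonneg_right hm ?_
            have : 0 ≤ (s ! : ℝ) * G * Δ := by positivity
            linarith
    have hsum2 : ∑ a ∈ S.filter (fun a => 1 < g a), g a * perm g k (S.erase a)
        ≤ (∑ a ∈ S.filter (fun a => 1 < g a), g a) * M ^ k + (s ! : ℝ) * G * Δ := by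
      calc ∑ a ∈ S.filter (fun a => 1 < g a), g a * perm g k (S.erase a)
          ≤ ∑ a ∈ S.filter (fun a => 1 < g a), (g a * M ^ k + ((s - 1)! : ℝ) * G * Δ) := by
            refine Finset.sum_le_sum fun a ha => ?_
            rcases Finset.mem_filter.mp ha with ⟨ha1, ha2⟩
            exact hbig a ha1 ha2
        _ = (∑ a ∈ S.filter (fun a => 1 < g a), g a) * M ^ k + (s : ℝ) * (((s - 1)! : ℝ) * G * Δ) := by
            rw [Finset.sum_add_distrib, Finset.sum_const, nsmul_eq_mul, Finset.sum_mul]
        _ ≤ (∑ a ∈ S.filter (fun a => 1 < g a), g a) * M ^ k + (s ! : ℝ) * G * Δ := by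
            have hGΔ : 0 ≤ G * Δ := mul_nonneg (by linarith) hΔ0
            have : (s : ℝ) * (((s - 1)! : ℝ) * G * Δ) ≤ (s ! : ℝ) * G * Δ := by
              rcases Nat.eq_zero_or_pos s with h0 | hpos
              · simp only [h0, Nat.cast_zero, zero_mul, Nat.factorial_zero, Nat.cast_one, one_mul]
                exact hGΔ
              · obtain ⟨t, ht⟩ : ∃ t, s = t + 1 := ⟨s - 1, by omega⟩
                rw [ht, Nat.factorial_succ]
                simp only [Nat.add_sub_cancel]
                push_cast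
                linarith [show ((t : ℝ) + 1) * ((t ! : ℝ) * G * Δ) = ((t : ℝ) + 1) * (t ! : ℝ) * G * Δ by ring]
            linarith
    -- the sum of big weights is at most `s! G`
    have hsumbig : (∑ a ∈ S.filter (fun a => 1 < g a), g a) ≤ (s ! : ℝ) * G := by
      have h1 : ∀ a ∈ S.filter (fun a => 1 < g a), g a ≤ G := by
        intro a ha
        rcases Finset.mem_filter.mp ha with ⟨ha1, _⟩
        rw [hG, ← Finset.mul_prod_erase S g ha1]
        have : 1 ≤ ∏ b ∈ S.erase a, g b :=
          one_le_prod_of_one_le fun b hb => h b (Finset.mem_of_mem_erase hb)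
        have h4 : 0 ≤ g a := zero_le_one.trans (h a ha1)
        nlinarith
      calc (∑ a ∈ S.filter (fun a => 1 < g a), g a)
          ≤ ∑ _a ∈ S.filter (fun a => 1 < g a), G := Finset.sum_le_sum h1
        _ = (s : ℝ) * G := by rw [Finset.sum_const, nsmul_eq_mul]
        _ ≤ (s ! : ℝ) * G := by
            refine mul_le_mul_of_nonneg_right ?_ (by linarith)
            exact_mod_cast Nat.self_le_factorial s
    have hfinal : (∑ a ∈ S.filter (fun a => 1 < g a), g a) * M ^ k ≤ (s ! : ℝ) * G * M ^ k :=
      mul_le_mul_of_nonneg_right hsumbig hMk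
    have hΔs : (M + 1) ^ (k + 1) - M ^ (k + 1) = (M + 1) * Δ + M ^ k := by
      rw [hΔ]; ring
    rw [hΔs]
    have hpow : M ^ (k + 1) = M * M ^ k := by ring
    rw [hpow]
    nlinarith [hsum1, hsum2, hfinal]

end Vale.Agent.Lib.P064
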