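import Vale.Agent.Lib.P064.Psi

/-!
Oriented pieces of a forest: every value of `Psi` is realised by a genuine rooted subtree.
-/

namespace Vale.Agent.Lib.P064

open Finset
open scoped Nat Classical

set_option linter.unusedSectionVars false
set_option linter.unusedVariables false

variable {V : Type*} [Fintype V]

/-- An oriented subgraph on the vertex set `W` with out-neighbourhoods `out`. -/
structure IsOriented (H : SimpleGraph V) (W : Finset V) (out : V → Finset V) : Prop where
  sub : ∀ u ∈ W, out u ⊆ W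
  off : ∀ u, u ∉ W → out u = ∅
  adj : ∀ u t, t ∈ out u → H.Adj u t
  anti : ∀ u t, t ∈ out u → u ∉ out t

/-- A piece: an oriented subgraph with one more vertex than edges. -/
structure IsPiece (H : SimpleGraph V) (W : Finset V) (out : V → Finset V) : Prop
    extends IsOriented H W out where
  size : ∑ u ∈ W, (out u).card + 1 = W.card

/-- The weight of an oriented subgraph. -/
noncomputable def gam (w : ℝ) (W : Finset V) (out : V → Finset V) : ℝ :=
  ∏ u ∈ W, (((out u).card)! : ℝ) / w ^ (out u).card

section Union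

variable {ι : Type*} {H : SimpleGraph V} {K : Finset ι} {Wf : ι → Finset V}
  {outf : ι → V → Finset V}

/-- Union of the out-neighbourhoods. -/
noncomputable def outU (K : Finset ι) (outf : ι → V → Finset V) (u : V) : Finset V :=
  K.biUnion (fun i => outf i u)

lemma outU_eq (hor : ∀ i ∈ K, IsOriented H (Wf i) (outf i))
    (hdisj : ∀ i ∈ K, ∀ j ∈ K, i ≠ j → Disjoint (Wf i) (Wf j)) {i : ι} (hi : i ∈ K) {u : V}
    (hu : u ∈ Wf i) : outU K outf u = outf i u := by
  unfold outU
  ext t
  simp only [Finset.mem_biUnion]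
  constructor
  · rintro ⟨j, hj, ht⟩
    by_cases hij : i = j
    · rwa [hij]
    · have hu' : u ∉ Wf j := Finset.disjoint_left.mp (hdisj i hi j hj hij) hu
      rw [(hor j hj).off u hu'] at ht
      simp at ht
  · intro ht
    exact ⟨i, hi, ht⟩

lemma outU_of_notMem (hor : ∀ i ∈ K, IsOriented H (Wf i) (outf i)) {u : V}
    (hu : u ∉ K.biUnion Wf) : outU K outf u = ∅ := by
  unfold outU
  ext t
  simp only [Finset.mem_biUnion, Finset.notMem_empty, iff_false, not_exists, not_and]
  intro i hi ht
  have : u ∉ Wf i := fun h => hu (Finset.mem_biUnion.mpr ⟨i, hi, h⟩)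
  rw [(hor i hi).off u this] at ht
  simp at ht

lemma isOriented_union (hor : ∀ i ∈ K, IsOriented H (Wf i) (outf i))
    (hdisj : ∀ i ∈ K, ∀ j ∈ K, i ≠ j → Disjoint (Wf i) (Wf j)) :
    IsOriented H (K.biUnion Wf) (outU K outf) where
  sub := by
    intro u hu t ht
    rcases Finset.mem_biUnion.mp hu with ⟨i, hi, hui⟩
    rw [outU_eq hor hdisj hi hui] at ht
    exact Finset.mem_biUnion.mpr ⟨i, hi, (hor i hi).sub u hui ht⟩
  off := fun u hu => outU_of_notMem hor hu
  adj := by
    intro u t ht
    rcases Finset.mem_biUnion.mp ht with ⟨i, hi, hti⟩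
    exact (hor i hi).adj u t hti
  anti := by
    intro u t ht hu
    -- `u` has an out-neighbour, so it lies in some piece
    rcases Finset.mem_biUnion.mp ht with ⟨i, hi, hti⟩
    have hui : u ∈ Wf i := by
      by_contra h
      rw [(hor i hi).off u h] at hti
      simp at hti
    have hti' : t ∈ Wf i := (hor i hi).sub u hui hti
    rw [outU_eq hor hdisj hi hti'] at hu
    exact (hor i hi).anti u t hti hu

lemma prod_outU (hor : ∀ i ∈ K, IsOriented H (Wf i) (outf i))
    (hdisj : ∀ i ∈ K, ∀ j ∈ K, i ≠ j → Disjoint (Wf i) (Wf j)) (F : ℕ → ℝ) :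
    ∏ u ∈ K.biUnion Wf, F (outU K outf u).card = ∏ i ∈ K, ∏ u ∈ Wf i, F (outf i u).card := by
  rw [Finset.prod_biUnion]
  · refine Finset.prod_congr rfl fun i hi => Finset.prod_congr rfl fun u hu => ?_
    rw [outU_eq hor hdisj hi hu]
  · intro i hi j hj hij
    exact hdisj i hi j hj hij

lemma sum_outU (hor : ∀ i ∈ K, IsOriented H (Wf i) (outf i))
    (hdisj : ∀ i ∈ K, ∀ j ∈ K, i ≠ j → Disjoint (Wf i) (Wf j)) :
    ∑ u ∈ K.biUnion Wf, (outU K outf u).card = ∑ i ∈ K, ∑ u ∈ Wf i, (outf i u).card := by
  rw [Finset.sum_biUnion]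
  · refine Finset.sum_congr rfl fun i hi => Finset.sum_congr rfl fun u hu => ?_
    rw [outU_eq hor hdisj hi hu]
  · intro i hi j hj hij
    exact hdisj i hi j hj hij

lemma card_biUnion_W (hdisj : ∀ i ∈ K, ∀ j ∈ K, i ≠ j → Disjoint (Wf i) (Wf j)) :
    (K.biUnion Wf).card = ∑ i ∈ K, (Wf i).card :=
  Finset.card_biUnion fun i hi j hj hij => hdisj i hi j hj hij

end Union

/-- The graph `H` with all edges at `b` removed. -/
def delV (H : SimpleGraph V) (b : V) : SimpleGraph V where
  Adj u v := H.Adj u v ∧ u ≠ b ∧ v ≠ b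
  symm := ⟨fun _ _ h => ⟨h.1.symm, h.2.2, h.2.1⟩⟩
  loopless := ⟨fun u h => H.loopless.irrefl u h.1⟩

lemma delV_adj {H : SimpleGraph V} {b u v : V} :
    (delV H b).Adj u v ↔ H.Adj u v ∧ u ≠ b ∧ v ≠ b := Iff.rfl

/-- `z` lies in the branch at `a` seen from `b`. -/
def InBr (H : SimpleGraph V) (b a z : V) : Prop := b = a ∨ (delV H b).Reachable a z

lemma delV_le_delete (H : SimpleGraph V) (a c : V) :
    delV H a ≤ H.deleteEdges {s(a, c)} := by
  intro u v huv
  rcases delV_adj.mp huv with ⟨h1, h2, h3⟩
  rw [SimpleGraph.deleteEdges_adj]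
  refine ⟨h1, fun h4 => ?_⟩
  rw [Set.mem_singleton_iff, Sym2.eq_iff] at h4
  rcases h4 with ⟨h5, _⟩ | ⟨_, h5⟩
  · exact h2 h5
  · exact h3 h5

lemma not_reach_self_of_adj {H : SimpleGraph V} (hH : H.IsAcyclic) {a c : V} (hac : H.Adj a c) :
    ¬ (delV H a).Reachable c a := by
  intro h
  have hbr := SimpleGraph.isAcyclic_iff_forall_adj_isBridge.mp hH hac
  rw [SimpleGraph.isBridge_iff] at hbr
  exact hbr (h.symm.mono (delV_le_delete H a c))

lemma not_reach_of_adj {H : SimpleGraph V} (hH : H.IsAcyclic) {a c c' : V} (hac : H.Adj a c)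
    (hac' : H.Adj a c') (hne : c ≠ c') : ¬ (delV H a).Reachable c c' := by
  intro h
  have hbr := SimpleGraph.isAcyclic_iff_forall_adj_isBridge.mp hH hac
  rw [SimpleGraph.isBridge_iff] at hbr
  refine hbr ?_
  have h1 : (H.deleteEdges {s(a, c)}).Reachable c c' :=
    h.mono (delV_le_delete H a c)
  have h2 : (H.deleteEdges {s(a, c)}).Adj c' a := by
    rw [SimpleGraph.deleteEdges_adj]
    refine ⟨hac'.symm, fun h4 => ?_⟩
    rw [Set.mem_singleton_iff, Sym2.eq_iff] at h4
    rcases h4 with ⟨h5, _⟩ | ⟨h5, _⟩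
    · exact hac'.ne h5.symm
    · exact hne h5.symm
  exact (h1.trans h2.reachable).symm

lemma InBr_self (H : SimpleGraph V) (b a : V) : InBr H b a a :=
  Or.inr (SimpleGraph.Reachable.refl a)

lemma reach_avoid {H : SimpleGraph V} (hH : H.IsAcyclic) {a b c z : V} (hab : H.Adj a b)
    (hac : H.Adj a c) (hcb : c ≠ b) (h : (delV H a).Reachable c z) :
    (delV H b).Reachable c z := by
  rw [SimpleGraph.reachable_iff_reflTransGen] at h
  induction h with
  | refl => exact SimpleGraph.Reachable.refl _
  | tail h1 h2 ih =>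
    rename_i t t'
    have ht : (delV H a).Reachable c t := (SimpleGraph.reachable_iff_reflTransGen _ _).mpr h1
    have hne : ∀ s, (delV H a).Reachable c s → s ≠ b := by
      rintro s hs rfl
      exact not_reach_of_adj hH hac hab hcb hs
    have ht' : (delV H a).Reachable c t' := ht.trans (SimpleGraph.Adj.reachable h2)
    exact ih.trans (SimpleGraph.Adj.reachable (delV_adj.mpr ⟨(delV_adj.mp h2).1, hne _ ht, hne _ ht'⟩))

lemma InBr_trans {H : SimpleGraph V} (hH : H.IsAcyclic) {a b c z : V} (hb : b = a ∨ H.Adj b a)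
    (hac : H.Adj a c) (hcb : c ≠ b) (h : InBr H a c z) : InBr H b a z := by
  rcases hb with rfl | hb
  · exact Or.inl rfl
  · right
    rcases h with h | h
    · exact absurd h hac.ne
    · have h1 := reach_avoid hH hb.symm hac hcb h
      have h2 : (delV H b).Adj a c := delV_adj.mpr ⟨hac, hb.ne.symm, hcb⟩
      exact h2.reachable.trans h1

/-- Every value of `Psi` in a forest is the weight of a genuine piece. -/
theorem realize {H : SimpleGraph V} (hH : H.IsAcyclic) {w : ℝ} (hw : 0 < w) :
    ∀ (h : ℕ) (b a : V), (b = a ∨ H.Adj b a) →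
      ∃ (W : Finset V) (out : V → Finset V), IsPiece H W out ∧ a ∈ W ∧
        (∀ z ∈ W, InBr H b a z) ∧ (∀ z ∈ W, z = a ∨ ∃ y, H.Adj z y) ∧
        Psi H w h b a = gam w W out := by
  intro h
  induction h with
  | zero =>
    intro b a _
    refine ⟨{a}, fun _ => ∅, ?_, by simp, ?_, ?_, ?_⟩
    · exact { sub := by simp, off := by simp, adj := by simp, anti := by simp, size := by simp }
    · intro z hz
      rw [Finset.mem_singleton.mp hz]
      exact InBr_self H b a
    · intro z hz
      exact Or.inl (Finset.mem_singleton.mp hz)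
    · simp [Psi, gam]
  | succ h ih =>
    intro b a hb
    obtain ⟨K, hK, hKeq⟩ := Finset.exists_mem_eq_sup' (s := ((nb H a).erase b).powerset)
      ⟨∅, Finset.empty_mem_powerset _⟩ (rho w (Psi H w h a))
    have hKsub : K ⊆ (nb H a).erase b := Finset.mem_powerset.mp hK
    have hadj : ∀ c ∈ K, H.Adj a c := fun c hc =>
      mem_nb.mp (Finset.mem_of_mem_erase (hKsub hc))
    have hneb : ∀ c ∈ K, c ≠ b := fun c hc => (Finset.mem_erase.mp (hKsub hc)).1
    have hex : ∀ c : V, ∃ (W : Finset V) (out : V → Finset V), c ∈ K →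
        (IsPiece H W out ∧ c ∈ W ∧ (∀ z ∈ W, InBr H a c z) ∧ (∀ z ∈ W, z = c ∨ ∃ y, H.Adj z y) ∧
        Psi H w h a c = gam w W out) := by
      intro c
      by_cases hc : c ∈ K
      · obtain ⟨W, out, h1⟩ := ih a c (Or.inr (hadj c hc))
        exact ⟨W, out, fun _ => h1⟩
      · exact ⟨∅, fun _ => ∅, fun h => absurd h hc⟩
    choose Wf outf hf using hex
    have hor : ∀ c ∈ K, IsOriented H (Wf c) (outf c) := fun c hc => (hf c hc).1.toIsOriented
    have hrch : ∀ c ∈ K, ∀ z ∈ Wf c, (delV H a).Reachable c z := by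
      intro c hc z hz
      rcases (hf c hc).2.2.1 z hz with h1 | h1
      · exact absurd h1 (hadj c hc).ne
      · exact h1
    have hdisj : ∀ i ∈ K, ∀ j ∈ K, i ≠ j → Disjoint (Wf i) (Wf j) := by
      intro i hi j hj hij
      rw [Finset.disjoint_left]
      intro z hzi hzj
      exact not_reach_of_adj hH (hadj i hi) (hadj j hj) hij
        ((hrch i hi z hzi).trans (hrch j hj z hzj).symm)
    have hane : ∀ c ∈ K, a ∉ Wf c := by
      intro c hc hac
      exact not_reach_self_of_adj hH (hadj c hc) (hrch c hc a hac)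
    have haU : a ∉ K.biUnion Wf := by
      intro h1
      rcases Finset.mem_biUnion.mp h1 with ⟨c, hc, hac⟩
      exact hane c hc hac
    have hUor := isOriented_union hor hdisj
    -- the new out-neighbourhoods
    set out₀ : V → Finset V := fun u => if u = a then K else outU K outf u with hout₀
    have hout₀a : out₀ a = K := by simp [hout₀]
    have hout₀ne : ∀ u, u ≠ a → out₀ u = outU K outf u := by
      intro u hu
      simp [hout₀, hu]
    have hcW : ∀ c ∈ K, c ∈ K.biUnion Wf := fun c hc =>
      Finset.mem_biUnion.mpr ⟨c, hc, (hf c hc).2.1⟩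
    have hKW : ∀ u ∈ K.biUnion Wf, u ≠ a := fun u hu hua => haU (hua ▸ hu)
    have horiented : IsOriented H (insert a (K.biUnion Wf)) out₀ := by
      refine ⟨?_, ?_, ?_, ?_⟩
      · intro u hu t ht
        rcases Finset.mem_insert.mp hu with rfl | hu
        · rw [hout₀a] at ht
          exact Finset.mem_insert_of_mem (hcW t ht)
        · rw [hout₀ne u (hKW u hu)] at ht
          exact Finset.mem_insert_of_mem (hUor.sub u hu ht)
      · intro u hu
        have h1 : u ≠ a := fun h => hu (h ▸ Finset.mem_insert_self _ _)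
        have h2 : u ∉ K.biUnion Wf := fun h => hu (Finset.mem_insert_of_mem h)
        rw [hout₀ne u h1]
        exact hUor.off u h2
      · intro u t ht
        by_cases hu : u = a
        · subst hu
          rw [hout₀a] at ht
          exact hadj t ht
        · rw [hout₀ne u hu] at ht
          exact hUor.adj u t ht
      · intro u t ht hu
        by_cases hua : u = a
        · subst hua
          rw [hout₀a] at ht
          have h1 : t ≠ u := (hadj t ht).ne.symm
          rw [hout₀ne t h1] at hu
          have h2 : t ∈ K.biUnion Wf := by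
            by_contra h3
            rw [hUor.off t h3] at hu
            simp at hu
          exact haU (hUor.sub t h2 hu)
        · rw [hout₀ne u hua] at ht
          have h2 : u ∈ K.biUnion Wf := by
            by_contra h3
            rw [hUor.off u h3] at ht
            simp at ht
          have h3 : t ∈ K.biUnion Wf := hUor.sub u h2 ht
          rw [hout₀ne t (hKW t h3)] at hu
          exact hUor.anti u t ht hu
    refine ⟨insert a (K.biUnion Wf), out₀, ⟨horiented, ?_⟩, Finset.mem_insert_self _ _, ?_, ?_, ?_⟩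
    · -- size
      rw [Finset.sum_insert haU, Finset.card_insert_of_notMem haU, hout₀a,
        card_biUnion_W hdisj]
      have h1 : ∑ u ∈ K.biUnion Wf, (out₀ u).card = ∑ u ∈ K.biUnion Wf, (outU K outf u).card :=
        Finset.sum_congr rfl fun u hu => by rw [hout₀ne u (hKW u hu)]
      rw [h1, sum_outU hor hdisj]
      have h2 : ∑ c ∈ K, (Wf c).card = ∑ c ∈ K, (∑ u ∈ Wf c, (outf c u).card + 1) :=
        Finset.sum_congr rfl fun c hc => ((hf c hc).1.size).symm
      rw [h2, Finset.sum_add_distrib]
      simp only [Finset.sum_const, smul_eq_mul, mul_one]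
      ring
    · intro z hz
      rcases Finset.mem_insert.mp hz with rfl | hz
      · exact InBr_self H b z
      · rcases Finset.mem_biUnion.mp hz with ⟨c, hc, hzc⟩
        exact InBr_trans hH hb (hadj c hc) (hneb c hc) ((hf c hc).2.2.1 z hzc)
    · intro z hz
      rcases Finset.mem_insert.mp hz with rfl | hz
      · exact Or.inl rfl
      · right
        rcases Finset.mem_biUnion.mp hz with ⟨c, hc, hzc⟩
        rcases (hf c hc).2.2.2.1 z hzc with h1 | h1
        · rw [h1]; exact ⟨a, (hadj c hc).symm⟩
        · exact h1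
    · -- the value
      rw [Psi, hKeq]
      unfold gam
      rw [Finset.prod_insert haU, hout₀a]
      have h1 : ∏ u ∈ K.biUnion Wf, (((out₀ u).card)! : ℝ) / w ^ (out₀ u).card
          = ∏ u ∈ K.biUnion Wf, (((outU K outf u).card)! : ℝ) / w ^ (outU K outf u).card :=
        Finset.prod_congr rfl fun u hu => by rw [hout₀ne u (hKW u hu)]
      rw [h1, prod_outU hor hdisj (fun n => ((n ! : ℕ) : ℝ) / w ^ n)]
      unfold rho
      congr 1
      refine Finset.prod_congr rfl fun c hc => ?_
      rw [(hf c hc).2.2.2.2]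
      rfl

end Vale.Agent.Lib.P064
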