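import Vale.Agent.Lib.P064.TSide

/-!
The level-indexed supremum over (walk-)trees and the resulting super-solution.
-/

namespace Vale.Agent.Lib.P064

open Finset
open scoped Nat Classical

variable {V : Type*} [Fintype V]

/-- The value `|K|! / w^|K| * ∏ x`. -/
noncomputable def rho (w : ℝ) (x : V → ℝ) (K : Finset V) : ℝ :=
  (K.card ! : ℝ) / w ^ K.card * ∏ a ∈ K, x a

/-- The level-indexed supremum. -/
noncomputable def Psi (H : SimpleGraph V) (w : ℝ) : ℕ → V → V → ℝ
  | 0, _, _ => 1
  | h + 1, b, a => ((nb H a).erase b).powerset.sup' ⟨∅, Finset.empty_mem_powerset _⟩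
      (rho w (Psi H w h a))

/-- The super-solution. -/
noncomputable def GG (H : SimpleGraph V) (w : ℝ) (h : ℕ) (b a : V) : ℝ :=
  max 1 (Psi H w h b a / max 1 w)

lemma rho_empty (w : ℝ) (x : V → ℝ) : rho w x ∅ = 1 := by
  simp [rho]

lemma rho_le_Psi (H : SimpleGraph V) (w : ℝ) (h : ℕ) (b a : V) {K : Finset V}
    (hK : K ⊆ (nb H a).erase b) : rho w (Psi H w h a) K ≤ Psi H w (h + 1) b a := by
  rw [Psi]
  exact Finset.le_sup' (rho w (Psi H w h a)) (Finset.mem_powerset.mpr hK)

lemma one_le_Psi (H : SimpleGraph V) (w : ℝ) : ∀ (h : ℕ) (b a : V), 1 ≤ Psi H w h b a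
  | 0, _, _ => le_refl _
  | h + 1, b, a => by
    have := rho_le_Psi H w h b a (Finset.empty_subset _)
    rwa [rho_empty] at this

lemma rho_mono {w : ℝ} (hw : 0 < w) {x y : V → ℝ} (K : Finset V) (hx : ∀ a ∈ K, 0 ≤ x a)
    (hxy : ∀ a ∈ K, x a ≤ y a) : rho w x K ≤ rho w y K := by
  unfold rho
  refine mul_le_mul_of_nonneg_left ?_ (by positivity)
  exact Finset.prod_le_prod hx hxy

lemma Psi_le_succ (H : SimpleGraph V) {w : ℝ} (hw : 0 < w) :
    ∀ (h : ℕ) (b a : V), Psi H w h b a ≤ Psi H w (h + 1) b a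
  | 0, b, a => one_le_Psi H w 1 b a
  | h + 1, b, a => by
    rw [Psi]
    refine Finset.sup'_le _ _ fun K hK => ?_
    refine le_trans ?_ (rho_le_Psi H w (h + 1) b a (Finset.mem_powerset.mp hK))
    refine rho_mono hw K (fun c _ => ?_) (fun c _ => Psi_le_succ H hw h a c)
    linarith [one_le_Psi H w h a c]

lemma Psi_mono (H : SimpleGraph V) {w : ℝ} (hw : 0 < w) (b a : V) {h h' : ℕ} (hh : h ≤ h') :
    Psi H w h b a ≤ Psi H w h' b a :=
  monotone_nat_of_le_succ (f := fun h => Psi H w h b a) (fun h => Psi_le_succ H hw h b a) hh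

/-- The super-solution property. -/
theorem GG_superSol (H : SimpleGraph V) {w : ℝ} (hw : 0 < w) :
    SuperSol H (16 * w) (GG H w) where
  nonneg := fun h b a => zero_le_one.trans (le_max_left _ _)
  mono := fun h h' b a hh => by
    unfold GG
    refine max_le_max_left _ ?_
    exact div_le_div_of_nonneg_right (Psi_mono H hw b a hh) (by positivity)
  ss := fun h b a k => by
    unfold GG
    exact super_all hw ((nb H a).erase b) (Psi H w h a) (fun c _ => one_le_Psi H w h a c)
      (fun K hK => rho_le_Psi H w h b a hK) k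

end Vale.Agent.Lib.P064
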