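import Mathlib

/-!
The binomial measure on the subsets of a finite set: total mass, the union identity, and the
probability of containing a given set.
-/

namespace Vale.Agent.Lib.P064

open Finset
open scoped Classical

set_option linter.unusedSectionVars false
set_option linter.unusedVariables false

variable {X : Type*} [Fintype X]

/-- The weight of `W` under the `p`-binomial measure on the subsets of `X`. -/
noncomputable def muP (p : ℝ) (W : Finset X) : ℝ :=
  p ^ W.card * (1 - p) ^ (Fintype.card X - W.card)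

lemma muP_nonneg {p : ℝ} (h0 : 0 ≤ p) (h1 : p ≤ 1) (W : Finset X) : 0 ≤ muP p W := by
  unfold muP
  have : 0 ≤ 1 - p := by linarith
  positivity

lemma sum_muP (p : ℝ) : ∑ W : Finset X, muP p W = 1 := by
  have h := Finset.sum_pow_mul_eq_add_pow p (1 - p) (Finset.univ : Finset X)
  rw [Finset.powerset_univ, Finset.card_univ] at h
  unfold muP
  rw [h]
  simp

/-- The product form of the weights on a subset of the ground set. -/
noncomputable def muS (s : Finset X) (p : ℝ) (W : Finset X) : ℝ :=
  ∏ x ∈ s, if x ∈ W then p else 1 - p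

lemma muP_eq_muS (p : ℝ) (W : Finset X) : muP p W = muS Finset.univ p W := by
  unfold muP muS
  rw [Finset.prod_ite]
  simp only [Finset.prod_const]
  congr 2
  · congr 1
    ext x
    simp
  · have h : (Finset.univ.filter (fun x => x ∉ W)) = Wᶜ := by
      ext x
      simp
    rw [h, Finset.card_compl]

lemma muS_insert_of_notMem {s : Finset X} {a : X} (ha : a ∉ s) (p : ℝ) {W : Finset X}
    (hW : W ⊆ s) : muS (insert a s) p W = (1 - p) * muS s p W := by
  unfold muS
  rw [Finset.prod_insert ha, if_neg (fun h => ha (hW h))]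

lemma muS_insert_insert {s : Finset X} {a : X} (ha : a ∉ s) (p : ℝ) (W : Finset X) :
    muS (insert a s) p (insert a W) = p * muS s p W := by
  unfold muS
  rw [Finset.prod_insert ha, if_pos (Finset.mem_insert_self a W)]
  congr 1
  refine Finset.prod_congr rfl fun x hx => ?_
  have hxa : x ≠ a := fun h => ha (h ▸ hx)
  simp [hxa]

/-- The union identity. -/
lemma union_aux (p₁ p₂ : ℝ) (s : Finset X) : ∀ φ : Finset X → ℝ,
    ∑ W ∈ s.powerset, ∑ W' ∈ s.powerset, muS s p₁ W * muS s p₂ W' * φ (W ∪ W') =
      ∑ Z ∈ s.powerset, muS s (p₁ + p₂ - p₁ * p₂) Z * φ Z := by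
  induction s using Finset.induction_on with
  | empty =>
    intro φ
    simp [muS]
  | insert a s ha ih =>
    intro φ
    have hmem : ∀ W ∈ s.powerset, W ⊆ s := fun W hW => Finset.mem_powerset.mp hW
    have key1 := ih φ
    have key2 := ih (fun Z => φ (insert a Z))
    simp only [Finset.sum_powerset_insert ha]
    have e1 : ∑ W ∈ s.powerset, ∑ W' ∈ s.powerset,
        muS (insert a s) p₁ W * muS (insert a s) p₂ W' * φ (W ∪ W')
        = (1 - p₁) * (1 - p₂) * ∑ W ∈ s.powerset, ∑ W' ∈ s.powerset,
          muS s p₁ W * muS s p₂ W' * φ (W ∪ W') := by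
      rw [Finset.mul_sum]
      refine Finset.sum_congr rfl fun W hW => ?_
      rw [Finset.mul_sum]
      refine Finset.sum_congr rfl fun W' hW' => ?_
      rw [muS_insert_of_notMem ha _ (hmem W hW), muS_insert_of_notMem ha _ (hmem W' hW')]
      ring
    have e2 : ∑ W ∈ s.powerset, ∑ W' ∈ s.powerset,
        muS (insert a s) p₁ W * muS (insert a s) p₂ (insert a W') * φ (W ∪ insert a W')
        = (1 - p₁) * p₂ * ∑ W ∈ s.powerset, ∑ W' ∈ s.powerset,
          muS s p₁ W * muS s p₂ W' * φ (insert a (W ∪ W')) := by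
      rw [Finset.mul_sum]
      refine Finset.sum_congr rfl fun W hW => ?_
      rw [Finset.mul_sum]
      refine Finset.sum_congr rfl fun W' hW' => ?_
      rw [muS_insert_of_notMem ha _ (hmem W hW), muS_insert_insert ha, Finset.union_insert]
      ring
    have e3 : ∑ W ∈ s.powerset, ∑ W' ∈ s.powerset,
        muS (insert a s) p₁ (insert a W) * muS (insert a s) p₂ W' * φ (insert a W ∪ W')
        = p₁ * (1 - p₂) * ∑ W ∈ s.powerset, ∑ W' ∈ s.powerset,
          muS s p₁ W * muS s p₂ W' * φ (insert a (W ∪ W')) := by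
      rw [Finset.mul_sum]
      refine Finset.sum_congr rfl fun W hW => ?_
      rw [Finset.mul_sum]
      refine Finset.sum_congr rfl fun W' hW' => ?_
      rw [muS_insert_of_notMem ha _ (hmem W' hW'), muS_insert_insert ha, Finset.insert_union]
      ring
    have e4 : ∑ W ∈ s.powerset, ∑ W' ∈ s.powerset,
        muS (insert a s) p₁ (insert a W) * muS (insert a s) p₂ (insert a W') *
          φ (insert a W ∪ insert a W')
        = p₁ * p₂ * ∑ W ∈ s.powerset, ∑ W' ∈ s.powerset,
          muS s p₁ W * muS s p₂ W' * φ (insert a (W ∪ W')) := by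
      rw [Finset.mul_sum]
      refine Finset.sum_congr rfl fun W hW => ?_
      rw [Finset.mul_sum]
      refine Finset.sum_congr rfl fun W' hW' => ?_
      rw [muS_insert_insert ha, muS_insert_insert ha, Finset.insert_union, Finset.union_insert,
        Finset.insert_idem]
      ring
    have e5 : ∑ Z ∈ s.powerset, muS (insert a s) (p₁ + p₂ - p₁ * p₂) Z * φ Z
        = (1 - p₁) * (1 - p₂) * ∑ Z ∈ s.powerset, muS s (p₁ + p₂ - p₁ * p₂) Z * φ Z := by
      rw [Finset.mul_sum]
      refine Finset.sum_congr rfl fun Z hZ => ?_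
      rw [muS_insert_of_notMem ha _ (hmem Z hZ)]
      ring
    have e6 : ∑ Z ∈ s.powerset, muS (insert a s) (p₁ + p₂ - p₁ * p₂) (insert a Z) * φ (insert a Z)
        = (p₁ + p₂ - p₁ * p₂) * ∑ Z ∈ s.powerset, muS s (p₁ + p₂ - p₁ * p₂) Z * φ (insert a Z) := by
      rw [Finset.mul_sum]
      refine Finset.sum_congr rfl fun Z hZ => ?_
      rw [muS_insert_insert ha]
      ring
    simp only [Finset.sum_add_distrib]
    rw [e1, e2, e3, e4, e5, e6, key1, key2]
    ring

/-- The union identity for the binomial measure. -/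
lemma union_muP (p₁ p₂ : ℝ) (φ : Finset X → ℝ) :
    ∑ W : Finset X, ∑ W' : Finset X, muP p₁ W * muP p₂ W' * φ (W ∪ W') =
      ∑ Z : Finset X, muP (p₁ + p₂ - p₁ * p₂) Z * φ Z := by
  have h := union_aux p₁ p₂ (Finset.univ : Finset X) φ
  rw [Finset.powerset_univ] at h
  simp only [muP_eq_muS]
  exact h

/-- The probability of an event under the binomial measure. -/
noncomputable def prE (p : ℝ) (E : Finset X → Prop) : ℝ :=
  ∑ W : Finset X, muP p W * (if E W then 1 else 0)

lemma prE_nonneg {p : ℝ} (h0 : 0 ≤ p) (h1 : p ≤ 1) (E : Finset X → Prop) : 0 ≤ prE p E := by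
  unfold prE
  refine Finset.sum_nonneg fun W _ => mul_nonneg (muP_nonneg h0 h1 W) ?_
  split_ifs <;> norm_num

lemma prE_mono {p : ℝ} (h0 : 0 ≤ p) (h1 : p ≤ 1) {E E' : Finset X → Prop}
    (h : ∀ W, E W → E' W) : prE p E ≤ prE p E' := by
  unfold prE
  refine Finset.sum_le_sum fun W _ => mul_le_mul_of_nonneg_left ?_ (muP_nonneg h0 h1 W)
  by_cases hE : E W
  · rw [if_pos hE, if_pos (h W hE)]
  · rw [if_neg hE]
    split_ifs <;> norm_num

/-- The union identity for events. -/
lemma prE_union (p₁ p₂ : ℝ) (E : Finset X → Prop) :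
    prE (p₁ + p₂ - p₁ * p₂) E = ∑ W : Finset X, muP p₁ W * prE p₂ (fun W' => E (W ∪ W')) := by
  unfold prE
  rw [← union_muP]
  refine Finset.sum_congr rfl fun W _ => ?_
  rw [Finset.mul_sum]
  refine Finset.sum_congr rfl fun W' _ => ?_
  ring

/-- At `p = 1` the binomial measure sits on the whole set. -/
lemma prE_one {E : Finset X → Prop} (h : E Finset.univ) : prE 1 E = 1 := by
  unfold prE
  rw [Finset.sum_eq_single Finset.univ]
  · simp [muP, h]
  · intro W _ hW
    have h1 : W.card < Fintype.card X := by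
      rw [← Finset.card_univ]
      exact Finset.card_lt_card ⟨Finset.subset_univ _, fun h' => hW
        (Finset.Subset.antisymm (Finset.subset_univ _) h')⟩
    have h2 : Fintype.card X - W.card ≠ 0 := by omega
    simp [muP, h2]
  · intro h'
    exact absurd (Finset.mem_univ _) h'

lemma prE_eq_dec (p : ℝ) (E : Finset X → Prop) [DecidablePred E] :
    prE p E = ∑ W : Finset X, muP p W * (if E W then 1 else 0) := by
  unfold prE
  refine Finset.sum_congr rfl fun W _ => ?_
  congr

/-- The probability of containing a fixed set. -/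
lemma prE_subset (p : ℝ) (A : Finset X) : prE p (fun W => A ⊆ W) = p ^ A.card := by
  have h := Finset.prod_add (fun _ : X => p) (fun x => if x ∈ A then 0 else 1 - p)
    (Finset.univ : Finset X)
  rw [Finset.powerset_univ] at h
  rw [prE_eq_dec]
  have h1 : ∀ W : Finset X, muP p W * (if A ⊆ W then 1 else 0) =
      (∏ _i ∈ W, p) * ∏ i ∈ Finset.univ \ W, (if i ∈ A then 0 else 1 - p) := by
    intro W
    by_cases hAW : A ⊆ W
    · rw [if_pos hAW, mul_one]
      have h2 : ∀ i ∈ Finset.univ \ W, (if i ∈ A then (0 : ℝ) else 1 - p) = 1 - p := by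
        intro i hi
        have : i ∉ A := fun hiA => (Finset.mem_sdiff.mp hi).2 (hAW hiA)
        rw [if_neg this]
      rw [Finset.prod_congr rfl h2]
      simp only [Finset.prod_const]
      unfold muP
      congr 2
      rw [Finset.card_sdiff_of_subset (Finset.subset_univ _), Finset.card_univ]
    · rw [if_neg hAW, mul_zero]
      obtain ⟨i, hiA, hiW⟩ := Finset.not_subset.mp hAW
      have h2 : ∏ i ∈ Finset.univ \ W, (if i ∈ A then (0 : ℝ) else 1 - p) = 0 := by
        refine Finset.prod_eq_zero (Finset.mem_sdiff.mpr ⟨Finset.mem_univ _, hiW⟩) ?_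
        rw [if_pos hiA]
      rw [h2, mul_zero]
  rw [Finset.sum_congr rfl (fun W _ => h1 W), ← h]
  have h3 : ∀ x ∈ (Finset.univ : Finset X), p + (if x ∈ A then (0 : ℝ) else 1 - p) =
      if x ∈ A then p else 1 := by
    intro x _
    split_ifs <;> ring
  rw [Finset.prod_congr rfl h3, Finset.prod_ite]
  simp only [Finset.prod_const, one_pow, mul_one]
  congr 2
  ext x
  simp

end Vale.Agent.Lib.P064
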