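import Vale.Agent.Lib.P064.Spread1

/-!
The second moment bound for a spread family of small sets.
-/

namespace Vale.Agent.Lib.P064

open Finset
open scoped Classical

set_option linter.unusedSectionVars false
set_option linter.unusedVariables false

variable {X : Type*} [Fintype X] {ι : Type*}

/-- `∑_{S ⊆ A} x^{|S|} = (1+x)^{|A|}`. -/
lemma sum_powerset_pow (A : Finset X) (x : ℝ) :
    ∑ S ∈ A.powerset, x ^ S.card = (1 + x) ^ A.card := by
  have h := Finset.sum_pow_mul_eq_add_pow x 1 A
  simp only [one_pow, mul_one] at h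
  rw [h, add_comm]

/-- Bernoulli in the form we need. -/
lemma bernoulli_inv (x : ℝ) (hx : 0 ≤ x) (r : ℕ) : (1 - r * x) * (1 + x) ^ r ≤ 1 := by
  induction r with
  | zero => simp
  | succ r ih =>
    have h1 : 0 ≤ (1 + x) ^ r := by positivity
    have h2 : (1 - ((r + 1 : ℕ) : ℝ) * x) * (1 + x) ^ (r + 1) =
        ((1 - r * x) * (1 + x) ^ r) * (1 + x) - x * (1 + x) ^ (r + 1) := by
      push_cast
      ring
    rw [h2]
    have h3 : ((1 - r * x) * (1 + x) ^ r) * (1 + x) ≤ 1 + x := by
      have := mul_le_mul_of_nonneg_right ih (by linarith : (0 : ℝ) ≤ 1 + x)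
      linarith
    have h4 : x ≤ x * (1 + x) ^ (r + 1) := by
      have h5 : (1 : ℝ) ≤ (1 + x) ^ (r + 1) := one_le_pow₀ (by linarith)
      nlinarith
    linarith

/-- Cauchy–Schwarz for the binomial measure. -/
lemma second_moment_ineq {p : ℝ} (h0 : 0 ≤ p) (h1 : p ≤ 1) (Y : Finset X → ℝ)
    (hY : ∀ W, 0 ≤ Y W) :
    (∑ W : Finset X, muP p W * Y W) ^ 2 ≤
      (∑ W : Finset X, muP p W * (if 0 < Y W then 1 else 0)) *
        ∑ W : Finset X, muP p W * Y W ^ 2 := by
  have hmu := muP_nonneg (X := X) h0 h1
  have h := Finset.sum_mul_sq_le_sq_mul_sq (Finset.univ : Finset (Finset X))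
    (fun W => Real.sqrt (muP p W) * (if 0 < Y W then 1 else 0))
    (fun W => Real.sqrt (muP p W) * Y W)
  have e1 : ∀ W : Finset X, (Real.sqrt (muP p W) * (if 0 < Y W then 1 else 0)) *
      (Real.sqrt (muP p W) * Y W) = muP p W * Y W := by
    intro W
    have hs : Real.sqrt (muP p W) * Real.sqrt (muP p W) = muP p W := Real.mul_self_sqrt (hmu W)
    by_cases hW : 0 < Y W
    · rw [if_pos hW]
      calc _ = (Real.sqrt (muP p W) * Real.sqrt (muP p W)) * Y W := by ring
        _ = _ := by rw [hs]
    · have : Y W = 0 := le_antisymm (not_lt.mp hW) (hY W)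
      rw [this]
      simp
  have e2 : ∀ W : Finset X, (Real.sqrt (muP p W) * (if 0 < Y W then 1 else 0)) ^ 2 =
      muP p W * (if 0 < Y W then 1 else 0) := by
    intro W
    rw [mul_pow, Real.sq_sqrt (hmu W)]
    split_ifs <;> norm_num
  have e3 : ∀ W : Finset X, (Real.sqrt (muP p W) * Y W) ^ 2 = muP p W * Y W ^ 2 := by
    intro W
    rw [mul_pow, Real.sq_sqrt (hmu W)]
  simp only [e1, e2, e3] at h
  exact h

/-- The probability that two sets are contained. -/
lemma prE_subset_union (p : ℝ) (A B : Finset X) :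
    ∑ W : Finset X, muP p W * ((if A ⊆ W then 1 else 0) * (if B ⊆ W then 1 else 0)) =
      p ^ (A ∪ B).card := by
  rw [← prE_subset p (A ∪ B), prE_eq_dec]
  refine Finset.sum_congr rfl fun W _ => ?_
  congr 1
  by_cases h1 : A ⊆ W
  · by_cases h2 : B ⊆ W
    · simp [h1, h2, Finset.union_subset h1 h2]
    · have : ¬ (A ∪ B ⊆ W) := fun h => h2 (Finset.union_subset_right h)
      simp [h2, this]
  · have : ¬ (A ∪ B ⊆ W) := fun h => h1 (Finset.union_subset_left h)
    simp [h1, this]

/-- The second moment bound for a spread family. -/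
theorem second_moment_spread {I : Finset ι} {A : ι → Finset X} {r : ℕ} {s N p K : ℝ}
    (hs : 0 < s) (hN : 0 < N) (hr : ∀ i ∈ I, (A i).card ≤ r)
    (hspread : ∀ S : Finset X, ((I.filter (fun i => S ⊆ A i)).card : ℝ) ≤ s ^ S.card * N)
    (hK : 0 < K) (hp : K * s ≤ p) (hp1 : p ≤ 1) :
    (I.card : ℝ) / N - r / K ≤ prE p (fun W => ∃ i ∈ I, A i ⊆ W) := by
  have hp0 : 0 < p := lt_of_lt_of_le (by positivity) hp
  have hIN : (I.card : ℝ) ≤ N := by
    have h := hspread ∅
    simpa using h
  by_cases hI : I.Nonempty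
  swap
  · rw [Finset.not_nonempty_iff_eq_empty] at hI
    rw [hI]
    have h1 := prE_nonneg (X := X) hp0.le hp1 (fun W => ∃ i ∈ (∅ : Finset ι), A i ⊆ W)
    have h2 : (0 : ℝ) ≤ r / K := by positivity
    simp only [Finset.card_empty, Nat.cast_zero, zero_div]
    linarith
  set w : ι → ℝ := fun i => (1 / p) ^ (A i).card with hw
  set ind : ι → Finset X → ℝ := fun i W => if A i ⊆ W then 1 else 0 with hind
  have hind0 : ∀ i W, 0 ≤ ind i W := by
    intro i W
    simp only [hind]
    split_ifs <;> norm_num
  set Y : Finset X → ℝ := fun W => ∑ i ∈ I, w i * ind i W with hY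
  have hY0 : ∀ W, 0 ≤ Y W := fun W =>
    Finset.sum_nonneg fun i _ => mul_nonneg (by positivity) (hind0 i W)
  -- the first moment
  have hE1 : ∑ W : Finset X, muP p W * Y W = (I.card : ℝ) := by
    calc ∑ W : Finset X, muP p W * Y W
        = ∑ W : Finset X, ∑ i ∈ I, w i * (muP p W * ind i W) := by
          refine Finset.sum_congr rfl fun W _ => ?_
          rw [hY, Finset.mul_sum]
          refine Finset.sum_congr rfl fun i _ => ?_
          ring
      _ = ∑ i ∈ I, w i * ∑ W : Finset X, muP p W * ind i W := by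
          rw [Finset.sum_comm]
          refine Finset.sum_congr rfl fun i _ => ?_
          rw [Finset.mul_sum]
      _ = ∑ i ∈ I, (1 : ℝ) := by
          refine Finset.sum_congr rfl fun i _ => ?_
          have h1 := prE_subset p (A i)
          rw [prE_eq_dec] at h1
          have h2 : ∑ W : Finset X, muP p W * ind i W = p ^ (A i).card := h1
          rw [h2, hw]
          simp only
          rw [← mul_pow]
          have : 1 / p * p = 1 := by field_simp
          rw [this, one_pow]
      _ = _ := by simp
  -- the second moment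
  have hE2 : ∑ W : Finset X, muP p W * Y W ^ 2 ≤
      (I.card : ℝ) * (N * (1 + s / p) ^ r) := by
    have h1 : ∀ W : Finset X, muP p W * Y W ^ 2 =
        ∑ i ∈ I, ∑ j ∈ I, w i * w j * (muP p W * (ind i W * ind j W)) := by
      intro W
      rw [sq, hY, Finset.sum_mul_sum, Finset.mul_sum]
      refine Finset.sum_congr rfl fun i _ => ?_
      rw [Finset.mul_sum]
      refine Finset.sum_congr rfl fun j _ => ?_
      ring
    have h2 : ∑ W : Finset X, muP p W * Y W ^ 2 =
        ∑ i ∈ I, ∑ j ∈ I, w i * w j * p ^ (A i ∪ A j).card := by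
      simp only [h1]
      rw [Finset.sum_comm]
      refine Finset.sum_congr rfl fun i _ => ?_
      rw [Finset.sum_comm]
      refine Finset.sum_congr rfl fun j _ => ?_
      rw [← Finset.mul_sum]
      congr 1
      exact prE_subset_union p (A i) (A j)
    have h3 : ∀ i j, w i * w j * p ^ (A i ∪ A j).card = (1 / p) ^ (A i ∩ A j).card := by
      intro i j
      have h4 : (A i ∪ A j).card + (A i ∩ A j).card = (A i).card + (A j).card :=
        Finset.card_union_add_card_inter _ _
      have h5 : (1 / p) ^ (A i).card * (1 / p) ^ (A j).card =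
          (1 / p) ^ (A i ∪ A j).card * (1 / p) ^ (A i ∩ A j).card := by
        rw [← pow_add, ← pow_add, h4]
      simp only [hw]
      rw [h5]
      have h6 : (1 / p) ^ (A i ∪ A j).card * p ^ (A i ∪ A j).card = 1 := by
        rw [← mul_pow]
        have : 1 / p * p = 1 := by field_simp
        rw [this, one_pow]
      calc _ = ((1 / p) ^ (A i ∪ A j).card * p ^ (A i ∪ A j).card) * (1 / p) ^ (A i ∩ A j).card := by
            ring
        _ = _ := by rw [h6, one_mul]
    rw [h2]
    simp only [h3]
    have hy0 : 0 ≤ 1 / p - 1 := by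
      have : 1 ≤ 1 / p := by
        rw [le_div_iff₀ hp0]
        linarith
      linarith
    set y := 1 / p - 1 with hy
    have h4 : ∀ i ∈ I, ∑ j ∈ I, (1 / p) ^ (A i ∩ A j).card ≤ N * (1 + s / p) ^ r := by
      intro i hi
      have h5 : ∀ j, (1 / p) ^ (A i ∩ A j).card =
          ∑ S ∈ (A i).powerset, y ^ S.card * (if S ⊆ A j then 1 else 0) := by
        intro j
        have h6 := sum_powerset_pow (A i ∩ A j) y
        have h7 : 1 + y = 1 / p := by rw [hy]; ring
        rw [h7] at h6
        rw [← h6]
        have h8 : (A i ∩ A j).powerset = (A i).powerset.filter (fun S => S ⊆ A j) := by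
          ext S
          simp only [Finset.mem_powerset, Finset.mem_filter, Finset.subset_inter_iff]
        rw [h8, Finset.sum_filter]
        refine Finset.sum_congr rfl fun S _ => ?_
        split_ifs <;> simp
      calc ∑ j ∈ I, (1 / p) ^ (A i ∩ A j).card
          = ∑ S ∈ (A i).powerset, y ^ S.card * ∑ j ∈ I, (if S ⊆ A j then (1 : ℝ) else 0) := by
            simp only [h5]
            rw [Finset.sum_comm]
            refine Finset.sum_congr rfl fun S _ => ?_
            rw [Finset.mul_sum]
        _ = ∑ S ∈ (A i).powerset, y ^ S.card * ((I.filter (fun j => S ⊆ A j)).card : ℝ) := by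
            refine Finset.sum_congr rfl fun S _ => ?_
            congr 1
            rw [Finset.card_filter]
            push_cast
            rfl
        _ ≤ ∑ S ∈ (A i).powerset, y ^ S.card * (s ^ S.card * N) :=
            Finset.sum_le_sum fun S _ =>
              mul_le_mul_of_nonneg_left (hspread S) (by positivity)
        _ = N * ∑ S ∈ (A i).powerset, (y * s) ^ S.card := by
            rw [Finset.mul_sum]
            refine Finset.sum_congr rfl fun S _ => ?_
            rw [mul_pow]
            ring
        _ = N * (1 + y * s) ^ (A i).card := by rw [sum_powerset_pow]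
        _ ≤ N * (1 + s / p) ^ (A i).card := by
            refine mul_le_mul_of_nonneg_left ?_ hN.le
            refine pow_le_pow_left₀ (by positivity) ?_ _
            have : y * s ≤ s / p := by
              rw [hy]
              have : (1 / p - 1) * s = s / p - s := by
                field_simp
              rw [this]
              linarith
            linarith
        _ ≤ N * (1 + s / p) ^ r := by
            refine mul_le_mul_of_nonneg_left ?_ hN.le
            exact pow_le_pow_right₀ (by
              have : 0 ≤ s / p := by positivity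
              linarith) (hr i hi)
    calc ∑ i ∈ I, ∑ j ∈ I, (1 / p) ^ (A i ∩ A j).card
        ≤ ∑ _i ∈ I, N * (1 + s / p) ^ r := Finset.sum_le_sum h4
      _ = _ := by rw [Finset.sum_const, nsmul_eq_mul]
  -- Cauchy-Schwarz
  have hCS := second_moment_ineq hp0.le hp1 Y hY0
  rw [hE1] at hCS
  set P := ∑ W : Finset X, muP p W * (if 0 < Y W then 1 else 0) with hP
  have hP0 : 0 ≤ P := Finset.sum_nonneg fun W _ => mul_nonneg (muP_nonneg hp0.le hp1 W) (by
    split_ifs <;> norm_num)
  have hIpos : (0 : ℝ) < (I.card : ℝ) := by exact_mod_cast Finset.card_pos.mpr hI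
  have h5 : (I.card : ℝ) ≤ P * (N * (1 + s / p) ^ r) := by
    have h6 : (I.card : ℝ) ^ 2 ≤ P * ((I.card : ℝ) * (N * (1 + s / p) ^ r)) :=
      hCS.trans (mul_le_mul_of_nonneg_left hE2 hP0)
    have h7 : (I.card : ℝ) * (I.card : ℝ) ≤ (P * (N * (1 + s / p) ^ r)) * (I.card : ℝ) := by
      calc _ = (I.card : ℝ) ^ 2 := by ring
        _ ≤ _ := h6
        _ = _ := by ring
    exact le_of_mul_le_mul_right h7 hIpos
  -- the event
  have hPE : P ≤ prE p (fun W => ∃ i ∈ I, A i ⊆ W) := by
    unfold prE
    refine Finset.sum_le_sum fun W _ => mul_le_mul_of_nonneg_left ?_ (muP_nonneg hp0.le hp1 W)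
    by_cases hW : 0 < Y W
    · have : ∃ i ∈ I, A i ⊆ W := by
        by_contra hc
        push Not at hc
        have h8 : Y W = 0 := by
          refine Finset.sum_eq_zero fun i hi => ?_
          simp only [hind, if_neg (hc i hi), mul_zero]
        linarith
      rw [if_pos hW, if_pos this]
    · rw [if_neg hW]
      split_ifs <;> norm_num
  -- the numerics
  set x := s / p with hx
  have hx0 : 0 ≤ x := by positivity
  have hxK : x ≤ 1 / K := by
    rw [hx, div_le_div_iff₀ hp0 hK]
    linarith
  have hb := bernoulli_inv x hx0 r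
  have hpow : (0 : ℝ) < (1 + x) ^ r := by positivity
  have h9 : (I.card : ℝ) / N * (1 - r * x) ≤ P := by
    have h10 : (I.card : ℝ) / N ≤ P * (1 + x) ^ r := by
      rw [div_le_iff₀ hN]
      linarith
    have h11 : 0 ≤ (I.card : ℝ) / N := by positivity
    by_cases h12 : 0 ≤ 1 - r * x
    · calc (I.card : ℝ) / N * (1 - r * x) ≤ (P * (1 + x) ^ r) * (1 - r * x) :=
            mul_le_mul_of_nonneg_right h10 h12
        _ = P * ((1 - r * x) * (1 + x) ^ r) := by ring
        _ ≤ P * 1 := mul_le_mul_of_nonneg_left hb hP0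
        _ = P := mul_one P
    · push Not at h12
      nlinarith
  have h13 : (I.card : ℝ) / N ≤ 1 := by
    rw [div_le_one hN]
    exact hIN
  have h14 : (r : ℝ) * x ≤ r / K := by
    have : (r : ℝ) * x ≤ r * (1 / K) := mul_le_mul_of_nonneg_left hxK (by positivity)
    calc _ ≤ _ := this
      _ = _ := by ring
  have h15 : (I.card : ℝ) / N * (r * x) ≤ r * x := by
    have h16 : 0 ≤ (r : ℝ) * x := by positivity
    nlinarith
  calc (I.card : ℝ) / N - r / K ≤ (I.card : ℝ) / N - r * x := by linarith
    _ ≤ (I.card : ℝ) / N - (I.card : ℝ) / N * (r * x) := by linarith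
    _ = (I.card : ℝ) / N * (1 - r * x) := by ring
    _ ≤ P := h9
    _ ≤ _ := hPE

end Vale.Agent.Lib.P064
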