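import Vale.Agent.Lib.P064.Spread2

/-!
The spread lemma: a spread family of small sets has a member inside a random set of density about
the spread parameter times the logarithm of the size of the sets.
-/

namespace Vale.Agent.Lib.P064

open Finset
open scoped Classical

set_option linter.unusedSectionVars false
set_option linter.unusedVariables false

variable {X : Type*} [Fintype X] {ι : Type*}

lemma exists_frag (I : Finset ι) (A : ι → Finset X) {i : ι} (hi : i ∈ I) (W : Finset X) :
    ∃ j ∈ I, A j ⊆ A i ∪ W ∧ ∀ j' ∈ I, A j' ⊆ A i ∪ W → (A j \ W).card ≤ (A j' \ W).card := by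
  have hne : (I.filter (fun j => A j ⊆ A i ∪ W)).Nonempty :=
    ⟨i, Finset.mem_filter.mpr ⟨hi, Finset.subset_union_left⟩⟩
  obtain ⟨j, hj, hmin⟩ := Finset.exists_min_image _ (fun j => (A j \ W).card) hne
  obtain ⟨h1, h2⟩ := Finset.mem_filter.mp hj
  exact ⟨j, h1, h2, fun j' hj' h3 => hmin j' (Finset.mem_filter.mpr ⟨hj', h3⟩)⟩

/-- The minimal fragment of `A i` with respect to `W`. -/
noncomputable def frag (I : Finset ι) (A : ι → Finset X) (i : ι) (W : Finset X) : Finset X :=
  if h : i ∈ I then A (Classical.choose (exists_frag I A h W)) \ W else ∅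

lemma frag_spec {I : Finset ι} {A : ι → Finset X} {i : ι} (hi : i ∈ I) (W : Finset X) :
    ∃ j ∈ I, frag I A i W = A j \ W ∧ A j ⊆ A i ∪ W ∧
      ∀ j' ∈ I, A j' ⊆ A i ∪ W → (frag I A i W).card ≤ (A j' \ W).card := by
  have h := Classical.choose_spec (exists_frag I A hi W)
  refine ⟨Classical.choose (exists_frag I A hi W), h.1, ?_, h.2.1, ?_⟩
  · simp [frag, hi]
  · intro j' hj' h3
    have h4 : frag I A i W = A (Classical.choose (exists_frag I A hi W)) \ W := by
      simp [frag, hi]
    rw [h4]
    exact h.2.2 j' hj' h3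

lemma frag_subset {I : Finset ι} {A : ι → Finset X} {i : ι} (hi : i ∈ I) (W : Finset X) :
    frag I A i W ⊆ A i := by
  obtain ⟨j, _, h1, h2, _⟩ := frag_spec hi W
  rw [h1]
  intro x hx
  obtain ⟨h3, h4⟩ := Finset.mem_sdiff.mp hx
  rcases Finset.mem_union.mp (h2 h3) with h5 | h5
  · exact h5
  · exact absurd h5 h4

lemma frag_disj {I : Finset ι} {A : ι → Finset X} {i : ι} (hi : i ∈ I) (W : Finset X) :
    Disjoint W (frag I A i W) := by
  obtain ⟨j, _, h1, _, _⟩ := frag_spec hi W
  rw [h1]
  exact Finset.disjoint_sdiff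

lemma frag_covers {I : Finset ι} {A : ι → Finset X} {i : ι} (hi : i ∈ I) (W : Finset X) :
    ∃ j ∈ I, A j ⊆ W ∪ frag I A i W := by
  obtain ⟨j, hj, h1, _, _⟩ := frag_spec hi W
  refine ⟨j, hj, ?_⟩
  rw [h1]
  intro x hx
  by_cases hW : x ∈ W
  · exact Finset.mem_union_left _ hW
  · exact Finset.mem_union_right _ (Finset.mem_sdiff.mpr ⟨hx, hW⟩)

/-- A member of the family inside `Z`, if there is one. -/
noncomputable def selS (I : Finset ι) (A : ι → Finset X) (Z : Finset X) : Finset X :=
  if h : ∃ j ∈ I, A j ⊆ Z then A (Classical.choose h) else ∅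

lemma selS_spec {I : Finset ι} {A : ι → Finset X} {Z : Finset X} (h : ∃ j ∈ I, A j ⊆ Z) :
    ∃ j ∈ I, selS I A Z = A j ∧ A j ⊆ Z := by
  have h1 := Classical.choose_spec h
  refine ⟨Classical.choose h, h1.1, ?_, h1.2⟩
  simp [selS, h]

lemma selS_card {I : Finset ι} {A : ι → Finset X} {r : ℕ} (hr : ∀ i ∈ I, (A i).card ≤ r)
    (Z : Finset X) : (selS I A Z).card ≤ r := by
  by_cases h : ∃ j ∈ I, A j ⊆ Z
  · obtain ⟨j, hj, h1, _⟩ := selS_spec h
    rw [h1]
    exact hr j hj
  · simp [selS, h]

/-- The fragment can be read off from the union and the selected member. -/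
lemma frag_subset_selS {I : Finset ι} {A : ι → Finset X} {i : ι} (hi : i ∈ I) (W : Finset X) :
    frag I A i W ⊆ selS I A (W ∪ frag I A i W) := by
  obtain ⟨j', hj', h1, h2⟩ := selS_spec (frag_covers hi W)
  rw [h1]
  obtain ⟨_, _, _, _, hmin⟩ := frag_spec hi W
  have h3 : A j' ⊆ A i ∪ W := by
    intro x hx
    rcases Finset.mem_union.mp (h2 hx) with h4 | h4
    · exact Finset.mem_union_right _ h4
    · exact Finset.mem_union_left _ (frag_subset hi W h4)
  have h4 := hmin j' hj' h3
  have h5 : A j' \ W ⊆ frag I A i W := by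
    intro x hx
    obtain ⟨h6, h7⟩ := Finset.mem_sdiff.mp hx
    rcases Finset.mem_union.mp (h2 h6) with h8 | h8
    · exact absurd h8 h7
    · exact h8
  have h6 : A j' \ W = frag I A i W := Finset.eq_of_subset_of_card_le h5 h4
  rw [← h6]
  exact Finset.sdiff_subset

lemma muP_union_le {p : ℝ} (h0 : 0 ≤ p) (h1 : p ≤ 1) {W C : Finset X} (hd : Disjoint W C) :
    muP p W * p ^ C.card ≤ muP p (W ∪ C) := by
  unfold muP
  rw [Finset.card_union_of_disjoint hd]
  have hle : W.card + C.card ≤ Fintype.card X := by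
    rw [← Finset.card_union_of_disjoint hd]
    exact Finset.card_le_univ _
  have h2 : Fintype.card X - W.card = (Fintype.card X - (W.card + C.card)) + C.card := by omega
  rw [h2, pow_add, pow_add]
  have h3 : 0 ≤ 1 - p := by linarith
  have h4 : (1 - p) ^ C.card ≤ 1 := pow_le_one₀ h3 (by linarith)
  have h5 : 0 ≤ p ^ W.card * p ^ C.card * (1 - p) ^ (Fintype.card X - (W.card + C.card)) := by
    positivity
  calc _ = (p ^ W.card * p ^ C.card * (1 - p) ^ (Fintype.card X - (W.card + C.card))) *
        (1 - p) ^ C.card := by ring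
    _ ≤ (p ^ W.card * p ^ C.card * (1 - p) ^ (Fintype.card X - (W.card + C.card))) * 1 :=
        mul_le_mul_of_nonneg_left h4 h5
    _ = _ := by ring

/-- The encoding bound for fragments of a given size. -/
theorem frag_sum {I : Finset ι} {A : ι → Finset X} {r z : ℕ} {s N p : ℝ} (h0 : 0 ≤ p) (h1 : p ≤ 1)
    (hs : 0 ≤ s) (hN : 0 ≤ N) (hr : ∀ i ∈ I, (A i).card ≤ r)
    (hspread : ∀ S : Finset X, ((I.filter (fun i => S ⊆ A i)).card : ℝ) ≤ s ^ S.card * N) :
    (∑ i ∈ I, ∑ W : Finset X, muP p W * (if (frag I A i W).card = z then 1 else 0)) * p ^ z ≤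
      2 ^ r * (s ^ z * N) := by
  set D : Finset (ι × Finset X) :=
    (I ×ˢ (Finset.univ : Finset (Finset X))).filter (fun x => (frag I A x.1 x.2).card = z) with hD
  set f : ι × Finset X → (Σ _ : Finset X, Σ _ : Finset X, ι) :=
    fun x => ⟨x.2 ∪ frag I A x.1 x.2, frag I A x.1 x.2, x.1⟩ with hf
  set E : Finset (Σ _ : Finset X, Σ _ : Finset X, ι) :=
    (Finset.univ : Finset (Finset X)).sigma (fun Z =>
      (((selS I A Z).powerset.filter (fun C => C.card = z)).sigma
        (fun C => I.filter (fun i => C ⊆ A i)))) with hE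
  have hmu := muP_nonneg (X := X) h0 h1
  have e1 : ∑ i ∈ I, ∑ W : Finset X, muP p W * (if (frag I A i W).card = z then 1 else 0) =
      ∑ x ∈ D, muP p x.2 := by
    rw [hD, Finset.sum_filter, Finset.sum_product]
    refine Finset.sum_congr rfl fun i _ => ?_
    refine Finset.sum_congr rfl fun W _ => ?_
    split_ifs <;> simp
  rw [e1, Finset.sum_mul]
  have hfmem : ∀ x ∈ D, f x ∈ E := by
    intro x hx
    obtain ⟨hx1, hx2⟩ := Finset.mem_filter.mp hx
    have hxI := (Finset.mem_product.mp hx1).1
    refine Finset.mem_sigma.mpr ⟨Finset.mem_univ _, Finset.mem_sigma.mpr ⟨?_, ?_⟩⟩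
    · refine Finset.mem_filter.mpr ⟨Finset.mem_powerset.mpr (frag_subset_selS hxI _), hx2⟩
    · exact Finset.mem_filter.mpr ⟨hxI, frag_subset hxI _⟩
  have hfinj : Set.InjOn f (D : Set (ι × Finset X)) := by
    rintro ⟨i, W⟩ hx ⟨i', W'⟩ hx' hff
    have hxI := (Finset.mem_product.mp (Finset.mem_filter.mp (Finset.mem_coe.mp hx)).1).1
    have hxI' := (Finset.mem_product.mp (Finset.mem_filter.mp (Finset.mem_coe.mp hx')).1).1
    simp only [hf, Sigma.mk.injEq, heq_eq_eq] at hff
    obtain ⟨h2, h3, h4⟩ := hff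
    have hW : W = W' := by
      have h5 : W = (W ∪ frag I A i W) \ frag I A i W := by
        rw [Finset.union_sdiff_right]
        exact ((frag_disj hxI W).sdiff_eq_left).symm
      have h6 : W' = (W' ∪ frag I A i' W') \ frag I A i' W' := by
        rw [Finset.union_sdiff_right]
        exact ((frag_disj hxI' W').sdiff_eq_left).symm
      rw [h5, h6, h2, h3]
    rw [h4, hW]
  calc ∑ x ∈ D, muP p x.2 * p ^ z ≤ ∑ x ∈ D, muP p (f x).1 := by
        refine Finset.sum_le_sum fun x hx => ?_
        obtain ⟨hx1, hx2⟩ := Finset.mem_filter.mp hx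
        have hxI := (Finset.mem_product.mp hx1).1
        have := muP_union_le h0 h1 (frag_disj (A := A) hxI x.2)
        rw [hx2] at this
        exact this
    _ = ∑ y ∈ D.image f, muP p y.1 := (Finset.sum_image (f := fun y => muP p y.1) hfinj).symm
    _ ≤ ∑ y ∈ E, muP p y.1 := by
        refine Finset.sum_le_sum_of_subset_of_nonneg ?_ (fun y _ _ => hmu _)
        intro y hy
        obtain ⟨x, hx, rfl⟩ := Finset.mem_image.mp hy
        exact hfmem x hx
    _ = ∑ Z : Finset X, muP p Z * ∑ C ∈ (selS I A Z).powerset.filter (fun C => C.card = z),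
          ((I.filter (fun i => C ⊆ A i)).card : ℝ) := by
        rw [hE, Finset.sum_sigma]
        refine Finset.sum_congr rfl fun Z _ => ?_
        rw [Finset.sum_sigma, Finset.mul_sum]
        refine Finset.sum_congr rfl fun C _ => ?_
        simp only [Finset.sum_const, nsmul_eq_mul]
        ring
    _ ≤ ∑ Z : Finset X, muP p Z * (2 ^ r * (s ^ z * N)) := by
        refine Finset.sum_le_sum fun Z _ => mul_le_mul_of_nonneg_left ?_ (hmu Z)
        calc ∑ C ∈ (selS I A Z).powerset.filter (fun C => C.card = z),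
              ((I.filter (fun i => C ⊆ A i)).card : ℝ)
            ≤ ∑ _C ∈ (selS I A Z).powerset.filter (fun C => C.card = z), (s ^ z * N) := by
              refine Finset.sum_le_sum fun C hC => ?_
              have h2 := hspread C
              rwa [(Finset.mem_filter.mp hC).2] at h2
          _ = (((selS I A Z).powerset.filter (fun C => C.card = z)).card : ℝ) * (s ^ z * N) := by
              rw [Finset.sum_const, nsmul_eq_mul]
          _ ≤ 2 ^ r * (s ^ z * N) := by
              refine mul_le_mul_of_nonneg_right ?_ (by positivity)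
              have h2 : ((selS I A Z).powerset.filter (fun C => C.card = z)).card ≤ 2 ^ r := by
                calc _ ≤ (selS I A Z).powerset.card := Finset.card_filter_le _ _
                  _ = 2 ^ (selS I A Z).card := Finset.card_powerset _
                  _ ≤ 2 ^ r := Nat.pow_le_pow_right (by norm_num) (selS_card hr Z)
              exact_mod_cast h2
    _ = _ := by
        rw [← Finset.sum_mul, sum_muP, one_mul]

lemma sq_le_two_pow {r : ℕ} (hr : 6 ≤ r) : (r + 1) ^ 2 ≤ 2 ^ r := by
  induction r, hr using Nat.le_induction with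
  | base => norm_num
  | succ r hr ih =>
    rw [pow_succ 2 r]
    nlinarith

/-- The arithmetic of the recursion. -/
lemma eta_step {r : ℕ} (hr : 9 ≤ r) :
    (r : ℝ) * 2 ^ r / 32 ^ (r / 2 + 1) + (1 / 2 - (1 / 2) / ((r / 2 : ℕ) + 1 : ℝ)) ≤
      1 / 2 - (1 / 2) / ((r : ℝ) + 1) := by
  set r' := r / 2 with hr'
  have h2r : 2 * r' ≤ r := by omega
  have h2r' : r ≤ 2 * r' + 1 := by omega
  have hb : (0 : ℝ) < (r : ℝ) + 1 := by positivity
  have ha : (0 : ℝ) < (r' : ℝ) + 1 := by positivity
  have hle : (r' : ℝ) + 1 ≤ (r : ℝ) + 1 := by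
    have : r' ≤ r := by omega
    have : (r' : ℝ) ≤ r := by exact_mod_cast this
    linarith
  have h2r'' : 2 * (r' : ℝ) ≤ r := by exact_mod_cast h2r
  -- `4 (r+1)^2 2^r ≤ 32^(r'+1)`
  have hkey : (4 * ((r : ℝ) + 1) ^ 2) * 2 ^ r ≤ 32 ^ (r' + 1) := by
    have h1 : 4 * (r + 1) ^ 2 * 2 ^ r ≤ 32 ^ (r' + 1) := by
      have h3 : 4 * (r + 1) ^ 2 * 2 ^ r ≤ 4 * 2 ^ r * 2 ^ r := by
        have := sq_le_two_pow (r := r) (by omega)
        nlinarith [Nat.zero_le (2 ^ r)]
      have h4 : 4 * 2 ^ r * 2 ^ r = 2 ^ (2 * r + 2) := by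
        rw [pow_add, two_mul, pow_add]
        ring
      have h5 : (32 : ℕ) ^ (r' + 1) = 2 ^ (5 * (r' + 1)) := by
        rw [pow_mul]
        norm_num
      rw [h5]
      calc _ ≤ _ := h3
        _ = 2 ^ (2 * r + 2) := h4
        _ ≤ _ := Nat.pow_le_pow_right (by norm_num) (by omega)
    exact_mod_cast h1
  have h32 : (0 : ℝ) < 32 ^ (r' + 1) := by positivity
  have hfrac : (r : ℝ) * 2 ^ r / 32 ^ (r' + 1) ≤ (r : ℝ) / (4 * ((r : ℝ) + 1) ^ 2) := by
    rw [div_le_div_iff₀ h32 (by positivity)]
    have : 0 ≤ (r : ℝ) := by positivity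
    nlinarith [mul_le_mul_of_nonneg_left hkey this]
  have hdiff : (r : ℝ) / (4 * ((r : ℝ) + 1) ^ 2) ≤ (1 / 2) / ((r' : ℝ) + 1) - (1 / 2) / ((r : ℝ) + 1) := by
    have h1 : (1 / 2) / ((r' : ℝ) + 1) - (1 / 2) / ((r : ℝ) + 1) =
        ((r : ℝ) - r') / (2 * (((r' : ℝ) + 1) * ((r : ℝ) + 1))) := by
      field_simp
      ring
    rw [h1, div_le_div_iff₀ (by positivity) (by positivity)]
    have h3 : (0 : ℝ) ≤ r := by positivity
    have h4 : (r : ℝ) / 2 ≤ (r : ℝ) - r' := by linarith
    have h5 : ((r' : ℝ) + 1) * ((r : ℝ) + 1) ≤ ((r : ℝ) + 1) ^ 2 := by nlinarith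
    nlinarith [mul_le_mul_of_nonneg_left h5 h3, mul_le_mul_of_nonneg_right h4
      (by positivity : (0 : ℝ) ≤ 4 * ((r : ℝ) + 1) ^ 2)]
  linarith

/-- The spread lemma. -/
theorem spread_main (r : ℕ) : ∀ (I : Finset ι) (A : ι → Finset X) (s N p : ℝ), 0 < s → 0 < N →
    (∀ i ∈ I, (A i).card ≤ r) →
    (∀ S : Finset X, ((I.filter (fun i => S ⊆ A i)).card : ℝ) ≤ s ^ S.card * N) →
    s * (32 * ((Nat.log 2 r : ℝ) + 1)) ≤ p → p ≤ 1 →
    (I.card : ℝ) / N - (1 / 2 - (1 / 2) / ((r : ℝ) + 1)) ≤ prE p (fun W => ∃ i ∈ I, A i ⊆ W) := by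
  induction r using Nat.strong_induction_on with
  | _ r ih =>
    intro I A s N p hs hN hr hspread hp hp1
    have hlog0 : (0 : ℝ) ≤ (Nat.log 2 r : ℝ) := by positivity
    have hp₁p : 32 * s ≤ p := by
      calc 32 * s = s * (32 * 1) := by ring
        _ ≤ s * (32 * ((Nat.log 2 r : ℝ) + 1)) := by
            refine mul_le_mul_of_nonneg_left ?_ hs.le
            linarith
        _ ≤ p := hp
    have hp0 : 0 < p := lt_of_lt_of_le (by positivity) hp₁p
    have hIN : (I.card : ℝ) ≤ N := by
      have h := hspread ∅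
      simpa using h
    have hbase : (I.card : ℝ) / N ≤ 1 := by
      rw [div_le_one hN]
      exact hIN
    have hetanonneg : 0 ≤ (1 / 2 - (1 / 2) / ((r : ℝ) + 1)) := by
      have h1 : (1 : ℝ) ≤ (r : ℝ) + 1 := by
        have : (0 : ℝ) ≤ r := by positivity
        linarith
      have h2 : (1 / 2) / ((r : ℝ) + 1) ≤ 1 / 2 := div_le_self (by norm_num) h1
      linarith
    by_cases hr9 : r < 9
    · -- the second moment
      have h1 := second_moment_spread hs hN hr hspread (K := 32) (by norm_num) hp₁p hp1
      have h2 : (r : ℝ) / 32 ≤ 1 / 2 - (1 / 2) / ((r : ℝ) + 1) := by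
        interval_cases r <;> norm_num
      linarith
    · -- one round
      push Not at hr9
      by_cases hIne : I.Nonempty
      swap
      · rw [Finset.not_nonempty_iff_eq_empty] at hIne
        rw [hIne]
        have h1 := prE_nonneg (X := X) hp0.le hp1 (fun W => ∃ i ∈ (∅ : Finset ι), A i ⊆ W)
        simp only [Finset.card_empty, Nat.cast_zero, zero_div]
        linarith
      set p₁ := 32 * s with hp₁
      by_cases hp₁1 : 1 ≤ p₁
      · have hpeq : p = 1 := le_antisymm hp1 (hp₁1.trans hp₁p)
        rw [hpeq]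
        obtain ⟨i, hi⟩ := hIne
        rw [prE_one ⟨i, hi, Finset.subset_univ _⟩]
        linarith
      push Not at hp₁1
      have hp₁0 : 0 < p₁ := by positivity
      set p₂ := (p - p₁) / (1 - p₁) with hp₂
      have hden : 0 < 1 - p₁ := by linarith
      have hden1 : 1 - p₁ ≤ 1 := by linarith
      have hnum : 0 ≤ p - p₁ := by linarith
      have hp₂0 : 0 ≤ p₂ := div_nonneg hnum hden.le
      have hp₂1 : p₂ ≤ 1 := by
        rw [hp₂, div_le_one hden]
        linarith
      have hp₂ge : p - p₁ ≤ p₂ := by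
        rw [hp₂, le_div_iff₀ hden]
        nlinarith
      have hid : p₁ + p₂ - p₁ * p₂ = p := by
        rw [hp₂]
        field_simp
        ring
      set r' := r / 2 with hr'
      have hr'lt : r' < r := by omega
      have hlogr' : (Nat.log 2 r' : ℝ) + 1 = (Nat.log 2 r : ℝ) := by
        have h1 : Nat.log 2 r' = Nat.log 2 r - 1 := Nat.log_div_base 2 r
        have h2 : 1 ≤ Nat.log 2 r := Nat.log_pos (by norm_num) (by omega)
        have h3 : Nat.log 2 r' + 1 = Nat.log 2 r := by omega
        exact_mod_cast h3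
      have hp₂s : s * (32 * ((Nat.log 2 r' : ℝ) + 1)) ≤ p₂ := by
        refine le_trans ?_ hp₂ge
        rw [hlogr', hp₁]
        have : s * (32 * ((Nat.log 2 r : ℝ) + 1)) = s * (32 * (Nat.log 2 r : ℝ)) + 32 * s := by ring
        linarith
      set E : Finset X → Prop := fun W => ∃ i ∈ I, A i ⊆ W with hE
      -- each fixed `W`
      have hfix : ∀ W : Finset X, ((I.filter (fun i => (frag I A i W).card ≤ r')).card : ℝ) / N -
          (1 / 2 - (1 / 2) / ((r' : ℝ) + 1)) ≤ prE p₂ (fun W' => E (W ∪ W')) := by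
        intro W
        have h1 := ih r' hr'lt (I.filter (fun i => (frag I A i W).card ≤ r'))
          (fun i => frag I A i W) s N p₂ hs hN
          (fun i hi => (Finset.mem_filter.mp hi).2) ?_ hp₂s hp₂1
        · refine h1.trans (prE_mono hp₂0 hp₂1 ?_)
          rintro W' ⟨i, hi, hW'⟩
          have hiI := (Finset.mem_filter.mp hi).1
          obtain ⟨j, hj, hjW⟩ := frag_covers hiI W
          refine ⟨j, hj, hjW.trans ?_⟩
          exact Finset.union_subset_union le_rfl hW'
        · intro S
          refine le_trans ?_ (hspread S)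
          have h2 : ((I.filter (fun i => (frag I A i W).card ≤ r')).filter
              (fun i => S ⊆ frag I A i W)) ⊆ I.filter (fun i => S ⊆ A i) := by
            intro i hi
            obtain ⟨h3, h4⟩ := Finset.mem_filter.mp hi
            have hiI := (Finset.mem_filter.mp h3).1
            exact Finset.mem_filter.mpr ⟨hiI, h4.trans (frag_subset hiI W)⟩
          exact_mod_cast Finset.card_le_card h2
      have hmu := muP_nonneg (X := X) hp₁0.le hp₁1.le
      -- the bound for the bad pairs of a given size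
      have hz : ∀ z : ℕ, ∑ i ∈ I, ∑ W : Finset X,
          muP p₁ W * (if (frag I A i W).card = z then 1 else 0) ≤ 2 ^ r * N / 32 ^ z := by
        intro z
        have h1 := frag_sum (z := z) hp₁0.le hp₁1.le hs.le hN.le hr hspread
        have h2 : (0 : ℝ) < p₁ ^ z := by positivity
        have h3 : p₁ ^ z = 32 ^ z * s ^ z := by rw [hp₁, mul_pow]
        have hsz : (0 : ℝ) < s ^ z := by positivity
        have h32 : (0 : ℝ) < 32 ^ z := by positivity
        rw [le_div_iff₀ h32]
        have h4 : (∑ i ∈ I, ∑ W : Finset X,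
            muP p₁ W * (if (frag I A i W).card = z then 1 else 0)) * 32 ^ z * s ^ z
            ≤ (2 ^ r * N) * s ^ z := by
          calc _ = (∑ i ∈ I, ∑ W : Finset X,
                muP p₁ W * (if (frag I A i W).card = z then 1 else 0)) * p₁ ^ z := by
                rw [h3]; ring
            _ ≤ _ := h1
            _ = _ := by ring
        exact le_of_mul_le_mul_right h4 hsz
      -- the expected number of survivors
      set ε := (r : ℝ) * 2 ^ r / 32 ^ (r' + 1) with hε
      have hsurv : (I.card : ℝ) - ε * N ≤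
          ∑ W : Finset X, muP p₁ W * ((I.filter (fun i => (frag I A i W).card ≤ r')).card : ℝ) := by
        have h1 : ∀ W : Finset X,
            (I.card : ℝ) - ∑ z ∈ Finset.Ioc r' r, ∑ i ∈ I,
              (if (frag I A i W).card = z then (1 : ℝ) else 0)
            ≤ ((I.filter (fun i => (frag I A i W).card ≤ r')).card : ℝ) := by
          intro W
          have h2 : (I.card : ℝ) = ((I.filter (fun i => (frag I A i W).card ≤ r')).card : ℝ) +
              ((I.filter (fun i => ¬ (frag I A i W).card ≤ r')).card : ℝ) := by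
            exact_mod_cast (Finset.card_filter_add_card_filter_not _).symm
          have h3 : ((I.filter (fun i => ¬ (frag I A i W).card ≤ r')).card : ℝ) ≤
              ∑ z ∈ Finset.Ioc r' r, ∑ i ∈ I, (if (frag I A i W).card = z then (1 : ℝ) else 0) := by
            rw [Finset.sum_comm, Finset.card_filter]
            push_cast
            refine Finset.sum_le_sum fun i hi => ?_
            by_cases hc : (frag I A i W).card ≤ r'
            · rw [if_neg (not_not.mpr hc)]
              refine Finset.sum_nonneg fun z _ => ?_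
              split_ifs <;> norm_num
            · rw [if_pos hc]
              have hcr : (frag I A i W).card ≤ r :=
                (Finset.card_le_card (frag_subset hi W)).trans (hr i hi)
              have hmem : (frag I A i W).card ∈ Finset.Ioc r' r :=
                Finset.mem_Ioc.mpr ⟨by omega, hcr⟩
              have h4 := Finset.single_le_sum (f := fun z =>
                (if (frag I A i W).card = z then (1 : ℝ) else 0))
                (fun z _ => by split_ifs <;> norm_num) hmem
              simpa using h4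
          linarith
        have h2 : ∑ W : Finset X, muP p₁ W * ((I.card : ℝ) - ∑ z ∈ Finset.Ioc r' r, ∑ i ∈ I,
              (if (frag I A i W).card = z then (1 : ℝ) else 0))
            ≤ ∑ W : Finset X, muP p₁ W *
              ((I.filter (fun i => (frag I A i W).card ≤ r')).card : ℝ) :=
          Finset.sum_le_sum fun W _ => mul_le_mul_of_nonneg_left (h1 W) (hmu W)
        refine le_trans ?_ h2
        have h3 : ∑ W : Finset X, muP p₁ W * ((I.card : ℝ) - ∑ z ∈ Finset.Ioc r' r, ∑ i ∈ I,
              (if (frag I A i W).card = z then (1 : ℝ) else 0))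
            = (I.card : ℝ) - ∑ z ∈ Finset.Ioc r' r, ∑ i ∈ I, ∑ W : Finset X,
                muP p₁ W * (if (frag I A i W).card = z then 1 else 0) := by
          simp only [mul_sub, Finset.sum_sub_distrib]
          rw [← Finset.sum_mul, sum_muP, one_mul]
          congr 1
          simp only [Finset.mul_sum]
          rw [Finset.sum_comm]
          refine Finset.sum_congr rfl fun z _ => ?_
          rw [Finset.sum_comm]
        rw [h3]
        have h4 : ∑ z ∈ Finset.Ioc r' r, ∑ i ∈ I, ∑ W : Finset X,
              muP p₁ W * (if (frag I A i W).card = z then 1 else 0) ≤ ε * N := by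
          calc _ ≤ ∑ _z ∈ Finset.Ioc r' r, (2 ^ r * N / 32 ^ (r' + 1)) := by
                refine Finset.sum_le_sum fun z hz' => (hz z).trans ?_
                have hz1 : r' + 1 ≤ z := (Finset.mem_Ioc.mp hz').1
                refine div_le_div_of_nonneg_left (by positivity) (by positivity) ?_
                exact pow_le_pow_right₀ (by norm_num) hz1
            _ = ((r - r' : ℕ) : ℝ) * (2 ^ r * N / 32 ^ (r' + 1)) := by
                rw [Finset.sum_const, nsmul_eq_mul, Nat.card_Ioc]
            _ ≤ (r : ℝ) * (2 ^ r * N / 32 ^ (r' + 1)) := by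
                refine mul_le_mul_of_nonneg_right ?_ (by positivity)
                exact_mod_cast Nat.sub_le _ _
            _ = _ := by rw [hε]; ring
        linarith
      -- assemble
      have hstep := eta_step hr9
      rw [← hr'] at hstep
      have hfinal : prE p E = ∑ W : Finset X, muP p₁ W * prE p₂ (fun W' => E (W ∪ W')) := by
        rw [← prE_union, hid]
      rw [hfinal]
      have hsum : ∑ W : Finset X, muP p₁ W *
          (((I.filter (fun i => (frag I A i W).card ≤ r')).card : ℝ) / N -
            (1 / 2 - (1 / 2) / ((r' : ℝ) + 1)))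
          ≤ ∑ W : Finset X, muP p₁ W * prE p₂ (fun W' => E (W ∪ W')) :=
        Finset.sum_le_sum fun W _ => mul_le_mul_of_nonneg_left (hfix W) (hmu W)
      refine le_trans ?_ hsum
      have h5 : ∑ W : Finset X, muP p₁ W *
          (((I.filter (fun i => (frag I A i W).card ≤ r')).card : ℝ) / N -
            (1 / 2 - (1 / 2) / ((r' : ℝ) + 1)))
          = (∑ W : Finset X, muP p₁ W *
              ((I.filter (fun i => (frag I A i W).card ≤ r')).card : ℝ)) / N -
            (1 / 2 - (1 / 2) / ((r' : ℝ) + 1)) := by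
        generalize (1 / 2 - (1 / 2) / ((r' : ℝ) + 1)) = η'
        simp only [mul_sub, Finset.sum_sub_distrib]
        rw [← Finset.sum_mul, sum_muP, one_mul, Finset.sum_div]
        congr 1
        refine Finset.sum_congr rfl fun W _ => ?_
        ring
      rw [h5]
      have h6 : (I.card : ℝ) / N - ε ≤ (∑ W : Finset X, muP p₁ W *
              ((I.filter (fun i => (frag I A i W).card ≤ r')).card : ℝ)) / N := by
        rw [le_div_iff₀ hN, sub_mul, div_mul_cancel₀ _ hN.ne']
        linarith
      linarith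

end Vale.Agent.Lib.P064
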