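import Vale.Agent.Lib.P064.Tok6

/-!
The comparison with the factor written with the real logarithm.
-/

namespace Vale.Agent.Lib.P064

open Finset SimpleGraph
open scoped Classical Nat

set_option linter.unusedSectionVars false
set_option linter.unusedVariables false

lemma natLog_le_realLog {n : ℕ} (hn : 2 ≤ n) :
    ((Nat.log 2 n + 1 : ℕ) : ℝ) ≤ 3 * Real.log n := by
  have hn0 : n ≠ 0 := by omega
  have h1 : 2 ^ Nat.log 2 n ≤ n := Nat.pow_log_le_self 2 hn0
  have h2 : (2 : ℝ) ^ Nat.log 2 n ≤ (n : ℝ) := by exact_mod_cast h1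
  have hl2 : 0.6931471803 < Real.log 2 := Real.log_two_gt_d9
  have h3 : (Nat.log 2 n : ℝ) * Real.log 2 ≤ Real.log n := by
    have := Real.log_le_log (by positivity) h2
    rwa [Real.log_pow] at this
  have h4 : Real.log 2 ≤ Real.log n :=
    Real.log_le_log (by norm_num) (by exact_mod_cast hn)
  have hk : (0 : ℝ) ≤ (Nat.log 2 n : ℝ) := by positivity
  push_cast
  nlinarith

lemma expCopies_mono {n : ℕ} {p p' : ℝ} (hp : 0 ≤ p) (hpp : p ≤ p') {W : Type*}
    (F : SimpleGraph W) : expCopies n p F ≤ expCopies n p' F := by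
  unfold expCopies
  exact mul_le_mul_of_nonneg_left (pow_le_pow_left₀ hp hpp _) (by positivity)

/-- The comparison with the factor written with the real logarithm. -/
theorem copyCount_le_reallog {V : Type*} [Fintype V] {H : SimpleGraph V} {n : ℕ} {q : ℝ}
    (hn : 2 ≤ n) (hV : Fintype.card V ≤ n) (hq0 : 0 < q)
    (hyp : ∀ F : H.Subgraph, 1 ≤ expCopies n q F.coe) {Z : Type*} [Fintype Z]
    (F : SimpleGraph Z) :
    (H.copyCount F : ℝ) ≤ expCopies n (min 1 ((3 * constC) * Real.log n * q)) F := by
  refine (copyCount_le_log (by omega) hV hq0 hyp F).trans ?_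
  have hC := constC_pos
  refine expCopies_mono (le_min zero_le_one (by positivity)) ?_ F
  refine min_le_min le_rfl ?_
  have h1 := natLog_le_realLog hn
  have h2 : constC * ((Nat.log 2 n + 1 : ℕ) : ℝ) * q ≤ constC * (3 * Real.log n) * q := by
    refine mul_le_mul_of_nonneg_right ?_ hq0.le
    exact mul_le_mul_of_nonneg_left h1 hC.le
  linarith

end Vale.Agent.Lib.P064
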