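import Vale.Agent.Lib.P064.Spread3
import Vale.Agent.Lib.P064.Tok7
import Vale.Agent.Lib.P064.DefsPc

/-!
The labelled copies of `H` in the complete graph form a spread family, and so `G(n,p)` contains a
copy of `H`.
-/

namespace Vale.Agent.Lib.P064

open Finset SimpleGraph
open scoped Classical Nat

set_option linter.unusedSectionVars false
set_option linter.unusedVariables false

variable {V : Type*} [Fintype V]

/-- The pairs of vertices of the complete graph. -/
abbrev XE (n : ℕ) : Type := (⊤ : SimpleGraph (Fin n)).edgeSet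

/-- Graphs on `Fin n` are the same as sets of pairs. -/
noncomputable def graphEquiv (n : ℕ) : Finset (XE n) ≃ SimpleGraph (Fin n) where
  toFun W := fromEdgeSet (Subtype.val '' (W : Set (XE n)))
  invFun G := Finset.univ.filter (fun e => e.1 ∈ G.edgeSet)
  left_inv W := by
    ext e
    simp only [Finset.mem_filter, Finset.mem_univ, true_and, edgeSet_fromEdgeSet]
    constructor
    · rintro ⟨⟨e', he', h⟩, _⟩
      have : e' = e := Subtype.ext h
      rw [← this]
      exact Finset.mem_coe.mp he'
    · intro h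
      refine ⟨⟨e, Finset.mem_coe.mpr h, rfl⟩, ?_⟩
      exact (Set.ext_iff.mp edgeSet_top e.1).mp e.2
  right_inv G := by
    ext u v
    simp only [fromEdgeSet_adj]
    constructor
    · rintro ⟨⟨e, he, h⟩, _⟩
      have h2 := (Finset.mem_filter.mp (Finset.mem_coe.mp he)).2
      rw [h] at h2
      exact h2
    · intro h
      have hne : u ≠ v := h.ne
      refine ⟨⟨⟨s(u, v), hne⟩, ?_, rfl⟩, hne⟩
      exact Finset.mem_coe.mpr (Finset.mem_filter.mpr ⟨Finset.mem_univ _, h⟩)

lemma graphEquiv_adj {n : ℕ} {W : Finset (XE n)} {u v : Fin n} :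
    (graphEquiv n W).Adj u v ↔ s(u, v) ∈ Subtype.val '' (W : Set (XE n)) ∧ u ≠ v := by
  simp [graphEquiv]

lemma numEdges_graphEquiv {n : ℕ} (W : Finset (XE n)) : numEdges (graphEquiv n W) = W.card := by
  unfold numEdges
  have h : (graphEquiv n W).edgeSet = Subtype.val '' (W : Set (XE n)) := by
    ext e
    induction e using Sym2.ind with
    | _ u v =>
      rw [mem_edgeSet, graphEquiv_adj]
      constructor
      · exact fun h => h.1
      · rintro ⟨e', he', h⟩
        refine ⟨⟨e', he', h⟩, ?_⟩
        have h2 := e'.2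
        rw [h] at h2
        exact h2
  rw [h, Set.ncard_image_of_injective _ Subtype.val_injective, Set.ncard_coe_finset]

lemma card_XE (n : ℕ) : Fintype.card (XE n) = n.choose 2 := by
  have h := card_edgeFinset_top_eq_card_choose_two (V := Fin n)
  rw [Fintype.card_fin] at h
  rw [← h, edgeFinset, Set.toFinset_card]

lemma gnpProb_eq (n : ℕ) (p : ℝ) (P : SimpleGraph (Fin n) → Prop) :
    gnpProb n p P = prE p (fun W => P (graphEquiv n W)) := by
  unfold gnpProb prE
  rw [← Equiv.sum_comp (graphEquiv n)]
  refine Finset.sum_congr rfl fun W _ => ?_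
  unfold muP
  rw [numEdges_graphEquiv, card_XE]
  split_ifs <;> simp

/-- The pairs covered by a labelled copy of `H`. -/
noncomputable def copyPairs {n : ℕ} (H : SimpleGraph V) (e : V ↪ Fin n) : Finset (XE n) :=
  Finset.univ.filter (fun x => x.1 ∈ Sym2.map e '' H.edgeSet)

lemma mem_copyPairs {n : ℕ} {H : SimpleGraph V} {e : V ↪ Fin n} {x : XE n} :
    x ∈ copyPairs H e ↔ x.1 ∈ Sym2.map e '' H.edgeSet := by
  simp [copyPairs]

lemma copyPairs_card_le {n : ℕ} (H : SimpleGraph V) (e : V ↪ Fin n) :
    (copyPairs H e).card ≤ numEdges H := by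
  unfold numEdges
  have h1 : (copyPairs H e).card = ((copyPairs H e).image Subtype.val).card :=
    (Finset.card_image_of_injective _ Subtype.val_injective).symm
  rw [h1, ← Set.ncard_coe_finset]
  have h2 : (((copyPairs H e).image Subtype.val : Finset (Sym2 (Fin n))) : Set (Sym2 (Fin n))) ⊆
      Sym2.map e '' H.edgeSet := by
    intro x hx
    obtain ⟨x', hx', rfl⟩ := Finset.mem_image.mp (Finset.mem_coe.mp hx)
    exact mem_copyPairs.mp hx'
  calc _ ≤ (Sym2.map e '' H.edgeSet).ncard := Set.ncard_le_ncard h2 ((Set.toFinite _).image _)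
    _ ≤ _ := Set.ncard_image_le (Set.toFinite _)

/-- A graph containing the pairs of a labelled copy contains a copy of `H`. -/
lemma copyCount_pos_of_pairs {n : ℕ} {H : SimpleGraph V} {e : V ↪ Fin n} {W : Finset (XE n)}
    (h : copyPairs H e ⊆ W) : 0 < (graphEquiv n W).copyCount H := by
  rw [copyCount_pos]
  refine ⟨⟨⟨e, ?_⟩, e.injective⟩⟩
  intro a b hab
  have hne : e a ≠ e b := fun h' => hab.ne (e.injective h')
  rw [graphEquiv_adj]
  refine ⟨⟨⟨s(e a, e b), hne⟩, ?_, rfl⟩, hne⟩
  refine Finset.mem_coe.mpr (h (mem_copyPairs.mpr ?_))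
  exact ⟨s(a, b), hab, rfl⟩

section Spread

variable {n : ℕ} {H : SimpleGraph V}

/-- The graph spanned by a set of pairs, on its own vertex set. -/
noncomputable def spanGraph (S : Finset (XE n)) :
    SimpleGraph (vertsOf (S.image Subtype.val) : Finset (Fin n)) where
  Adj a b := s(a.1, b.1) ∈ S.image Subtype.val
  symm := ⟨fun a b h => by rwa [Sym2.eq_swap]⟩
  loopless := ⟨fun a h => by
    obtain ⟨x, _, hx⟩ := Finset.mem_image.mp h
    have h2 := x.2
    rw [hx] at h2
    exact h2 rfl⟩

lemma numEdges_spanGraph (S : Finset (XE n)) : numEdges (spanGraph S) = S.card := by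
  unfold numEdges
  have h1 : Sym2.map Subtype.val '' (spanGraph S).edgeSet =
      ((S.image Subtype.val : Finset (Sym2 (Fin n))) : Set (Sym2 (Fin n))) := by
    ext x
    constructor
    · rintro ⟨y, hy, rfl⟩
      induction y using Sym2.ind with
      | _ a b => exact Finset.mem_coe.mpr hy
    · intro hx
      induction x using Sym2.ind with
      | _ u v =>
        have hu : u ∈ vertsOf (S.image Subtype.val) :=
          mem_vertsOf.mpr ⟨_, Finset.mem_coe.mp hx, Sym2.mem_mk_left u v⟩
        have hv : v ∈ vertsOf (S.image Subtype.val) :=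
          mem_vertsOf.mpr ⟨_, Finset.mem_coe.mp hx, Sym2.mem_mk_right u v⟩
        exact ⟨s(⟨u, hu⟩, ⟨v, hv⟩), Finset.mem_coe.mp hx, rfl⟩
  have h2 := Set.ncard_image_of_injective (spanGraph S).edgeSet
    (Sym2.map.injective (f := (Subtype.val : (vertsOf (S.image Subtype.val) : Finset (Fin n)) → Fin n))
      Subtype.val_injective)
  rw [h1, Set.ncard_coe_finset, Finset.card_image_of_injective _ Subtype.val_injective] at h2
  exact h2.symm

/-- The number of extensions of a partial inverse to a labelled copy. -/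
lemma fib_card_le {Z : Finset (Fin n)} (ι : Z → V) (hι : Function.Injective ι) :
    ((Finset.univ : Finset (V ↪ Fin n)).filter (fun e => ∀ z, e (ι z) = z.1)).card ≤
      (n - Z.card).descFactorial (Fintype.card V - Z.card) := by
  set α := {w : V // w ∉ Set.range ι} with hα
  set β := {y : Fin n // y ∉ Z} with hβ
  have hcardβ : Fintype.card β = n - Z.card := by
    rw [Fintype.card_subtype_compl]
    simp
  have hcardα : Fintype.card α = Fintype.card V - Z.card := by
    rw [Fintype.card_subtype_compl]
    congr 1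
    have h1 : Fintype.card (Set.range ι) = Fintype.card Z := Set.card_range_of_injective hι
    rw [Fintype.card_coe] at h1
    exact h1
  have h := Fintype.card_embedding_eq (α := α) (β := β)
  rw [hcardα, hcardβ] at h
  rw [← h, ← Fintype.card_subtype]
  refine Fintype.card_le_of_injective (fun e => ⟨fun w => ⟨e.1 w.1, ?_⟩, ?_⟩) ?_
  · intro hw
    apply w.2
    refine ⟨⟨e.1 w.1, hw⟩, ?_⟩
    apply e.1.injective
    exact e.2 ⟨e.1 w.1, hw⟩
  · intro w w' hww
    have h1 : e.1 w.1 = e.1 w'.1 := congrArg Subtype.val hww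
    exact Subtype.ext (e.1.injective h1)
  · intro e e' hee
    apply Subtype.ext
    ext w
    by_cases hw : w ∈ Set.range ι
    · obtain ⟨z, rfl⟩ := hw
      rw [e.2 z, e'.2 z]
    · have h1 := congrArg (fun f : α ↪ β => (f ⟨w, hw⟩ : β).1) hee
      exact congrArg Fin.val h1

/-- The labelled copies of `H` form a spread family. -/
theorem spread_copies {q : ℝ} (hn : 1 ≤ n) (hV : Fintype.card V ≤ n) (hq0 : 0 < q)
    (hCq : constC * q ≤ 1) (hyp : ∀ F : H.Subgraph, 1 ≤ expCopies n q F.coe) (S : Finset (XE n)) :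
    (((Finset.univ : Finset (V ↪ Fin n)).filter (fun e => S ⊆ copyPairs H e)).card : ℝ) ≤
      (constC * ((Nat.log 2 n + 1 : ℕ) : ℝ) * q) ^ S.card * (Fintype.card (V ↪ Fin n) : ℝ) := by
  set ell : ℝ := ((Nat.log 2 n + 1 : ℕ) : ℝ) with hell
  have hell' : (1 : ℝ) ≤ ell := by
    have : 1 ≤ Nat.log 2 n + 1 := by omega
    rw [hell]
    exact_mod_cast this
  have hC := constC_pos
  set Z : Finset (Fin n) := vertsOf (S.image Subtype.val) with hZ
  set F : SimpleGraph Z := spanGraph S with hF
  set T := Emb F H Finset.univ with hT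
  set k := Z.card with hk
  have hcardZ : Fintype.card Z = k := Fintype.card_coe _
  set fib : (Z → V) → Finset (V ↪ Fin n) :=
    fun g => (Finset.univ : Finset (V ↪ Fin n)).filter (fun e => ∀ z, e (g z) = z.1) with hfib
  have hsub : (Finset.univ : Finset (V ↪ Fin n)).filter (fun e => S ⊆ copyPairs H e) ⊆
      T.biUnion fib := by
    intro e he
    have hSe := (Finset.mem_filter.mp he).2
    -- every vertex of `Z` is in the image of `e`
    have hcover : ∀ z : Z, ∃ w, e w = z.1 := by
      intro z
      obtain ⟨x, hx, hzx⟩ := mem_vertsOf.mp z.2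
      obtain ⟨x', hx', rfl⟩ := Finset.mem_image.mp hx
      obtain ⟨y, _, hy⟩ := mem_copyPairs.mp (hSe hx')
      rw [← hy] at hzx
      obtain ⟨w, _, hw⟩ := Sym2.mem_map.mp hzx
      exact ⟨w, hw⟩
    choose g hg using hcover
    refine Finset.mem_biUnion.mpr ⟨g, ?_, Finset.mem_filter.mpr ⟨Finset.mem_univ _, hg⟩⟩
    refine mem_Emb.mpr ⟨?_, ?_, fun _ => Finset.mem_univ _⟩
    · intro a b hab
      apply Subtype.ext
      rw [← hg a, ← hg b, hab]
    · intro a b hab
      obtain ⟨x', hx', hxeq⟩ := Finset.mem_image.mp hab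
      obtain ⟨y, hy, hyeq⟩ := mem_copyPairs.mp (hSe hx')
      rw [hxeq] at hyeq
      induction y using Sym2.ind with
      | _ u v =>
        have huv : H.Adj u v := hy
        simp only [Sym2.map_mk] at hyeq
        rcases Sym2.eq_iff.mp hyeq with ⟨h1, h2⟩ | ⟨h1, h2⟩
        · have h3 : g a = u := e.injective ((hg a).trans h1.symm)
          have h4 : g b = v := e.injective ((hg b).trans h2.symm)
          rw [h3, h4]
          exact huv
        · have h3 : g a = v := e.injective ((hg a).trans h2.symm)
          have h4 : g b = u := e.injective ((hg b).trans h1.symm)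
          rw [h3, h4]
          exact huv.symm
  by_cases hTne : T.Nonempty
  swap
  · rw [Finset.not_nonempty_iff_eq_empty] at hTne
    rw [hTne, Finset.biUnion_empty, Finset.subset_empty] at hsub
    rw [hsub]
    simp only [Finset.card_empty, Nat.cast_zero]
    positivity
  have hkV : k ≤ Fintype.card V := by
    obtain ⟨g, hg⟩ := hTne
    have := Fintype.card_le_of_injective g (mem_Emb.mp hg).1
    rwa [hcardZ] at this
  have hcount := Finset.card_le_card hsub
  have hbi := Finset.card_biUnion_le_card_mul T fib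
    ((n - k).descFactorial (Fintype.card V - k)) (fun g hg => fib_card_le g (mem_Emb.mp hg).1)
  have hfin := hcount.trans hbi
  have hmain := emb_all_tok hn hV hq0 hCq hyp k Z F hcardZ
  rw [hF, numEdges_spanGraph] at hmain
  have hpow : (constC * q) ^ S.card * ell ^ (min k S.card) ≤ (constC * ell * q) ^ S.card := by
    have h1 : ell ^ (min k S.card) ≤ ell ^ S.card := pow_le_pow_right₀ hell' (min_le_right _ _)
    have h2 : (constC * ell * q) ^ S.card = (constC * q) ^ S.card * ell ^ S.card := by
      rw [← mul_pow]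
      congr 1
      ring
    rw [h2]
    exact mul_le_mul_of_nonneg_left h1 (by positivity)
  have hT2 : (T.card : ℝ) ≤ (n.descFactorial k : ℝ) * (constC * ell * q) ^ S.card :=
    hmain.trans (mul_le_mul_of_nonneg_left hpow (by positivity))
  have hcardE : (Fintype.card (V ↪ Fin n) : ℝ) = (n.descFactorial (Fintype.card V) : ℝ) := by
    have h := Fintype.card_embedding_eq (α := V) (β := Fin n)
    rw [Fintype.card_fin] at h
    rw [h]
  have hdesc : (n - k).descFactorial (Fintype.card V - k) * n.descFactorial k =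
      n.descFactorial (Fintype.card V) := Nat.descFactorial_mul_descFactorial hkV
  rw [hcardE, ← hdesc]
  have hfinR : (((Finset.univ : Finset (V ↪ Fin n)).filter (fun e => S ⊆ copyPairs H e)).card : ℝ) ≤
      (T.card : ℝ) * ((n - k).descFactorial (Fintype.card V - k) : ℝ) := by
    exact_mod_cast hfin
  refine hfinR.trans ?_
  push_cast
  calc (T.card : ℝ) * ((n - k).descFactorial (Fintype.card V - k) : ℝ)
      ≤ ((n.descFactorial k : ℝ) * (constC * ell * q) ^ S.card) *
          ((n - k).descFactorial (Fintype.card V - k) : ℝ) :=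
        mul_le_mul_of_nonneg_right hT2 (by positivity)
    _ = _ := by ring

/-- `G(n,p)` contains a copy of `H` with probability at least one half. -/
theorem gnp_half {q p : ℝ} (hn : 1 ≤ n) (hV : Fintype.card V ≤ n) (hq0 : 0 < q)
    (hCq : constC * q ≤ 1) (hyp : ∀ F : H.Subgraph, 1 ≤ expCopies n q F.coe)
    (hp : (constC * ((Nat.log 2 n + 1 : ℕ) : ℝ) * q) *
      (32 * ((Nat.log 2 (numEdges H) : ℝ) + 1)) ≤ p) (hp1 : p ≤ 1) :
    1 / 2 ≤ gnpProb n p (fun G => 0 < G.copyCount H) := by
  set s := constC * ((Nat.log 2 n + 1 : ℕ) : ℝ) * q with hs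
  have hC := constC_pos
  have hs0 : 0 < s := by positivity
  set N : ℝ := (Fintype.card (V ↪ Fin n) : ℝ) with hN
  have hemb : Nonempty (V ↪ Fin n) :=
    Function.Embedding.nonempty_of_card_le (by rwa [Fintype.card_fin])
  have hN0 : 0 < N := by
    rw [hN]
    exact_mod_cast Fintype.card_pos
  have h1 : ((Finset.univ : Finset (V ↪ Fin n)).card : ℝ) / N -
      (1 / 2 - (1 / 2) / ((numEdges H : ℝ) + 1)) ≤
      prE p (fun W => ∃ i ∈ (Finset.univ : Finset (V ↪ Fin n)), copyPairs H i ⊆ W) := by
    refine spread_main (numEdges H) (Finset.univ : Finset (V ↪ Fin n)) (copyPairs H) s N p hs0 hN0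
      (fun e _ => copyPairs_card_le H e) ?_ hp hp1
    intro S
    have h := spread_copies hn hV hq0 hCq hyp S
    refine le_trans (le_of_eq ?_) h
    congr 2
    ext x
    simp only [Finset.mem_filter]
  have hp0 : 0 ≤ p := by
    refine le_trans ?_ hp
    positivity
  have h2 : ((Finset.univ : Finset (V ↪ Fin n)).card : ℝ) / N = 1 := by
    rw [Finset.card_univ, div_self hN0.ne']
  rw [h2] at h1
  rw [gnpProb_eq]
  have h3 : prE p (fun W => ∃ i ∈ (Finset.univ : Finset (V ↪ Fin n)), copyPairs H i ⊆ W) ≤
      prE p (fun W => 0 < (graphEquiv n W).copyCount H) := by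
    refine prE_mono hp0 hp1 ?_
    rintro W ⟨e, _, he⟩
    exact copyCount_pos_of_pairs he
  have h4 : 0 ≤ (1 / 2) / ((numEdges H : ℝ) + 1) := by positivity
  linarith

/-- At density one the graph contains a copy of `H`. -/
lemma gnp_one (hV : Fintype.card V ≤ n) : 1 / 2 ≤ gnpProb n 1 (fun G => 0 < G.copyCount H) := by
  rw [gnpProb_eq]
  have hemb : Nonempty (V ↪ Fin n) :=
    Function.Embedding.nonempty_of_card_le (by rwa [Fintype.card_fin])
  obtain ⟨e⟩ := hemb
  rw [prE_one (E := fun W => 0 < (graphEquiv n W).copyCount H)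
    (copyCount_pos_of_pairs (e := e) (Finset.subset_univ _))]
  norm_num

end Spread

end Vale.Agent.Lib.P064
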