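import Vale.Agent.Lib.P064.Spread4

/-!
The bound `p_c(n,H) ≤ C (log n)^2 p_E(n,H)`.
-/

namespace Vale.Agent.Lib.P064

open Finset SimpleGraph
open scoped Classical Nat

set_option linter.unusedSectionVars false
set_option linter.unusedVariables false

variable {V : Type*} [Fintype V]

lemma one_le_copyCount_top {n : ℕ} {Z : Type*} [Fintype Z] (F : SimpleGraph Z)
    (hZ : Fintype.card Z ≤ n) : 1 ≤ (⊤ : SimpleGraph (Fin n)).copyCount F := by
  have hemb : Nonempty (Z ↪ Fin n) :=
    Function.Embedding.nonempty_of_card_le (by rwa [Fintype.card_fin])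
  obtain ⟨e⟩ := hemb
  have : 0 < (⊤ : SimpleGraph (Fin n)).copyCount F := by
    rw [copyCount_pos]
    refine ⟨⟨⟨e, ?_⟩, e.injective⟩⟩
    intro a b hab
    simpa using fun h => hab.ne (e.injective h)
  omega

lemma numEdges_le_sq (H : SimpleGraph V) : numEdges H ≤ (Fintype.card V) ^ 2 := by
  have h1 := dartsF_card H
  have h2 : (dartsF H).card ≤ (Finset.univ : Finset (V × V)).card := Finset.card_le_univ _
  rw [Finset.card_univ, Fintype.card_prod] at h2
  nlinarith

/-- The bound for a single density. -/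
theorem pCrit_le_of_mem {n : ℕ} (hn : 2 ≤ n) {H : SimpleGraph V} (hV : Fintype.card V ≤ n)
    (hE : 1 ≤ numEdges H) {q : ℝ} (hq0 : 0 ≤ q)
    (hq : ∀ F : H.Subgraph, 1 / 2 ≤ expCopies n q F.coe) :
    pCrit n H ≤ (1152 * constC) * (Real.log n) ^ 2 * q := by
  have hC := constC_pos
  have hL : 0 < Real.log n := Real.log_pos (by exact_mod_cast (by omega : 1 < n))
  -- positivity of the density
  have hqpos : 0 < q := by
    rcases hq0.lt_or_eq with h | h
    · exact h
    · exfalso
      have h1 := hq ⊤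
      rw [← h] at h1
      unfold expCopies at h1
      have h2 : numEdges (⊤ : H.Subgraph).coe = numEdges H := by
        rw [numEdges_coe, Subgraph.edgeSet_top]
        rfl
      rw [h2, zero_pow (by omega), mul_zero] at h1
      norm_num at h1
  set q' := 2 * q with hq'
  have hq'0 : 0 < q' := by positivity
  -- the hypothesis with `1` in place of `1/2`
  have hyp : ∀ F : H.Subgraph, 1 ≤ expCopies n q' F.coe := by
    intro F
    unfold expCopies
    have hcard : Fintype.card F.verts ≤ n := (Fintype.card_subtype_le _).trans hV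
    have hcop : (1 : ℝ) ≤ ((⊤ : SimpleGraph (Fin n)).copyCount F.coe : ℝ) := by
      exact_mod_cast one_le_copyCount_top F.coe hcard
    by_cases he : numEdges F.coe = 0
    · rw [he, pow_zero, mul_one]
      exact hcop
    · have h1 := hq F
      unfold expCopies at h1
      have h2 : (2 : ℝ) ≤ 2 ^ numEdges F.coe := by
        calc (2 : ℝ) = 2 ^ 1 := by norm_num
          _ ≤ _ := pow_le_pow_right₀ (by norm_num) (by omega)
      have h3 : (2 * q) ^ numEdges F.coe = 2 ^ numEdges F.coe * q ^ numEdges F.coe := mul_pow _ _ _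
      rw [hq', h3]
      have h4 : 0 ≤ ((⊤ : SimpleGraph (Fin n)).copyCount F.coe : ℝ) * q ^ numEdges F.coe := by
        positivity
      calc (1 : ℝ) = 2 * (1 / 2) := by norm_num
        _ ≤ 2 * (((⊤ : SimpleGraph (Fin n)).copyCount F.coe : ℝ) * q ^ numEdges F.coe) :=
            mul_le_mul_of_nonneg_left h1 (by norm_num)
        _ ≤ 2 ^ numEdges F.coe * (((⊤ : SimpleGraph (Fin n)).copyCount F.coe : ℝ) *
              q ^ numEdges F.coe) := mul_le_mul_of_nonneg_right h2 h4
        _ = _ := by ring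
  set ell : ℝ := ((Nat.log 2 n + 1 : ℕ) : ℝ) with hell
  have hell1 : (1 : ℝ) ≤ ell := by
    have : 1 ≤ Nat.log 2 n + 1 := by omega
    rw [hell]
    exact_mod_cast this
  set lr : ℝ := (Nat.log 2 (numEdges H) : ℝ) + 1 with hlr
  have hlr1 : 1 ≤ lr := by
    have : (0 : ℝ) ≤ (Nat.log 2 (numEdges H) : ℝ) := by positivity
    rw [hlr]
    linarith
  set Pstar := (constC * ell * q') * (32 * lr) with hPstar
  have hPbd : BddBelow {p : ℝ | 0 ≤ p ∧ p ≤ 1 ∧ 1 / 2 ≤ gnpProb n p (fun G => 0 < G.copyCount H)} :=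
    ⟨0, fun p hp => hp.1⟩
  have hPstarle : pCrit n H ≤ Pstar := by
    by_cases hP1 : Pstar ≤ 1
    · have hCq : constC * q' ≤ 1 := by
        refine le_trans ?_ hP1
        have h1 : constC * q' ≤ constC * ell * q' := by
          have : 0 < constC * q' := by positivity
          nlinarith
        have h2 : constC * ell * q' ≤ (constC * ell * q') * (32 * lr) := by
          have h3 : 0 < constC * ell * q' := by positivity
          have h4 : 1 ≤ 32 * lr := by linarith
          nlinarith
        linarith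
      refine csInf_le hPbd ⟨by positivity, hP1, ?_⟩
      exact gnp_half (by omega) hV hq'0 hCq hyp le_rfl hP1
    · push Not at hP1
      have h1 : pCrit n H ≤ 1 :=
        csInf_le hPbd ⟨zero_le_one, le_rfl, gnp_one hV⟩
      linarith
  -- the numerics
  have hell3 : ell ≤ 3 * Real.log n := natLog_le_realLog hn
  have hlr2 : lr ≤ 2 * ell := by
    have hr0 : numEdges H ≠ 0 := by omega
    have hlt : n < 2 ^ (Nat.log 2 n + 1) := Nat.lt_pow_succ_log_self (by norm_num) n
    have h1 : numEdges H < 2 ^ (2 * (Nat.log 2 n + 1)) := by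
      calc numEdges H ≤ (Fintype.card V) ^ 2 := numEdges_le_sq H
        _ ≤ n ^ 2 := Nat.pow_le_pow_left hV 2
        _ < (2 ^ (Nat.log 2 n + 1)) ^ 2 := Nat.pow_lt_pow_left hlt (by norm_num)
        _ = _ := by rw [← pow_mul]; congr 1; ring
    have h2 : Nat.log 2 (numEdges H) < 2 * (Nat.log 2 n + 1) := Nat.log_lt_of_lt_pow hr0 h1
    have h3 : Nat.log 2 (numEdges H) + 1 ≤ 2 * (Nat.log 2 n + 1) := h2
    have h4 : ((Nat.log 2 (numEdges H) + 1 : ℕ) : ℝ) ≤ ((2 * (Nat.log 2 n + 1) : ℕ) : ℝ) := by
      exact_mod_cast h3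
    rw [hlr, hell]
    push_cast at h4 ⊢
    linarith
  have hlr6 : lr ≤ 6 * Real.log n := by linarith
  have hfinal : Pstar ≤ (1152 * constC) * (Real.log n) ^ 2 * q := by
    have h1 : ell * lr ≤ (3 * Real.log n) * (6 * Real.log n) :=
      mul_le_mul hell3 hlr6 (by linarith) (by positivity)
    have h2 : Pstar = (constC * q * 64) * (ell * lr) := by
      rw [hPstar, hq']
      ring
    rw [h2]
    have h3 : 0 ≤ constC * q * 64 := by positivity
    calc (constC * q * 64) * (ell * lr)
        ≤ (constC * q * 64) * ((3 * Real.log n) * (6 * Real.log n)) :=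
          mul_le_mul_of_nonneg_left h1 h3
      _ = _ := by ring
  exact hPstarle.trans hfinal

/-- The main theorem: `p_c(n,H) ≤ C (log n)^2 p_E(n,H)`. -/
theorem pCrit_le_log_sq {n : ℕ} (hn : 2 ≤ n) {H : SimpleGraph V} (hV : Fintype.card V ≤ n)
    (hE : 1 ≤ numEdges H) : pCrit n H ≤ (1152 * constC) * (Real.log n) ^ 2 * pExp n H := by
  have hC := constC_pos
  have hL : 0 < Real.log n := Real.log_pos (by exact_mod_cast (by omega : 1 < n))
  set K := (1152 * constC) * (Real.log n) ^ 2 with hK
  have hK0 : 0 < K := by positivity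
  have hne : {p : ℝ | 0 ≤ p ∧ p ≤ 1 ∧ ∀ F : H.Subgraph, 1 / 2 ≤ expCopies n p F.coe}.Nonempty := by
    refine ⟨1, zero_le_one, le_rfl, fun F => ?_⟩
    unfold expCopies
    have hcard : Fintype.card F.verts ≤ n := (Fintype.card_subtype_le _).trans hV
    have hcop : (1 : ℝ) ≤ ((⊤ : SimpleGraph (Fin n)).copyCount F.coe : ℝ) := by
      exact_mod_cast one_le_copyCount_top F.coe hcard
    rw [one_pow, mul_one]
    linarith
  have h1 : pCrit n H / K ≤ pExp n H := by
    refine le_csInf hne ?_
    rintro q ⟨hq0, _, hq⟩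
    have h2 := pCrit_le_of_mem hn hV hE hq0 hq
    rw [div_le_iff₀ hK0]
    calc pCrit n H ≤ K * q := h2
      _ = q * K := by ring
  rw [div_le_iff₀ hK0] at h1
  calc pCrit n H ≤ pExp n H * K := h1
    _ = _ := by ring

end Vale.Agent.Lib.P064
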