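import Vale.Agent.Lib.P064.Count
import Vale.Agent.Lib.P064.Defs

/-!
From the hypothesis on all subgraphs to the summation bound over families of disjoint pieces.
-/

namespace Vale.Agent.Lib.P064

open Finset
open scoped Nat Classical

set_option linter.unusedSectionVars false
set_option linter.unusedVariables false

variable {V : Type*} [Fintype V]

/-- The subgraph defined by an oriented structure. -/
def subOf (H : SimpleGraph V) (W : Finset V) (out : V → Finset V) (hor : IsOriented H W out) :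
    H.Subgraph where
  verts := (W : Set V)
  Adj a b := b ∈ out a ∨ a ∈ out b
  adj_sub := by
    rintro a b (h | h)
    · exact hor.adj a b h
    · exact (hor.adj b a h).symm
  edge_vert := by
    rintro a b (h | h)
    · by_contra h'
      have h1 : a ∉ W := h'
      rw [hor.off a h1] at h
      simp at h
    · by_contra h'
      have h1 : a ∉ W := h'
      have h2 : b ∈ W := by
        by_contra h3
        rw [hor.off b h3] at h
        simp at h
      exact h1 (hor.sub b h2 h)
  symm := ⟨fun a b h => Or.symm h⟩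

/-- The hypothesis gives a bound for the degree factorials of every oriented subgraph. -/
theorem hyp_bound {H : SimpleGraph V} {n : ℕ} {q : ℝ} (hq : 0 < q)
    (hyp : ∀ F : H.Subgraph, 1 ≤ expCopies n q F.coe) {W : Finset V} {out : V → Finset V}
    (hor : IsOriented H W out) (hW : W.Nonempty) :
    ∏ u ∈ W, (((out u).card)! : ℝ) ≤
      (n.choose W.card : ℝ) * (2 ^ W.card * (2 * (W.card : ℝ)) ^ (∑ u ∈ W, (out u).card)) *
        q ^ (∑ u ∈ W, (out u).card) := by
  set J := subOf H W out hor with hJdef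
  have hmem : ∀ x, x ∈ W ↔ x ∈ J.verts := fun x => Iff.rfl
  set out' : J.verts → Finset J.verts := fun z => (out z.1).subtype (fun x => x ∈ J.verts) with hout'
  have hcard' : ∀ z : J.verts, (out' z).card = (out z.1).card := by
    intro z
    simp only [hout', Finset.card_subtype]
    congr 1
    refine Finset.filter_true_of_mem fun x hx => ?_
    exact hor.sub z.1 z.2 hx
  have hJadj : ∀ a b : J.verts, J.coe.Adj a b ↔ b ∈ out' a ∨ a ∈ out' b := by
    intro a b
    simp only [hout', Finset.mem_subtype]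
    exact Iff.rfl
  have hanti : ∀ a b : J.verts, b ∈ out' a → a ∉ out' b := by
    intro a b h1 h2
    simp only [hout', Finset.mem_subtype] at h1 h2
    exact hor.anti _ _ h1 h2
  have hcardZ : Fintype.card J.verts = W.card := by
    rw [Fintype.card_subtype]
    congr 1
    ext x
    simp only [Finset.mem_filter, Finset.mem_univ, true_and]
    exact (hmem x).symm
  have hsum : ∑ z : J.verts, (out' z).card = ∑ u ∈ W, (out u).card := by
    rw [Finset.sum_congr rfl (fun z _ => hcard' z)]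
    exact (Finset.sum_subtype W hmem (fun u => (out u).card)).symm
  have hprod : ∏ z : J.verts, (((out' z).card)! : ℝ) = ∏ u ∈ W, (((out u).card)! : ℝ) := by
    rw [Finset.prod_congr rfl (fun z _ => by rw [hcard' z])]
    exact (Finset.prod_subtype W hmem (fun u => (((out u).card)! : ℝ))).symm
  have hZ : 0 < Fintype.card J.verts := by
    rw [hcardZ]; exact Finset.card_pos.mpr hW
  have h1 := copyCount_top_mul_le (n := n) J.coe out' hJadj hZ
  have h2 := hyp J
  have hedges : numEdges J.coe = ∑ u ∈ W, (out u).card := by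
    unfold numEdges
    rw [ncard_edgeSet_of_out J.coe out' hJadj hanti, hsum]
  unfold expCopies at h2
  rw [hedges] at h2
  rw [hprod, hcardZ, hsum] at h1
  set D := ∏ u ∈ W, (((out u).card)! : ℝ) with hD
  set e := ∑ u ∈ W, (out u).card with he
  set N := (SimpleGraph.copyCount (⊤ : SimpleGraph (Fin n)) J.coe : ℝ) with hN
  have hD0 : 0 ≤ D := by positivity
  have hqe : 0 ≤ q ^ e := by positivity
  calc D = 1 * D := (one_mul D).symm
    _ ≤ (N * q ^ e) * D := mul_le_mul_of_nonneg_right h2 hD0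
    _ = (N * D) * q ^ e := by ring
    _ ≤ _ := mul_le_mul_of_nonneg_right h1 hqe

/-- The factorial of a sum dominates the product of factorials. -/
lemma prod_factorial_le (W : Finset V) (c : V → ℕ) :
    ∏ u ∈ W, (c u)! ≤ (∑ u ∈ W, c u)! :=
  Nat.le_of_dvd (Nat.factorial_pos _) (Nat.prod_factorial_dvd_factorial_sum W c)

/-- `v^v ≤ 3^v v!`. -/
lemma pow_self_le (v : ℕ) : (v : ℝ) ^ v ≤ 3 ^ v * (v ! : ℝ) := by
  have h1 : (v : ℝ) ^ v / (v ! : ℝ) ≤ Real.exp v :=
    Real.pow_div_factorial_le_exp _ (Nat.cast_nonneg v) v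
  have hfac : (0 : ℝ) < (v ! : ℝ) := by exact_mod_cast Nat.factorial_pos v
  have h2 : Real.exp v ≤ 3 ^ v := by
    have : Real.exp v = Real.exp 1 ^ v := by
      rw [← Real.exp_nat_mul]; simp
    rw [this]
    exact pow_le_pow_left₀ (Real.exp_pos 1).le Real.exp_one_lt_three.le v
  have h3 := (div_le_iff₀ hfac).mp (h1.trans h2)
  linarith

/-- `C(n,v) ≤ (3n/v)^v`. -/
lemma choose_le_three (n v : ℕ) (hv : 0 < v) : (n.choose v : ℝ) ≤ (3 * n / v) ^ v := by
  have h1 : (n.choose v : ℝ) ≤ (n : ℝ) ^ v / (v ! : ℝ) := Nat.choose_le_pow_div v n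
  refine h1.trans ?_
  have hfac : (0 : ℝ) < (v ! : ℝ) := by exact_mod_cast Nat.factorial_pos v
  have hv' : (0 : ℝ) < v := by exact_mod_cast hv
  rw [div_pow, div_le_div_iff₀ hfac (by positivity)]
  have h2 := pow_self_le v
  rw [mul_pow]
  have h3 : (0 : ℝ) ≤ (n : ℝ) ^ v := by positivity
  nlinarith [mul_le_mul_of_nonneg_left h2 h3]

/-- No oriented subgraph of `H` is heavy at density `q`: the product of the factorials of the
out-degrees of an oriented subgraph with `v` vertices and `e` edges is at most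
`(6n/v)^v (2v)^e q^e`. -/
def OBound (H : SimpleGraph V) (n : ℕ) (q : ℝ) : Prop :=
  ∀ (W : Finset V) (out : V → Finset V), IsOriented H W out → W.Nonempty →
    ∏ u ∈ W, (((out u).card)! : ℝ) ≤
      (6 * (n : ℝ) / (W.card : ℝ)) ^ W.card * (2 * (W.card : ℝ)) ^ (∑ u ∈ W, (out u).card) *
        q ^ (∑ u ∈ W, (out u).card)

/-- The hypothesis on all subgraphs implies that no oriented subgraph is heavy. -/
theorem oBound_of_hyp {H : SimpleGraph V} {n : ℕ} {q : ℝ} (hq : 0 < q)
    (hyp : ∀ F : H.Subgraph, 1 ≤ expCopies n q F.coe) : OBound H n q := by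
  intro W out hor hW
  refine (hyp_bound hq hyp hor hW).trans ?_
  have hv : 0 < W.card := Finset.card_pos.mpr hW
  have hv' : (0 : ℝ) < W.card := by exact_mod_cast hv
  have h1 := choose_le_three n W.card hv
  have h2 : (3 * (n : ℝ) / (W.card : ℝ)) ^ W.card * 2 ^ W.card = (6 * (n : ℝ) / (W.card : ℝ)) ^ W.card := by
    rw [← mul_pow]
    congr 1
    ring
  have h3 : (n.choose W.card : ℝ) * 2 ^ W.card ≤ (6 * (n : ℝ) / (W.card : ℝ)) ^ W.card := by
    rw [← h2]
    exact mul_le_mul_of_nonneg_right h1 (by positivity)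
  calc (n.choose W.card : ℝ) * (2 ^ W.card * (2 * (W.card : ℝ)) ^ (∑ u ∈ W, (out u).card)) *
        q ^ (∑ u ∈ W, (out u).card)
      = ((n.choose W.card : ℝ) * 2 ^ W.card) * (2 * (W.card : ℝ)) ^ (∑ u ∈ W, (out u).card) *
        q ^ (∑ u ∈ W, (out u).card) := by ring
    _ ≤ _ := by
      refine mul_le_mul_of_nonneg_right ?_ (by positivity)
      exact mul_le_mul_of_nonneg_right h3 (by positivity)

/-- A real form of the bound for oriented unions with `κ` more vertices than edges. -/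
lemma oriented_bound {n v e κ : ℕ} {q D : ℝ} (hn : 0 < n) (hq : 0 < q) (hκ : 0 < κ)
    (hv : v = e + κ)
    (hD : D ≤ (6 * (n : ℝ) / (v : ℝ)) ^ v * (2 * (v : ℝ)) ^ e * q ^ e) :
    D ≤ (6 * n / κ) ^ κ * (12 * n * q) ^ e := by
  have hvpos : 0 < v := by omega
  have hv' : (0 : ℝ) < v := by exact_mod_cast hvpos
  have hκ' : (0 : ℝ) < κ := by exact_mod_cast hκ
  have hn' : (0 : ℝ) < n := by exact_mod_cast hn
  have h4 : (6 * (n : ℝ) / (v : ℝ)) ^ v * (2 * (v : ℝ)) ^ e * q ^ e
      = (6 * n / v) ^ κ * (12 * n * q) ^ e := by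
    have e2 : (6 * n / (v : ℝ)) ^ v = (6 * n / v) ^ κ * (6 * n / v) ^ e := by
      rw [← pow_add, hv]; congr 1; omega
    have e3 : (6 * n / (v : ℝ)) ^ e * (2 * (v : ℝ)) ^ e * q ^ e = (12 * n * q) ^ e := by
      rw [← mul_pow, ← mul_pow]
      congr 1
      field_simp
      ring
    calc (6 * (n : ℝ) / (v : ℝ)) ^ v * (2 * (v : ℝ)) ^ e * q ^ e
        = (6 * n / v) ^ κ * ((6 * n / (v : ℝ)) ^ e * (2 * (v : ℝ)) ^ e * q ^ e) := by
          rw [e2]; ring
      _ = _ := by rw [e3]
  have h5 : (6 * n / (v : ℝ)) ^ κ ≤ (6 * n / κ) ^ κ := by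
    refine pow_le_pow_left₀ (by positivity) ?_ κ
    refine div_le_div_of_nonneg_left (by positivity) hκ' ?_
    have : κ ≤ v := by omega
    exact_mod_cast this
  calc D ≤ _ := hD
    _ = _ := h4
    _ ≤ _ := mul_le_mul_of_nonneg_right h5 (by positivity)

/-- The degree factorial product of a piece. -/
noncomputable def Dp (P : Finset V × (V → Finset V)) : ℝ := ∏ u ∈ P.1, (((P.2 u).card)! : ℝ)

/-- The number of edges of a piece. -/
noncomputable def eP (P : Finset V × (V → Finset V)) : ℕ := ∑ u ∈ P.1, (P.2 u).card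

/-- The normalised value of a piece. -/
noncomputable def yP (n : ℕ) (q : ℝ) (P : Finset V × (V → Finset V)) : ℝ :=
  Dp P / (12 * n * q) ^ eP P

/-- The product bound for families of disjoint pieces. -/
theorem prod_yP_le {H : SimpleGraph V} {n : ℕ} {q : ℝ} (hn : 0 < n) (hq : 0 < q)
    (hyp : OBound H n q)
    {I : Finset (Finset V × (V → Finset V))}
    (hI : ∀ P ∈ I, IsPiece H P.1 P.2)
    (hdisj : ∀ P ∈ I, ∀ Q ∈ I, P ≠ Q → Disjoint P.1 Q.1) (hne : I.Nonempty) :
    ∏ P ∈ I, yP n q P ≤ (6 * n / I.card) ^ I.card := by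
  have hor : ∀ P ∈ I, IsOriented H (Prod.fst P) (Prod.snd P) := fun P hP => (hI P hP).toIsOriented
  have hU := isOriented_union hor hdisj
  have hκ : 0 < I.card := Finset.card_pos.mpr hne
  have hvcard : (I.biUnion Prod.fst).card = ∑ P ∈ I, eP P + I.card := by
    rw [card_biUnion_W hdisj, Finset.card_eq_sum_ones, ← Finset.sum_add_distrib]
    refine Finset.sum_congr rfl fun P hP => ?_
    exact ((hI P hP).size).symm
  have hUne : (I.biUnion Prod.fst).Nonempty := by
    rw [← Finset.card_pos, hvcard]; omega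
  have h1 := hyp _ _ hU hUne
  rw [sum_outU hor hdisj, prod_outU hor hdisj (fun k => ((k ! : ℕ) : ℝ))] at h1
  have hePe : ∑ P ∈ I, ∑ u ∈ P.1, (P.2 u).card = ∑ P ∈ I, eP P := rfl
  rw [hePe] at h1
  have h2 := oriented_bound (n := n) (κ := I.card) hn hq hκ hvcard h1
  have hqn : 0 < 12 * (n : ℝ) * q := by
    have : (0 : ℝ) < n := by exact_mod_cast hn
    positivity
  have h3 : ∏ P ∈ I, yP n q P = (∏ P ∈ I, Dp P) / (12 * n * q) ^ (∑ P ∈ I, eP P) := by
    unfold yP
    rw [Finset.prod_div_distrib, Finset.prod_pow_eq_pow_sum]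
  rw [h3, div_le_iff₀ (by positivity)]
  exact h2

/-- Weak `ℓ¹` bound. -/
theorem weak_yP {H : SimpleGraph V} {n : ℕ} {q : ℝ} (hn : 0 < n) (hq : 0 < q)
    (hyp : OBound H n q)
    {I : Finset (Finset V × (V → Finset V))}
    (hI : ∀ P ∈ I, IsPiece H P.1 P.2)
    (hdisj : ∀ P ∈ I, ∀ Q ∈ I, P ≠ Q → Disjoint P.1 Q.1) {t : ℝ} (ht : 0 < t) :
    ((I.filter (fun P => t ≤ yP n q P)).card : ℝ) * t ≤ 6 * n := by
  set J := I.filter (fun P => t ≤ yP n q P) with hJ
  have hn' : (0 : ℝ) < n := by exact_mod_cast hn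
  rcases Finset.eq_empty_or_nonempty J with h0 | hne
  · rw [h0]; simp only [Finset.card_empty, Nat.cast_zero, zero_mul]; positivity
  · have hsub : J ⊆ I := Finset.filter_subset _ _
    have h1 := prod_yP_le hn hq hyp (fun P hP => hI P (hsub hP))
      (fun P hP Q hQ => hdisj P (hsub hP) Q (hsub hQ)) hne
    have h2 : t ^ J.card ≤ ∏ P ∈ J, yP n q P := by
      rw [← Finset.prod_const]
      exact Finset.prod_le_prod (fun _ _ => ht.le) (fun P hP => (Finset.mem_filter.mp hP).2)
    have hκ : 0 < J.card := Finset.card_pos.mpr hne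
    have hκ' : (0 : ℝ) < J.card := by exact_mod_cast hκ
    have h3 : t ^ J.card ≤ (6 * n / J.card) ^ J.card := h2.trans h1
    have h4 : t ≤ 6 * n / J.card := le_of_pow_le_pow_left₀ hκ.ne' (by positivity) h3
    rw [le_div_iff₀ hκ'] at h4
    linarith

/-- From a weak `ℓ¹` bound and a bounded range to a sum bound. -/
lemma sum_le_of_weak {ι : Type*} (I : Finset ι) (f : ι → ℝ) (a B : ℝ) (K : ℕ) (ha : 0 < a)
    (hf : ∀ i ∈ I, a ≤ f i ∧ f i < 2 ^ K * a)
    (hw : ∀ t, 0 < t → ((I.filter (fun i => t ≤ f i)).card : ℝ) * t ≤ B) :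
    ∑ i ∈ I, f i ≤ 2 * K * B := by
  have hex : ∀ (K : ℕ) (x : ℝ), a ≤ x → x < 2 ^ K * a →
      ∃ k, k < K ∧ 2 ^ k * a ≤ x ∧ x < 2 ^ (k + 1) * a := by
    intro K
    induction K with
    | zero =>
      intro x h1 h2
      simp only [pow_zero, one_mul] at h2
      exact absurd h1 (not_le.mpr h2)
    | succ K ih =>
      intro x h1 h2
      by_cases h3 : x < 2 ^ K * a
      · obtain ⟨k, hk, hk1, hk2⟩ := ih x h1 h3
        exact ⟨k, by omega, hk1, hk2⟩
      · exact ⟨K, by omega, not_lt.mp h3, h2⟩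
  have hpt : ∀ i ∈ I, f i ≤ ∑ k ∈ Finset.range K,
      if 2 ^ k * a ≤ f i then 2 ^ (k + 1) * a else 0 := by
    intro i hi
    obtain ⟨k, hk, hk1, hk2⟩ := hex K (f i) (hf i hi).1 (hf i hi).2
    have h1 : (if 2 ^ k * a ≤ f i then (2 : ℝ) ^ (k + 1) * a else 0) = 2 ^ (k + 1) * a :=
      if_pos hk1
    have h2 := Finset.single_le_sum (s := Finset.range K)
      (f := fun k => if 2 ^ k * a ≤ f i then (2 : ℝ) ^ (k + 1) * a else 0)
      (fun j _ => by
        split_ifs
        · positivity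
        · exact le_refl _) (Finset.mem_range.mpr hk)
    simp only [h1] at h2
    linarith
  calc ∑ i ∈ I, f i
      ≤ ∑ i ∈ I, ∑ k ∈ Finset.range K, (if 2 ^ k * a ≤ f i then (2 : ℝ) ^ (k + 1) * a else 0) :=
        Finset.sum_le_sum hpt
    _ = ∑ k ∈ Finset.range K, ∑ i ∈ I, (if 2 ^ k * a ≤ f i then (2 : ℝ) ^ (k + 1) * a else 0) :=
        Finset.sum_comm
    _ ≤ ∑ _k ∈ Finset.range K, 2 * B := by
        refine Finset.sum_le_sum fun k _ => ?_
        have h1 : ∑ i ∈ I, (if 2 ^ k * a ≤ f i then (2 : ℝ) ^ (k + 1) * a else 0)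
            = ((I.filter (fun i => 2 ^ k * a ≤ f i)).card : ℝ) * (2 ^ (k + 1) * a) := by
          rw [← Finset.sum_filter, Finset.sum_const, nsmul_eq_mul]
        rw [h1]
        have h2 := hw (2 ^ k * a) (by positivity)
        calc ((I.filter (fun i => 2 ^ k * a ≤ f i)).card : ℝ) * (2 ^ (k + 1) * a)
            = 2 * (((I.filter (fun i => 2 ^ k * a ≤ f i)).card : ℝ) * (2 ^ k * a)) := by
              rw [pow_succ]; ring
          _ ≤ 2 * B := by linarith
    _ = 2 * K * B := by
        rw [Finset.sum_const, Finset.card_range, nsmul_eq_mul]; ring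

/-- `(e+1)(e²+1) ≤ 4^e`. -/
lemma poly_le_four_pow : ∀ e : ℕ, ((e : ℝ) + 1) * ((e : ℝ) ^ 2 + 1) ≤ 4 ^ e
  | 0 => by norm_num
  | e + 1 => by
    have ih := poly_le_four_pow e
    have h0 : (0 : ℝ) ≤ e := Nat.cast_nonneg e
    have h1 : (((e + 1 : ℕ) : ℝ) + 1) * (((e + 1 : ℕ) : ℝ) ^ 2 + 1)
        ≤ 4 * (((e : ℝ) + 1) * ((e : ℝ) ^ 2 + 1)) := by
      push_cast
      rcases Nat.eq_zero_or_pos e with h | h
      · subst h; norm_num
      · have h2 : (1 : ℝ) ≤ e := by exact_mod_cast h
        nlinarith [mul_nonneg h0 h0, mul_nonneg (mul_nonneg h0 h0) h0]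
    have h3 : (4 : ℝ) ^ (e + 1) = 4 * 4 ^ e := by ring
    rw [h3]
    linarith

/-- The summation bound: total weight of a disjoint family of pieces is linear in `n`. -/
theorem sum_pieces_le {H : SimpleGraph V} {n : ℕ} {q : ℝ} (hn : 0 < n) (hq : 0 < q)
    (hyp : OBound H n q)
    {I : Finset (Finset V × (V → Finset V))}
    (hI : ∀ P ∈ I, IsPiece H P.1 P.2)
    (hdisj : ∀ P ∈ I, ∀ Q ∈ I, P ≠ Q → Disjoint P.1 Q.1) :
    ∑ P ∈ I, (P.1.card : ℝ) * gam (96 * n * q) P.1 P.2 ≤ 24 * n := by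
  have hn' : (0 : ℝ) < n := by exact_mod_cast hn
  set lam : ℝ := 12 * n * q with hlam
  have hlam0 : 0 < lam := by positivity
  -- the value of each term
  have hterm : ∀ P ∈ I, (P.1.card : ℝ) * gam (96 * n * q) P.1 P.2
      = ((eP P : ℝ) + 1) * yP n q P / 8 ^ eP P := by
    intro P hP
    have h1 : (P.1.card : ℝ) = (eP P : ℝ) + 1 := by
      have := (hI P hP).size
      exact_mod_cast this.symm
    have h2 : gam (96 * n * q) P.1 P.2 = yP n q P / 8 ^ eP P := by
      unfold gam yP Dp eP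
      rw [Finset.prod_div_distrib, Finset.prod_pow_eq_pow_sum]
      have e1 : (96 * (n : ℝ) * q) = 8 * (12 * n * q) := by ring
      rw [e1, mul_pow, div_div, mul_comm (8 ^ _)]
    rw [h1, h2]
    ring
  -- the bound for a fixed number of edges
  have hfixed : ∀ e : ℕ, ∑ P ∈ I.filter (fun P => eP P = e), yP n q P
      ≤ 2 * ((e ^ 2 + 1 : ℕ) : ℝ) * (6 * n) := by
    intro e
    set a : ℝ := 1 / lam ^ e with ha
    have ha0 : 0 < a := by positivity
    refine sum_le_of_weak _ _ a _ _ ha0 ?_ ?_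
    · intro P hP
      rcases Finset.mem_filter.mp hP with ⟨hP1, hP2⟩
      have hD1 : (1 : ℝ) ≤ Dp P := by
        unfold Dp
        refine one_le_prod_of_one_le fun u _ => ?_
        exact_mod_cast Nat.factorial_pos _
      have hD2 : Dp P ≤ (e ! : ℝ) := by
        have h3 := prod_factorial_le P.1 (fun u => (P.2 u).card)
        rw [← hP2]
        unfold Dp eP
        exact_mod_cast h3
      have he1 : (e ! : ℝ) < 2 ^ (e ^ 2 + 1) := by
        have h3 : e ! ≤ e ^ e := Nat.factorial_le_pow e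
        have h4 : e ^ e ≤ (2 ^ e) ^ e := Nat.pow_le_pow_left (Nat.lt_two_pow_self).le e
        have h5 : (2 ^ e) ^ e = 2 ^ (e ^ 2) := by rw [← pow_mul, pow_two]
        have h6 : e ! < 2 ^ (e ^ 2 + 1) := by
          have h7 : 2 ^ (e ^ 2) < 2 ^ (e ^ 2 + 1) :=
            Nat.pow_lt_pow_right (by norm_num) (by omega)
          omega
        exact_mod_cast h6
      have hy : yP n q P = Dp P * a := by
        unfold yP
        rw [hP2, ha, ← hlam]
        ring
      rw [hy]
      constructor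
      · nlinarith
      · have : Dp P < 2 ^ (e ^ 2 + 1) := lt_of_le_of_lt hD2 he1
        exact mul_lt_mul_of_pos_right this ha0
    · intro t ht
      have h1 := weak_yP hn hq hyp (I := I.filter (fun P => eP P = e))
        (fun P hP => hI P (Finset.mem_filter.mp hP).1)
        (fun P hP Q hQ => hdisj P (Finset.mem_filter.mp hP).1 Q (Finset.mem_filter.mp hQ).1) ht
      exact h1
  -- sum over all numbers of edges
  set E := I.sup eP + 1 with hE
  have hmaps : ∀ P ∈ I, eP P ∈ Finset.range E := by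
    intro P hP
    have := Finset.le_sup (f := eP) hP
    exact Finset.mem_range.mpr (by omega)
  calc ∑ P ∈ I, (P.1.card : ℝ) * gam (96 * n * q) P.1 P.2
      = ∑ P ∈ I, ((eP P : ℝ) + 1) * yP n q P / 8 ^ eP P := Finset.sum_congr rfl hterm
    _ = ∑ e ∈ Finset.range E, ∑ P ∈ I.filter (fun P => eP P = e),
          ((eP P : ℝ) + 1) * yP n q P / 8 ^ eP P :=
        (Finset.sum_fiberwise_of_maps_to hmaps _).symm
    _ ≤ ∑ e ∈ Finset.range E, (1 / 2 : ℝ) ^ e * (12 * n) := by
        refine Finset.sum_le_sum fun e _ => ?_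
        have h1 : ∑ P ∈ I.filter (fun P => eP P = e), ((eP P : ℝ) + 1) * yP n q P / 8 ^ eP P
            = ((e : ℝ) + 1) / 8 ^ e * ∑ P ∈ I.filter (fun P => eP P = e), yP n q P := by
          rw [Finset.mul_sum]
          refine Finset.sum_congr rfl fun P hP => ?_
          rw [(Finset.mem_filter.mp hP).2]
          ring
        rw [h1]
        have h2 : ((e : ℝ) + 1) / 8 ^ e ≥ 0 := by positivity
        have h3 := mul_le_mul_of_nonneg_left (hfixed e) h2
        refine h3.trans ?_
        have h4 := poly_le_four_pow e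
        have h5 : ((e ^ 2 + 1 : ℕ) : ℝ) = (e : ℝ) ^ 2 + 1 := by push_cast; ring
        rw [h5]
        have h6 : (1 / 2 : ℝ) ^ e = 4 ^ e / 8 ^ e := by
          rw [← div_pow]; norm_num
        rw [h6]
        have h8 : (0 : ℝ) < 8 ^ e := by positivity
        have h9 : (0:ℝ) ≤ 12 * n := by positivity
        calc ((e : ℝ) + 1) / 8 ^ e * (2 * ((e : ℝ) ^ 2 + 1) * (6 * (n : ℝ)))
            = (((e : ℝ) + 1) * ((e : ℝ) ^ 2 + 1)) / 8 ^ e * (12 * (n : ℝ)) := by ring
          _ ≤ 4 ^ e / 8 ^ e * (12 * (n : ℝ)) := by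
              refine mul_le_mul_of_nonneg_right ?_ h9
              exact div_le_div_of_nonneg_right h4 h8.le
    _ = (∑ e ∈ Finset.range E, (1 / 2 : ℝ) ^ e) * (12 * n) := by rw [Finset.sum_mul]
    _ ≤ 2 * (12 * n) := by
        refine mul_le_mul_of_nonneg_right (sum_geometric_two_le E) (by positivity)
    _ = 24 * n := by ring

/-- The number of embeddings of a connected graph in a forest satisfying the hypothesis. -/
theorem card_emb_le {H : SimpleGraph V} (hH : H.IsAcyclic) {n : ℕ} {q : ℝ} (hn : 0 < n)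
    (hq : 0 < q) (hyp : OBound H n q)
    {Z : Type*} [Fintype Z] {T : SimpleGraph Z} (hT : T.Connected) {m : ℕ}
    (hm : Fintype.card Z = m + 1) :
    ((Emb T H Finset.univ).card : ℝ) ≤ (m + 1) * (1536 * n * q) ^ m * (24 * n) := by
  have hn' : (0 : ℝ) < n := by exact_mod_cast hn
  have hw : 0 < 96 * (n : ℝ) * q := by positivity
  obtain ⟨I, hI1, hI2, hI3⟩ := peel hH hw hT hm _ (Finset.univ : Finset V) (le_refl _)
  have h1 := sum_pieces_le hn hq hyp (fun P hP => (hI1 P hP).1) hI2
  have h2 : (0 : ℝ) ≤ (m + 1) * (16 * (96 * (n : ℝ) * q)) ^ m := by positivity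
  have h3 : (16 * (96 * (n : ℝ) * q)) = 1536 * n * q := by ring
  rw [h3] at h2 hI3
  exact hI3.trans (mul_le_mul_of_nonneg_left h1 h2)

end Vale.Agent.Lib.P064
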