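import Vale.Agent.Lib.P064.Perm

/-!
The recursive inequality for the super-solution.
-/

namespace Vale.Agent.Lib.P064

open Finset
open scoped Nat

/-- `(a/3)^a ≤ a!`-type bound. -/
lemma pow_le_factorial_of_six_mul_le {w : ℝ} (hw : 0 ≤ w) {a : ℕ} (ha : 6 * w ≤ a) :
    (2 * w) ^ a ≤ (a ! : ℝ) := by
  have h1 : (a : ℝ) ^ a / (a ! : ℝ) ≤ Real.exp a :=
    Real.pow_div_factorial_le_exp _ (Nat.cast_nonneg a) a
  have hfac : (0 : ℝ) < (a ! : ℝ) := by exact_mod_cast Nat.factorial_pos a
  have h2 : Real.exp a ≤ 3 ^ a := by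
    have : Real.exp a = Real.exp 1 ^ a := by
      rw [← Real.exp_nat_mul]; simp
    rw [this]
    exact pow_le_pow_left₀ (Real.exp_pos 1).le Real.exp_one_lt_three.le a
  have h3 : (a : ℝ) ^ a ≤ (a ! : ℝ) * 3 ^ a := by
    have := (div_le_iff₀ hfac).mp (h1.trans h2)
    linarith
  have h4 : (6 * w) ^ a ≤ (a : ℝ) ^ a := pow_le_pow_left₀ (by positivity) ha a
  have h5 : (6 * w) ^ a = (2 * w) ^ a * 3 ^ a := by
    rw [← mul_pow]; ring_nf
  have h6 : (0 : ℝ) < 3 ^ a := by positivity
  have h7 : (2 * w) ^ a * 3 ^ a ≤ (a ! : ℝ) * 3 ^ a := by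
    rw [← h5]; exact h4.trans h3
  exact le_of_mul_le_mul_right h7 h6

/-- The numeric inequality of the second case. -/
lemma numeric_N {w : ℝ} (hw : 1 ≤ w) {s m k : ℕ} (hm : 8 * w < m) (hk1 : 1 ≤ k)
    (hk2 : k ≤ s + m) : w ^ (m + 1) ≤ (16 * w) ^ k * ((s + m - k)! : ℝ) := by
  have hw0 : 0 ≤ w := by linarith
  have h16 : 1 ≤ 16 * w := by linarith
  by_cases hks : k ≤ s
  · -- `k ≤ s`
    have ha : m ≤ s + m - k := by omega
    have h1 : (m ! : ℝ) ≤ ((s + m - k)! : ℝ) := by
      exact_mod_cast Nat.factorial_le ha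
    have h2 : (2 * w) ^ m ≤ (m ! : ℝ) :=
      pow_le_factorial_of_six_mul_le hw0 (by linarith)
    have h3 : w ^ m ≤ (2 * w) ^ m := pow_le_pow_left₀ hw0 (by linarith) m
    have h4 : (16 * w) ^ 1 ≤ (16 * w) ^ k := pow_le_pow_right₀ h16 hk1
    have h5 : 0 ≤ ((s + m - k)! : ℝ) := by positivity
    calc w ^ (m + 1) = w ^ m * w := by ring
      _ ≤ ((s + m - k)! : ℝ) * (16 * w) := by
          refine mul_le_mul (h3.trans (h2.trans h1)) (by linarith) hw0 h5
      _ = (16 * w) ^ 1 * ((s + m - k)! : ℝ) := by ring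
      _ ≤ (16 * w) ^ k * ((s + m - k)! : ℝ) := mul_le_mul_of_nonneg_right h4 h5
  · -- `s < k`
    push Not at hks
    obtain ⟨l, hl⟩ : ∃ l, k = s + l := ⟨k - s, by omega⟩
    have hl1 : 1 ≤ l := by omega
    have hlm : l ≤ m := by omega
    obtain ⟨a, ha⟩ : ∃ a, m = a + l := ⟨m - l, by omega⟩
    have hA : s + m - k = a := by omega
    rw [hA]
    have hafac : (0 : ℝ) < (a ! : ℝ) := by exact_mod_cast Nat.factorial_pos a
    have key : w ^ (a + 1) ≤ 16 ^ l * (a ! : ℝ) := by
      by_cases hwl : w ≤ l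
      · -- use the exponential series
        have h1 : w ^ a / (a ! : ℝ) ≤ Real.exp w := Real.pow_div_factorial_le_exp _ hw0 a
        have h2 : w ^ a ≤ Real.exp w * (a ! : ℝ) := (div_le_iff₀ hafac).mp h1
        have h3 : w ≤ Real.exp w := by
          have := Real.add_one_le_exp w; linarith
        have h4 : Real.exp w * Real.exp w ≤ 16 ^ l := by
          have h5 : Real.exp w * Real.exp w = Real.exp (w + w) := (Real.exp_add w w).symm
          have h6 : Real.exp (w + w) ≤ Real.exp ((2 : ℝ) * l) :=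
            Real.exp_le_exp.mpr (by linarith)
          have h7 : Real.exp ((2 : ℝ) * l) = (Real.exp 1 * Real.exp 1) ^ l := by
            rw [← Real.exp_add, ← Real.exp_nat_mul]
            congr 1
            ring
          have h8 : (Real.exp 1 * Real.exp 1) ≤ 16 := by
            have := Real.exp_one_lt_three
            have hpos := Real.exp_pos 1
            nlinarith
          calc Real.exp w * Real.exp w = Real.exp (w + w) := h5
            _ ≤ Real.exp ((2 : ℝ) * l) := h6
            _ = (Real.exp 1 * Real.exp 1) ^ l := h7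
            _ ≤ 16 ^ l := pow_le_pow_left₀ (by positivity) h8 l
        have hexp := Real.exp_pos w
        calc w ^ (a + 1) = w ^ a * w := by ring
          _ ≤ (Real.exp w * (a ! : ℝ)) * Real.exp w := by
              refine mul_le_mul h2 h3 hw0 (by positivity)
          _ = (Real.exp w * Real.exp w) * (a ! : ℝ) := by ring
          _ ≤ 16 ^ l * (a ! : ℝ) := mul_le_mul_of_nonneg_right h4 hafac.le
      · push Not at hwl
        have hacast : (m : ℝ) = a + l := by rw [ha]; push_cast; ring
        have ha7 : 6 * w ≤ a := by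
          have : (a : ℝ) = m - l := by rw [hacast]; ring
          rw [this]
          linarith
        have h1 : (2 * w) ^ a ≤ (a ! : ℝ) := pow_le_factorial_of_six_mul_le hw0 ha7
        have h2 : w ≤ 2 ^ a := by
          have h3 : (a : ℝ) ≤ 2 ^ a := by
            exact_mod_cast (Nat.lt_two_pow_self (n := a)).le
          linarith
        have h3 : (1 : ℝ) ≤ 16 ^ l := one_le_pow₀ (by norm_num)
        calc w ^ (a + 1) = w ^ a * w := by ring
          _ ≤ w ^ a * 2 ^ a := mul_le_mul_of_nonneg_left h2 (by positivity)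
          _ = (2 * w) ^ a := by rw [mul_pow]; ring
          _ ≤ (a ! : ℝ) := h1
          _ ≤ 16 ^ l * (a ! : ℝ) := by nlinarith
    have h4 : (16 * w) ^ l ≤ (16 * w) ^ k := pow_le_pow_right₀ h16 (by omega)
    calc w ^ (m + 1) = w ^ (a + 1) * w ^ l := by rw [ha]; ring
      _ ≤ (16 ^ l * (a ! : ℝ)) * w ^ l := mul_le_mul_of_nonneg_right key (by positivity)
      _ = (16 * w) ^ l * (a ! : ℝ) := by rw [mul_pow]; ring
      _ ≤ (16 * w) ^ k * (a ! : ℝ) := mul_le_mul_of_nonneg_right h4 hafac.le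

/-- Bound on `(M+1)^(k+1) - M^(k+1)`. -/
lemma delta_bound {M : ℝ} (hM : 8 ≤ M) :
    ∀ k : ℕ, (M + 1) ^ (k + 1) - M ^ (k + 1) ≤ 8 * (2 * M) ^ k
  | 0 => by norm_num
  | k + 1 => by
    have ih := delta_bound hM k
    have hM0 : 0 ≤ M := by linarith
    have hp : 0 ≤ (2 * M) ^ k := by positivity
    have h1 : M ^ (k + 1) ≤ M * (2 * M) ^ k := by
      rw [pow_succ, mul_comm]
      refine mul_le_mul_of_nonneg_left ?_ hM0
      exact pow_le_pow_left₀ hM0 (by linarith) k
    have e1 : (M + 1) ^ (k + 1 + 1) - M ^ (k + 1 + 1)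
        = (M + 1) * ((M + 1) ^ (k + 1) - M ^ (k + 1)) + M ^ (k + 1) := by ring
    rw [e1]
    have e2 : 8 * (2 * M) ^ (k + 1) = 16 * M * (2 * M) ^ k := by ring
    rw [e2]
    have h2 : (M + 1) * ((M + 1) ^ (k + 1) - M ^ (k + 1)) ≤ (M + 1) * (8 * (2 * M) ^ k) :=
      mul_le_mul_of_nonneg_left ih (by linarith)
    have h3 : (M + 1) * (8 * (2 * M) ^ k) ≤ 9 * M * (2 * M) ^ k := by
      have : 8 * (M + 1) ≤ 9 * M := by linarith
      nlinarith
    nlinarith

variable {ι : Type*} [DecidableEq ι]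

/-- The key inequality for `w ≥ 1`. -/
lemma super_A {w R : ℝ} (hw : 1 ≤ w) (S : Finset ι) (x : ι → ℝ) (hx : ∀ a ∈ S, 1 ≤ x a)
    (hR : ∀ K ⊆ S, (K.card ! : ℝ) / w ^ K.card * ∏ a ∈ K, x a ≤ R) (k : ℕ) :
    perm (fun a => max 1 (x a / w)) k S ≤ (16 * w) ^ k * max 1 (R / w) := by
  classical
  set g : ι → ℝ := fun a => max 1 (x a / w) with hg
  have hw0 : 0 < w := by linarith
  have hg1 : ∀ a ∈ S, 1 ≤ g a := fun a _ => le_max_left _ _
  set B := S.filter (fun a => 1 < g a) with hB
  set Q := S.filter (fun a => g a = 1) with hQ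
  set s := B.card with hs
  set m := Q.card with hm
  set G := ∏ a ∈ S, g a with hG
  have hG1 : 1 ≤ G := one_le_prod_of_one_le hg1
  have hcard : S.card = s + m := by
    have h1 : Q.card + (S.filter (fun a => ¬ g a = 1)).card = S.card :=
      Finset.card_filter_add_card_filter_not (s := S) (fun a => g a = 1)
    have h2 : S.filter (fun a => ¬ g a = 1) = B := by
      ext a
      simp only [hB, Finset.mem_filter]
      constructor
      · rintro ⟨ha, hne⟩
        exact ⟨ha, lt_of_le_of_ne (hg1 a ha) (Ne.symm hne)⟩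
      · rintro ⟨ha, hlt⟩
        exact ⟨ha, ne_of_gt hlt⟩
    rw [h2] at h1
    omega
  -- on `B`, `g = x / w`
  have hgB : ∀ a ∈ B, x a = w * g a := by
    intro a ha
    rcases Finset.mem_filter.mp ha with ⟨_, h2⟩
    have h3 : g a = x a / w := by
      have : 1 < max 1 (x a / w) := h2
      rcases lt_max_iff.mp this with h | h
      · exact absurd h (lt_irrefl _)
      · simp only [hg]; exact max_eq_right h.le
    rw [h3]; field_simp
  have hprodB : ∏ a ∈ B, g a = G := by
    have h1 : ∏ a ∈ S, g a = (∏ a ∈ S.filter (fun a => 1 < g a), g a)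
        * ∏ a ∈ S.filter (fun a => ¬ 1 < g a), g a :=
      (Finset.prod_filter_mul_prod_filter_not S _ _).symm
    have h2 : ∏ a ∈ S.filter (fun a => ¬ 1 < g a), g a = 1 := by
      refine Finset.prod_eq_one fun a ha => ?_
      rcases Finset.mem_filter.mp ha with ⟨ha1, ha2⟩
      exact le_antisymm (not_lt.mp ha2) (hg1 a ha1)
    rw [hG, h1, h2, mul_one]
  have hprodBx : ∏ a ∈ B, x a = w ^ s * G := by
    rw [Finset.prod_congr rfl hgB, Finset.prod_mul_distrib, Finset.prod_const, hprodB]
  have hBsub : B ⊆ S := Finset.filter_subset _ _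
  have hT : (s ! : ℝ) * G ≤ R := by
    have := hR B hBsub
    rw [hprodBx] at this
    have hws : w ^ s ≠ 0 := by positivity
    have e : (B.card ! : ℝ) / w ^ B.card * (w ^ s * G) = (s ! : ℝ) * G := by
      rw [← hs]; field_simp
    rwa [e] at this
  have hR1 : 1 ≤ R := by
    have : (1 : ℝ) ≤ (s ! : ℝ) * G := by
      have h1 : (1 : ℝ) ≤ (s ! : ℝ) := by exact_mod_cast Nat.factorial_pos s
      nlinarith
    linarith
  have hprodS : w ^ s * G ≤ ∏ a ∈ S, x a := by
    have h1 : ∏ a ∈ S, x a = (∏ a ∈ S.filter (fun a => 1 < g a), x a)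
        * ∏ a ∈ S.filter (fun a => ¬ 1 < g a), x a :=
      (Finset.prod_filter_mul_prod_filter_not S _ _).symm
    have h2 : 1 ≤ ∏ a ∈ S.filter (fun a => ¬ 1 < g a), x a :=
      one_le_prod_of_one_le fun a ha => hx a (Finset.mem_filter.mp ha).1
    rw [h1, ← hB, hprodBx]
    have h3 : 0 ≤ w ^ s * G := by positivity
    nlinarith
  have hRS : (S.card ! : ℝ) * G / w ^ m ≤ R := by
    have h1 := hR S (Finset.Subset.refl S)
    have h2 : (S.card ! : ℝ) / w ^ S.card * (w ^ s * G)
        ≤ (S.card ! : ℝ) / w ^ S.card * ∏ a ∈ S, x a :=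
      mul_le_mul_of_nonneg_left hprodS (by positivity)
    have e : (S.card ! : ℝ) / w ^ S.card * (w ^ s * G) = (S.card ! : ℝ) * G / w ^ m := by
      rw [hcard, pow_add]
      field_simp
    rw [e] at h2
    exact h2.trans h1
  -- now the cases
  cases k with
  | zero => simp only [perm_zero, pow_zero, one_mul]; exact le_max_left _ _
  | succ k =>
    by_cases hcase : (m : ℝ) ≤ 8 * w
    · -- first case
      have h1 := perm_le_caseI (g := g) (M := 8 * w) (by positivity) (k + 1) S hg1 hcase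
      have h2 := delta_bound (M := 8 * w) (by linarith) k
      have e2 : 2 * (8 * w) = 16 * w := by ring
      rw [e2] at h2
      have hpow : 0 < (16 * w) ^ k := by positivity
      have h3 : (8 * w) ^ (k + 1) ≤ (16 * w) ^ (k + 1) / 2 := by
        have e3 : (16 * w) ^ (k + 1) = 2 ^ (k + 1) * (8 * w) ^ (k + 1) := by
          rw [← mul_pow]; ring_nf
        rw [e3]
        have h4 : (2 : ℝ) ≤ 2 ^ (k + 1) := by
          calc (2 : ℝ) = 2 ^ 1 := by norm_num
            _ ≤ 2 ^ (k + 1) := pow_le_pow_right₀ (by norm_num) (by omega)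
        have h5 : 0 ≤ (8 * w) ^ (k + 1) := by positivity
        nlinarith
      have hΔ0 : 0 ≤ (8 * w + 1) ^ (k + 1) - (8 * w) ^ (k + 1) := by
        have : (8 * w) ^ (k + 1) ≤ (8 * w + 1) ^ (k + 1) :=
          pow_le_pow_left₀ (by positivity) (by linarith) _
        linarith
      have h4 : (s ! : ℝ) * G * ((8 * w + 1) ^ (k + 1) - (8 * w) ^ (k + 1))
          ≤ R * (8 * (16 * w) ^ k) := by
        refine mul_le_mul hT h2 hΔ0 (by linarith)
      have h5 : R * (8 * (16 * w) ^ k) = (16 * w) ^ (k + 1) * (R / w) / 2 := by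
        rw [pow_succ]; field_simp; ring
      have hpow' : 0 < (16 * w) ^ (k + 1) := by positivity
      have h6 : (16 * w) ^ (k + 1) * (1 / 2 + (R / w) / 2)
          ≤ (16 * w) ^ (k + 1) * max 1 (R / w) := by
        refine mul_le_mul_of_nonneg_left ?_ hpow'.le
        have h7 := le_max_left 1 (R / w)
        have h8 := le_max_right 1 (R / w)
        linarith
      calc perm g (k + 1) S
          ≤ (8 * w) ^ (k + 1) + (s ! : ℝ) * G * ((8 * w + 1) ^ (k + 1) - (8 * w) ^ (k + 1)) := h1
        _ ≤ (16 * w) ^ (k + 1) / 2 + (16 * w) ^ (k + 1) * (R / w) / 2 := by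
            rw [← h5]; linarith
        _ = (16 * w) ^ (k + 1) * (1 / 2 + (R / w) / 2) := by ring
        _ ≤ (16 * w) ^ (k + 1) * max 1 (R / w) := h6
    · -- second case
      push Not at hcase
      have h1 := perm_le_crude (g := g) (k + 1) S hg1
      by_cases hkd : k + 1 ≤ S.card
      · have hk2 : k + 1 ≤ s + m := by omega
        have h2 := numeric_N hw (s := s) (m := m) (k := k + 1) hcase (by omega) hk2
        have hfac := Nat.factorial_mul_descFactorial hkd
        have hfac' : ((S.card - (k + 1))! : ℝ) * (S.card.descFactorial (k + 1) : ℝ)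
            = (S.card ! : ℝ) := by exact_mod_cast hfac
        rw [← hcard] at h2
        have hwm : 0 < w ^ (m + 1) := by positivity
        have hGpos : 0 < G := by linarith
        have hdesc : (0 : ℝ) ≤ (S.card.descFactorial (k + 1) : ℝ) := by positivity
        have h3 : (S.card.descFactorial (k + 1) : ℝ) * G
            ≤ (16 * w) ^ (k + 1) * (R / w) := by
          have h4 : (16 * w) ^ (k + 1) * ((S.card ! : ℝ) * G / w ^ m / w)
              ≤ (16 * w) ^ (k + 1) * (R / w) := by
            refine mul_le_mul_of_nonneg_left ?_ (by positivity)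
            exact div_le_div_of_nonneg_right hRS hw0.le
          refine le_trans ?_ h4
          have e : (16 * w) ^ (k + 1) * ((S.card ! : ℝ) * G / w ^ m / w)
              = ((16 * w) ^ (k + 1) * ((S.card - (k + 1))! : ℝ))
                * ((S.card.descFactorial (k + 1) : ℝ) * G) / w ^ (m + 1) := by
            rw [← hfac', pow_succ w m]
            field_simp
          rw [e, le_div_iff₀ hwm]
          have h5 : 0 ≤ (S.card.descFactorial (k + 1) : ℝ) * G := by positivity
          nlinarith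
        calc perm g (k + 1) S ≤ (S.card.descFactorial (k + 1) : ℝ) * G := h1
          _ ≤ (16 * w) ^ (k + 1) * (R / w) := h3
          _ ≤ (16 * w) ^ (k + 1) * max 1 (R / w) :=
              mul_le_mul_of_nonneg_left (le_max_right _ _) (by positivity)
      · have h0 : S.card.descFactorial (k + 1) = 0 := Nat.descFactorial_eq_zero_iff_lt.mpr (by omega)
        rw [h0] at h1
        simp only [Nat.cast_zero, zero_mul] at h1
        exact h1.trans (by positivity)

/-- The key inequality for `w < 1`: no truncation. -/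
lemma super_B {w R : ℝ} (hw0 : 0 < w) (hw : w ≤ 1) (S : Finset ι) (x : ι → ℝ)
    (hx : ∀ a ∈ S, 1 ≤ x a)
    (hR : ∀ K ⊆ S, (K.card ! : ℝ) / w ^ K.card * ∏ a ∈ K, x a ≤ R) (k : ℕ) :
    perm (fun a => max 1 (x a / 1)) k S ≤ (16 * w) ^ k * max 1 (R / 1) := by
  classical
  set g : ι → ℝ := fun a => max 1 (x a / 1) with hg
  have hg1 : ∀ a ∈ S, 1 ≤ g a := fun a _ => le_max_left _ _
  have hgx : ∀ a ∈ S, g a = x a := by
    intro a ha
    simp only [hg, div_one]
    exact max_eq_right (hx a ha)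
  have h1 := perm_le_crude (g := g) k S hg1
  rw [Finset.prod_congr rfl hgx] at h1
  have hP : 1 ≤ ∏ a ∈ S, x a := one_le_prod_of_one_le hx
  by_cases hkd : k ≤ S.card
  · have h2 := hR S (Finset.Subset.refl S)
    have h3 : (S.card.descFactorial k : ℝ) ≤ (S.card ! : ℝ) := by
      have h6 := Nat.factorial_mul_descFactorial hkd
      have h7 := Nat.factorial_pos (S.card - k)
      have h8 : S.card.descFactorial k ≤ S.card ! := by
        rw [← h6]; exact Nat.le_mul_of_pos_left _ h7
      exact_mod_cast h8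
    have h4 : w ^ S.card ≤ (16 * w) ^ k := by
      calc w ^ S.card ≤ w ^ k := pow_le_pow_of_le_one hw0.le hw hkd
        _ ≤ (16 * w) ^ k := pow_le_pow_left₀ hw0.le (by linarith) k
    have h5 : (S.card ! : ℝ) * ∏ a ∈ S, x a ≤ R * w ^ S.card := by
      have hwd : 0 < w ^ S.card := by positivity
      have e : (S.card ! : ℝ) / w ^ S.card * ∏ a ∈ S, x a
          = (S.card ! : ℝ) * (∏ a ∈ S, x a) / w ^ S.card := by ring
      rw [e, div_le_iff₀ hwd] at h2
      exact h2
    have hR0 : 0 ≤ R := by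
      have : 0 ≤ (S.card ! : ℝ) / w ^ S.card * ∏ a ∈ S, x a := by positivity
      linarith
    calc perm g k S ≤ (S.card.descFactorial k : ℝ) * ∏ a ∈ S, x a := h1
      _ ≤ (S.card ! : ℝ) * ∏ a ∈ S, x a := mul_le_mul_of_nonneg_right h3 (by linarith)
      _ ≤ R * w ^ S.card := h5
      _ ≤ R * (16 * w) ^ k := mul_le_mul_of_nonneg_left h4 hR0
      _ = (16 * w) ^ k * R := by ring
      _ ≤ (16 * w) ^ k * max 1 (R / 1) := by
          refine mul_le_mul_of_nonneg_left ?_ (by positivity)
          rw [div_one]; exact le_max_right _ _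
  · have h0 : S.card.descFactorial k = 0 := Nat.descFactorial_eq_zero_iff_lt.mpr (by omega)
    rw [h0] at h1
    simp only [Nat.cast_zero, zero_mul] at h1
    exact h1.trans (by positivity)

/-- Unified form: with `W = max 1 w`. -/
lemma super_all {w R : ℝ} (hw0 : 0 < w) (S : Finset ι) (x : ι → ℝ)
    (hx : ∀ a ∈ S, 1 ≤ x a)
    (hR : ∀ K ⊆ S, (K.card ! : ℝ) / w ^ K.card * ∏ a ∈ K, x a ≤ R) (k : ℕ) :
    perm (fun a => max 1 (x a / max 1 w)) k S ≤ (16 * w) ^ k * max 1 (R / max 1 w) := by
  rcases le_total 1 w with h | h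
  · rw [max_eq_right h]
    exact super_A h S x hx hR k
  · rw [max_eq_left h]
    exact super_B hw0 h S x hx hR k

end Vale.Agent.Lib.P064
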