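import Vale.Agent.Lib.P064.Super

/-!
Counting rooted embeddings of a tree, given a super-solution on directed edges.  The argument is a
potential function along an ordering of the vertices of the tree where each vertex comes after its
parent.
-/

namespace Vale.Agent.Lib.P064

open Finset
open scoped Classical

variable {V : Type*} [Fintype V]

/-- The neighbours of `a`, as a finite set. -/
noncomputable def nb (H : SimpleGraph V) (a : V) : Finset V := Finset.univ.filter (H.Adj a)

lemma mem_nb {H : SimpleGraph V} {a b : V} : b ∈ nb H a ↔ H.Adj a b := by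
  simp [nb]

/-- Super-solutions on directed edges, with a level parameter. -/
structure SuperSol (H : SimpleGraph V) (W : ℝ) (G : ℕ → V → V → ℝ) : Prop where
  nonneg : ∀ h b a, 0 ≤ G h b a
  mono : ∀ h h' b a, h ≤ h' → G h b a ≤ G h' b a
  ss : ∀ h b a k, perm (G h a) k ((nb H a).erase b) ≤ W ^ k * G (h + 1) b a

variable {m : ℕ}

/-- Number of children of `j` not yet placed at stage `i`. -/
noncomputable def rem (p : Fin (m + 1) → Fin (m + 1)) (i : ℕ) (j : Fin (m + 1)) : ℕ :=
  (Finset.univ.filter (fun c : Fin (m + 1) => i ≤ c.val ∧ p c = j)).card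

/-- The vertices still available for children of `j` at stage `i`. -/
noncomputable def avail (H : SimpleGraph V) (p : Fin (m + 1) → Fin (m + 1)) (i : ℕ)
    (f : Fin (m + 1) → V) (j : Fin (m + 1)) : Finset V :=
  ((nb H (f j)).erase (f (p j))) \
    ((Finset.univ.filter (fun c : Fin (m + 1) => c.val < i ∧ p c = j)).image f)

/-- The factor of the potential at the vertex `j`. -/
noncomputable def pf (H : SimpleGraph V) (W : ℝ) (G : ℕ → V → V → ℝ)
    (p : Fin (m + 1) → Fin (m + 1)) (i : ℕ) (f : Fin (m + 1) → V) (j : Fin (m + 1)) : ℝ :=
  perm (G (m - j.val) (f j)) (rem p i j) (avail H p i f j) / W ^ (rem p i j)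

/-- The potential. -/
noncomputable def pot (H : SimpleGraph V) (W : ℝ) (G : ℕ → V → V → ℝ)
    (p : Fin (m + 1) → Fin (m + 1)) (i : ℕ) (f : Fin (m + 1) → V) : ℝ :=
  ∏ j ∈ Finset.univ.filter (fun j : Fin (m + 1) => j.val < i), pf H W G p i f j

/-- Valid maps. -/
def Valid (H : SimpleGraph V) (p : Fin (m + 1) → Fin (m + 1)) (φ : Fin (m + 1) → V) : Prop :=
  Function.Injective φ ∧ ∀ c, c ≠ 0 → H.Adj (φ (p c)) (φ c)

/-- Valid maps agreeing with `f` before stage `i`. -/
noncomputable def ext (H : SimpleGraph V) (p : Fin (m + 1) → Fin (m + 1)) (i : ℕ)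
    (f : Fin (m + 1) → V) : Finset (Fin (m + 1) → V) :=
  Finset.univ.filter (fun φ => Valid H p φ ∧ ∀ j : Fin (m + 1), j.val < i → φ j = f j)

lemma pf_nonneg {H : SimpleGraph V} {W : ℝ} {G : ℕ → V → V → ℝ} (hW : 0 < W)
    (hG : SuperSol H W G) (p : Fin (m + 1) → Fin (m + 1)) (i : ℕ) (f : Fin (m + 1) → V)
    (j : Fin (m + 1)) : 0 ≤ pf H W G p i f j := by
  unfold pf
  refine div_nonneg ?_ (by positivity)
  exact perm_nonneg _ _ fun a _ => hG.nonneg _ _ _

/-- The main induction. -/
theorem card_ext_le {H : SimpleGraph V} {W : ℝ} {G : ℕ → V → V → ℝ} (hW : 0 < W)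
    (hG : SuperSol H W G) (p : Fin (m + 1) → Fin (m + 1)) (hp0 : p 0 = 0)
    (hp : ∀ c, c ≠ 0 → p c < c) :
    ∀ (d i : ℕ), i + d = m + 1 → 1 ≤ i → ∀ f : Fin (m + 1) → V,
      ((ext H p i f).card : ℝ) ≤ W ^ d * pot H W G p i f := by
  have hple : ∀ c : Fin (m + 1), (p c).val ≤ c.val := by
    intro c
    by_cases hc : c = 0
    · subst hc; rw [hp0]
    · exact le_of_lt (hp c hc)
  intro d
  induction d with
  | zero =>
    intro i hi _ f
    have hi' : i = m + 1 := by omega
    subst hi'
    -- at most one extension
    have h1 : (ext H p (m + 1) f).card ≤ 1 := by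
      refine Finset.card_le_one.mpr ?_
      intro a ha b hb
      rcases Finset.mem_filter.mp ha with ⟨_, _, ha2⟩
      rcases Finset.mem_filter.mp hb with ⟨_, _, hb2⟩
      funext j
      rw [ha2 j j.isLt, hb2 j j.isLt]
    have h2 : pot H W G p (m + 1) f = 1 := by
      unfold pot
      refine Finset.prod_eq_one fun j _ => ?_
      have hr : rem p (m + 1) j = 0 := by
        unfold rem
        rw [Finset.card_eq_zero, Finset.filter_eq_empty_iff]
        rintro c _ ⟨hc, _⟩
        have := c.isLt
        omega
      unfold pf
      rw [hr]
      simp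
    rw [h2]
    simp only [pow_zero, mul_one]
    exact_mod_cast h1
  | succ d ih =>
    intro i hi hi1 f
    have him : i < m + 1 := by omega
    set t : Fin (m + 1) := ⟨i, him⟩ with ht
    have ht0 : t ≠ 0 := by
      intro h
      have : t.val = 0 := by rw [h]; rfl
      simp only [ht] at this
      omega
    set j := p t with hj
    have hjt : j < t := hp t ht0
    have hji : j.val < i := hjt
    set b := f j with hb
    set S := avail H p i f j with hS
    -- the number of remaining children is positive
    have hrem : rem p i j = rem p (i + 1) j + 1 := by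
      unfold rem
      have : Finset.univ.filter (fun c : Fin (m + 1) => i ≤ c.val ∧ p c = j)
          = insert t (Finset.univ.filter (fun c : Fin (m + 1) => i + 1 ≤ c.val ∧ p c = j)) := by
        ext c
        simp only [Finset.mem_filter, Finset.mem_univ, true_and, Finset.mem_insert]
        constructor
        · rintro ⟨h1, h2⟩
          by_cases hc : c = t
          · exact Or.inl hc
          · right
            refine ⟨?_, h2⟩
            have : c.val ≠ i := fun h => hc (Fin.ext h)
            omega
        · rintro (h | ⟨h1, h2⟩)
          · subst h; exact ⟨le_refl _, rfl⟩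
          · exact ⟨by omega, h2⟩
      rw [this, Finset.card_insert_of_notMem]
      simp [ht]
    have hrem' : ∀ j' : Fin (m + 1), j' ≠ j → rem p (i + 1) j' = rem p i j' := by
      intro j' hj'
      unfold rem
      congr 1
      ext c
      simp only [Finset.mem_filter, Finset.mem_univ, true_and]
      constructor
      · rintro ⟨h1, h2⟩; exact ⟨by omega, h2⟩
      · rintro ⟨h1, h2⟩
        refine ⟨?_, h2⟩
        have : c.val ≠ i := by
          intro h
          have hct : c = t := Fin.ext h
          rw [hct] at h2
          exact hj' h2.symm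
        omega
    -- updating
    have hupd : ∀ (a : V) (c : Fin (m + 1)), c.val < i → Function.update f t a c = f c := by
      intro a c hc
      rw [Function.update_of_ne]
      intro h
      rw [h] at hc
      simp [ht] at hc
    have hupdt : ∀ a : V, Function.update f t a t = a := fun a => Function.update_self _ _ _
    -- the covering of extensions
    have hcover : ext H p i f ⊆ S.biUnion (fun a => ext H p (i + 1) (Function.update f t a)) := by
      intro φ hφ
      rcases Finset.mem_filter.mp hφ with ⟨_, ⟨hinj, hadj⟩, hag⟩
      refine Finset.mem_biUnion.mpr ⟨φ t, ?_, ?_⟩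
      · -- membership in `S`
        have hpj : (p j).val < i := lt_of_le_of_lt (hple j) hji
        simp only [hS, avail, Finset.mem_sdiff, Finset.mem_erase, Finset.mem_image,
          Finset.mem_filter, Finset.mem_univ, true_and, not_exists, not_and]
        refine ⟨⟨?_, ?_⟩, ?_⟩
        · intro h
          rw [← hag (p j) hpj] at h
          have := hinj h
          rw [← this] at hpj
          simp [ht] at hpj
        · rw [mem_nb, ← hag j hji]
          exact hadj t ht0
        · rintro c ⟨hc1, _⟩ h
          rw [← hag c hc1] at h
          have := hinj h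
          rw [this] at hc1
          simp [ht] at hc1
      · refine Finset.mem_filter.mpr ⟨Finset.mem_univ _, ⟨hinj, hadj⟩, ?_⟩
        intro j' hj'
        by_cases h : j' = t
        · rw [h, hupdt]
        · have : j'.val < i := by
            have h2 : j'.val ≠ i := fun h3 => h (Fin.ext h3)
            omega
          rw [hupd _ _ this]
          exact hag j' this
    -- the potential after an update
    have hI : Finset.univ.filter (fun j' : Fin (m + 1) => j'.val < i + 1)
        = insert t (Finset.univ.filter (fun j' : Fin (m + 1) => j'.val < i)) := by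
      ext c
      simp only [Finset.mem_filter, Finset.mem_univ, true_and, Finset.mem_insert]
      constructor
      · intro h
        by_cases hc : c = t
        · exact Or.inl hc
        · right
          have : c.val ≠ i := fun h3 => hc (Fin.ext h3)
          omega
      · rintro (h | h)
        · rw [h]; simp [ht]
        · omega
    have htI : t ∉ Finset.univ.filter (fun j' : Fin (m + 1) => j'.val < i) := by
      simp [ht]
    have hjI : j ∈ Finset.univ.filter (fun j' : Fin (m + 1) => j'.val < i) := by
      simp [hji]
    have hrest : ∀ (a : V) (j' : Fin (m + 1)), j'.val < i → j' ≠ j →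
        pf H W G p (i + 1) (Function.update f t a) j' = pf H W G p i f j' := by
      intro a j' hj'1 hj'2
      unfold pf
      rw [hrem' j' hj'2, hupd a j' hj'1]
      have hav : avail H p (i + 1) (Function.update f t a) j' = avail H p i f j' := by
        unfold avail
        rw [hupd a j' hj'1, hupd a (p j') (lt_of_le_of_lt (hple j') hj'1)]
        congr 1
        ext v
        simp only [Finset.mem_image, Finset.mem_filter, Finset.mem_univ, true_and]
        constructor
        · rintro ⟨c, ⟨hc1, hc2⟩, rfl⟩
          have hci : c.val < i := by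
            have : c.val ≠ i := by
              intro h
              have hct : c = t := Fin.ext h
              rw [hct] at hc2
              exact hj'2 hc2.symm
            omega
          exact ⟨c, ⟨hci, hc2⟩, (hupd a c hci).symm⟩
        · rintro ⟨c, ⟨hc1, hc2⟩, rfl⟩
          exact ⟨c, ⟨by omega, hc2⟩, hupd a c hc1⟩
      rw [hav]
    have hparent : ∀ a : V, pf H W G p (i + 1) (Function.update f t a) j
        = perm (G (m - j.val) b) (rem p (i + 1) j) (S.erase a) / W ^ (rem p (i + 1) j) := by
      intro a
      unfold pf
      rw [hupd a j hji]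
      have hav : avail H p (i + 1) (Function.update f t a) j = S.erase a := by
        simp only [hS]
        unfold avail
        rw [hupd a j hji, hupd a (p j) (lt_of_le_of_lt (hple j) hji)]
        ext v
        simp only [Finset.mem_sdiff, Finset.mem_erase, Finset.mem_image, Finset.mem_filter,
          Finset.mem_univ, true_and, not_exists, not_and]
        constructor
        · rintro ⟨⟨h1, h2⟩, h3⟩
          refine ⟨?_, ⟨h1, h2⟩, ?_⟩
          · intro hv
            exact h3 t ⟨by simp [ht], rfl⟩ (by rw [hupdt, hv])
          · rintro c ⟨hc1, hc2⟩ hcv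
            exact h3 c ⟨by omega, hc2⟩ (by rw [hupd a c hc1, hcv])
        · rintro ⟨h0, ⟨h1, h2⟩, h3⟩
          refine ⟨⟨h1, h2⟩, ?_⟩
          rintro c ⟨hc1, hc2⟩ hcv
          by_cases hc : c = t
          · rw [hc, hupdt] at hcv
            exact h0 hcv.symm
          · have hci : c.val < i := by
              have : c.val ≠ i := fun h => hc (Fin.ext h)
              omega
            rw [hupd a c hci] at hcv
            exact h3 c ⟨hci, hc2⟩ hcv
      rw [hav]
    have hnew : ∀ a : V, pf H W G p (i + 1) (Function.update f t a) t ≤ G (m - j.val) b a := by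
      intro a
      unfold pf
      rw [hupdt]
      have hav : avail H p (i + 1) (Function.update f t a) t = (nb H a).erase b := by
        unfold avail
        rw [hupdt]
        have hup : Function.update f t a (p t) = b := hupd a (p t) hji
        rw [hup]
        have hempty : Finset.univ.filter (fun c : Fin (m + 1) => c.val < i + 1 ∧ p c = t) = ∅ := by
          rw [Finset.filter_eq_empty_iff]
          rintro c _ ⟨hc1, hc2⟩
          by_cases hc0 : c = 0
          · rw [hc0, hp0] at hc2
            exact ht0 hc2.symm
          · have h3 : (p c).val < c.val := hp c hc0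
            rw [hc2] at h3
            simp only [ht] at h3
            omega
        rw [hempty]
        simp
      rw [hav]
      have hss := hG.ss (m - i) b a (rem p (i + 1) t)
      have hWr : 0 < W ^ (rem p (i + 1) t) := by positivity
      have hle : G (m - i + 1) b a ≤ G (m - j.val) b a :=
        hG.mono _ _ _ _ (by omega)
      have htv : (m - t.val) = m - i := rfl
      rw [htv, div_le_iff₀ hWr, mul_comm]
      exact hss.trans (mul_le_mul_of_nonneg_left hle hWr.le)
    set Rest := ∏ j' ∈ (Finset.univ.filter (fun j' : Fin (m + 1) => j'.val < i)).erase j,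
      pf H W G p i f j' with hRest
    have hRest0 : 0 ≤ Rest := Finset.prod_nonneg fun c _ => pf_nonneg hW hG p i f c
    set k := rem p (i + 1) j with hk
    set Gj := G (m - j.val) b with hGj
    have hGj0 : ∀ a, 0 ≤ Gj a := fun a => hG.nonneg _ _ _
    have hpot : ∀ a : V, pot H W G p (i + 1) (Function.update f t a)
        ≤ Rest * (perm Gj k (S.erase a) / W ^ k) * Gj a := by
      intro a
      unfold pot
      rw [hI, Finset.prod_insert htI, ← Finset.mul_prod_erase _ _ hjI]
      have hr : ∏ j' ∈ (Finset.univ.filter (fun j' : Fin (m + 1) => j'.val < i)).erase j,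
          pf H W G p (i + 1) (Function.update f t a) j' = Rest := by
        refine Finset.prod_congr rfl fun c hc => ?_
        rcases Finset.mem_erase.mp hc with ⟨hc1, hc2⟩
        exact hrest a c (Finset.mem_filter.mp hc2).2 hc1
      rw [hr, hparent a]
      have hq : 0 ≤ perm Gj k (S.erase a) / W ^ k :=
        div_nonneg (perm_nonneg _ _ fun v _ => hGj0 v) (by positivity)
      have := hnew a
      calc pf H W G p (i + 1) (Function.update f t a) t * (perm Gj k (S.erase a) / W ^ k * Rest)
          ≤ Gj a * (perm Gj k (S.erase a) / W ^ k * Rest) :=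
            mul_le_mul_of_nonneg_right this (mul_nonneg hq hRest0)
        _ = Rest * (perm Gj k (S.erase a) / W ^ k) * Gj a := by ring
    -- conclude
    have hpotf : pot H W G p i f = Rest * (perm Gj (k + 1) S / W ^ (k + 1)) := by
      unfold pot
      rw [← Finset.mul_prod_erase _ _ hjI]
      have : pf H W G p i f j = perm Gj (k + 1) S / W ^ (k + 1) := by
        unfold pf
        rw [hrem]
      rw [this]
      ring
    have hcard : ((ext H p i f).card : ℝ)
        ≤ ∑ a ∈ S, ((ext H p (i + 1) (Function.update f t a)).card : ℝ) := by
      have h1 := (Finset.card_le_card hcover).trans Finset.card_biUnion_le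
      exact_mod_cast h1
    calc ((ext H p i f).card : ℝ)
        ≤ ∑ a ∈ S, ((ext H p (i + 1) (Function.update f t a)).card : ℝ) := hcard
      _ ≤ ∑ a ∈ S, W ^ d * (Rest * (perm Gj k (S.erase a) / W ^ k) * Gj a) := by
          refine Finset.sum_le_sum fun a _ => ?_
          refine (ih (i + 1) (by omega) (by omega) _).trans ?_
          exact mul_le_mul_of_nonneg_left (hpot a) (by positivity)
      _ = W ^ d * Rest / W ^ k * ∑ a ∈ S, Gj a * perm Gj k (S.erase a) := by
          rw [Finset.mul_sum]
          refine Finset.sum_congr rfl fun a _ => ?_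
          ring
      _ = W ^ (d + 1) * pot H W G p i f := by
          rw [hpotf, ← perm_succ]
          have hWk : W ^ k ≠ 0 := by positivity
          rw [pow_succ W d, pow_succ W k]
          field_simp

/-- Rooted embeddings are bounded by the super-solution at the root. -/
theorem card_rooted_le {H : SimpleGraph V} {W : ℝ} {G : ℕ → V → V → ℝ} (hW : 0 < W)
    (hG : SuperSol H W G) (p : Fin (m + 1) → Fin (m + 1)) (hp0 : p 0 = 0)
    (hp : ∀ c, c ≠ 0 → p c < c) (x : V) :
    ((Finset.univ.filter (fun φ : Fin (m + 1) → V => Valid H p φ ∧ φ 0 = x)).card : ℝ)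
      ≤ W ^ m * G (m + 1) x x := by
  have h1 := card_ext_le hW hG p hp0 hp m 1 (by omega) (le_refl _) (fun _ => x)
  have h2 : (Finset.univ.filter (fun φ : Fin (m + 1) → V => Valid H p φ ∧ φ 0 = x))
      = ext H p 1 (fun _ => x) := by
    ext φ
    simp only [ext, Finset.mem_filter, Finset.mem_univ, true_and]
    constructor
    · rintro ⟨h3, h4⟩
      refine ⟨h3, fun j hj => ?_⟩
      have : j = 0 := Fin.ext (by simpa using hj)
      rw [this, h4]
    · rintro ⟨h3, h4⟩
      exact ⟨h3, h4 0 (by simp)⟩
  rw [h2]
  refine h1.trans (mul_le_mul_of_nonneg_left ?_ (by positivity))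
  -- the potential at stage one
  have h3 : Finset.univ.filter (fun j : Fin (m + 1) => j.val < 1) = {0} := by
    ext j
    simp only [Finset.mem_filter, Finset.mem_univ, true_and, Finset.mem_singleton]
    constructor
    · intro h; exact Fin.ext (by simpa using h)
    · rintro rfl; simp
  unfold pot
  rw [h3, Finset.prod_singleton]
  unfold pf
  have hav : avail H p 1 (fun _ => x) 0 = (nb H x).erase x := by
    unfold avail
    ext v
    simp only [Finset.mem_sdiff, Finset.mem_erase, Finset.mem_image, Finset.mem_filter,
      Finset.mem_univ, true_and, not_exists, not_and]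
    constructor
    · rintro ⟨h4, _⟩; exact h4
    · intro h4
      exact ⟨h4, fun c _ hc => h4.1 hc.symm⟩
  rw [hav]
  have hss := hG.ss m x x (rem p 1 0)
  have hWr : 0 < W ^ (rem p 1 0) := by positivity
  simp only [Fin.val_zero, Nat.sub_zero]
  rw [div_le_iff₀ hWr, mul_comm]
  exact hss

end Vale.Agent.Lib.P064
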