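import Vale.Agent.Lib.P064.Forest

/-!
Tokens: a fractional orientation of `H` obtained from Hall's theorem, with the numerical bounds
coming from the hypothesis on the expected number of copies of all subgraphs.
-/

namespace Vale.Agent.Lib.P064

open Finset SimpleGraph
open scoped Classical Nat

set_option linter.unusedSectionVars false
set_option linter.unusedVariables false

variable {V : Type*} [Fintype V]

/-- The vertices covered by a set of unordered pairs. -/
noncomputable def vertsOf (E' : Finset (Sym2 V)) : Finset V := E'.biUnion Sym2.toFinset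

lemma mem_vertsOf {E' : Finset (Sym2 V)} {x : V} : x ∈ vertsOf E' ↔ ∃ e ∈ E', x ∈ e := by
  simp [vertsOf, Sym2.mem_toFinset]

/-- Every set of edges of `H` with `e` edges and `v` vertices has `M e ≤ Q v`. -/
def DensityLE (H : SimpleGraph V) (M Q : ℕ) : Prop :=
  ∀ E' : Finset (Sym2 V), (∀ e ∈ E', e ∈ H.edgeSet) → M * E'.card ≤ Q * (vertsOf E').card

lemma densityLE_exists (H : SimpleGraph V) (M : ℕ) : ∃ Q, DensityLE H M Q := by
  refine ⟨M * Fintype.card (Sym2 V), ?_⟩
  intro E' _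
  by_cases hE : E'.Nonempty
  · obtain ⟨e, he⟩ := hE
    have h1 : 1 ≤ (vertsOf E').card := by
      refine Finset.card_pos.mpr ?_
      induction e using Sym2.ind with
      | _ a b => exact ⟨a, mem_vertsOf.mpr ⟨_, he, Sym2.mem_mk_left a b⟩⟩
    have h2 : E'.card ≤ Fintype.card (Sym2 V) := Finset.card_le_univ _
    calc M * E'.card ≤ M * Fintype.card (Sym2 V) := Nat.mul_le_mul_left _ h2
      _ = M * Fintype.card (Sym2 V) * 1 := by ring
      _ ≤ _ := Nat.mul_le_mul_left _ h1
  · rw [Finset.not_nonempty_iff_eq_empty] at hE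
    simp [hE]

/-- Hall's theorem gives a token system. -/
lemma exists_tokens {H : SimpleGraph V} {M Q : ℕ} (hD : DensityLE H M Q) :
    ∃ τ : H.edgeSet × Fin M → V × Fin Q,
      Function.Injective τ ∧ ∀ (e : H.edgeSet) (i : Fin M), (τ (e, i)).1 ∈ (e : Sym2 V) := by
  set t : H.edgeSet × Fin M → Finset (V × Fin Q) :=
    fun p => (Sym2.toFinset (p.1 : Sym2 V)) ×ˢ (Finset.univ : Finset (Fin Q)) with ht
  have hall : ∀ s : Finset (H.edgeSet × Fin M), s.card ≤ (s.biUnion t).card := by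
    intro s
    set E' : Finset (Sym2 V) := s.image (fun p => (p.1 : Sym2 V)) with hE'
    have h1 : s.card ≤ M * E'.card := by
      refine Finset.card_le_mul_card_image s M ?_
      intro e he
      calc (s.filter (fun p => (p.1 : Sym2 V) = e)).card
          ≤ (Finset.univ : Finset (Fin M)).card := by
            refine Finset.card_le_card_of_injOn (fun p => p.2) (fun _ _ => Finset.mem_coe.mpr
              (Finset.mem_univ _)) ?_
            intro p hp p' hp' hpp
            have h2 : (p.1 : Sym2 V) = e := (Finset.mem_filter.mp (Finset.mem_coe.mp hp)).2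
            have h3 : (p'.1 : Sym2 V) = e := (Finset.mem_filter.mp (Finset.mem_coe.mp hp')).2
            exact Prod.ext (Subtype.ext (h2.trans h3.symm)) hpp
        _ = M := by simp
    have h2 : ∀ e ∈ E', e ∈ H.edgeSet := by
      intro e he
      obtain ⟨p, _, rfl⟩ := Finset.mem_image.mp he
      exact p.1.2
    have h3 := hD E' h2
    have h4 : Q * (vertsOf E').card ≤ (s.biUnion t).card := by
      have h5 : (vertsOf E') ×ˢ (Finset.univ : Finset (Fin Q)) ⊆ s.biUnion t := by
        rintro ⟨x, i⟩ hx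
        have hx' := (Finset.mem_product.mp hx).1
        obtain ⟨e, he, hxe⟩ := mem_vertsOf.mp hx'
        obtain ⟨p, hp, rfl⟩ := Finset.mem_image.mp he
        refine Finset.mem_biUnion.mpr ⟨p, hp, ?_⟩
        exact Finset.mem_product.mpr ⟨Sym2.mem_toFinset.mpr hxe, Finset.mem_univ _⟩
      have h6 := Finset.card_le_card h5
      rw [Finset.card_product, Finset.card_univ, Fintype.card_fin, mul_comm] at h6
      exact h6
    omega
  obtain ⟨f, hf, hf'⟩ := (Finset.all_card_le_biUnion_card_iff_exists_injective t).mp hall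
  refine ⟨f, hf, ?_⟩
  intro e i
  have := hf' (e, i)
  exact Sym2.mem_toFinset.mp (Finset.mem_product.mp this).1

/-- `numEdges` of a subgraph is the number of its edges. -/
lemma numEdges_coe {H : SimpleGraph V} (J : H.Subgraph) : numEdges J.coe = J.edgeSet.ncard := by
  unfold numEdges
  rw [← Subgraph.image_coe_edgeSet_coe J]
  exact (Set.ncard_image_of_injective _ (Sym2.map.injective Subtype.val_injective)).symm

/-- `numEdges` is invariant under isomorphism. -/
lemma numEdges_iso {Z Z' : Type*} {F : SimpleGraph Z} {F' : SimpleGraph Z'} (e : F ≃g F') :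
    numEdges F = numEdges F' := by
  unfold numEdges
  rw [← Nat.card_coe_set_eq, ← Nat.card_coe_set_eq]
  exact Nat.card_congr e.mapEdgeSet

/-- The subgraph spanned by a set of edges of `H`. -/
noncomputable def subOfEdges (H : SimpleGraph V) (E' : Finset (Sym2 V))
    (hE : ∀ e ∈ E', e ∈ H.edgeSet) : H.Subgraph where
  verts := (vertsOf E' : Set V)
  Adj a b := s(a, b) ∈ E'
  adj_sub := fun {a b} h => hE _ h
  edge_vert := fun {a b} h => Finset.mem_coe.mpr (mem_vertsOf.mpr ⟨_, h, Sym2.mem_mk_left a b⟩)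
  symm := ⟨fun a b h => by rwa [Sym2.eq_swap]⟩

lemma subOfEdges_edgeSet (H : SimpleGraph V) (E' : Finset (Sym2 V))
    (hE : ∀ e ∈ E', e ∈ H.edgeSet) : (subOfEdges H E' hE).edgeSet = (E' : Set (Sym2 V)) := by
  ext e
  induction e using Sym2.ind with
  | _ a b => simp [subOfEdges]

/-- A subgraph with `v` vertices and `e` edges has `1 ≤ n^v q^e`. -/
lemma one_le_of_edges {H : SimpleGraph V} {n : ℕ} {q : ℝ} (hq : 0 < q)
    (hyp : ∀ F : H.Subgraph, 1 ≤ expCopies n q F.coe) (E' : Finset (Sym2 V))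
    (hE : ∀ e ∈ E', e ∈ H.edgeSet) :
    1 ≤ (n : ℝ) ^ (vertsOf E').card * q ^ E'.card := by
  set J := subOfEdges H E' hE with hJ
  have h1 := hyp J
  unfold expCopies at h1
  rw [numEdges_coe, hJ, subOfEdges_edgeSet, Set.ncard_coe_finset] at h1
  have hZ : Fintype.card J.verts = (vertsOf E').card :=
    Fintype.card_of_subtype (p := fun x => x ∈ J.verts) (vertsOf E') (fun x => Iff.rfl)
  have h2 : (copyCount (⊤ : SimpleGraph (Fin n)) J.coe : ℝ) ≤ (n : ℝ) ^ (vertsOf E').card := by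
    have h3 := copyCount_le_labelledCopyCount (G := (⊤ : SimpleGraph (Fin n))) (H := J.coe)
    rw [labelled_top, hZ] at h3
    have h4 := Nat.descFactorial_le_pow n (vertsOf E').card
    exact_mod_cast h3.trans h4
  calc (1 : ℝ) ≤ _ := h1
    _ ≤ _ := mul_le_mul_of_nonneg_right h2 (by positivity)

/-- The interface produced by the token system. -/
structure ArcSystem (H : SimpleGraph V) (n : ℕ) (q : ℝ) (M Q : ℕ) (Arc : V → V → Prop) : Prop where
  M_pos : 1 ≤ M
  arc_or : ∀ x y, H.Adj x y → Arc x y ∨ Arc y x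
  out_card : ∀ x, (Finset.univ.filter (Arc x)).card ≤ Q
  token : ∀ (X : Finset V) (E' : Finset (Sym2 V)), (∀ e ∈ E', e ∈ H.edgeSet) →
    (∀ x y, s(x, y) ∈ E' → Arc x y → x ∈ X) → M * E'.card ≤ Q * X.card
  Q_le : Q ≤ 2 * (Nat.log 2 n + 1)
  numeric : ∀ κ c : ℕ, M * c ≤ Q * κ → 1 ≤ (2 : ℝ) ^ κ * ((n : ℝ) ^ κ * q ^ c)

lemma exists_min_M {q : ℝ} (hq0 : 0 < q) (hq1 : q < 1 / 2) :
    ∃ M : ℕ, 2 ≤ M ∧ (1 / 2 : ℝ) ^ M ≤ q ∧ q < (1 / 2 : ℝ) ^ (M - 1) := by
  have hex : ∃ M : ℕ, (1 / 2 : ℝ) ^ M ≤ q := by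
    obtain ⟨M, hM⟩ := exists_pow_lt_of_lt_one hq0 (by norm_num : (1 / 2 : ℝ) < 1)
    exact ⟨M, hM.le⟩
  refine ⟨Nat.find hex, ?_, Nat.find_spec hex, ?_⟩
  · by_contra h
    have hlt : Nat.find hex < 2 := by omega
    have h1 := Nat.find_spec hex
    interval_cases h2 : Nat.find hex
    · norm_num at h1; linarith
    · norm_num at h1; linarith
  · have hpos : Nat.find hex ≠ 0 := by
      intro h
      have h1 := Nat.find_spec hex
      rw [h] at h1
      norm_num at h1
      linarith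
    have h1 := Nat.find_min hex (m := Nat.find hex - 1) (by omega)
    exact not_le.mp h1

/-- Minimality of `Q` gives the key numerical inequality. -/
lemma key_of_min {H : SimpleGraph V} {n : ℕ} {q : ℝ} (hn : 1 ≤ n) (hq0 : 0 < q) (hq1 : q ≤ 1)
    (hyp : ∀ F : H.Subgraph, 1 ≤ expCopies n q F.coe) {M Q' : ℕ} (hmin : ¬ DensityLE H M Q') :
    1 ≤ (n : ℝ) ^ M * q ^ Q' := by
  unfold DensityLE at hmin
  push Not at hmin
  obtain ⟨E', hE', hlt⟩ := hmin
  have h1 := one_le_of_edges hq0 hyp E' hE'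
  set v := (vertsOf E').card with hv
  set e := E'.card with he
  have hE'ne : E'.Nonempty := by
    rw [Finset.nonempty_iff_ne_empty]
    intro h
    rw [he, h] at hlt
    simp at hlt
  have hv1 : v ≠ 0 := by
    obtain ⟨x, hx⟩ := hE'ne
    have : 0 < v := by
      refine Finset.card_pos.mpr ?_
      induction x using Sym2.ind with
      | _ a b => exact ⟨a, mem_vertsOf.mpr ⟨_, hx, Sym2.mem_mk_left a b⟩⟩
    omega
  have hn' : (0 : ℝ) ≤ (n : ℝ) := by positivity
  have h2 : 1 ≤ ((n : ℝ) ^ M * q ^ Q') ^ v := by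
    have h3 : q ^ (M * e) ≤ q ^ (Q' * v) := pow_le_pow_of_le_one hq0.le hq1 hlt.le
    calc (1 : ℝ) ≤ ((n : ℝ) ^ v * q ^ e) ^ M := one_le_pow₀ h1
      _ = (n : ℝ) ^ (M * v) * q ^ (M * e) := by rw [mul_pow, ← pow_mul, ← pow_mul]; ring_nf
      _ ≤ (n : ℝ) ^ (M * v) * q ^ (Q' * v) := mul_le_mul_of_nonneg_left h3 (by positivity)
      _ = _ := by rw [mul_pow, ← pow_mul, ← pow_mul]
  exact (one_le_pow_iff_of_nonneg (by positivity) hv1).mp h2

/-- The arcs defined by a token system. -/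
def tokArc {H : SimpleGraph V} {M Q : ℕ} (τ : H.edgeSet × Fin M → V × Fin Q) (x y : V) : Prop :=
  ∃ (h : H.Adj x y) (i : Fin M), (τ (⟨s(x, y), h⟩, i)).1 = x

theorem exists_arcSystem {H : SimpleGraph V} {n : ℕ} {q : ℝ} (hn : 1 ≤ n) (hq0 : 0 < q)
    (hq1 : q < 1 / 2) (hyp : ∀ F : H.Subgraph, 1 ≤ expCopies n q F.coe) :
    ∃ (M Q : ℕ) (Arc : V → V → Prop), ArcSystem H n q M Q Arc := by
  obtain ⟨M, hM2, hMq, hqM⟩ := exists_min_M hq0 hq1
  have hQex := densityLE_exists H M
  set Q := Nat.find hQex with hQdef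
  have hD : DensityLE H M Q := Nat.find_spec hQex
  obtain ⟨τ, hτ, hτ'⟩ := exists_tokens hD
  set Arc : V → V → Prop := tokArc τ with hArc
  have harc_tok : ∀ (e : H.edgeSet) (i : Fin M), ∃ y, (e : Sym2 V) = s((τ (e, i)).1, y) ∧
      Arc (τ (e, i)).1 y := by
    intro e i
    obtain ⟨y, hy⟩ := hτ' e i
    have hadj : H.Adj (τ (e, i)).1 y := by
      have := e.2
      rw [hy] at this
      exact this
    refine ⟨y, hy, hadj, i, ?_⟩
    have he : (⟨s((τ (e, i)).1, y), hadj⟩ : H.edgeSet) = e := Subtype.ext hy.symm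
    rw [he]
  have hkey : 1 ≤ Q → 1 ≤ (n : ℝ) ^ M * q ^ (Q - 1) := by
    intro hQ
    exact key_of_min hn hq0 (by linarith) hyp (Nat.find_min hQex (m := Q - 1) (by omega))
  refine ⟨M, Q, Arc, ?_⟩
  constructor
  · omega
  · -- every edge has an arc
    intro x y h
    set i : Fin M := ⟨0, by omega⟩ with hi
    have h1 := hτ' ⟨s(x, y), h⟩ i
    rcases Sym2.mem_iff.mp h1 with h2 | h2
    · exact Or.inl ⟨h, i, h2⟩
    · right
      refine ⟨h.symm, i, ?_⟩
      have he : (⟨s(y, x), h.symm⟩ : H.edgeSet) = ⟨s(x, y), h⟩ := Subtype.ext Sym2.eq_swap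
      rw [he]
      exact h2
  · -- out-arcs
    intro x
    refine le_trans ?_ (le_of_eq (by simp : (Finset.univ : Finset (Fin Q)).card = Q))
    refine Finset.card_le_card_of_forall_subsingleton
      (fun y j => ∃ (h : H.Adj x y) (i : Fin M), τ (⟨s(x, y), h⟩, i) = (x, j)) ?_ ?_
    · intro y hy
      obtain ⟨h, i, hi⟩ := (Finset.mem_filter.mp hy).2
      refine ⟨(τ (⟨s(x, y), h⟩, i)).2, Finset.mem_univ _, h, i, ?_⟩
      exact Prod.ext hi rfl
    · intro j _ y hy y' hy'
      obtain ⟨h, i, hi⟩ := hy.2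
      obtain ⟨h', i', hi'⟩ := hy'.2
      have h1 := hτ (hi.trans hi'.symm)
      have h2 : s(x, y) = s(x, y') := congrArg Subtype.val (congrArg Prod.fst h1)
      exact Sym2.congr_right.mp h2
  · -- token inequality
    intro X E' hE' hX
    have : (E'.attach ×ˢ (Finset.univ : Finset (Fin M))).card
        ≤ (X ×ˢ (Finset.univ : Finset (Fin Q))).card := by
      refine Finset.card_le_card_of_injOn (fun p => τ (⟨p.1.1, hE' _ p.1.2⟩, p.2)) ?_ ?_
      · intro p _
        refine Finset.mem_coe.mpr (Finset.mem_product.mpr ⟨?_, Finset.mem_univ _⟩)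
        obtain ⟨y, hy, hA⟩ := harc_tok ⟨p.1.1, hE' _ p.1.2⟩ p.2
        refine hX _ y ?_ hA
        rw [← hy]
        exact p.1.2
      · intro p _ p' _ h
        have h1 := Prod.ext_iff.mp (hτ h)
        have h2 := h1.1
        simp only [Subtype.mk.injEq] at h2
        exact Prod.ext (Subtype.ext h2) h1.2
    simpa [Finset.card_product, mul_comm] using this
  · -- bound for Q
    by_cases hQ : Q = 0
    · omega
    have hQ1 : 1 ≤ Q := by omega
    have h1 := hkey hQ1
    set ell := Nat.log 2 n + 1 with hell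
    have hlt : n < 2 ^ ell := Nat.lt_pow_succ_log_self (by norm_num) n
    have hlt' : (n : ℝ) < 2 ^ ell := by exact_mod_cast hlt
    have h2 : (n : ℝ) ^ M < (2 ^ ell) ^ M := pow_lt_pow_left₀ hlt' (by positivity) (by omega)
    have h3 : q ^ (Q - 1) ≤ ((1 / 2 : ℝ) ^ (M - 1)) ^ (Q - 1) :=
      pow_le_pow_left₀ hq0.le hqM.le _
    have h4 : (1 : ℝ) < (2 ^ ell) ^ M * ((1 / 2 : ℝ) ^ (M - 1)) ^ (Q - 1) := by
      have hq' : 0 < q ^ (Q - 1) := by positivity
      calc (1 : ℝ) ≤ (n : ℝ) ^ M * q ^ (Q - 1) := h1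
        _ < (2 ^ ell) ^ M * q ^ (Q - 1) := mul_lt_mul_of_pos_right h2 hq'
        _ ≤ _ := mul_le_mul_of_nonneg_left h3 (by positivity)
    have h5 : (M - 1) * (Q - 1) < ell * M := by
      by_contra hc
      push Not at hc
      have h6 : ((1 / 2 : ℝ) ^ (M - 1)) ^ (Q - 1) ≤ (1 / 2 : ℝ) ^ (ell * M) := by
        rw [← pow_mul]
        exact pow_le_pow_of_le_one (by norm_num) (by norm_num) hc
      have h7 : ((2 : ℝ) ^ ell) ^ M * (1 / 2 : ℝ) ^ (ell * M) = 1 := by
        rw [← pow_mul, ← mul_pow]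
        norm_num
      have h8 : (2 ^ ell : ℝ) ^ M * ((1 / 2 : ℝ) ^ (M - 1)) ^ (Q - 1) ≤ 1 :=
        (mul_le_mul_of_nonneg_left h6 (by positivity)).trans h7.le
      linarith
    have h6 : M ≤ 2 * (M - 1) := by omega
    have h7 : (M - 1) * (Q - 1) < (M - 1) * (2 * ell) := by
      calc (M - 1) * (Q - 1) < ell * M := h5
        _ ≤ ell * (2 * (M - 1)) := Nat.mul_le_mul_left _ h6
        _ = _ := by ring
    have h8 : Q - 1 < 2 * ell := lt_of_mul_lt_mul_left' h7
    omega
  · -- the numerical form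
    intro κ c hc
    have hn' : (0 : ℝ) ≤ (n : ℝ) := by positivity
    have hn1 : (1 : ℝ) ≤ (n : ℝ) := by exact_mod_cast hn
    by_cases hQ : Q = 0
    · have hc0 : c = 0 := by
        rw [hQ] at hc
        have : M * c = 0 := by omega
        rcases Nat.mul_eq_zero.mp this with h | h
        · omega
        · exact h
      rw [hc0, pow_zero, mul_one]
      exact one_le_mul_of_one_le_of_one_le (one_le_pow₀ (by norm_num)) (one_le_pow₀ hn1)
    have hQ1 : 1 ≤ Q := by omega
    have h1 := hkey hQ1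
    set X := (2 : ℝ) ^ κ * ((n : ℝ) ^ κ * q ^ c) with hX
    have hX0 : 0 ≤ X := by positivity
    have h2 : 1 ≤ X ^ M := by
      have h3 : q ^ (Q * κ) ≤ q ^ (M * c) := pow_le_pow_of_le_one hq0.le (by linarith) hc
      have h4 : 1 ≤ (2 : ℝ) ^ M * q := by
        have : (2 : ℝ) ^ M * (1 / 2 : ℝ) ^ M = 1 := by
          rw [← mul_pow]
          norm_num
        calc (1 : ℝ) = (2 : ℝ) ^ M * (1 / 2 : ℝ) ^ M := this.symm
          _ ≤ _ := mul_le_mul_of_nonneg_left hMq (by positivity)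
      have h5 : (1 : ℝ) ≤ ((2 : ℝ) ^ M * q) * ((n : ℝ) ^ M * q ^ (Q - 1)) :=
        one_le_mul_of_one_le_of_one_le h4 h1
      have h6 : q * q ^ (Q - 1) = q ^ Q := by
        rw [← pow_succ']
        congr 1
        omega
      calc (1 : ℝ) ≤ (((2 : ℝ) ^ M * q) * ((n : ℝ) ^ M * q ^ (Q - 1))) ^ κ := one_le_pow₀ h5
        _ = ((2 : ℝ) ^ M * (n : ℝ) ^ M * q ^ Q) ^ κ := by
            rw [← h6]
            ring
        _ = (2 : ℝ) ^ (M * κ) * (n : ℝ) ^ (M * κ) * q ^ (Q * κ) := by
            rw [mul_pow, mul_pow, ← pow_mul, ← pow_mul, ← pow_mul]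
        _ ≤ (2 : ℝ) ^ (M * κ) * (n : ℝ) ^ (M * κ) * q ^ (M * c) :=
            mul_le_mul_of_nonneg_left h3 (by positivity)
        _ = X ^ M := by
            rw [hX, mul_pow, mul_pow, ← pow_mul, ← pow_mul, ← pow_mul]
            ring_nf
    exact (one_le_pow_iff_of_nonneg hX0 (by omega)).mp h2

end Vale.Agent.Lib.P064
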