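import Vale.Agent.Lib.P064.Tok1

/-!
The twin bound: many disjoint placements of a piece over a fixed base force a subgraph of `H` with a
large automorphism group, hence a strong numerical constraint.
-/

namespace Vale.Agent.Lib.P064

open Finset SimpleGraph
open scoped Classical Nat

set_option linter.unusedSectionVars false
set_option linter.unusedVariables false

attribute [local instance] autFintype

variable {V : Type*} [Fintype V] {T : Type*} [Fintype T] {Z : Type*} [Fintype Z]

/-- A copy of `J` in `H` together with `m!` automorphisms of `J` gives a numerical constraint. -/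
theorem twin_core {H : SimpleGraph V} {n : ℕ} {q : ℝ} (hq0 : 0 < q)
    (hyp : ∀ F : H.Subgraph, 1 ≤ expCopies n q F.coe)
    (J : SimpleGraph T) (f : Copy J H) {m : ℕ} (ι : Equiv.Perm (Fin m) → (J ≃g J))
    (hι : Function.Injective ι) :
    (m ! : ℝ) ≤ (n : ℝ) ^ Fintype.card T * q ^ numEdges J := by
  set G' := f.toSubgraph with hG'
  have e : J ≃g G'.coe := f.isoToSubgraph
  have h1 := hyp G'
  unfold expCopies at h1
  rw [← numEdges_iso e] at h1
  have hcardverts : Fintype.card G'.verts = Fintype.card T := (Fintype.card_congr e.toEquiv).symm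
  have hlabel := labelled_eq (⊤ : SimpleGraph (Fin n)) G'.coe
  rw [labelled_top, hcardverts] at hlabel
  have haut : m ! ≤ Fintype.card (G'.coe ≃g G'.coe) := by
    have h2 : Fintype.card (Equiv.Perm (Fin m)) = m ! := by simp [Fintype.card_perm]
    rw [← h2]
    refine Fintype.card_le_of_injective (fun σ => e.symm.trans ((ι σ).trans e)) ?_
    intro σ σ' h
    apply hι
    ext x
    have h3 : e ((ι σ) x) = e ((ι σ') x) := by
      simpa using DFunLike.congr_fun h (e x)
    exact e.injective h3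
  set N := (⊤ : SimpleGraph (Fin n)).copyCount G'.coe with hN
  have h2 : N * m ! ≤ n ^ Fintype.card T := by
    calc N * m ! ≤ N * Fintype.card (G'.coe ≃g G'.coe) := Nat.mul_le_mul_left _ haut
      _ = n.descFactorial (Fintype.card T) := hlabel.symm
      _ ≤ _ := Nat.descFactorial_le_pow _ _
  have h3 : (N : ℝ) * (m ! : ℝ) ≤ (n : ℝ) ^ Fintype.card T := by exact_mod_cast h2
  have hfac : (0 : ℝ) ≤ (m ! : ℝ) := by positivity
  have hqe : 0 ≤ q ^ numEdges J := by positivity
  calc (m ! : ℝ) = 1 * (m ! : ℝ) := (one_mul _).symm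
    _ ≤ ((N : ℝ) * q ^ numEdges J) * (m ! : ℝ) := mul_le_mul_of_nonneg_right h1 hfac
    _ = ((N : ℝ) * (m ! : ℝ)) * q ^ numEdges J := by ring
    _ ≤ _ := mul_le_mul_of_nonneg_right h3 hqe

/-- The graph formed by `m` copies of the piece `K` over the base `S`. -/
def twinGraph (F : SimpleGraph Z) (S K : Finset Z) (m : ℕ) : SimpleGraph (↥S ⊕ (Fin m × ↥K)) where
  Adj x y := match x, y with
    | Sum.inl _, Sum.inl _ => False
    | Sum.inl s, Sum.inr p => F.Adj s p.2
    | Sum.inr p, Sum.inl s => F.Adj p.2 s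
    | Sum.inr p, Sum.inr p' => p.1 = p'.1 ∧ F.Adj p.2 p'.2
  symm := by
    constructor
    rintro (s | p) (s' | p') h
    · exact h
    · exact SimpleGraph.Adj.symm h
    · exact SimpleGraph.Adj.symm h
    · exact ⟨h.1.symm, SimpleGraph.Adj.symm h.2⟩
  loopless := by
    constructor
    rintro (s | p) h
    · exact h
    · exact F.loopless.irrefl _ h.2

/-- Permuting the copies is an automorphism of the twin graph. -/
def twinAut (F : SimpleGraph Z) (S K : Finset Z) (m : ℕ) (σ : Equiv.Perm (Fin m)) :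
    twinGraph F S K m ≃g twinGraph F S K m where
  toEquiv := Equiv.sumCongr (Equiv.refl _) (Equiv.prodCongr σ (Equiv.refl _))
  map_rel_iff' := by
    rintro (s | ⟨i, a⟩) (s' | ⟨j, b⟩)
    · exact Iff.rfl
    · exact Iff.rfl
    · exact Iff.rfl
    · constructor
      · intro h
        exact ⟨σ.injective h.1, h.2⟩
      · intro h
        exact ⟨congrArg σ h.1, h.2⟩

lemma twinAut_injective (F : SimpleGraph Z) {S K : Finset Z} (hK : K.Nonempty) (m : ℕ) :
    Function.Injective (twinAut F S K m) := by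
  intro σ σ' h
  obtain ⟨a, ha⟩ := hK
  ext i
  have h1 := DFunLike.congr_fun h (Sum.inr (i, ⟨a, ha⟩))
  have h2 : (Sum.inr (σ i, ⟨a, ha⟩) : ↥S ⊕ (Fin m × ↥K)) = Sum.inr (σ' i, ⟨a, ha⟩) := h1
  have h3 := Sum.inr.inj h2
  exact congrArg Fin.val (Prod.ext_iff.mp h3).1

/-- The edges of `F` inside `U` which meet `K`. -/
noncomputable def cutE (F : SimpleGraph Z) (U K : Finset Z) : Finset (Sym2 Z) :=
  Finset.univ.filter (fun e => e ∈ F.edgeSet ∧ (∀ a ∈ e, a ∈ U) ∧ ∃ a ∈ e, a ∈ K)

lemma mem_cutE {F : SimpleGraph Z} {U K : Finset Z} {e : Sym2 Z} :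
    e ∈ cutE F U K ↔ e ∈ F.edgeSet ∧ (∀ a ∈ e, a ∈ U) ∧ ∃ a ∈ e, a ∈ K := by
  simp [cutE]

lemma sym2_map_injOn {α β : Type*} {g : α → β} {U : Set α} (hg : Set.InjOn g U) {e e' : Sym2 α}
    (he : ∀ a ∈ e, a ∈ U) (he' : ∀ a ∈ e', a ∈ U) (h : Sym2.map g e = Sym2.map g e') : e = e' := by
  induction e using Sym2.ind with
  | _ a b =>
    induction e' using Sym2.ind with
    | _ a' b' =>
      have ha := he a (Sym2.mem_mk_left a b)
      have hb := he b (Sym2.mem_mk_right a b)
      have ha' := he' a' (Sym2.mem_mk_left a' b')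
      have hb' := he' b' (Sym2.mem_mk_right a' b')
      simp only [Sym2.map_mk, Sym2.eq_iff] at h
      rw [Sym2.eq_iff]
      rcases h with ⟨h1, h2⟩ | ⟨h1, h2⟩
      · exact Or.inl ⟨hg ha ha' h1, hg hb hb' h2⟩
      · exact Or.inr ⟨hg ha hb' h1, hg hb ha' h2⟩

/-- The twin bound. -/
theorem twin_bound {H : SimpleGraph V} {n : ℕ} {q : ℝ} (hq0 : 0 < q) (hq1 : q ≤ 1)
    (hyp : ∀ F : H.Subgraph, 1 ≤ expCopies n q F.coe) (F : SimpleGraph Z) {U K S : Finset Z}
    (hKne : K.Nonempty) (hK : K ⊆ U) (hS : ∀ s ∈ S, s ∈ U ∧ s ∉ K)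
    (hSall : ∀ b ∈ U, b ∉ K → ∀ a ∈ K, F.Adj b a → b ∈ S) {m : ℕ} (g₀ : Z → V)
    (hg₀ : Set.InjOn g₀ (S : Set Z)) (h : Fin m → Z → V)
    (hinj : ∀ i, Set.InjOn (h i) (U : Set Z))
    (hadj : ∀ i, ∀ a ∈ U, ∀ b ∈ U, F.Adj a b → H.Adj (h i a) (h i b))
    (hagree : ∀ i, ∀ a ∈ U, a ∉ K → h i a = g₀ a)
    (hdisj : ∀ i j, i ≠ j → ∀ a ∈ K, ∀ b ∈ K, h i a ≠ h j b) :
    (m ! : ℝ) ≤ (n : ℝ) ^ (S.card + m * K.card) * q ^ (m * (cutE F U K).card) := by
  set J := twinGraph F S K m with hJ
  set ph : ↥S ⊕ (Fin m × ↥K) → V := Sum.elim (fun s => g₀ s) (fun p => h p.1 p.2) with hph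
  have hphinj : Function.Injective ph := by
    rintro (s | ⟨i, a⟩) (s' | ⟨j, b⟩) hxy
    · exact congrArg Sum.inl (Subtype.ext (hg₀ s.2 s'.2 hxy))
    · exfalso
      have h1 : g₀ s = h j b := hxy
      have hs := hS s s.2
      rw [← hagree j s hs.1 hs.2] at h1
      have := hinj j hs.1 (hK b.2) h1
      exact hs.2 (this ▸ b.2)
    · exfalso
      have h1 : h i a = g₀ s' := hxy
      have hs := hS s' s'.2
      rw [← hagree i s' hs.1 hs.2] at h1
      have := hinj i (hK a.2) hs.1 h1
      exact hs.2 (this ▸ a.2)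
    · have h1 : h i a = h j b := hxy
      by_cases hij : i = j
      · subst hij
        have := hinj i (hK a.2) (hK b.2) h1
        have hab : a = b := Subtype.ext this
        rw [hab]
      · exact absurd h1 (hdisj i j hij a a.2 b b.2)
  have hphadj : ∀ x y, J.Adj x y → H.Adj (ph x) (ph y) := by
    rintro (s | ⟨i, a⟩) (s' | ⟨j, b⟩) hxy
    · exact hxy.elim
    · have h1 : F.Adj s b := hxy
      have hs := hS s s.2
      have h2 := hadj j s hs.1 b (hK b.2) h1
      rw [hagree j s hs.1 hs.2] at h2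
      exact h2
    · have h1 : F.Adj a s' := hxy
      have hs := hS s' s'.2
      have h2 := hadj i a (hK a.2) s' hs.1 h1
      rw [hagree i s' hs.1 hs.2] at h2
      exact h2
    · have h1 : i = j ∧ F.Adj a b := hxy
      obtain ⟨rfl, h2⟩ := h1
      exact hadj i a (hK a.2) b (hK b.2) h2
  set f : Copy J H := ⟨⟨ph, fun {a b} hab => hphadj a b hab⟩, hphinj⟩ with hf
  have h1 := twin_core hq0 hyp J f (twinAut F S K m) (twinAut_injective F hKne m)
  have hcardT : Fintype.card (↥S ⊕ (Fin m × ↥K)) = S.card + m * K.card := by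
    rw [Fintype.card_sum, Fintype.card_prod, Fintype.card_fin, Fintype.card_coe, Fintype.card_coe]
  rw [hcardT] at h1
  -- the number of edges
  set c := (cutE F U K).card with hc
  have hedges : m * c ≤ numEdges J := by
    set P : Finset (Fin m × Sym2 Z) := (Finset.univ : Finset (Fin m)) ×ˢ (cutE F U K) with hP
    set B : Finset (Sym2 V) := P.image (fun p => Sym2.map (h p.1) p.2) with hB
    have hBcard : B.card = m * c := by
      rw [hB, Finset.card_image_of_injOn, hP, Finset.card_product, Finset.card_univ,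
        Fintype.card_fin]
      rintro ⟨i, e⟩ hp ⟨j, e'⟩ hp' hmap
      have he := mem_cutE.mp (Finset.mem_product.mp (Finset.mem_coe.mp hp)).2
      have he' := mem_cutE.mp (Finset.mem_product.mp (Finset.mem_coe.mp hp')).2
      have hmap' : Sym2.map (h i) e = Sym2.map (h j) e' := hmap
      have hij : i = j := by
        by_contra hij
        obtain ⟨a, hae, haK⟩ := he.2.2
        have h2 : h i a ∈ Sym2.map (h j) e' := by
          rw [← hmap']
          exact Sym2.mem_map.mpr ⟨a, hae, rfl⟩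
        obtain ⟨b, hbe, hb⟩ := Sym2.mem_map.mp h2
        have hbU := he'.2.1 b hbe
        by_cases hbK : b ∈ K
        · exact hdisj j i (Ne.symm hij) b hbK a haK hb
        · have h3 : h j b = h i b := by
            rw [hagree j b hbU hbK, hagree i b hbU hbK]
          rw [h3] at hb
          have := hinj i hbU (hK haK) hb
          exact hbK (this ▸ haK)
      subst hij
      have hee : e = e' := sym2_map_injOn (hinj i) (fun a ha => Finset.mem_coe.mpr (he.2.1 a ha))
        (fun a ha => Finset.mem_coe.mpr (he'.2.1 a ha)) hmap'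
      rw [hee]
    have hsub : (B : Set (Sym2 V)) ⊆ Sym2.map ph '' J.edgeSet := by
      intro x hx
      obtain ⟨⟨i, e⟩, hp, rfl⟩ := Finset.mem_image.mp (Finset.mem_coe.mp hx)
      have he := mem_cutE.mp (Finset.mem_product.mp hp).2
      obtain ⟨he1, he2, he3⟩ := he
      induction e using Sym2.ind with
      | _ a b =>
        have hab : F.Adj a b := he1
        have haU := he2 a (Sym2.mem_mk_left a b)
        have hbU := he2 b (Sym2.mem_mk_right a b)
        by_cases haK : a ∈ K
        · by_cases hbK : b ∈ K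
          · refine ⟨s(Sum.inr (i, ⟨a, haK⟩), Sum.inr (i, ⟨b, hbK⟩)), ?_, rfl⟩
            exact ⟨rfl, hab⟩
          · have hbS : b ∈ S := hSall b hbU hbK a haK hab.symm
            refine ⟨s(Sum.inr (i, ⟨a, haK⟩), Sum.inl ⟨b, hbS⟩), ?_, ?_⟩
            · exact hab
            · simp only [Sym2.map_mk, hph, Sum.elim_inr, Sum.elim_inl]
              rw [hagree i b hbU hbK]
        · have hbK : b ∈ K := by
            obtain ⟨c', hc', hcK⟩ := he3
            rcases Sym2.mem_iff.mp hc' with rfl | rfl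
            · exact absurd hcK haK
            · exact hcK
          have haS : a ∈ S := hSall a haU haK b hbK hab
          refine ⟨s(Sum.inl ⟨a, haS⟩, Sum.inr (i, ⟨b, hbK⟩)), ?_, ?_⟩
          · exact hab
          · simp only [Sym2.map_mk, hph, Sum.elim_inr, Sum.elim_inl]
            rw [hagree i a haU haK]
    unfold numEdges
    rw [← hBcard, ← Set.ncard_coe_finset]
    calc (B : Set (Sym2 V)).ncard ≤ (Sym2.map ph '' J.edgeSet).ncard :=
          Set.ncard_le_ncard hsub ((Set.toFinite _).image _)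
      _ ≤ J.edgeSet.ncard := Set.ncard_image_le (Set.toFinite _)
  have hn0 : (0 : ℝ) ≤ (n : ℝ) ^ (S.card + m * K.card) := by positivity
  calc (m ! : ℝ) ≤ (n : ℝ) ^ (S.card + m * K.card) * q ^ numEdges J := h1
    _ ≤ _ := mul_le_mul_of_nonneg_left (pow_le_pow_of_le_one hq0.le hq1 hedges) hn0

end Vale.Agent.Lib.P064
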