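import Vale.Agent.Lib.P064.Tok2

/-!
Placements of a strongly connected piece over a fixed base: determination from one point, maximal
disjoint families, and the resulting bound.
-/

namespace Vale.Agent.Lib.P064

open Finset SimpleGraph
open scoped Classical Nat

set_option linter.unusedSectionVars false
set_option linter.unusedVariables false

variable {V : Type*} [Fintype V] {Z : Type*} [Fintype Z]

/-- Strong connectivity of `K` for the relation `R`. -/
def StrongConn (R : Z → Z → Prop) (K : Finset Z) : Prop :=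
  ∀ S : Finset Z, S ⊆ K → S.Nonempty → S ≠ K → ∃ x ∈ S, ∃ b ∈ K, b ∉ S ∧ R x b

lemma det_aux {Φ : Finset (Z → V)} {K : Finset Z} {out : V → Finset V} {Q : ℕ}
    (hout : ∀ x, (out x).card ≤ Q) {R : Z → Z → Prop}
    (harc : ∀ g ∈ Φ, ∀ x ∈ K, ∀ b ∈ K, R x b → g b ∈ out (g x))
    (hSC : StrongConn R K)
    (hoff : ∀ g ∈ Φ, ∀ g' ∈ Φ, ∀ a, a ∉ K → g a = g' a) :
    ∀ (k : ℕ) (S : Finset Z) (g₁ : Z → V), g₁ ∈ Φ → (S ∩ K).Nonempty → (K \ S).card = k →
      (Φ.filter (fun g => ∀ a ∈ S, g a = g₁ a)).card ≤ Q ^ k := by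
  intro k
  induction k with
  | zero =>
    intro S g₁ hg₁ hS hk
    rw [pow_zero]
    refine Finset.card_le_one.mpr ?_
    intro g hg g' hg'
    obtain ⟨h1, h2⟩ := Finset.mem_filter.mp hg
    obtain ⟨h1', h2'⟩ := Finset.mem_filter.mp hg'
    have hsub : K ⊆ S := by
      rw [Finset.card_eq_zero, Finset.sdiff_eq_empty_iff_subset] at hk
      exact hk
    funext a
    by_cases ha : a ∈ K
    · rw [h2 a (hsub ha), h2' a (hsub ha)]
    · exact hoff g h1 g' h1' a ha
  | succ k ih =>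
    intro S g₁ hg₁ hS hk
    have hne : S ∩ K ≠ K := by
      intro h
      have : K ⊆ S := by
        rw [← h]
        exact Finset.inter_subset_left
      rw [Finset.sdiff_eq_empty_iff_subset.mpr this] at hk
      simp at hk
    obtain ⟨x, hx, b, hbK, hbS, hRxb⟩ := hSC (S ∩ K) Finset.inter_subset_right hS hne
    have hxS := (Finset.mem_inter.mp hx).1
    have hxK := (Finset.mem_inter.mp hx).2
    have hbS' : b ∉ S := fun h => hbS (Finset.mem_inter.mpr ⟨h, hbK⟩)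
    set A := Φ.filter (fun g => ∀ a ∈ S, g a = g₁ a) with hA
    have h1 : A.card ≤ Q ^ k * (out (g₁ x)).card := by
      refine Finset.card_le_mul_card_image_of_maps_to (f := fun g => g b) ?_ _ ?_
      · intro g hg
        obtain ⟨h2, h3⟩ := Finset.mem_filter.mp hg
        have h4 := harc g h2 x hxK b hbK hRxb
        rwa [h3 x hxS] at h4
      · intro z _
        by_cases hem : (A.filter (fun g => g b = z)).Nonempty
        · obtain ⟨g₂, hg₂⟩ := hem
          obtain ⟨hg₂A, hg₂z⟩ := Finset.mem_filter.mp hg₂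
          obtain ⟨hg₂Φ, hg₂S⟩ := Finset.mem_filter.mp hg₂A
          have hcard : (K \ insert b S).card = k := by
            have h5 : K \ insert b S = (K \ S).erase b := by
              ext c
              simp only [Finset.mem_sdiff, Finset.mem_insert, Finset.mem_erase, not_or]
              tauto
            rw [h5, Finset.card_erase_of_mem (Finset.mem_sdiff.mpr ⟨hbK, hbS'⟩), hk]
            rfl
          have h6 := ih (insert b S) g₂ hg₂Φ
            ⟨x, Finset.mem_inter.mpr ⟨Finset.mem_insert_of_mem hxS, hxK⟩⟩ hcard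
          refine le_trans (Finset.card_le_card ?_) h6
          intro g hg
          obtain ⟨hgA, hgz⟩ := Finset.mem_filter.mp hg
          obtain ⟨hgΦ, hgS⟩ := Finset.mem_filter.mp hgA
          refine Finset.mem_filter.mpr ⟨hgΦ, ?_⟩
          intro a ha
          rcases Finset.mem_insert.mp ha with rfl | ha
          · rw [hgz, hg₂z]
          · rw [hgS a ha, hg₂S a ha]
        · rw [Finset.not_nonempty_iff_eq_empty] at hem
          rw [hem]
          simp
    calc A.card ≤ Q ^ k * (out (g₁ x)).card := h1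
      _ ≤ Q ^ k * Q := Nat.mul_le_mul_left _ (hout _)
      _ = Q ^ (k + 1) := by ring

/-- A placement is determined, up to `Q^(|K|-1)` choices, by the image of one point. -/
lemma det_point {Φ : Finset (Z → V)} {K : Finset Z} {out : V → Finset V} {Q : ℕ}
    (hout : ∀ x, (out x).card ≤ Q) {R : Z → Z → Prop}
    (harc : ∀ g ∈ Φ, ∀ x ∈ K, ∀ b ∈ K, R x b → g b ∈ out (g x))
    (hSC : StrongConn R K)
    (hoff : ∀ g ∈ Φ, ∀ g' ∈ Φ, ∀ a, a ∉ K → g a = g' a) {w : Z} (hw : w ∈ K) (y : V) :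
    (Φ.filter (fun g => g w = y)).card ≤ Q ^ (K.card - 1) := by
  by_cases hem : (Φ.filter (fun g => g w = y)).Nonempty
  · obtain ⟨g₁, hg₁⟩ := hem
    obtain ⟨h1, h2⟩ := Finset.mem_filter.mp hg₁
    have h3 : (K \ {w}).card = K.card - 1 := by
      rw [Finset.sdiff_singleton_eq_erase, Finset.card_erase_of_mem hw]
    have h4 := det_aux hout harc hSC hoff (K.card - 1) {w} g₁ h1
      ⟨w, Finset.mem_inter.mpr ⟨Finset.mem_singleton_self w, hw⟩⟩ h3
    refine le_trans (Finset.card_le_card ?_) h4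
    intro g hg
    obtain ⟨h5, h6⟩ := Finset.mem_filter.mp hg
    refine Finset.mem_filter.mpr ⟨h5, ?_⟩
    intro a ha
    rw [Finset.mem_singleton.mp ha, h6, h2]
  · rw [Finset.not_nonempty_iff_eq_empty] at hem
    rw [hem]
    simp

/-- Pairwise disjointness of images of `K`. -/
def PairDisj (K : Finset Z) (𝓜 : Finset (Z → V)) : Prop :=
  ∀ h ∈ 𝓜, ∀ h' ∈ 𝓜, h ≠ h' → ∀ a ∈ K, ∀ b ∈ K, h a ≠ h' b

/-- A maximal disjoint family exists. -/
lemma exists_maxFamily (Φ : Finset (Z → V)) {K : Finset Z} (hK : K.Nonempty) :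
    ∃ 𝓜 ⊆ Φ, PairDisj K 𝓜 ∧ ∀ g ∈ Φ, ∃ h ∈ 𝓜, ∃ a ∈ K, ∃ b ∈ K, g a = h b := by
  set fam := Φ.powerset.filter (fun 𝓜 => PairDisj K 𝓜) with hfam
  have hne : fam.Nonempty := by
    refine ⟨∅, Finset.mem_filter.mpr ⟨Finset.empty_mem_powerset _, ?_⟩⟩
    intro h hh
    simp at hh
  obtain ⟨𝓜, h𝓜, hmax⟩ := Finset.exists_max_image fam Finset.card hne
  obtain ⟨h1, h2⟩ := Finset.mem_filter.mp h𝓜
  have h1' := Finset.mem_powerset.mp h1
  refine ⟨𝓜, h1', h2, ?_⟩
  intro g hg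
  by_contra hc
  push Not at hc
  have hg𝓜 : g ∉ 𝓜 := by
    intro h
    obtain ⟨w, hw⟩ := hK
    exact hc g h w hw w hw rfl
  have h3 : insert g 𝓜 ∈ fam := by
    refine Finset.mem_filter.mpr ⟨Finset.mem_powerset.mpr (Finset.insert_subset hg h1'), ?_⟩
    intro h hh h' hh' hne a ha b hb
    rcases Finset.mem_insert.mp hh with h5 | h5
    · rcases Finset.mem_insert.mp hh' with h6 | h6
      · exact absurd (h5.trans h6.symm) hne
      · rw [h5]
        exact hc h' h6 a ha b hb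
    · rcases Finset.mem_insert.mp hh' with h6 | h6
      · rw [h6]
        exact (hc h h5 b hb a ha).symm
      · exact h2 h h5 h' h6 hne a ha b hb
  have h4 := hmax _ h3
  rw [Finset.card_insert_of_notMem hg𝓜] at h4
  omega

/-- The count of placements by a maximal disjoint family. -/
lemma card_le_family {Φ : Finset (Z → V)} {K : Finset Z} (hK : K.Nonempty) {out : V → Finset V}
    {Q : ℕ} (hout : ∀ x, (out x).card ≤ Q) {R : Z → Z → Prop}
    (harc : ∀ g ∈ Φ, ∀ x ∈ K, ∀ b ∈ K, R x b → g b ∈ out (g x))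
    (hSC : StrongConn R K)
    (hoff : ∀ g ∈ Φ, ∀ g' ∈ Φ, ∀ a, a ∉ K → g a = g' a) :
    ∃ 𝓜 ⊆ Φ, PairDisj K 𝓜 ∧ Φ.card ≤ (K.card * 𝓜.card * K.card) * Q ^ (K.card - 1) := by
  obtain ⟨𝓜, h1, h2, h3⟩ := exists_maxFamily Φ hK
  refine ⟨𝓜, h1, h2, ?_⟩
  set B := ((K ×ˢ 𝓜) ×ˢ K) with hB
  have hsub : Φ ⊆ B.biUnion (fun p => Φ.filter (fun g => g p.1.1 = p.1.2 p.2)) := by
    intro g hg
    obtain ⟨h, hh, a, ha, b, hb, hab⟩ := h3 g hg
    refine Finset.mem_biUnion.mpr ⟨((a, h), b), ?_, Finset.mem_filter.mpr ⟨hg, hab⟩⟩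
    exact Finset.mem_product.mpr ⟨Finset.mem_product.mpr ⟨ha, hh⟩, hb⟩
  have h4 := Finset.card_biUnion_le_card_mul B (fun p => Φ.filter (fun g => g p.1.1 = p.1.2 p.2))
    (Q ^ (K.card - 1)) (by
      rintro ⟨⟨a, h⟩, b⟩ hp
      have ha := (Finset.mem_product.mp (Finset.mem_product.mp hp).1).1
      exact det_point hout harc hSC hoff ha _)
  have h5 : B.card = K.card * 𝓜.card * K.card := by
    rw [hB, Finset.card_product, Finset.card_product]
  rw [h5] at h4
  exact (Finset.card_le_card hsub).trans h4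

/-- The numerical consequence of the twin bound. -/
lemma hub_numeric {m κ c β ell n : ℕ} {q : ℝ} (hq0 : 0 < q) (hn1 : 1 ≤ n) (hn : n < 2 ^ ell)
    (hfac : (m ! : ℝ) ≤ (n : ℝ) ^ (β + m * κ) * q ^ (m * c))
    (hτ : 1 ≤ (2 : ℝ) ^ κ * ((n : ℝ) ^ κ * q ^ c)) (hβ : β ≤ c) :
    (m : ℝ) ≤ 6 * ((n : ℝ) ^ κ * q ^ c) * 2 ^ κ * 2 ^ c * (ell : ℝ) ^ (if β = 0 then 0 else 1) := by
  set τ := (n : ℝ) ^ κ * q ^ c with hτdef
  have hn0 : (0 : ℝ) < (n : ℝ) := by exact_mod_cast hn1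
  have hτ0 : 0 < τ := by positivity
  have hell : 1 ≤ ell := by
    by_contra h
    have : ell = 0 := by omega
    rw [this] at hn
    simp at hn
    omega
  have hell' : (1 : ℝ) ≤ (ell : ℝ) := by exact_mod_cast hell
  have h2k : (1 : ℝ) ≤ 2 ^ κ := one_le_pow₀ (by norm_num)
  have h2c : (1 : ℝ) ≤ 2 ^ c := one_le_pow₀ (by norm_num)
  have hy : (1 : ℝ) ≤ (ell : ℝ) ^ (if β = 0 then 0 else 1) := one_le_pow₀ hell'
  by_cases hm : (m : ℝ) ≤ 6 * τ
  · have h1 : (1 : ℝ) ≤ 2 ^ κ * 2 ^ c * (ell : ℝ) ^ (if β = 0 then 0 else 1) :=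
      one_le_mul_of_one_le_of_one_le (one_le_mul_of_one_le_of_one_le h2k h2c) hy
    calc (m : ℝ) ≤ 6 * τ := hm
      _ = 6 * τ * 1 := by ring
      _ ≤ 6 * τ * (2 ^ κ * 2 ^ c * (ell : ℝ) ^ (if β = 0 then 0 else 1)) :=
          mul_le_mul_of_nonneg_left h1 (by positivity)
      _ = _ := by ring
  · push Not at hm
    have hm0 : (0 : ℝ) < (m : ℝ) := lt_trans (by positivity) hm
    have hm1 : 1 ≤ m := by
      have : 0 < m := by exact_mod_cast hm0
      omega
    have h1 := pow_self_le m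
    have h2 : (n : ℝ) ^ (β + m * κ) * q ^ (m * c) = (n : ℝ) ^ β * τ ^ m := by
      rw [hτdef, mul_pow, ← pow_mul, ← pow_mul, pow_add]
      ring_nf
    rw [h2] at hfac
    have h3 : (6 * τ) ^ m ≤ (m : ℝ) ^ m := pow_le_pow_left₀ (by positivity) hm.le _
    have h4 : (2 : ℝ) ^ m * (3 ^ m * τ ^ m) ≤ 3 ^ m * ((n : ℝ) ^ β * τ ^ m) := by
      calc (2 : ℝ) ^ m * (3 ^ m * τ ^ m) = (6 * τ) ^ m := by
            rw [← mul_assoc, ← mul_pow, ← mul_pow]
            norm_num
        _ ≤ (m : ℝ) ^ m := h3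
        _ ≤ 3 ^ m * (m ! : ℝ) := h1
        _ ≤ _ := mul_le_mul_of_nonneg_left hfac (by positivity)
    have h5 : (2 : ℝ) ^ m ≤ (n : ℝ) ^ β := by
      have hpos : (0 : ℝ) < 3 ^ m * τ ^ m := by positivity
      have h6 : (2 : ℝ) ^ m * (3 ^ m * τ ^ m) ≤ (n : ℝ) ^ β * (3 ^ m * τ ^ m) := by
        calc _ ≤ _ := h4
          _ = _ := by ring
      exact le_of_mul_le_mul_right h6 hpos
    have h7 : (n : ℝ) ^ β ≤ ((2 : ℝ) ^ ell) ^ β := by
      refine pow_le_pow_left₀ hn0.le ?_ _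
      exact_mod_cast hn.le
    rw [← pow_mul] at h7
    have h8 : m ≤ ell * β :=
      (pow_le_pow_iff_right₀ (by norm_num : (1 : ℝ) < 2)).mp (h5.trans h7)
    by_cases hβ0 : β = 0
    · rw [hβ0] at h8
      omega
    · simp only [hβ0, if_false, pow_one]
      have h9 : (m : ℝ) ≤ (ell : ℝ) * (β : ℝ) := by exact_mod_cast h8
      have h10 : (β : ℝ) ≤ 2 ^ c := by
        have : β < 2 ^ c := lt_of_le_of_lt hβ Nat.lt_two_pow_self
        exact_mod_cast this.le
      have h11 : (1 : ℝ) ≤ 6 * τ * 2 ^ κ := by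
        have : 2 ^ κ * τ = (2 : ℝ) ^ κ * ((n : ℝ) ^ κ * q ^ c) := rfl
        nlinarith
      calc (m : ℝ) ≤ (ell : ℝ) * (β : ℝ) := h9
        _ ≤ (ell : ℝ) * 2 ^ c := mul_le_mul_of_nonneg_left h10 (by positivity)
        _ = 1 * (2 ^ c * (ell : ℝ)) := by ring
        _ ≤ (6 * τ * 2 ^ κ) * (2 ^ c * (ell : ℝ)) :=
            mul_le_mul_of_nonneg_right h11 (by positivity)
        _ = _ := by ring

end Vale.Agent.Lib.P064
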