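import Vale.Agent.Lib.P064.Tok3

/-!
The bound for the placements of a strongly connected piece over a fixed base, and the induction
over closed sets.
-/

namespace Vale.Agent.Lib.P064

open Finset SimpleGraph
open scoped Classical Nat

set_option linter.unusedSectionVars false
set_option linter.unusedVariables false

variable {V : Type*} [Fintype V] {Z : Type*} [Fintype Z]

/-- The edges of `F` inside `U`. -/
noncomputable def inE (F : SimpleGraph Z) (U : Finset Z) : Finset (Sym2 Z) :=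
  Finset.univ.filter (fun e => e ∈ F.edgeSet ∧ ∀ a ∈ e, a ∈ U)

lemma mem_inE {F : SimpleGraph Z} {U : Finset Z} {e : Sym2 Z} :
    e ∈ inE F U ↔ e ∈ F.edgeSet ∧ ∀ a ∈ e, a ∈ U := by
  simp [inE]

lemma inE_split (F : SimpleGraph Z) {U K : Finset Z} :
    (inE F U).card = (inE F (U \ K)).card + (cutE F U K).card := by
  have h1 : inE F (U \ K) = (inE F U).filter (fun e => ¬ ∃ a ∈ e, a ∈ K) := by
    ext e
    simp only [mem_inE, Finset.mem_filter, Finset.mem_sdiff]
    constructor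
    · rintro ⟨h1, h2⟩
      exact ⟨⟨h1, fun a ha => (h2 a ha).1⟩, fun ⟨a, ha, haK⟩ => (h2 a ha).2 haK⟩
    · rintro ⟨⟨h1, h2⟩, h3⟩
      exact ⟨h1, fun a ha => ⟨h2 a ha, fun haK => h3 ⟨a, ha, haK⟩⟩⟩
  have h2 : cutE F U K = (inE F U).filter (fun e => ∃ a ∈ e, a ∈ K) := by
    ext e
    simp only [mem_inE, mem_cutE, Finset.mem_filter]
    tauto
  rw [h1, h2, add_comm]
  exact (Finset.card_filter_add_card_filter_not _).symm

/-- The attachments of `K` in `U`. -/
noncomputable def attachOf (F : SimpleGraph Z) (U K : Finset Z) : Finset Z :=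
  (U \ K).filter (fun s => ∃ a ∈ K, F.Adj s a)

lemma mem_attachOf {F : SimpleGraph Z} {U K : Finset Z} {s : Z} :
    s ∈ attachOf F U K ↔ s ∈ U ∧ s ∉ K ∧ ∃ a ∈ K, F.Adj s a := by
  simp [attachOf, and_assoc]

lemma attachOf_card_le (F : SimpleGraph Z) {U K : Finset Z} (hK : K ⊆ U) :
    (attachOf F U K).card ≤ (cutE F U K).card := by
  refine Finset.card_le_card_of_forall_subsingleton (fun s e => s ∈ e ∧ ∃ a ∈ K, a ∈ e) ?_ ?_
  · intro s hs
    obtain ⟨h1, h2, a, ha, hsa⟩ := mem_attachOf.mp hs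
    refine ⟨s(s, a), mem_cutE.mpr ⟨hsa, ?_, a, Sym2.mem_mk_right s a, ha⟩, Sym2.mem_mk_left s a, a, ha,
      Sym2.mem_mk_right s a⟩
    intro b hb
    rcases Sym2.mem_iff.mp hb with rfl | rfl
    · exact h1
    · exact hK ha
  · rintro e _ s ⟨hs, hse, a, ha, hae⟩ s' ⟨hs', hse', a', ha', hae'⟩
    have hsK := (mem_attachOf.mp hs).2.1
    have hsK' := (mem_attachOf.mp hs').2.1
    induction e using Sym2.ind with
    | _ x y =>
      rcases Sym2.mem_iff.mp hse with rfl | rfl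
      · rcases Sym2.mem_iff.mp hse' with rfl | rfl
        · rfl
        · rcases Sym2.mem_iff.mp hae with rfl | rfl
          · exact absurd ha hsK
          · exact absurd ha hsK'
      · rcases Sym2.mem_iff.mp hse' with rfl | rfl
        · rcases Sym2.mem_iff.mp hae with rfl | rfl
          · exact absurd ha hsK'
          · exact absurd ha hsK
        · rfl

/-- A strongly connected piece has at least `|K| - 1` edges. -/
lemma inE_growth {F : SimpleGraph Z} {R : Z → Z → Prop} (hR : ∀ a b, R a b → F.Adj a b)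
    {K : Finset Z} (hSC : StrongConn R K) (hK : K.Nonempty) : K.card - 1 ≤ (inE F K).card := by
  have key : ∀ j, j + 1 ≤ K.card → ∃ S ⊆ K, S.card = j + 1 ∧ j ≤ (inE F S).card := by
    intro j
    induction j with
    | zero =>
      intro _
      obtain ⟨w, hw⟩ := hK
      exact ⟨{w}, Finset.singleton_subset_iff.mpr hw, by simp, Nat.zero_le _⟩
    | succ j ih =>
      intro hj
      obtain ⟨S, hS, hcard, hle⟩ := ih (by omega)
      have hSne : S.Nonempty := Finset.card_pos.mp (by omega)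
      have hne : S ≠ K := by
        rintro rfl
        omega
      obtain ⟨x, hx, b, hbK, hbS, hRxb⟩ := hSC S hS hSne hne
      refine ⟨insert b S, Finset.insert_subset hbK hS, ?_, ?_⟩
      · rw [Finset.card_insert_of_notMem hbS, hcard]
      · have h1 : insert s(x, b) (inE F S) ⊆ inE F (insert b S) := by
          intro e he
          rcases Finset.mem_insert.mp he with rfl | he
          · refine mem_inE.mpr ⟨hR x b hRxb, ?_⟩
            intro a ha
            rcases Sym2.mem_iff.mp ha with rfl | rfl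
            · exact Finset.mem_insert_of_mem hx
            · exact Finset.mem_insert_self _ _
          · obtain ⟨h2, h3⟩ := mem_inE.mp he
            exact mem_inE.mpr ⟨h2, fun a ha => Finset.mem_insert_of_mem (h3 a ha)⟩
        have h2 : s(x, b) ∉ inE F S := by
          intro h
          exact hbS ((mem_inE.mp h).2 b (Sym2.mem_mk_right x b))
        have h3 := Finset.card_le_card h1
        rw [Finset.card_insert_of_notMem h2] at h3
        omega
  have hpos : 0 < K.card := Finset.card_pos.mpr hK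
  obtain ⟨S, hS, hcard, hle⟩ := key (K.card - 1) (by omega)
  have hSK : S = K := Finset.eq_of_subset_of_card_le hS (by omega)
  rwa [hSK] at hle

lemma cut_bounds {F : SimpleGraph Z} {R : Z → Z → Prop} (hR : ∀ a b, R a b → F.Adj a b)
    {U K : Finset Z} (hKU : K ⊆ U) (hSC : StrongConn R K) (hK : K.Nonempty) :
    K.card - 1 ≤ (cutE F U K).card ∧ ((attachOf F U K).card ≠ 0 → K.card ≤ (cutE F U K).card) := by
  have h1 := inE_growth hR hSC hK
  have hsub : inE F K ⊆ cutE F U K := by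
    intro e he
    obtain ⟨h2, h3⟩ := mem_inE.mp he
    refine mem_cutE.mpr ⟨h2, fun a ha => hKU (h3 a ha), ?_⟩
    induction e using Sym2.ind with
    | _ a b => exact ⟨a, Sym2.mem_mk_left a b, h3 a (Sym2.mem_mk_left a b)⟩
  refine ⟨h1.trans (Finset.card_le_card hsub), ?_⟩
  intro hne
  have hne' : (attachOf F U K).Nonempty := Finset.card_pos.mp (Nat.pos_of_ne_zero hne)
  obtain ⟨s, hs⟩ := hne'
  obtain ⟨h2, h3, a, ha, hsa⟩ := mem_attachOf.mp hs
  have hmem : s(s, a) ∈ cutE F U K := by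
    refine mem_cutE.mpr ⟨hsa, ?_, a, Sym2.mem_mk_right s a, ha⟩
    intro b hb
    rcases Sym2.mem_iff.mp hb with rfl | rfl
    · exact h2
    · exact hKU ha
  have hnot : s(s, a) ∉ inE F K := fun h => h3 ((mem_inE.mp h).2 s (Sym2.mem_mk_left s a))
  have hlt : (inE F K).card < (cutE F U K).card :=
    Finset.card_lt_card ⟨hsub, fun h => hnot (h hmem)⟩
  omega

/-- The fiber bound. -/
theorem fiber_bound {H : SimpleGraph V} {n : ℕ} {q : ℝ} {M Q : ℕ} {Arc : V → V → Prop}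
    (AS : ArcSystem H n q M Q Arc) (hn : 1 ≤ n) (hq0 : 0 < q) (hq1 : q ≤ 1)
    (hyp : ∀ F : H.Subgraph, 1 ≤ expCopies n q F.coe) (F : SimpleGraph Z) {R : Z → Z → Prop}
    (hR : ∀ a b, R a b → F.Adj a b) {U K : Finset Z} (hKne : K.Nonempty) (hKU : K ⊆ U)
    (hW : ∀ x ∈ U, x ∉ K → ∀ y, R x y → y ∉ K) (hSC : StrongConn R K) (g₀ : Z → V)
    (Φ : Finset (Z → V))
    (hΦ : ∀ g ∈ Φ, (∀ a, a ∉ K → g a = g₀ a) ∧ Set.InjOn g (U : Set Z) ∧
      (∀ a ∈ U, ∀ b ∈ U, F.Adj a b → H.Adj (g a) (g b)) ∧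
      (∀ a ∈ U, ∀ b ∈ U, F.Adj a b → (Arc (g a) (g b) ↔ R a b))) :
    (Φ.card : ℝ) ≤ (96 * (n : ℝ)) ^ K.card * (2 * q) ^ (cutE F U K).card *
      ((Nat.log 2 n + 1 : ℕ) : ℝ) ^ (K.card - 1 + if (attachOf F U K).card = 0 then 0 else 1) := by
  set ell := Nat.log 2 n + 1 with hell
  set c := (cutE F U K).card with hc
  set κ := K.card with hκ
  set S := attachOf F U K with hS
  set β := S.card with hβ
  set x := κ - 1 + if β = 0 then 0 else 1 with hx
  have hn' : (1 : ℝ) ≤ (n : ℝ) := by exact_mod_cast hn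
  have hell1 : 1 ≤ ell := by omega
  have hell' : (1 : ℝ) ≤ (ell : ℝ) := by exact_mod_cast hell1
  have hκ1 : 1 ≤ κ := Finset.card_pos.mpr hKne
  have hbound0 : 0 ≤ (96 * (n : ℝ)) ^ κ * (2 * q) ^ c * (ell : ℝ) ^ x := by positivity
  by_cases hΦne : Φ.Nonempty
  swap
  · rw [Finset.not_nonempty_iff_eq_empty] at hΦne
    rw [hΦne]
    simpa using hbound0
  obtain ⟨g₁, hg₁⟩ := hΦne
  obtain ⟨h1off, h1inj, h1adj, h1pat⟩ := hΦ g₁ hg₁
  set out : V → Finset V := fun x => Finset.univ.filter (Arc x) with hout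
  have houtc : ∀ x, (out x).card ≤ Q := AS.out_card
  have harc : ∀ g ∈ Φ, ∀ x ∈ K, ∀ b ∈ K, R x b → g b ∈ out (g x) := by
    intro g hg x hx b hb hRxb
    obtain ⟨_, _, _, h4⟩ := hΦ g hg
    have hA := (h4 x (hKU hx) b (hKU hb) (hR x b hRxb)).mpr hRxb
    exact Finset.mem_filter.mpr ⟨Finset.mem_univ _, hA⟩
  have hoff : ∀ g ∈ Φ, ∀ g' ∈ Φ, ∀ a, a ∉ K → g a = g' a := by
    intro g hg g' hg' a ha
    rw [(hΦ g hg).1 a ha, (hΦ g' hg').1 a ha]
  obtain ⟨𝓜, h𝓜, hPD, hcard⟩ := card_le_family hKne houtc harc hSC hoff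
  set m := 𝓜.card with hm
  set e : Fin m ≃ 𝓜 := 𝓜.equivFin.symm with he
  set h : Fin m → Z → V := fun i => (e i).1 with hh
  have hhΦ : ∀ i, h i ∈ Φ := fun i => h𝓜 (e i).2
  -- the twin bound
  have htwin : (m ! : ℝ) ≤ (n : ℝ) ^ (β + m * κ) * q ^ (m * c) := by
    refine twin_bound hq0 hq1 hyp F hKne hKU (S := S) ?_ ?_ g₀ ?_ h ?_ ?_ ?_ ?_
    · intro s hs
      obtain ⟨h2, h3, _⟩ := mem_attachOf.mp hs
      exact ⟨h2, h3⟩
    · intro b hb hbK a ha hba
      exact mem_attachOf.mpr ⟨hb, hbK, a, ha, hba⟩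
    · intro a ha b hb hab
      have ha' := mem_attachOf.mp (Finset.mem_coe.mp ha)
      have hb' := mem_attachOf.mp (Finset.mem_coe.mp hb)
      rw [← h1off a ha'.2.1, ← h1off b hb'.2.1] at hab
      exact h1inj (Finset.mem_coe.mpr ha'.1) (Finset.mem_coe.mpr hb'.1) hab
    · intro i
      exact (hΦ _ (hhΦ i)).2.1
    · intro i
      exact (hΦ _ (hhΦ i)).2.2.1
    · intro i a _ ha
      exact (hΦ _ (hhΦ i)).1 a ha
    · intro i j hij a ha b hb
      refine hPD _ (e i).2 _ (e j).2 ?_ a ha b hb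
      intro h2
      exact hij (e.injective (Subtype.ext h2))
  -- the token inequality
  have htok : M * c ≤ Q * κ := by
    set X := K.image g₁ with hX
    set E' := (cutE F U K).image (Sym2.map g₁) with hE'
    have hE'card : E'.card = c := by
      rw [hE', Finset.card_image_of_injOn]
      intro e he e' he' hee
      have h2 := mem_cutE.mp (Finset.mem_coe.mp he)
      have h3 := mem_cutE.mp (Finset.mem_coe.mp he')
      exact sym2_map_injOn h1inj (fun a ha => Finset.mem_coe.mpr (h2.2.1 a ha))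
        (fun a ha => Finset.mem_coe.mpr (h3.2.1 a ha)) hee
    have hXcard : X.card ≤ κ := Finset.card_image_le
    have hedges : ∀ e ∈ E', e ∈ H.edgeSet := by
      intro e he
      obtain ⟨e₀, he₀, rfl⟩ := Finset.mem_image.mp he
      obtain ⟨h2, h3, _⟩ := mem_cutE.mp he₀
      induction e₀ using Sym2.ind with
      | _ a b =>
        exact h1adj a (h3 a (Sym2.mem_mk_left a b)) b (h3 b (Sym2.mem_mk_right a b)) h2
    have hkey : ∀ a b, s(a, b) ∈ cutE F U K → Arc (g₁ a) (g₁ b) → g₁ a ∈ X := by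
      intro a b hab hA
      obtain ⟨h2, h3, d, hd, hdK⟩ := mem_cutE.mp hab
      have haU := h3 a (Sym2.mem_mk_left a b)
      have hbU := h3 b (Sym2.mem_mk_right a b)
      by_cases haK : a ∈ K
      · exact Finset.mem_image_of_mem _ haK
      · exfalso
        have hRab := (h1pat a haU b hbU h2).mp hA
        have hbK := hW a haU haK b hRab
        rcases Sym2.mem_iff.mp hd with rfl | rfl
        · exact haK hdK
        · exact hbK hdK
    have hholders : ∀ x y, s(x, y) ∈ E' → Arc x y → x ∈ X := by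
      intro x y hxy hA
      obtain ⟨e₀, he₀, he⟩ := Finset.mem_image.mp hxy
      induction e₀ using Sym2.ind with
      | _ a b =>
        simp only [Sym2.map_mk] at he
        rcases Sym2.eq_iff.mp he with ⟨rfl, rfl⟩ | ⟨rfl, rfl⟩
        · exact hkey a b he₀ hA
        · have he₁ : s(b, a) ∈ cutE F U K := by
            rw [Sym2.eq_swap]
            exact he₀
          exact hkey b a he₁ hA
    have h2 := AS.token X E' hedges hholders
    rw [hE'card] at h2
    exact h2.trans (Nat.mul_le_mul_left _ hXcard)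
  have hnum := AS.numeric κ c htok
  have hlog : n < 2 ^ ell := Nat.lt_pow_succ_log_self (by norm_num) n
  have hβc : β ≤ c := attachOf_card_le F hKU
  have hhub := hub_numeric hq0 hn hlog htwin hnum hβc
  set y : ℕ := if β = 0 then 0 else 1 with hy
  set τ := (n : ℝ) ^ κ * q ^ c with hτ
  have hτ0 : 0 < τ := by
    have : (0 : ℝ) < (n : ℝ) := by linarith
    positivity
  have hκ2 : (κ : ℝ) ≤ 2 ^ κ := by
    have : κ < 2 ^ κ := Nat.lt_two_pow_self
    exact_mod_cast this.le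
  have hQ : (Q : ℝ) ^ (κ - 1) ≤ 2 ^ κ * (ell : ℝ) ^ (κ - 1) := by
    have h2 : (Q : ℝ) ≤ 2 * (ell : ℝ) := by exact_mod_cast AS.Q_le
    calc (Q : ℝ) ^ (κ - 1) ≤ (2 * (ell : ℝ)) ^ (κ - 1) := pow_le_pow_left₀ (by positivity) h2 _
      _ = 2 ^ (κ - 1) * (ell : ℝ) ^ (κ - 1) := mul_pow _ _ _
      _ ≤ 2 ^ κ * (ell : ℝ) ^ (κ - 1) := by
          refine mul_le_mul_of_nonneg_right ?_ (by positivity)
          exact pow_le_pow_right₀ (by norm_num) (by omega)
  have hcardR : (Φ.card : ℝ) ≤ ((κ : ℝ) * (m : ℝ) * (κ : ℝ)) * (Q : ℝ) ^ (κ - 1) := by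
    exact_mod_cast hcard
  have hmul : ((κ : ℝ) * (m : ℝ) * (κ : ℝ)) * (Q : ℝ) ^ (κ - 1)
      ≤ (2 ^ κ * (6 * τ * 2 ^ κ * 2 ^ c * (ell : ℝ) ^ y) * 2 ^ κ) *
        (2 ^ κ * (ell : ℝ) ^ (κ - 1)) := by
    have hmain : (κ : ℝ) * (m : ℝ) * (κ : ℝ)
        ≤ 2 ^ κ * (6 * τ * 2 ^ κ * 2 ^ c * (ell : ℝ) ^ y) * 2 ^ κ := by
      refine mul_le_mul (mul_le_mul hκ2 hhub (by positivity) (by positivity)) hκ2 (by positivity)
        (by positivity)
    exact mul_le_mul hmain hQ (by positivity) (by positivity)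
  have h96 : (6 : ℝ) * 16 ^ κ ≤ 96 ^ κ := by
    have h2 : (6 : ℝ) ≤ 6 ^ κ := by
      calc (6 : ℝ) = 6 ^ 1 := by norm_num
        _ ≤ 6 ^ κ := pow_le_pow_right₀ (by norm_num) hκ1
    calc (6 : ℝ) * 16 ^ κ ≤ 6 ^ κ * 16 ^ κ := mul_le_mul_of_nonneg_right h2 (by positivity)
      _ = 96 ^ κ := by rw [← mul_pow]; norm_num
  have hfinal : (2 ^ κ * (6 * τ * 2 ^ κ * 2 ^ c * (ell : ℝ) ^ y) * 2 ^ κ) *
        (2 ^ κ * (ell : ℝ) ^ (κ - 1)) = ((6 : ℝ) * 16 ^ κ) * (τ * 2 ^ c * (ell : ℝ) ^ x) := by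
    have h16 : (16 : ℝ) ^ κ = 2 ^ κ * 2 ^ κ * 2 ^ κ * 2 ^ κ := by
      rw [← mul_pow, ← mul_pow, ← mul_pow]; norm_num
    rw [h16, hx, pow_add]
    ring
  have htarget : (96 * (n : ℝ)) ^ κ * (2 * q) ^ c * (ell : ℝ) ^ x
      = 96 ^ κ * (τ * 2 ^ c * (ell : ℝ) ^ x) := by
    rw [mul_pow, mul_pow, hτ]
    ring
  rw [htarget]
  calc (Φ.card : ℝ) ≤ _ := hcardR
    _ ≤ _ := hmul
    _ = _ := hfinal
    _ ≤ _ := mul_le_mul_of_nonneg_right h96 (by positivity)

end Vale.Agent.Lib.P064
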