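import Vale.Agent.Lib.P064.Tok4

/-!
The induction over closed sets and the resulting bound for the number of embeddings.
-/

namespace Vale.Agent.Lib.P064

open Finset SimpleGraph
open scoped Classical Nat

set_option linter.unusedSectionVars false
set_option linter.unusedVariables false

variable {V : Type*} [Fintype V] {Z : Type*} [Fintype Z]

/-- The partial embeddings of `F` on `U` with a given arc pattern. -/
noncomputable def Aset (H : SimpleGraph V) (F : SimpleGraph Z) (Arc : V → V → Prop)
    (R : Z → Z → Prop) (v₀ : V) (U : Finset Z) : Finset (Z → V) :=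
  Finset.univ.filter (fun g => (∀ a, a ∉ U → g a = v₀) ∧ Set.InjOn g (U : Set Z) ∧
    (∀ a ∈ U, ∀ b ∈ U, F.Adj a b → H.Adj (g a) (g b)) ∧
    (∀ a ∈ U, ∀ b ∈ U, F.Adj a b → (Arc (g a) (g b) ↔ R a b)))

lemma mem_Aset {H : SimpleGraph V} {F : SimpleGraph Z} {Arc : V → V → Prop}
    {R : Z → Z → Prop} {v₀ : V} {U : Finset Z} {g : Z → V} :
    g ∈ Aset H F Arc R v₀ U ↔ (∀ a, a ∉ U → g a = v₀) ∧ Set.InjOn g (U : Set Z) ∧
      (∀ a ∈ U, ∀ b ∈ U, F.Adj a b → H.Adj (g a) (g b)) ∧
      (∀ a ∈ U, ∀ b ∈ U, F.Adj a b → (Arc (g a) (g b) ↔ R a b)) := by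
  simp [Aset]

/-- Closed sets for the relation `R`. -/
def IsClosedR (R : Z → Z → Prop) (U : Finset Z) : Prop := ∀ x ∈ U, ∀ y, R x y → y ∈ U

/-- A closed set has a source component. -/
lemma exists_source (R : Z → Z → Prop) {U : Finset Z} (hne : U.Nonempty) :
    ∃ K ⊆ U, K.Nonempty ∧ (∀ x ∈ U, x ∉ K → ∀ y, R x y → y ∉ K) ∧ StrongConn R K := by
  set fam := U.powerset.filter
    (fun K => K.Nonempty ∧ ∀ x ∈ U, x ∉ K → ∀ y, R x y → y ∉ K) with hfam
  have hfne : fam.Nonempty := by
    refine ⟨U, Finset.mem_filter.mpr ⟨Finset.mem_powerset_self _, hne, ?_⟩⟩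
    intro x hx hx'
    exact absurd hx hx'
  obtain ⟨K, hK, hmin⟩ := Finset.exists_min_image fam Finset.card hfne
  obtain ⟨h1, h2, h3⟩ := Finset.mem_filter.mp hK
  have h1' := Finset.mem_powerset.mp h1
  refine ⟨K, h1', h2, h3, ?_⟩
  intro S hS hSne hSK
  by_contra hc
  push Not at hc
  have hK' : K \ S ∈ fam := by
    refine Finset.mem_filter.mpr ⟨Finset.mem_powerset.mpr (Finset.sdiff_subset.trans h1'), ?_, ?_⟩
    · rw [Finset.sdiff_nonempty]
      intro h
      exact hSK (Finset.Subset.antisymm hS h)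
    · intro x hx hx' y hRxy hy
      obtain ⟨hyK, hyS⟩ := Finset.mem_sdiff.mp hy
      by_cases hxK : x ∈ K
      · have hxS : x ∈ S := by
          by_contra h
          exact hx' (Finset.mem_sdiff.mpr ⟨hxK, h⟩)
        exact hc x hxS y hyK hyS hRxy
      · exact h3 x hx hxK y hRxy hyK
  have h4 := hmin _ hK'
  have h5 : (K \ S).card < K.card := by
    obtain ⟨s, hs⟩ := hSne
    exact Finset.card_lt_card ⟨Finset.sdiff_subset, fun h =>
      (Finset.mem_sdiff.mp (h (hS hs))).2 hs⟩
  omega

/-- The bound for the partial embeddings on closed sets. -/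
theorem Aset_card_le {H : SimpleGraph V} {n : ℕ} {q : ℝ} {M Q : ℕ} {Arc : V → V → Prop}
    (AS : ArcSystem H n q M Q Arc) (hn : 1 ≤ n) (hq0 : 0 < q) (hq1 : q ≤ 1)
    (hyp : ∀ F : H.Subgraph, 1 ≤ expCopies n q F.coe) (F : SimpleGraph Z) {R : Z → Z → Prop}
    (hR : ∀ a b, R a b → F.Adj a b) (v₀ : V) (U : Finset Z) :
    IsClosedR R U → ((Aset H F Arc R v₀ U).card : ℝ) ≤
      (96 * (n : ℝ)) ^ U.card * (2 * q) ^ (inE F U).card *
        ((Nat.log 2 n + 1 : ℕ) : ℝ) ^ (min U.card (inE F U).card) := by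
  set ell := Nat.log 2 n + 1 with hell
  have hell1 : 1 ≤ ell := by omega
  have hell' : (1 : ℝ) ≤ (ell : ℝ) := by exact_mod_cast hell1
  induction U using Finset.strongInduction with
  | H U ih =>
    intro hcl
    by_cases hU : U.Nonempty
    swap
    · rw [Finset.not_nonempty_iff_eq_empty] at hU
      subst hU
      have h1 : (Aset H F Arc R v₀ ∅).card ≤ 1 := by
        refine Finset.card_le_one.mpr ?_
        intro g hg g' hg'
        funext a
        rw [(mem_Aset.mp hg).1 a (by simp), (mem_Aset.mp hg').1 a (by simp)]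
      have h2 : ((Aset H F Arc R v₀ ∅).card : ℝ) ≤ 1 := by exact_mod_cast h1
      have h3 : inE F ∅ = ∅ := by
        refine Finset.eq_empty_of_forall_notMem ?_
        intro e he
        induction e using Sym2.ind with
        | _ a b => exact absurd ((mem_inE.mp he).2 a (Sym2.mem_mk_left a b)) (by simp)
      simpa [h3] using h2
    obtain ⟨K, hKU, hKne, hW, hSC⟩ := exists_source R hU
    set W := U \ K with hWdef
    have hWU : W ⊂ U := by
      obtain ⟨a, ha⟩ := hKne
      exact ⟨Finset.sdiff_subset, fun h => (Finset.mem_sdiff.mp (h (hKU ha))).2 ha⟩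
    have hWcl : IsClosedR R W := by
      intro x hx y hy
      obtain ⟨h1, h2⟩ := Finset.mem_sdiff.mp hx
      exact Finset.mem_sdiff.mpr ⟨hcl x h1 y hy, hW x h1 h2 y hy⟩
    have hih := ih W hWU hWcl
    have hWsub : W ⊆ U := Finset.sdiff_subset
    set ρ : (Z → V) → (Z → V) := fun g a => if a ∈ W then g a else v₀ with hρ
    have hmaps : ∀ g ∈ Aset H F Arc R v₀ U, ρ g ∈ Aset H F Arc R v₀ W := by
      intro g hg
      obtain ⟨h1, h2, h3, h4⟩ := mem_Aset.mp hg
      have hval : ∀ a ∈ W, ρ g a = g a := fun a ha => by simp [hρ, ha]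
      refine mem_Aset.mpr ⟨?_, ?_, ?_, ?_⟩
      · intro a ha
        simp [hρ, ha]
      · intro a ha b hb hab
        have ha' := Finset.mem_coe.mp ha
        have hb' := Finset.mem_coe.mp hb
        rw [hval a ha', hval b hb'] at hab
        exact h2 (Finset.mem_coe.mpr (hWsub ha')) (Finset.mem_coe.mpr (hWsub hb')) hab
      · intro a ha b hb hab
        rw [hval a ha, hval b hb]
        exact h3 a (hWsub ha) b (hWsub hb) hab
      · intro a ha b hb hab
        rw [hval a ha, hval b hb]
        exact h4 a (hWsub ha) b (hWsub hb) hab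
    set c := (cutE F U K).card with hc
    set κ := K.card with hκ
    set y : ℕ := if (attachOf F U K).card = 0 then 0 else 1 with hy
    set x := κ - 1 + y with hx
    set Pmax := (96 * (n : ℝ)) ^ κ * (2 * q) ^ c * (ell : ℝ) ^ x with hPmax
    have hfiber : ∀ g₀ ∈ Aset H F Arc R v₀ W,
        (((Aset H F Arc R v₀ U).filter (fun g => ρ g = g₀)).card : ℝ) ≤ Pmax := by
      intro g₀ _
      refine fiber_bound AS hn hq0 hq1 hyp F hR hKne hKU hW hSC g₀ _ ?_
      intro g hg
      obtain ⟨hg1, hg2⟩ := Finset.mem_filter.mp hg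
      obtain ⟨h1, h2, h3, h4⟩ := mem_Aset.mp hg1
      refine ⟨?_, h2, h3, h4⟩
      intro a ha
      rw [← hg2]
      by_cases haU : a ∈ U
      · have haW : a ∈ W := Finset.mem_sdiff.mpr ⟨haU, ha⟩
        simp [hρ, haW]
      · have haW : a ∉ W := fun h => haU (hWsub h)
        simp only [hρ, haW, if_false]
        exact h1 a haU
    have hcard : ((Aset H F Arc R v₀ U).card : ℝ) ≤ ((Aset H F Arc R v₀ W).card : ℝ) * Pmax := by
      rw [Finset.card_eq_sum_card_fiberwise hmaps]
      push_cast
      calc _ ≤ ∑ _g₀ ∈ Aset H F Arc R v₀ W, Pmax := Finset.sum_le_sum hfiber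
        _ = _ := by rw [Finset.sum_const, nsmul_eq_mul]
    have hPmax0 : 0 ≤ Pmax := by positivity
    have hUcard : U.card = W.card + κ := by
      rw [hWdef, Finset.card_sdiff_of_subset hKU]
      have := Finset.card_le_card hKU
      omega
    have hecard : (inE F U).card = (inE F W).card + c := inE_split F
    obtain ⟨hb1, hb2⟩ := cut_bounds (F := F) (U := U) hR hKU hSC hKne
    have hκ1 : 1 ≤ κ := Finset.card_pos.mpr hKne
    have hxκ : x ≤ κ := by
      by_cases h : (attachOf F U K).card = 0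
      · simp only [hx, hy, h, if_true]
        omega
      · simp only [hx, hy, h, if_false]
        omega
    have hxc : x ≤ c := by
      by_cases h : (attachOf F U K).card = 0
      · simp only [hx, hy, h, if_true]
        omega
      · simp only [hx, hy, h, if_false]
        have := hb2 h
        omega
    have hmin : min W.card (inE F W).card + x ≤ min U.card (inE F U).card := by
      rw [hUcard, hecard]
      omega
    calc ((Aset H F Arc R v₀ U).card : ℝ)
        ≤ ((Aset H F Arc R v₀ W).card : ℝ) * Pmax := hcard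
      _ ≤ ((96 * (n : ℝ)) ^ W.card * (2 * q) ^ (inE F W).card *
            (ell : ℝ) ^ (min W.card (inE F W).card)) * Pmax :=
          mul_le_mul_of_nonneg_right hih hPmax0
      _ = (96 * (n : ℝ)) ^ U.card * (2 * q) ^ (inE F U).card *
            (ell : ℝ) ^ (min W.card (inE F W).card + x) := by
          rw [hUcard, hecard, hPmax, pow_add, pow_add, pow_add]
          ring
      _ ≤ _ := by
          refine mul_le_mul_of_nonneg_left ?_ (by positivity)
          exact pow_le_pow_right₀ hell' hmin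

/-- The ordered adjacent pairs. -/
noncomputable def dartsF (F : SimpleGraph Z) : Finset (Z × Z) :=
  Finset.univ.filter (fun p => F.Adj p.1 p.2)

lemma mem_dartsF {F : SimpleGraph Z} {p : Z × Z} : p ∈ dartsF F ↔ F.Adj p.1 p.2 := by
  simp [dartsF]

lemma dartsF_card (F : SimpleGraph Z) : (dartsF F).card = 2 * numEdges F := by
  have h1 := F.dart_card_eq_twice_card_edges
  have h2 : numEdges F = F.edgeFinset.card := by
    unfold numEdges
    rw [Set.ncard_eq_toFinset_card', edgeFinset]
  have h3 : dartsF F = (Finset.univ : Finset F.Dart).image (fun d => d.toProd) := by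
    ext p
    simp only [mem_dartsF, Finset.mem_image, Finset.mem_univ, true_and]
    constructor
    · intro h
      exact ⟨⟨p, h⟩, rfl⟩
    · rintro ⟨d, rfl⟩
      exact d.adj
  rw [h3, Finset.card_image_of_injective _ SimpleGraph.Dart.toProd_injective, Finset.card_univ, h1,
    h2]

lemma inE_univ_card (F : SimpleGraph Z) : (inE F Finset.univ).card = numEdges F := by
  unfold numEdges
  have h : F.edgeSet = ((inE F Finset.univ : Finset (Sym2 Z)) : Set (Sym2 Z)) := by
    ext e
    simp [mem_inE]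
  rw [h, Set.ncard_coe_finset]

/-- Summing over the patterns. -/
theorem emb_card_patterns {H : SimpleGraph V} {n : ℕ} {q : ℝ} {M Q : ℕ} {Arc : V → V → Prop}
    (AS : ArcSystem H n q M Q Arc) (hn : 1 ≤ n) (hq0 : 0 < q) (hq1 : q ≤ 1)
    (hyp : ∀ F : H.Subgraph, 1 ≤ expCopies n q F.coe) (F : SimpleGraph Z) (v₀ : V) :
    ((Emb F H Finset.univ).card : ℝ) ≤ (96 * (n : ℝ)) ^ Fintype.card Z * (8 * q) ^ numEdges F *
      ((Nat.log 2 n + 1 : ℕ) : ℝ) ^ (min (Fintype.card Z) (numEdges F)) := by
  set D := dartsF F with hD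
  set pat : (Z → V) → Finset (Z × Z) := fun g => D.filter (fun p => Arc (g p.1) (g p.2)) with hpat
  set B := (96 * (n : ℝ)) ^ Fintype.card Z * (2 * q) ^ numEdges F *
      ((Nat.log 2 n + 1 : ℕ) : ℝ) ^ (min (Fintype.card Z) (numEdges F)) with hB
  have hmaps : ∀ g ∈ Emb F H Finset.univ, pat g ∈ D.powerset := by
    intro g _
    exact Finset.mem_powerset.mpr (Finset.filter_subset _ _)
  have hfiber : ∀ P ∈ D.powerset,
      (((Emb F H Finset.univ).filter (fun g => pat g = P)).card : ℝ) ≤ B := by
    intro P hP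
    have hP' := Finset.mem_powerset.mp hP
    set R : Z → Z → Prop := fun a b => (a, b) ∈ P with hR
    have hRF : ∀ a b, R a b → F.Adj a b := fun a b h => mem_dartsF.mp (hP' h)
    have h1 := Aset_card_le AS hn hq0 hq1 hyp F hRF v₀ Finset.univ (fun _ _ _ _ => Finset.mem_univ _)
    rw [Finset.card_univ, inE_univ_card] at h1
    refine le_trans ?_ h1
    have h2 : (Emb F H Finset.univ).filter (fun g => pat g = P) ⊆ Aset H F Arc R v₀ Finset.univ := by
      intro g hg
      obtain ⟨hg1, hg2⟩ := Finset.mem_filter.mp hg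
      obtain ⟨h3, h4, _⟩ := mem_Emb.mp hg1
      refine mem_Aset.mpr ⟨?_, h3.injOn, ?_, ?_⟩
      · intro a ha
        exact absurd (Finset.mem_univ a) ha
      · intro a _ b _ hab
        exact h4 a b hab
      · intro a _ b _ hab
        have h5 : (a, b) ∈ D := mem_dartsF.mpr hab
        rw [hR]
        simp only
        rw [← hg2, hpat]
        simp only [Finset.mem_filter, h5, true_and]
    exact_mod_cast Finset.card_le_card h2
  have hcard : ((Emb F H Finset.univ).card : ℝ) ≤ (D.powerset.card : ℝ) * B := by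
    rw [Finset.card_eq_sum_card_fiberwise hmaps]
    push_cast
    calc _ ≤ ∑ _P ∈ D.powerset, B := Finset.sum_le_sum hfiber
      _ = _ := by rw [Finset.sum_const, nsmul_eq_mul]
  have h4 : (D.powerset.card : ℝ) = 4 ^ numEdges F := by
    rw [Finset.card_powerset, hD, dartsF_card, pow_mul]
    norm_num
  rw [h4] at hcard
  refine hcard.trans (le_of_eq ?_)
  have h8 : (8 * q) ^ numEdges F = 4 ^ numEdges F * (2 * q) ^ numEdges F := by
    rw [← mul_pow]
    ring_nf
  rw [hB, h8]
  ring

end Vale.Agent.Lib.P064
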