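import Vale.Agent.Lib.P064.Tok5

/-!
The comparison of `N(H,F)` with the expected count for all graphs `F`, with a loss which is at most
logarithmic in `n` per edge, and per vertex.
-/

namespace Vale.Agent.Lib.P064

open Finset SimpleGraph
open scoped Classical Nat

set_option linter.unusedSectionVars false
set_option linter.unusedVariables false

variable {V : Type*} [Fintype V]

/-- The universal constant. -/
noncomputable def constC : ℝ := 663552

lemma constC_pos : 0 < constC := by
  unfold constC
  norm_num

/-- The number of vertices of a graph without isolated vertices is at most twice the number of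
edges. -/
lemma card_le_two_edges {Z : Type*} [Fintype Z] (F : SimpleGraph Z) (hno : ∀ z, ∃ y, F.Adj z y) :
    Fintype.card Z ≤ 2 * numEdges F := by
  rw [← dartsF_card]
  choose y hy using hno
  have : (Finset.univ : Finset Z).card ≤ (dartsF F).card := by
    refine Finset.card_le_card_of_injOn (fun z => (z, y z)) ?_ ?_
    · intro z _
      exact Finset.mem_coe.mpr (mem_dartsF.mpr (hy z))
    · intro z _ z' _ h
      exact congrArg Prod.fst h
  simpa using this

/-- The bound for graphs without isolated vertices. -/
theorem emb_noiso_tok {H : SimpleGraph V} {n : ℕ} {q : ℝ} (hn : 1 ≤ n) (hq0 : 0 < q)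
    (hCq : constC * q ≤ 1) (hyp : ∀ F : H.Subgraph, 1 ≤ expCopies n q F.coe)
    {Z : Type*} [Fintype Z] [Nonempty Z] (F : SimpleGraph Z) (hno : ∀ z, ∃ y, F.Adj z y)
    (hk : Fintype.card Z ≤ n) :
    ((Emb F H Finset.univ).card : ℝ) ≤ (n.descFactorial (Fintype.card Z) : ℝ) *
      ((constC * q) ^ numEdges F *
        ((Nat.log 2 n + 1 : ℕ) : ℝ) ^ (min (Fintype.card Z) (numEdges F))) := by
  have hq1 : q < 1 / 2 := by
    unfold constC at hCq
    linarith
  set ell := Nat.log 2 n + 1 with hell
  by_cases hE : (Emb F H Finset.univ).Nonempty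
  swap
  · rw [Finset.not_nonempty_iff_eq_empty] at hE
    rw [hE]
    simp only [Finset.card_empty, Nat.cast_zero]
    have := constC_pos
    positivity
  obtain ⟨f, _⟩ := hE
  set v₀ : V := f (Classical.arbitrary Z) with hv₀
  obtain ⟨M, Q, Arc, AS⟩ := exists_arcSystem (H := H) hn hq0 hq1 hyp
  have h1 := emb_card_patterns AS hn hq0 (by linarith) hyp F v₀
  have h2 := pow_le_three_desc hk
  have h3 := card_le_two_edges F hno
  set k := Fintype.card Z with hk'
  set e := numEdges F with he
  set d := (n.descFactorial k : ℝ) with hd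
  have hd0 : 0 ≤ d := by positivity
  have h4 : (288 : ℝ) ^ k ≤ 288 ^ (2 * e) := pow_le_pow_right₀ (by norm_num) h3
  have h5 : (96 * (n : ℝ)) ^ k ≤ d * (288 : ℝ) ^ k := by
    calc (96 * (n : ℝ)) ^ k = 96 ^ k * (n : ℝ) ^ k := mul_pow _ _ _
      _ ≤ 96 ^ k * (3 ^ k * d) := mul_le_mul_of_nonneg_left h2 (by positivity)
      _ = d * (96 ^ k * 3 ^ k) := by ring
      _ = d * 288 ^ k := by rw [← mul_pow]; norm_num
  have h6 : (constC * q) ^ e = (288 : ℝ) ^ (2 * e) * (8 * q) ^ e := by
    rw [pow_mul, ← mul_pow]
    unfold constC
    congr 1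
    ring
  calc ((Emb F H Finset.univ).card : ℝ)
      ≤ (96 * (n : ℝ)) ^ k * (8 * q) ^ e * (ell : ℝ) ^ (min k e) := h1
    _ ≤ (d * (288 : ℝ) ^ (2 * e)) * (8 * q) ^ e * (ell : ℝ) ^ (min k e) := by
        refine mul_le_mul_of_nonneg_right ?_ (by positivity)
        refine mul_le_mul_of_nonneg_right ?_ (by positivity)
        exact h5.trans (mul_le_mul_of_nonneg_left h4 hd0)
    _ = _ := by
        rw [h6]
        ring

universe u

/-- Stripping isolated vertices. -/
theorem emb_all_tok {H : SimpleGraph V} {n : ℕ} {q : ℝ} (hn : 1 ≤ n)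
    (hV : Fintype.card V ≤ n) (hq0 : 0 < q)
    (hCq : constC * q ≤ 1) (hyp : ∀ F : H.Subgraph, 1 ≤ expCopies n q F.coe) :
    ∀ (k : ℕ) (Z : Type u) [Fintype Z] (F : SimpleGraph Z), Fintype.card Z = k →
      ((Emb F H Finset.univ).card : ℝ) ≤ (n.descFactorial k : ℝ) *
        ((constC * q) ^ numEdges F * ((Nat.log 2 n + 1 : ℕ) : ℝ) ^ (min k (numEdges F))) := by
  have hL0 : 0 ≤ constC * q := by
    have := constC_pos
    positivity
  have hell' : (1 : ℝ) ≤ ((Nat.log 2 n + 1 : ℕ) : ℝ) := by
    have : 1 ≤ Nat.log 2 n + 1 := by omega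
    exact_mod_cast this
  intro k
  induction k with
  | zero =>
    intro Z _ F hZ
    have hE : IsEmpty Z := Fintype.card_eq_zero_iff.mp hZ
    have h1 : (Emb F H Finset.univ).card ≤ 1 := by
      refine Finset.card_le_one.mpr ?_
      intro a _ b _
      funext z
      exact hE.elim z
    have h2 : numEdges F = 0 := by
      unfold numEdges
      have : F.edgeSet = ∅ := by
        ext e
        induction e using Sym2.ind with
        | _ a b => exact hE.elim a
      rw [this, Set.ncard_empty]
    rw [h2]
    simp only [Nat.descFactorial_zero, Nat.cast_one, pow_zero, mul_one, one_mul, Nat.zero_min]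
    exact_mod_cast h1
  | succ k ih =>
    intro Z _ F hZ
    by_cases hno : ∀ z, ∃ y, F.Adj z y
    · -- no isolated vertices
      have : Nonempty Z := Fintype.card_pos_iff.mp (by omega)
      by_cases hk : k + 1 ≤ n
      · have := emb_noiso_tok hn hq0 hCq hyp F hno (by omega)
        rwa [hZ] at this
      · -- too many vertices for an injective map
        have h0 : Emb F H Finset.univ = ∅ := by
          refine Finset.eq_empty_of_forall_notMem fun f hf => ?_
          rcases mem_Emb.mp hf with ⟨h1, _, _⟩
          have := Fintype.card_le_of_injective f h1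
          omega
        rw [h0]
        simp only [Finset.card_empty, Nat.cast_zero]
        positivity
    · -- an isolated vertex
      push Not at hno
      obtain ⟨z₀, hz₀⟩ := hno
      set Z' := {z : Z // z ≠ z₀} with hZ'
      set F' : SimpleGraph Z' := F.comap Subtype.val with hF'
      have hZ'card : Fintype.card Z' = k := by
        have h1 : Fintype.card {z : Z // z ≠ z₀} = Fintype.card Z - 1 := by
          have h2 : Fintype.card {z : Z // z ≠ z₀} = (Finset.univ.erase z₀).card := by
            rw [Fintype.card_subtype]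
            congr 1
            ext z
            simp
          rw [h2, Finset.card_erase_of_mem (Finset.mem_univ _), Finset.card_univ]
        rw [hZ, Nat.add_sub_cancel] at h1
        convert h1 using 1
      have hih := ih Z' F' hZ'card
      -- the injection
      have hcount : (Emb F H Finset.univ).card ≤ (Emb F' H Finset.univ).card * (n - k) := by
        set T : Finset (Σ _ : (Z' → V), V) := (Emb F' H Finset.univ).sigma
          (fun g => Finset.univ \ (Finset.univ.image g)) with hT
        have h1 : (Emb F H Finset.univ).card ≤ T.card := by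
          refine Finset.card_le_card_of_injOn (fun f => ⟨fun z => f z.val, f z₀⟩) ?_ ?_
          · intro f hf
            have hf' := Finset.mem_coe.mp hf
            rcases mem_Emb.mp hf' with ⟨h2, h3, _⟩
            refine Finset.mem_coe.mpr (Finset.mem_sigma.mpr ⟨?_, ?_⟩)
            · refine mem_Emb.mpr ⟨?_, ?_, fun _ => Finset.mem_univ _⟩
              · intro a b hab
                exact Subtype.ext (h2 hab)
              · intro a b hab
                exact h3 _ _ hab
            · refine Finset.mem_sdiff.mpr ⟨Finset.mem_univ _, ?_⟩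
              intro h4
              obtain ⟨a, _, ha⟩ := Finset.mem_image.mp h4
              exact a.property (h2 ha)
          · intro f _ g _ hfg
            simp only [Sigma.mk.injEq, heq_eq_eq] at hfg
            funext z
            by_cases hz : z = z₀
            · rw [hz]; exact hfg.2
            · exact congrFun hfg.1 ⟨z, hz⟩
        refine h1.trans ?_
        rw [hT, Finset.card_sigma]
        have h2 : ∀ g ∈ Emb F' H Finset.univ,
            (Finset.univ \ (Finset.univ.image g)).card ≤ n - k := by
          intro g hg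
          rcases mem_Emb.mp hg with ⟨h3, _, _⟩
          rw [Finset.card_sdiff_of_subset (Finset.subset_univ _), Finset.card_image_of_injective _ h3,
            Finset.card_univ, Finset.card_univ, hZ'card]
          omega
        calc ∑ g ∈ Emb F' H Finset.univ, (Finset.univ \ (Finset.univ.image g)).card
            ≤ ∑ _g ∈ Emb F' H Finset.univ, (n - k) := Finset.sum_le_sum h2
          _ = _ := by rw [Finset.sum_const, smul_eq_mul]
      -- edges
      have hedges : numEdges F = numEdges F' := by
        unfold numEdges
        have h1 : F.edgeSet = Sym2.map Subtype.val '' F'.edgeSet := by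
          ext e
          induction e using Sym2.ind with
          | _ a b =>
            constructor
            · intro he
              have hab : F.Adj a b := he
              have ha : a ≠ z₀ := by
                rintro rfl
                exact hz₀ b hab
              have hb : b ≠ z₀ := by
                rintro rfl
                exact hz₀ a hab.symm
              exact ⟨s(⟨a, ha⟩, ⟨b, hb⟩), hab, rfl⟩
            · rintro ⟨e', he', h⟩
              induction e' using Sym2.ind with
              | _ a' b' =>
                have h2 : s(a'.1, b'.1) = s(a, b) := h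
                have h3 : F.Adj a'.1 b'.1 := he'
                have h4 : s(a'.1, b'.1) ∈ F.edgeSet := h3
                rw [h2] at h4
                exact h4
        rw [h1]
        exact Set.ncard_image_of_injective _ (Sym2.map.injective Subtype.val_injective)
      have hmin : min k (numEdges F) ≤ min (k + 1) (numEdges F) := by
        omega
      have hdesc : (n.descFactorial (k + 1) : ℝ) = ((n - k : ℕ) : ℝ) * (n.descFactorial k : ℝ) := by
        rw [Nat.descFactorial_succ]; push_cast; ring
      rw [hdesc]
      have h5 : ((Emb F H Finset.univ).card : ℝ)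
          ≤ ((Emb F' H Finset.univ).card : ℝ) * ((n - k : ℕ) : ℝ) := by
        exact_mod_cast hcount
      have h6 : (0 : ℝ) ≤ ((n - k : ℕ) : ℝ) := by positivity
      have h7 := mul_le_mul_of_nonneg_left hih h6
      have h8 : (0 : ℝ) ≤ ((n - k : ℕ) : ℝ) * (n.descFactorial k : ℝ) := by positivity
      have h9 : ((Nat.log 2 n + 1 : ℕ) : ℝ) ^ (min k (numEdges F))
          ≤ ((Nat.log 2 n + 1 : ℕ) : ℝ) ^ (min (k + 1) (numEdges F)) :=
        pow_le_pow_right₀ hell' hmin
      rw [← hedges] at h7
      calc ((Emb F H Finset.univ).card : ℝ)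
          ≤ ((Emb F' H Finset.univ).card : ℝ) * ((n - k : ℕ) : ℝ) := h5
        _ = ((n - k : ℕ) : ℝ) * ((Emb F' H Finset.univ).card : ℝ) := by ring
        _ ≤ _ := h7
        _ = ((n - k : ℕ) : ℝ) * (n.descFactorial k : ℝ) * ((constC * q) ^ numEdges F *
              ((Nat.log 2 n + 1 : ℕ) : ℝ) ^ (min k (numEdges F))) := by ring
        _ ≤ _ := by
            refine mul_le_mul_of_nonneg_left ?_ h8
            exact mul_le_mul_of_nonneg_left h9 (by positivity)

/-- The comparison with the expected count, with a loss at most `(log n)^{min(v,e)}`. -/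
theorem copyCount_le_tok {H : SimpleGraph V} {n : ℕ} {q : ℝ} (hn : 1 ≤ n)
    (hV : Fintype.card V ≤ n) (hq0 : 0 < q) (hyp : ∀ F : H.Subgraph, 1 ≤ expCopies n q F.coe)
    {Z : Type u} [Fintype Z] (F : SimpleGraph Z) :
    (H.copyCount F : ℝ) ≤ expCopies n (min 1 (constC * q)) F *
      ((Nat.log 2 n + 1 : ℕ) : ℝ) ^ (min (Fintype.card Z) (numEdges F)) := by
  unfold expCopies
  rw [mul_assoc]
  refine copyCount_le_of_emb H F n ?_
  by_cases hLq : constC * q ≤ 1
  · rw [min_eq_right hLq]
    exact emb_all_tok hn hV hq0 hLq hyp _ Z F rfl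
  · rw [min_eq_left (le_of_not_ge hLq)]
    simp only [one_pow, one_mul]
    have h1 : ((Emb F H Finset.univ).card : ℝ) ≤ (n.descFactorial (Fintype.card Z) : ℝ) := by
      exact_mod_cast emb_le_desc hV F
    have hell' : (1 : ℝ) ≤ ((Nat.log 2 n + 1 : ℕ) : ℝ) := by
      have : 1 ≤ Nat.log 2 n + 1 := by omega
      exact_mod_cast this
    have h2 : (1 : ℝ) ≤ ((Nat.log 2 n + 1 : ℕ) : ℝ) ^ (min (Fintype.card Z) (numEdges F)) :=
      one_le_pow₀ hell'
    calc ((Emb F H Finset.univ).card : ℝ) ≤ (n.descFactorial (Fintype.card Z) : ℝ) := h1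
      _ = (n.descFactorial (Fintype.card Z) : ℝ) * 1 := (mul_one _).symm
      _ ≤ _ := mul_le_mul_of_nonneg_left h2 (by positivity)

/-- The comparison with a logarithmic factor in the density. -/
theorem copyCount_le_log {H : SimpleGraph V} {n : ℕ} {q : ℝ} (hn : 1 ≤ n)
    (hV : Fintype.card V ≤ n) (hq0 : 0 < q) (hyp : ∀ F : H.Subgraph, 1 ≤ expCopies n q F.coe)
    {Z : Type u} [Fintype Z] (F : SimpleGraph Z) :
    (H.copyCount F : ℝ) ≤ expCopies n (min 1 (constC * ((Nat.log 2 n + 1 : ℕ) : ℝ) * q)) F := by
  set ell : ℝ := ((Nat.log 2 n + 1 : ℕ) : ℝ) with hell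
  have hell' : (1 : ℝ) ≤ ell := by
    have : 1 ≤ Nat.log 2 n + 1 := by omega
    rw [hell]
    exact_mod_cast this
  by_cases hLq : constC * ell * q ≤ 1
  · have hC := constC_pos
    have h1 : constC * q ≤ 1 := by
      have : constC * q ≤ constC * ell * q := by nlinarith [mul_pos hC hq0]
      linarith
    have h2 := copyCount_le_tok hn hV hq0 hyp F
    rw [min_eq_right h1] at h2
    rw [min_eq_right hLq]
    unfold expCopies at h2 ⊢
    have h3 : ell ^ (min (Fintype.card Z) (numEdges F)) ≤ ell ^ numEdges F :=
      pow_le_pow_right₀ hell' (min_le_right _ _)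
    refine h2.trans ?_
    rw [mul_assoc]
    refine mul_le_mul_of_nonneg_left ?_ (by positivity)
    have h4 : (constC * ell * q) ^ numEdges F = (constC * q) ^ numEdges F * ell ^ numEdges F := by
      rw [← mul_pow]
      congr 1
      ring
    rw [h4]
    exact mul_le_mul_of_nonneg_left h3 (by positivity)
  · rw [min_eq_left (le_of_not_ge hLq)]
    unfold expCopies
    rw [one_pow, mul_one]
    have h1 : ((Emb F H Finset.univ).card : ℝ) ≤ (n.descFactorial (Fintype.card Z) : ℝ) * 1 := by
      rw [mul_one]
      exact_mod_cast emb_le_desc hV F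
    have := copyCount_le_of_emb H F n h1
    simpa using this

end Vale.Agent.Lib.P064
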